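import Vale.Agent.P072.Entropy

namespace Vale.Agent.P072

open Finset

variable {d : ℕ}

/-- Upper bound of the crossing estimate: if `⟨v, log z⟩ = B` and the `v`-minimizer from `z` has
entropy at most `c`, then `ent z - c` is controlled by every coordinate in the support of `v`. -/
theorem crossing_upper {v z : Fin d → ℝ} {B c : ℝ}
    (hv1 : ∀ i, v i = 0 ∨ 1 ≤ |v i|) (hB : 0 < B) (hvne : ∃ i, v i ≠ 0)
    (hzpos : ∀ i, 0 < z i) (hgt : phi v z = B) (hfz : fmin v z ≤ c) :
    ∀ i, v i ≠ 0 → ent z - c ≤ B * Real.exp B * z i := by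
  obtain ⟨s, hspos, hs0⟩ := exists_min_line hzpos hvne
  set zh : Fin d → ℝ := fun j => z j + s * v j with hzh
  have hentzh : ent zh ≤ c := by
    rw [← fmin_eq hspos hs0]; exact hfz
  have hstep1 : ent z + s * B ≤ ent zh := by
    have h1 : ent z + ∑ i, (zh i - z i) * Real.log (z i) ≤ ent zh := ent_ge hzpos hspos
    have h2 := sum_line_log z zh v s (fun i => by simp only [hzh]; ring)
    rw [h2, hgt] at h1
    exact h1
  have hsneg : s < 0 := by
    by_contra hs
    push Not at hs
    have hsum : phi v zh - phi v z = ∑ j, v j * (Real.log (z j + s * v j) - Real.log (z j)) := by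
      unfold phi
      rw [← Finset.sum_sub_distrib]
      apply Finset.sum_congr rfl
      intro j _
      simp only [hzh]
      ring
    have hnn : 0 ≤ ∑ j, v j * (Real.log (z j + s * v j) - Real.log (z j)) :=
      Finset.sum_nonneg fun j _ => term_nonneg hs (hzpos j) (hspos j)
    rw [← hsum, hs0, hgt] at hnn
    linarith
  set r := -s with hr
  have hrpos : 0 < r := by rw [hr]; linarith
  have hzform : ∀ j, z j = zh j + r * v j := by
    intro j
    simp only [hzh, hr]
    ring
  have hzhpos : ∀ j, 0 < zh j := hspos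
  have hterm : ∀ j, 0 ≤ v j * (Real.log (z j) - Real.log (zh j)) := by
    intro j
    have h1 := term_nonneg hrpos.le (hzhpos j) (x := zh j) (v := v j) (by
      rw [← hzform j]; exact hzpos j)
    rwa [← hzform j] at h1
  have htermsum : ∑ j, v j * (Real.log (z j) - Real.log (zh j)) = B := by
    have : phi v z - phi v zh = ∑ j, v j * (Real.log (z j) - Real.log (zh j)) := by
      unfold phi
      rw [← Finset.sum_sub_distrib]
      apply Finset.sum_congr rfl
      intro j _
      ring
    rw [← this, hgt, hs0]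
    ring
  have htermle : ∀ j, v j * (Real.log (z j) - Real.log (zh j)) ≤ B := by
    intro j
    have := Finset.single_le_sum (f := fun j => v j * (Real.log (z j) - Real.log (zh j)))
      (fun j _ => hterm j) (Finset.mem_univ j)
    rw [htermsum] at this
    exact this
  have hexp1 : 1 ≤ Real.exp B := Real.one_le_exp hB.le
  have hstep3 : ∀ j, v j ≠ 0 → r ≤ Real.exp B * z j := by
    intro j hj
    have hj1 := (hv1 j).resolve_left hj
    rcases lt_or_gt_of_ne hj with hjneg | hjpos
    · have hw : 1 ≤ - v j := by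
        rw [abs_of_neg hjneg] at hj1; exact hj1
      have hzlt : z j ≤ zh j := by
        rw [hzform j]
        nlinarith [mul_pos hrpos (neg_pos.mpr hjneg)]
      have hLnn : 0 ≤ Real.log (zh j) - Real.log (z j) := by
        linarith [Real.log_le_log (hzpos j) hzlt]
      have hle := htermle j
      have hL : Real.log (zh j) - Real.log (z j) ≤ B := by
        have e : v j * (Real.log (z j) - Real.log (zh j))
            = (- v j) * (Real.log (zh j) - Real.log (z j)) := by ring
        rw [e] at hle
        nlinarith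
      have hzhle : zh j ≤ Real.exp B * z j := by
        have h2 : Real.log (zh j) ≤ B + Real.log (z j) := by linarith
        have h3 := Real.exp_le_exp.mpr h2
        rw [Real.exp_log (hzhpos j), Real.exp_add, Real.exp_log (hzpos j)] at h3
        exact h3
      have hdiff : r * (- v j) = zh j - z j := by
        rw [hzform j]; ring
      have hrle : r ≤ r * (- v j) := by nlinarith
      have hzp := hzpos j
      linarith
    · have hw : 1 ≤ v j := by
        rw [abs_of_pos hjpos] at hj1; exact hj1
      have : r ≤ z j := by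
        rw [hzform j]
        have h3 : r ≤ r * v j := by nlinarith
        linarith [hzhpos j]
      have hzp := hzpos j
      nlinarith
  intro i hi
  have hupper : ent z - c ≤ r * B := by
    have : r * B = - (s * B) := by rw [hr]; ring
    rw [this]
    linarith
  have hrB : r * B ≤ Real.exp B * z i * B := mul_le_mul_of_nonneg_right (hstep3 i hi) hB.le
  have e : B * Real.exp B * z i = Real.exp B * z i * B := by ring
  rw [e]
  linarith

/-- Pigeonhole: a large difference of `⟨v, log ·⟩` forces one coordinate in the support of `v`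
to have a large log-difference. -/
theorem crossing_pigeon {v a b : Fin d → ℝ} {V Λ : ℝ} (hV : ∀ i, |v i| ≤ V) (hd : 0 < (d : ℝ))
    (hVpos : 0 < V) (hΛ : 0 < Λ) (hdiff : ((d : ℝ) * V) * Λ ≤ phi v a - phi v b)
    (i0 : Fin d) : ∃ i, v i ≠ 0 ∧ Λ ≤ |Real.log (a i) - Real.log (b i)| := by
  have hdV : 0 < (d : ℝ) * V := mul_pos hd hVpos
  have hsum : phi v a - phi v b = ∑ j, v j * (Real.log (a j) - Real.log (b j)) := by
    unfold phi
    rw [← Finset.sum_sub_distrib]
    apply Finset.sum_congr rfl
    intro j _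
    ring
  obtain ⟨i, _, himax⟩ := Finset.exists_max_image Finset.univ
    (fun j => |v j * (Real.log (a j) - Real.log (b j))|) ⟨i0, Finset.mem_univ _⟩
  have hsumle : phi v a - phi v b ≤ (d : ℝ) * |v i * (Real.log (a i) - Real.log (b i))| := by
    rw [hsum]
    calc ∑ j, v j * (Real.log (a j) - Real.log (b j))
        ≤ ∑ j, |v j * (Real.log (a j) - Real.log (b j))| :=
          Finset.sum_le_sum fun j _ => le_abs_self _
      _ ≤ ∑ _j : Fin d, |v i * (Real.log (a i) - Real.log (b i))| :=
          Finset.sum_le_sum fun j hj => himax j hj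
      _ = (d : ℝ) * |v i * (Real.log (a i) - Real.log (b i))| := by
          simp
  rw [abs_mul] at hsumle
  have h1 : |v i| * |Real.log (a i) - Real.log (b i)|
      ≤ V * |Real.log (a i) - Real.log (b i)| :=
    mul_le_mul_of_nonneg_right (hV i) (abs_nonneg _)
  have h2 := mul_le_mul_of_nonneg_left h1 hd.le
  have h3 : ((d : ℝ) * V) * Λ ≤ ((d : ℝ) * V) * |Real.log (a i) - Real.log (b i)| := by
    have e : (d : ℝ) * (V * |Real.log (a i) - Real.log (b i)|)
        = ((d : ℝ) * V) * |Real.log (a i) - Real.log (b i)| := by ring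
    rw [e] at h2
    linarith
  have hL := le_of_mul_le_mul_left h3 hdV
  refine ⟨i, ?_, hL⟩
  intro h0
  rw [h0] at hsumle
  simp only [abs_zero, zero_mul, mul_zero] at hsumle
  have : 0 < ((d : ℝ) * V) * Λ := mul_pos hdV hΛ
  linarith

/-- The crossing estimate.  Let `xh` be the entropy minimizer on a line in direction `u` through
`x`, let `v` be another direction with `⟨v, log xh⟩` large, and suppose the `v`-cylinder bound
`fmin v x ≤ ent xh` holds.  Then `⟨v, log x⟩ ≥ B`. -/
theorem crossing {u v xh x : Fin d → ℝ} {B V c τ' : ℝ}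
    (hv1 : ∀ i, v i = 0 ∨ 1 ≤ |v i|) (hV : ∀ i, |v i| ≤ V) (hB : 0 < B) (hvne : ∃ i, v i ≠ 0)
    (hxh : ∀ i, 0 < xh i) (hx : ∀ i, 0 < x i) (hline : ∀ i, x i - xh i = τ' * u i)
    (hu0 : phi u xh = 0) (hc : ent xh = c) (hfx : fmin v x ≤ c)
    (hA : B + ((d : ℝ) * V) * (2 + B * Real.exp B) < phi v xh) : B ≤ phi v x := by
  by_contra hlt
  push Not at hlt
  obtain ⟨i0, hi0⟩ := hvne
  have hvne : ∃ i, v i ≠ 0 := ⟨i0, hi0⟩
  have hdpos : 0 < (d : ℝ) := by
    have : 0 < d := Fin.pos i0
    exact_mod_cast this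
  have hVpos : 0 < V := by
    have h1 := (hv1 i0).resolve_left hi0
    linarith [hV i0]
  have hposseg : ∀ t ∈ Set.Icc (0:ℝ) 1, ∀ i, 0 < xh i + t * (x i - xh i) := by
    intro t ht i
    have e : xh i + t * (x i - xh i) = (1 - t) * xh i + t * x i := by ring
    rw [e]
    rcases eq_or_lt_of_le ht.1 with h | h
    · subst h; simpa using hxh i
    · have := mul_pos h (hx i)
      have := mul_nonneg (sub_nonneg.mpr ht.2) (hxh i).le
      linarith
  have hcont : ContinuousOn (fun t : ℝ => phi v (fun j => xh j + t * (x j - xh j)))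
      (Set.Icc (0:ℝ) 1) := by
    unfold phi
    apply continuousOn_finsetSum
    intro i _
    apply ContinuousOn.mul continuousOn_const
    apply ContinuousOn.log
    · fun_prop
    · intro t ht
      exact (hposseg t ht i).ne'
  have h01 : (0:ℝ) ≤ 1 := zero_le_one
  have hg0 : phi v (fun j => xh j + (0:ℝ) * (x j - xh j)) = phi v xh := by
    congr 1; funext j; ring
  have hg1 : phi v (fun j => xh j + (1:ℝ) * (x j - xh j)) = phi v x := by
    congr 1; funext j; ring
  have hABnn : 0 ≤ B * Real.exp B := (mul_pos hB (Real.exp_pos _)).le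
  have hdV : 0 < (d : ℝ) * V := mul_pos hdpos hVpos
  have hAB : B < phi v xh := by
    have : 0 < ((d : ℝ) * V) * (2 + B * Real.exp B) := mul_pos hdV (by linarith)
    linarith
  have hmem : B ∈ Set.Icc ((fun t : ℝ => phi v (fun j => xh j + t * (x j - xh j))) 1)
      ((fun t : ℝ => phi v (fun j => xh j + t * (x j - xh j))) 0) := by
    constructor
    · show phi v (fun j => xh j + (1:ℝ) * (x j - xh j)) ≤ B
      rw [hg1]; exact hlt.le
    · show B ≤ phi v (fun j => xh j + (0:ℝ) * (x j - xh j))
      rw [hg0]; exact hAB.le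
  obtain ⟨t, ht, hgt0⟩ := intermediate_value_Icc' h01 hcont hmem
  have hgt : phi v (fun j => xh j + t * (x j - xh j)) = B := hgt0
  set z : Fin d → ℝ := fun j => xh j + t * (x j - xh j) with hz
  have hzpos : ∀ i, 0 < z i := hposseg t ht
  have hfz : fmin v z ≤ c := by
    have hcv := (fmin_convex hvne).2 (show xh ∈ orth d from hxh) (show x ∈ orth d from hx)
      (sub_nonneg.mpr ht.2) ht.1 (by ring)
    have hzeq : (1 - t) • xh + t • x = z := by
      funext j
      simp only [Pi.add_apply, Pi.smul_apply, smul_eq_mul, hz]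
      ring
    rw [hzeq] at hcv
    have h1 : fmin v xh ≤ c := by rw [← hc]; exact fmin_le_self hxh hvne
    simp only [smul_eq_mul] at hcv
    have h2 := mul_le_mul_of_nonneg_left h1 (sub_nonneg.mpr ht.2)
    have h3 := mul_le_mul_of_nonneg_left hfx ht.1
    nlinarith
  have hupper := crossing_upper hv1 hB hvne hzpos hgt hfz
  set Λ := 2 + B * Real.exp B with hΛ
  have hΛpos : 0 < Λ := by rw [hΛ]; linarith
  have hdiff : ((d : ℝ) * V) * Λ ≤ phi v xh - phi v z := by
    rw [hgt]; linarith
  obtain ⟨i, hvi, hLam⟩ := crossing_pigeon hV hdpos hVpos hΛpos hdiff i0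
  have hbr : ent z = ent xh + ∑ j, (z j - xh j) * Real.log (xh j) + ∑ j, brg (z j) (xh j) :=
    ent_bregman xh z
  have hlin : ∑ j, (z j - xh j) * Real.log (xh j) = (t * τ') * phi u xh :=
    sum_line_log xh z u (t * τ') (fun j => by
      simp only [hz]
      rw [show xh j + t * (x j - xh j) - xh j = t * (x j - xh j) by ring, hline j]
      ring)
  rw [hlin, hu0, hc] at hbr
  have hsingle : brg (z i) (xh i) ≤ ∑ j, brg (z j) (xh j) :=
    Finset.single_le_sum (f := fun j => brg (z j) (xh j))
      (fun j _ => brg_nonneg (hzpos j) (hxh j)) (Finset.mem_univ i)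
  have hbrgge := brg_ge (hzpos i) (hxh i) hΛpos.le hLam
  have hzi := hzpos i
  have hu2 := hupper i hvi
  have hfinal : z i * (Λ - 1) ≤ z i * (B * Real.exp B) := by
    have e : z i * (B * Real.exp B) = B * Real.exp B * z i := by ring
    rw [e]
    have e2 : t * τ' * (0:ℝ) = 0 := by ring
    linarith
  have := le_of_mul_le_mul_left hfinal hzi
  rw [hΛ] at this
  linarith

theorem far_scalar {X L C1 C2 A0 D T : ℝ} (hC1 : 0 ≤ C1) (hA0 : 0 ≤ A0) (hC2 : 0 ≤ C2) (hD : 0 ≤ D)
    (hT : T = 2 * (D + C1 * A0 * (1 + C2)) + 1) (hX1 : 1 < X) (hX2 : 2 * C2 < X) (hL : T < L)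
    (hmain : (X - C2) * L ≤ D + C1 * (X + C2) * A0) : False := by
  have hca : 0 ≤ C1 * A0 := mul_nonneg hC1 hA0
  have hTpos : 0 < T := by
    rw [hT]
    have : 0 ≤ C1 * A0 * (1 + C2) := mul_nonneg hca (by linarith)
    linarith
  have hlow : X / 2 * T ≤ (X - C2) * L :=
    mul_le_mul (by linarith) hL.le hTpos.le (by linarith)
  have e1 : D ≤ D * X := le_mul_of_one_le_right hD hX1.le
  have e2 : C1 * (X + C2) * A0 ≤ C1 * A0 * (1 + C2) * X := by
    have h1 : C1 * (X + C2) * A0 = (C1 * A0) * (X + C2) := by ring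
    have h2 : C1 * A0 * (1 + C2) * X = (C1 * A0) * ((1 + C2) * X) := by ring
    rw [h1, h2]
    apply mul_le_mul_of_nonneg_left _ hca
    have : C2 ≤ C2 * X := le_mul_of_one_le_right hC2 hX1.le
    nlinarith
  have hTe : X / 2 * T = (D + C1 * A0 * (1 + C2)) * X + X / 2 := by
    rw [hT]; ring
  have e3 : (D + C1 * A0 * (1 + C2)) * X = D * X + C1 * A0 * (1 + C2) * X := by ring
  linarith

/-- Far out on the wall of `u`, a direction `v` independent from `u` is far from neutral. -/
theorem far_level {u v c : Fin d → ℝ} (hc : ∀ i, 0 < c i) {i j : Fin d}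
    (hm : u i * v j - u j * v i ≠ 0) {A0 : ℝ} (hA0 : 0 ≤ A0) :
    ∃ c0 : ℝ, ∀ y : Fin d → ℝ, (∀ k, 0 < y k) →
      (∃ α β : ℝ, ∀ k, y k - c k = α * u k + β * v k) →
      phi u y = 0 → |phi v y| ≤ A0 → ent y ≤ c0 := by
  set m := u i * v j - u j * v i with hmdef
  have hmabs : 0 < |m| := abs_pos.mpr hm
  set C2 := ∑ k, c k with hC2
  have hC2nn : 0 ≤ C2 := Finset.sum_nonneg fun k _ => (hc k).le
  have hcle : ∀ k, c k ≤ C2 := fun k =>
    Finset.single_le_sum (f := fun k => c k) (fun k _ => (hc k).le) (Finset.mem_univ k)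
  set C1 := (|u i| + |u j|) / |m| with hC1
  have hC1nn : 0 ≤ C1 := div_nonneg (by positivity) hmabs.le
  set T := 2 * ((d : ℝ) + C1 * A0 * (1 + C2)) + 1 with hT
  have hTpos : 0 < T := by positivity
  set R := max 1 (max (2 * C2) (Real.exp T)) with hR
  have hR1 : 1 ≤ R := le_max_left _ _
  have hR2 : 2 * C2 ≤ R := le_trans (le_max_left _ _) (le_max_right _ _)
  have hR3 : Real.exp T ≤ R := le_trans (le_max_right _ _) (le_max_right _ _)
  have hlogR : 0 ≤ Real.log R := Real.log_nonneg hR1
  refine ⟨(d : ℝ) * (R * Real.log R), ?_⟩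
  intro y hy ⟨α, β, hform⟩ hu hv
  obtain ⟨ks, _, hks⟩ := Finset.exists_max_image Finset.univ y ⟨i, Finset.mem_univ _⟩
  set X := y ks with hX
  have hXpos : 0 < X := hy ks
  have hle : ∀ k, y k ≤ X := fun k => hks k (Finset.mem_univ k)
  have hXR : X ≤ R := by
    by_contra hXR
    push Not at hXR
    have hX1 : 1 < X := lt_of_le_of_lt hR1 hXR
    have hX2 : 2 * C2 < X := lt_of_le_of_lt hR2 hXR
    have hlogX : T < Real.log X := by
      have : Real.exp T < X := lt_of_le_of_lt hR3 hXR
      rwa [Real.lt_log_iff_exp_lt hXpos]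
    -- the identity
    have hid : ∑ k, (y k - c k) * Real.log (y k) = α * phi u y + β * phi v y := by
      unfold phi
      rw [Finset.mul_sum, Finset.mul_sum, ← Finset.sum_add_distrib]
      apply Finset.sum_congr rfl
      intro k _
      rw [hform k]
      ring
    rw [hu] at hid
    have hbeta : β * m = u i * (y j - c j) - u j * (y i - c i) := by
      rw [hform i, hform j, hmdef]; ring
    have hbetaabs : |β| ≤ C1 * (X + C2) := by
      have h1 : |β| * |m| ≤ (|u i| + |u j|) * (X + C2) := by
        rw [← abs_mul, hbeta]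
        have hy1 : |y j - c j| ≤ X + C2 := by
          rw [abs_le]; constructor
          · linarith [hy j, hcle j, hXpos]
          · linarith [hle j, hc j]
        have hy2 : |y i - c i| ≤ X + C2 := by
          rw [abs_le]; constructor
          · linarith [hy i, hcle i, hXpos]
          · linarith [hle i, hc i]
        calc |u i * (y j - c j) - u j * (y i - c i)|
            ≤ |u i * (y j - c j)| + |u j * (y i - c i)| := abs_sub _ _
          _ = |u i| * |y j - c j| + |u j| * |y i - c i| := by rw [abs_mul, abs_mul]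
          _ ≤ |u i| * (X + C2) + |u j| * (X + C2) :=
              add_le_add (mul_le_mul_of_nonneg_left hy1 (abs_nonneg _))
                (mul_le_mul_of_nonneg_left hy2 (abs_nonneg _))
          _ = (|u i| + |u j|) * (X + C2) := by ring
      rw [hC1, div_mul_eq_mul_div, le_div_iff₀ hmabs]
      exact h1
    have hupper : ∑ k, (y k - c k) * Real.log (y k) ≤ C1 * (X + C2) * A0 := by
      rw [hid]
      have : α * 0 + β * phi v y = β * phi v y := by ring
      rw [this]
      calc β * phi v y ≤ |β * phi v y| := le_abs_self _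
        _ = |β| * |phi v y| := abs_mul _ _
        _ ≤ (C1 * (X + C2)) * A0 :=
            mul_le_mul hbetaabs hv (abs_nonneg _) (mul_nonneg hC1nn (by linarith))
    -- lower bound
    have hterm : ∀ k, 0 ≤ y k * Real.log (y k) + 1 := by
      intro k
      have h1 := Real.one_sub_inv_le_log_of_pos (hy k)
      have h2 := mul_le_mul_of_nonneg_left h1 (hy k).le
      have h3 : y k * (1 - (y k)⁻¹) = y k - 1 := by
        rw [mul_sub, mul_one, mul_inv_cancel₀ (hy k).ne']
      rw [h3] at h2
      linarith [hy k]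
    have hsum1 : X * Real.log X + 1 ≤ ∑ k, (y k * Real.log (y k) + 1) :=
      Finset.single_le_sum (f := fun k => y k * Real.log (y k) + 1)
        (fun k _ => hterm k) (Finset.mem_univ ks)
    have hsum2 : ∑ k, (y k * Real.log (y k) + 1) = ∑ k, y k * Real.log (y k) + (d : ℝ) := by
      rw [Finset.sum_add_distrib]
      simp
    have hsum3 : ∑ k, c k * Real.log (y k) ≤ C2 * Real.log X := by
      rw [hC2, Finset.sum_mul]
      apply Finset.sum_le_sum
      intro k _
      exact mul_le_mul_of_nonneg_left (Real.log_le_log (hy k) (hle k)) (hc k).le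
    have hsplit : ∑ k, (y k - c k) * Real.log (y k)
        = ∑ k, y k * Real.log (y k) - ∑ k, c k * Real.log (y k) := by
      rw [← Finset.sum_sub_distrib]
      apply Finset.sum_congr rfl
      intro k _
      ring
    have hmain : (X - C2) * Real.log X ≤ (d : ℝ) + C1 * (X + C2) * A0 := by
      have e : (X - C2) * Real.log X = X * Real.log X - C2 * Real.log X := by ring
      rw [e]
      linarith
    exact far_scalar hC1nn hA0 hC2nn (Nat.cast_nonneg d) hT hX1 hX2 hlogX hmain
  have hylog : ∀ k, y k * Real.log (y k) - y k ≤ R * Real.log R := by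
    intro k
    have hyR : y k ≤ R := le_trans (hle k) hXR
    have h1 : Real.log (y k) ≤ Real.log R := Real.log_le_log (hy k) hyR
    have h2 : y k * Real.log (y k) ≤ y k * Real.log R :=
      mul_le_mul_of_nonneg_left h1 (hy k).le
    have h3 : y k * Real.log R ≤ R * Real.log R := mul_le_mul_of_nonneg_right hyR hlogR
    linarith [hy k]
  unfold ent
  calc ∑ k, (y k * Real.log (y k) - y k) ≤ ∑ _k : Fin d, R * Real.log R :=
        Finset.sum_le_sum fun k _ => hylog k
    _ = (d : ℝ) * (R * Real.log R) := by simp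

/-- A bound on the entropy bounds every coordinate from above. -/
theorem coord_le_of_ent_le {y : Fin d → ℝ} (hy : ∀ k, 0 < y k) {c : ℝ} (h : ent y ≤ c) (k : Fin d) :
    y k ≤ max (Real.exp 2) (c + d) := by
  by_contra hlt
  push Not at hlt
  have h1 : Real.exp 2 < y k := lt_of_le_of_lt (le_max_left _ _) hlt
  have h2 : c + d < y k := lt_of_le_of_lt (le_max_right _ _) hlt
  have hlog : 2 < Real.log (y k) := (Real.lt_log_iff_exp_lt (hy k)).mpr h1
  have hterm : ∀ j, 0 ≤ y j * Real.log (y j) - y j + 1 := by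
    intro j
    have := brg_nonneg (hy j) (one_pos)
    unfold brg at this
    simpa using this
  have hs1 : y k * Real.log (y k) - y k + 1 ≤ ∑ j, (y j * Real.log (y j) - y j + 1) :=
    Finset.single_le_sum (f := fun j => y j * Real.log (y j) - y j + 1)
      (fun j _ => hterm j) (Finset.mem_univ k)
  have hs2 : ∑ j, (y j * Real.log (y j) - y j + 1) = ent y + (d : ℝ) := by
    unfold ent
    rw [Finset.sum_add_distrib]
    simp
  have hyk := hy k
  have : y k * 2 ≤ y k * Real.log (y k) := mul_le_mul_of_nonneg_left hlog.le hyk.le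
  nlinarith

/-- Two independent cylinder bounds bound the point. -/
theorem coord_le_of_two {u v : Fin d → ℝ} {i j : Fin d} (hm : u i * v j - u j * v i ≠ 0) (C : ℝ) :
    ∃ R : ℝ, ∀ x : Fin d → ℝ, (∀ k, 0 < x k) → fmin u x ≤ C → fmin v x ≤ C → ∀ k, x k ≤ R := by
  set m := u i * v j - u j * v i with hmdef
  have hmabs : 0 < |m| := abs_pos.mpr hm
  set R' := max (Real.exp 2) (C + d) with hR'
  have hR'pos : 0 < R' := lt_of_lt_of_le (Real.exp_pos _) (le_max_left _ _)
  set U := ∑ l, |u l| with hU
  have hUnn : 0 ≤ U := Finset.sum_nonneg fun l _ => abs_nonneg _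
  have huU : ∀ l, |u l| ≤ U := fun l =>
    Finset.single_le_sum (f := fun l => |u l|) (fun l _ => abs_nonneg _) (Finset.mem_univ l)
  set S := (|v i| + |v j|) * R' / |m| with hS
  have hSnn : 0 ≤ S := div_nonneg (by positivity) hmabs.le
  refine ⟨R' + S * U, ?_⟩
  intro x hx hfu hfv k
  have hune : ∃ l, u l ≠ 0 := by
    by_contra hcon
    push Not at hcon
    apply hm
    rw [hmdef, hcon i, hcon j]
    ring
  have hvne : ∃ l, v l ≠ 0 := by
    by_contra hcon
    push Not at hcon
    apply hm
    rw [hmdef, hcon i, hcon j]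
    ring
  obtain ⟨s1, hs1, h1⟩ := exists_min_line hx hune
  obtain ⟨s2, hs2, h2⟩ := exists_min_line hx hvne
  rw [fmin_eq hs1 h1] at hfu
  rw [fmin_eq hs2 h2] at hfv
  have hb1 : ∀ l, x l + s1 * u l ≤ R' := fun l => coord_le_of_ent_le hs1 hfu l
  have hb2 : ∀ l, x l + s2 * v l ≤ R' := fun l => coord_le_of_ent_le hs2 hfv l
  have hdiff : ∀ l, |(x l + s1 * u l) - (x l + s2 * v l)| ≤ R' := by
    intro l
    rw [abs_le]
    constructor
    · linarith [hb2 l, hs1 l]
    · linarith [hb1 l, hs2 l]
  have hs1m : s1 * m = v j * ((x i + s1 * u i) - (x i + s2 * v i))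
      - v i * ((x j + s1 * u j) - (x j + s2 * v j)) := by
    rw [hmdef]; ring
  have hs1abs : |s1| ≤ S := by
    rw [hS, le_div_iff₀ hmabs, ← abs_mul, hs1m]
    calc |v j * ((x i + s1 * u i) - (x i + s2 * v i))
          - v i * ((x j + s1 * u j) - (x j + s2 * v j))|
        ≤ |v j * ((x i + s1 * u i) - (x i + s2 * v i))|
          + |v i * ((x j + s1 * u j) - (x j + s2 * v j))| := abs_sub _ _
      _ = |v j| * |(x i + s1 * u i) - (x i + s2 * v i)|
          + |v i| * |(x j + s1 * u j) - (x j + s2 * v j)| := by rw [abs_mul, abs_mul]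
      _ ≤ |v j| * R' + |v i| * R' :=
          add_le_add (mul_le_mul_of_nonneg_left (hdiff i) (abs_nonneg _))
            (mul_le_mul_of_nonneg_left (hdiff j) (abs_nonneg _))
      _ = (|v i| + |v j|) * R' := by ring
  have hk : x k = (x k + s1 * u k) - s1 * u k := by ring
  have habs : |s1 * u k| ≤ S * U := by
    rw [abs_mul]
    exact mul_le_mul hs1abs (huU k) (abs_nonneg _) hSnn
  have := (abs_le.mp habs).1
  have h3 := hb1 k
  linarith

end Vale.Agent.P072
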