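import Vale.Agent.P072.Align

namespace Vale.Agent.P072

open Filter Topology

/-- The exit-time argument for a finite maximum of functions: if every active function has
nonpositive upper right derivative as soon as the maximum is at least `C`, the maximum never
exceeds `C`. -/
theorem max_le_of_right {ι : Type*} (W : Finset ι) (g : ι → ℝ → ℝ) {T C : ℝ}
    (h0 : ∀ u ∈ W, g u 0 ≤ C)
    (hcont : ∀ u ∈ W, ContinuousOn (g u) (Set.Ico 0 T))
    (hstep : ∀ t ∈ Set.Ico 0 T, ∀ u ∈ W, C ≤ g u t → (∀ v ∈ W, g v t ≤ g u t) →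
      ∀ ε > 0, ∀ᶠ s in 𝓝[>] t, g u s ≤ g u t + ε * (s - t)) :
    ∀ t ∈ Set.Ico 0 T, ∀ u ∈ W, g u t ≤ C := by
  classical
  have key : ∀ ε > 0, ∀ t₁ ∈ Set.Ico 0 T, ∀ u ∈ W, g u t₁ ≤ C + ε * t₁ := by
    intro ε hε t₁ ht₁
    set S : Set ℝ := {t | ∀ u ∈ W, g u t ≤ C + ε * t} with hS
    have hsub : Set.Icc 0 t₁ ⊆ Set.Ico 0 T := fun t ht => ⟨ht.1, lt_of_le_of_lt ht.2 ht₁.2⟩
    have hclosed : IsClosed (S ∩ Set.Icc 0 t₁) := by
      have e : S ∩ Set.Icc 0 t₁ = Set.Icc 0 t₁ ∩ ⋂ u ∈ W,
          (Set.Icc 0 t₁ ∩ (fun t => g u t - (C + ε * t)) ⁻¹' Set.Iic 0) := by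
        ext t
        simp only [hS, Set.mem_inter_iff, Set.mem_ofPred_eq, Set.mem_iInter, Set.mem_preimage,
          Set.mem_Iic, sub_nonpos]
        constructor
        · rintro ⟨h1, h2⟩
          exact ⟨h2, fun u hu => ⟨h2, h1 u hu⟩⟩
        · rintro ⟨h2, h1⟩
          exact ⟨fun u hu => (h1 u hu).2, h2⟩
      rw [e]
      apply IsClosed.inter isClosed_Icc
      apply isClosed_biInter
      intro u hu
      apply ContinuousOn.preimage_isClosed_of_isClosed _ isClosed_Icc isClosed_Iic
      apply ContinuousOn.sub ((hcont u hu).mono hsub)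
      fun_prop
    have ha : (0:ℝ) ∈ S := by
      intro u hu
      simpa using h0 u hu
    have hgt : ∀ x ∈ S ∩ Set.Ico 0 t₁, S ∈ 𝓝[>] x := by
      rintro x ⟨hxS, hx⟩
      have hx0 : 0 ≤ x := hx.1
      have hxT : x ∈ Set.Ico 0 T := ⟨hx.1, lt_trans hx.2 ht₁.2⟩
      have hev : ∀ᶠ s in 𝓝[>] x, ∀ u ∈ W, g u s ≤ C + ε * s := by
        rw [Filter.eventually_all_finset]
        intro u hu
        rcases lt_or_eq_of_le (hxS u hu) with hlt | heq
        · have hIoi : Set.Ico 0 T ∈ 𝓝[>] x := by
            apply mem_of_superset (Ioo_mem_nhdsGT hxT.2)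
            intro s hs
            exact ⟨le_trans hx0 hs.1.le, hs.2⟩
          have hcw : ContinuousWithinAt (fun t => g u t - (C + ε * t)) (Set.Ioi x) x := by
            have h1 : ContinuousWithinAt (g u) (Set.Ioi x) x :=
              ((hcont u hu) x hxT).mono_of_mem_nhdsWithin hIoi
            apply ContinuousWithinAt.sub h1
            fun_prop
          have hneg : g u x - (C + ε * x) < 0 := by linarith
          have := hcw.tendsto.eventually (gt_mem_nhds hneg)
          filter_upwards [this] with s hs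
          linarith
        · have hact : ∀ v ∈ W, g v x ≤ g u x := fun v hv => by
            rw [heq]; exact hxS v hv
          have hC : C ≤ g u x := by
            rw [heq]
            have := mul_nonneg hε.le hx0
            linarith
          have := hstep x hxT u hu hC hact ε hε
          filter_upwards [this] with s hs
          rw [heq] at hs
          nlinarith
      filter_upwards [hev] with s hs
      exact hs
    have hall := IsClosed.Icc_subset_of_forall_mem_nhdsWithin hclosed ha hgt
    intro u hu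
    exact hall (Set.mem_Icc.mpr ⟨ht₁.1, le_rfl⟩) u hu
  intro t ht u hu
  apply le_of_forall_pos_le_add
  intro δ hδ
  have hpos : 0 < t + 1 := by linarith [ht.1]
  have h1 := key (δ / (t + 1)) (div_pos hδ hpos) t ht u hu
  have h2 : δ / (t + 1) * t ≤ δ := by
    rw [div_mul_eq_mul_div, div_le_iff₀ hpos]
    nlinarith [ht.1]
  linarith

end Vale.Agent.P072
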