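import Vale.Agent.P072.Cut
import Vale.Agent.P072.Exit

namespace Vale.Agent.P072

open Filter Topology

variable {d : ℕ}

/-- The difference of two complexes as a real vector. -/
def diffVec (y y' : Cplx d) : Fin d → ℝ := fun i => (y i : ℝ) - (y' i : ℝ)

theorem diffVec_entry (y y' : Cplx d) (i : Fin d) :
    diffVec y y' i = 0 ∨ 1 ≤ |diffVec y y' i| := by
  unfold diffVec
  by_cases h : y i = y' i
  · left; rw [h]; ring
  · right
    have h1 : (y i : ℤ) - (y' i : ℤ) ≠ 0 := by
      intro h2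
      apply h
      have : (y i : ℤ) = (y' i : ℤ) := by linarith
      exact_mod_cast this
    have h2 : (1 : ℤ) ≤ |(y i : ℤ) - (y' i : ℤ)| := Int.one_le_abs h1
    have h3 : ((|(y i : ℤ) - (y' i : ℤ)| : ℤ) : ℝ) = |(y i : ℝ) - (y' i : ℝ)| := by
      push_cast
      rfl
    rw [← h3]
    exact_mod_cast h2

theorem diffVec_ne {y y' : Cplx d} (h : y ≠ y') : ∃ i, diffVec y y' i ≠ 0 := by
  by_contra hcon
  push Not at hcon
  apply h
  funext i
  have := hcon i
  unfold diffVec at this
  have h2 : (y i : ℝ) = (y' i : ℝ) := by linarith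
  exact_mod_cast h2

theorem mono_eq_exp {x : Fin d → ℝ} (hx : ∀ i, 0 < x i) (y : Cplx d) :
    mono x y = Real.exp (∑ i, (y i : ℝ) * Real.log (x i)) := by
  unfold mono
  rw [Real.exp_sum]
  apply Finset.prod_congr rfl
  intro i _
  rw [Real.exp_nat_mul, Real.exp_log (hx i)]

theorem phi_diffVec (y y' : Cplx d) (x : Fin d → ℝ) :
    phi (diffVec y y') x
      = ∑ i, (y i : ℝ) * Real.log (x i) - ∑ i, (y' i : ℝ) * Real.log (x i) := by
  unfold phi diffVec
  rw [← Finset.sum_sub_distrib]
  apply Finset.sum_congr rfl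
  intro i _
  ring

theorem mono_ratio {x : Fin d → ℝ} (hx : ∀ i, 0 < x i) {y y' : Cplx d} {B : ℝ}
    (h : B ≤ phi (diffVec y y') x) : Real.exp B * mono x y' ≤ mono x y := by
  rw [mono_eq_exp hx, mono_eq_exp hx, ← Real.exp_add]
  apply Real.exp_le_exp.mpr
  rw [phi_diffVec] at h
  linarith

theorem inner_massAction (N : Network d) (k : Cplx d × Cplx d → ℝ) (x L : Fin d → ℝ) :
    ∑ i, L i * massAction N k x i
      = ∑ r ∈ N.reactions, (k r * mono x r.1)
          * (∑ i, (r.2 i : ℝ) * L i - ∑ i, (r.1 i : ℝ) * L i) := by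
  unfold massAction reactionVec
  simp_rw [Finset.mul_sum]
  rw [Finset.sum_comm]
  apply Finset.sum_congr rfl
  intro r _
  rw [← Finset.sum_sub_distrib, Finset.mul_sum]
  apply Finset.sum_congr rfl
  intro i _
  ring

/-- The mass-action field lies in the stoichiometric subspace. -/
theorem massAction_mem (N : Network d) (k : Cplx d × Cplx d → ℝ) (x : Fin d → ℝ) :
    massAction N k x ∈ N.stoich := by
  have e : massAction N k x = ∑ r ∈ N.reactions, (k r * mono x r.1) • reactionVec r := by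
    funext i
    simp [massAction, Finset.sum_apply]
  rw [e]
  apply Submodule.sum_mem
  intro r hr
  apply Submodule.smul_mem
  exact Submodule.subset_span ⟨r, hr, rfl⟩

theorem diffVec_mem_of_reach (N : Network d) {y y' : Cplx d}
    (h : Relation.ReflTransGen N.Step y' y) : diffVec y y' ∈ N.stoich := by
  induction h with
  | refl =>
    have : diffVec y' y' = 0 := by
      funext i; simp [diffVec]
    rw [this]; exact Submodule.zero_mem _
  | @tail b c _ hbc ih =>
    have h1 : reactionVec (b, c) ∈ N.stoich := Submodule.subset_span ⟨(b, c), hbc, rfl⟩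
    have e : diffVec c y' = diffVec b y' + reactionVec (b, c) := by
      funext i
      simp [diffVec, reactionVec]
    rw [e]
    exact Submodule.add_mem _ ih h1

/-- A solution stays in its stoichiometric coset. -/
theorem sol_sub_mem (N : Network d) {k : ℝ → Cplx d × Cplx d → ℝ} {T : ℝ} {x : ℝ → Fin d → ℝ}
    (hsol : IsPositiveSolution N k T x) {t : ℝ} (ht : t ∈ Set.Ico 0 T) :
    x t - x 0 ∈ N.stoich := by
  by_contra hnot
  obtain ⟨f, hf, hker⟩ := Submodule.exists_le_ker_of_notMem hnot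
  have hfS : ∀ w ∈ N.stoich, f w = 0 := fun w hw => LinearMap.mem_ker.mp (hker hw)
  set F := LinearMap.toContinuousLinearMap f with hF
  have hsub : Set.Icc 0 t ⊆ Set.Ico 0 T := fun s hs => ⟨hs.1, lt_of_le_of_lt hs.2 ht.2⟩
  have hcont : ContinuousOn (fun s => F (x s)) (Set.Icc 0 t) :=
    F.continuous.comp_continuousOn (hsol.cont.mono hsub)
  have hderiv : ∀ s ∈ Set.Ico 0 t, HasDerivWithinAt (fun s => F (x s)) 0 (Set.Ici s) s := by
    intro s hs
    have hs' : s ∈ Set.Ico 0 T := ⟨hs.1, lt_trans hs.2 ht.2⟩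
    have h1 := F.hasFDerivAt.comp_hasDerivWithinAt s (hsol.deriv s hs')
    have h2 : F (massAction N (k s) (x s)) = 0 := hfS _ (massAction_mem N _ _)
    rw [h2] at h1
    exact h1
  have hconst := constant_of_has_deriv_right_zero hcont hderiv t (Set.mem_Icc.mpr ⟨ht.1, le_rfl⟩)
  apply hf
  rw [map_sub, sub_eq_zero]
  exact hconst

/-- Common bound over a finite family of monotone properties. -/
theorem exists_common_bound {α : Type*} (T : Finset α) (P : α → ℝ → Prop)
    (hmono : ∀ a c c', c ≤ c' → P a c → P a c') (hex : ∀ a ∈ T, ∃ c, P a c) :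
    ∃ c, ∀ a ∈ T, P a c := by
  classical
  induction T using Finset.induction_on with
  | empty => exact ⟨0, by simp⟩
  | insert a s _ ih =>
    obtain ⟨c1, h1⟩ := ih (fun b hb => hex b (Finset.mem_insert_of_mem hb))
    obtain ⟨c2, h2⟩ := hex a (Finset.mem_insert_self _ _)
    refine ⟨max c1 c2, ?_⟩
    intro b hb
    rcases Finset.mem_insert.mp hb with rfl | hb
    · exact hmono _ _ _ (le_max_right _ _) h2
    · exact hmono _ _ _ (le_max_left _ _) (h1 b hb)

/-- Two vectors with all `2 × 2` minors zero are parallel. -/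
theorem parallel_of_minors {u v : Fin d → ℝ} (hu : ∃ i, u i ≠ 0)
    (h : ∀ i j, u i * v j - u j * v i = 0) : ∃ lam : ℝ, ∀ j, v j = lam * u j := by
  obtain ⟨i, hi⟩ := hu
  refine ⟨v i / u i, ?_⟩
  intro j
  have := h i j
  field_simp
  linarith

/-- In a two-dimensional subspace, two independent vectors generate. -/
theorem exists_coeffs {S : Submodule ℝ (Fin d → ℝ)} (hS : Module.finrank ℝ S = 2)
    {u v : Fin d → ℝ} (hu : u ∈ S) (hv : v ∈ S) {i j : Fin d}
    (hm : u i * v j - u j * v i ≠ 0) {z : Fin d → ℝ} (hz : z ∈ S) :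
    ∃ α β : ℝ, ∀ k, z k = α * u k + β * v k := by
  have hli : LinearIndependent ℝ ![u, v] := by
    rw [LinearIndependent.pair_iff]
    intro s t hst
    have h1 := congrFun hst i
    have h2 := congrFun hst j
    simp only [Pi.add_apply, Pi.smul_apply, smul_eq_mul, Pi.zero_apply] at h1 h2
    have hs : s * (u i * v j - u j * v i) = 0 := by
      linear_combination v j * h1 - v i * h2
    have ht : t * (u i * v j - u j * v i) = 0 := by
      linear_combination u i * h2 - u j * h1
    exact ⟨(mul_eq_zero.mp hs).resolve_right hm, (mul_eq_zero.mp ht).resolve_right hm⟩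
  have hrange : Set.range ![u, v] = {u, v} := by
    simp [Matrix.range_cons, Matrix.range_empty, Set.union_comm]
    exact Set.pair_comm _ _
  have hfr : Module.finrank ℝ (Submodule.span ℝ ({u, v} : Set (Fin d → ℝ))) = 2 := by
    have := finrank_span_eq_card hli
    rw [hrange] at this
    simpa using this
  have hle : Submodule.span ℝ ({u, v} : Set (Fin d → ℝ)) ≤ S := by
    rw [Submodule.span_le]
    intro w hw
    rcases hw with rfl | hw
    · exact hu
    · rw [Set.mem_singleton_iff] at hw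
      rw [hw]; exact hv
  have heq := Submodule.eq_of_le_of_finrank_le hle (by rw [hS, hfr])
  rw [← heq, Submodule.mem_span_pair] at hz
  obtain ⟨α, β, hab⟩ := hz
  refine ⟨α, β, fun k => ?_⟩
  rw [← hab]
  simp

/-- From dimension two we get two independent reaction vectors. -/
theorem exists_independent (N : Network d) (hS : Module.finrank ℝ N.stoich = 2) :
    ∃ r₁ ∈ N.reactions, ∃ r₂ ∈ N.reactions, ∃ i j : Fin d,
      reactionVec r₁ i * reactionVec r₂ j - reactionVec r₁ j * reactionVec r₂ i ≠ 0 := by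
  by_contra hcon
  push Not at hcon
  -- if no reactions, the span is zero
  by_cases hne : N.reactions.Nonempty
  · obtain ⟨r, hr⟩ := hne
    have hrne : ∃ i, reactionVec r i ≠ 0 := by
      by_contra h
      push Not at h
      apply N.ne r hr
      funext i
      have := h i
      unfold reactionVec at this
      have h2 : (r.2 i : ℝ) = (r.1 i : ℝ) := by linarith
      exact_mod_cast h2.symm
    have hle : N.stoich ≤ Submodule.span ℝ {reactionVec r} := by
      unfold Network.stoich
      rw [Submodule.span_le]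
      rintro w ⟨r', hr', rfl⟩
      obtain ⟨lam, hlam⟩ := parallel_of_minors hrne (fun i j => hcon r hr r' hr' i j)
      rw [SetLike.mem_coe, Submodule.mem_span_singleton]
      refine ⟨lam, ?_⟩
      funext j
      simp [hlam j]
    have h1 := Submodule.finrank_mono hle
    rw [hS, finrank_span_singleton] at h1
    · omega
    · intro h0
      obtain ⟨i, hi⟩ := hrne
      exact hi (congrFun h0 i)
  · rw [Finset.not_nonempty_iff_eq_empty] at hne
    have : N.stoich = ⊥ := by
      unfold Network.stoich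
      rw [hne]
      simp
    rw [this] at hS
    simp at hS

/-- A reachable pair of distinct complexes consists of complexes of the network. -/
theorem mem_complexes_of_reach (N : Network d) {y y' : Cplx d}
    (h : Relation.ReflTransGen N.Step y' y) (hne : y ≠ y') :
    (∃ r ∈ N.reactions, r.1 = y' ∨ r.2 = y') ∧ (∃ r ∈ N.reactions, r.1 = y ∨ r.2 = y) := by
  constructor
  · rcases Relation.ReflTransGen.cases_head h with h1 | ⟨c, h2, _⟩
    · exact absurd h1.symm hne
    · exact ⟨(y', c), h2, Or.inl rfl⟩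
  · rcases Relation.ReflTransGen.cases_tail h with h1 | ⟨c, _, h2⟩
    · exact absurd h1 hne
    · exact ⟨(c, y), h2, Or.inr rfl⟩

/-- The finite set of directions: differences of complexes along reachability. -/
theorem exists_W (N : Network d) : ∃ W : Finset (Fin d → ℝ),
    (∀ v ∈ W, (∃ i, v i ≠ 0) ∧ (∀ i, v i = 0 ∨ 1 ≤ |v i|) ∧ v ∈ N.stoich) ∧
    (∀ y y' : Cplx d, Relation.ReflTransGen N.Step y' y → y ≠ y' → diffVec y y' ∈ W) ∧
    (∀ r ∈ N.reactions, reactionVec r ∈ W) := by
  classical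
  obtain ⟨C, hmemC⟩ : ∃ C : Finset (Cplx d),
      ∀ y : Cplx d, (∃ r ∈ N.reactions, r.1 = y ∨ r.2 = y) → y ∈ C := by
    refine ⟨N.reactions.image Prod.fst ∪ N.reactions.image Prod.snd, ?_⟩
    rintro y ⟨r, hr, h | h⟩
    · exact Finset.mem_union_left _ (Finset.mem_image.mpr ⟨r, hr, h⟩)
    · exact Finset.mem_union_right _ (Finset.mem_image.mpr ⟨r, hr, h⟩)
  obtain ⟨P, hP⟩ : ∃ P : Finset (Cplx d × Cplx d), ∀ p, p ∈ P ↔
      (p ∈ C ×ˢ C ∧ p.1 ≠ p.2 ∧ Relation.ReflTransGen N.Step p.2 p.1) := by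
    refine ⟨(C ×ˢ C).filter
      (fun p : Cplx d × Cplx d => p.1 ≠ p.2 ∧ Relation.ReflTransGen N.Step p.2 p.1), ?_⟩
    intro p
    exact Finset.mem_filter
  obtain ⟨W, hWdef⟩ : ∃ W : Finset (Fin d → ℝ),
      ∀ v, v ∈ W ↔ ∃ p ∈ P, diffVec p.1 p.2 = v := by
    refine ⟨P.image (fun p => diffVec p.1 p.2), ?_⟩
    intro v
    exact Finset.mem_image
  have hreach : ∀ y y' : Cplx d, Relation.ReflTransGen N.Step y' y → y ≠ y' →
      diffVec y y' ∈ W := by
    intro y y' h hne
    obtain ⟨h1, h2⟩ := mem_complexes_of_reach N h hne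
    rw [hWdef]
    refine ⟨(y, y'), ?_, rfl⟩
    rw [hP]
    exact ⟨Finset.mem_product.mpr ⟨hmemC y h2, hmemC y' h1⟩, hne, h⟩
  refine ⟨W, ?_, hreach, ?_⟩
  · intro v hv
    obtain ⟨p, hp, rfl⟩ := (hWdef v).mp hv
    obtain ⟨_, hne, hr⟩ := (hP p).mp hp
    exact ⟨diffVec_ne hne, fun i => diffVec_entry _ _ i, diffVec_mem_of_reach N hr⟩
  · intro r hr
    have hstep : N.Step r.1 r.2 := by
      change (r.1, r.2) ∈ N.reactions
      simpa using hr
    have := hreach r.2 r.1 (Relation.ReflTransGen.single hstep) (fun h => N.ne r hr h.symm)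
    have e : reactionVec r = diffVec r.2 r.1 := rfl
    rw [e]
    exact this

/-- The pointwise inequality at an active cylinder. -/
theorem active_step (N : Network d) (hN : N.WeaklyReversible)
    (hS : Module.finrank ℝ N.stoich = 2) {W : Finset (Fin d → ℝ)}
    (hW : ∀ v ∈ W, (∃ i, v i ≠ 0) ∧ (∀ i, v i = 0 ∨ 1 ≤ |v i|) ∧ v ∈ N.stoich)
    (hW4 : ∀ y y' : Cplx d, Relation.ReflTransGen N.Step y' y → y ≠ y' → diffVec y y' ∈ W)
    {V B ε c0 : ℝ} {c : Fin d → ℝ} (hV : ∀ v ∈ W, ∀ i, |v i| ≤ V) (hB : 0 < B) (hε : 0 < ε)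
    (hBK : (N.reactions.card : ℝ) * ε⁻¹ ≤ Real.exp B * ε)
    (hfar : ∀ u ∈ W, ∀ v ∈ W, ∀ i j : Fin d, u i * v j - u j * v i ≠ 0 →
      ∀ y : Fin d → ℝ, (∀ k, 0 < y k) → (∃ α β : ℝ, ∀ k, y k - c k = α * u k + β * v k) →
      phi u y = 0 → |phi v y| ≤ B + ((d : ℝ) * V) * (2 + B * Real.exp B) → ent y ≤ c0)
    {k : Cplx d × Cplx d → ℝ} (hk : ∀ r ∈ N.reactions, ε ≤ k r ∧ k r ≤ ε⁻¹)
    {x : Fin d → ℝ} (hx : ∀ i, 0 < x i) (hxS : x - c ∈ N.stoich)
    {u : Fin d → ℝ} (hu : u ∈ W) {s0 : ℝ} (hpos : ∀ i, 0 < x i + s0 * u i)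
    (hphi : phi u (fun j => x j + s0 * u j) = 0)
    (hlev : c0 < ent (fun j => x j + s0 * u j))
    (hact : ∀ v ∈ W, fmin v x ≤ ent (fun j => x j + s0 * u j)) :
    ∑ i, Real.log (x i + s0 * u i) * massAction N k x i ≤ 0 := by
  set xh : Fin d → ℝ := fun j => x j + s0 * u j with hxh
  have huS := (hW u hu).2.2
  have hune := (hW u hu).1
  have hxhS : xh - c ∈ N.stoich := by
    have e : xh - c = (x - c) + s0 • u := by
      funext j
      simp only [hxh, Pi.sub_apply, Pi.add_apply, Pi.smul_apply, smul_eq_mul]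
      ring
    rw [e]
    exact Submodule.add_mem _ hxS (Submodule.smul_mem _ _ huS)
  have halign : ∀ v ∈ W, 0 < phi v xh → B ≤ phi v x := by
    intro v hv hA
    obtain ⟨hvne, hv1, hvS⟩ := hW v hv
    by_cases hmin : ∀ i j, u i * v j - u j * v i = 0
    · exfalso
      obtain ⟨lam, hlam⟩ := parallel_of_minors hune hmin
      have e : phi v xh = lam * phi u xh := by
        unfold phi
        rw [Finset.mul_sum]
        apply Finset.sum_congr rfl
        intro i _
        rw [hlam i]; ring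
      have e2 : phi u xh = 0 := hphi
      rw [e, e2, mul_zero] at hA
      exact lt_irrefl _ hA
    · push Not at hmin
      obtain ⟨i, j, hm⟩ := hmin
      have hAbig : B + ((d : ℝ) * V) * (2 + B * Real.exp B) < phi v xh := by
        by_contra hle
        push Not at hle
        have habs : |phi v xh| ≤ B + ((d : ℝ) * V) * (2 + B * Real.exp B) := by
          rw [abs_of_pos hA]; exact hle
        obtain ⟨α, β, hab⟩ := exists_coeffs hS huS hvS hm hxhS
        have := hfar u hu v hv i j hm xh hpos ⟨α, β, fun l => by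
          have := hab l
          simpa using this⟩ hphi habs
        linarith
      exact crossing (u := u) (τ' := -s0) hv1 (hV v hv) hB hvne hpos hx
        (fun i => by show x i - (x i + s0 * u i) = -s0 * u i; ring) hphi rfl (hact v hv) hAbig
  have hflow := flow_nonpos N hN k ε ε⁻¹ (Real.exp B) hε.le hk hBK hx
    (fun y => ∑ i, (y i : ℝ) * Real.log (xh i)) (by
      intro y y' hreach hlt
      apply mono_ratio hx
      have hne : y ≠ y' := by
        rintro rfl
        exact lt_irrefl _ hlt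
      apply halign _ (hW4 y y' hreach hne)
      rw [phi_diffVec]
      linarith)
  rw [inner_massAction]
  exact hflow

/-- Right derivative of the entropy along a translated solution. -/
theorem ent_line_deriv {x : ℝ → Fin d → ℝ} {t : ℝ} {F : Fin d → ℝ}
    (hd : HasDerivWithinAt x F (Set.Ici t) t) (u : Fin d → ℝ) (s0 : ℝ)
    (hpos : ∀ i, 0 < x t i + s0 * u i) :
    HasDerivWithinAt (fun s => ent (fun j => x s j + s0 * u j))
      (∑ i, Real.log (x t i + s0 * u i) * F i) (Set.Ici t) t := by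
  have hcoord := hasDerivWithinAt_pi.mp hd
  unfold ent
  apply HasDerivWithinAt.fun_sum
  intro i _
  have h1 : HasDerivWithinAt (fun s => x s i + s0 * u i) (F i) (Set.Ici t) t :=
    (hcoord i).add_const _
  have h2 := h1.log (hpos i).ne'
  have h3 := (h1.fun_mul h2).fun_sub h1
  convert h3 using 1
  have hne := (hpos i).ne'
  field_simp
  ring

/-- Boundedness for weakly reversible networks with two-dimensional stoichiometric subspace. -/
theorem bounded_of_dim_two (N : Network d) (hN : N.WeaklyReversible)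
    (hS : Module.finrank ℝ N.stoich = 2) (ε : ℝ) (hε : 0 < ε) (c : Fin d → ℝ)
    (hc : ∀ i, 0 < c i) :
    ∃ R : ℝ, ∀ k : ℝ → Cplx d × Cplx d → ℝ,
      (∀ t, ∀ r ∈ N.reactions, ε ≤ k t r ∧ k t r ≤ ε⁻¹) →
      ∀ (T : ℝ) (x : ℝ → Fin d → ℝ), IsPositiveSolution N k T x → x 0 = c →
        ∀ t ∈ Set.Ico 0 T, ∀ i, x t i ≤ R := by
  classical
  obtain ⟨W, hW, hW4, hW5⟩ := exists_W N
  set V : ℝ := 1 + ∑ v ∈ W, ∑ i, |v i| with hVdef
  have hV : ∀ v ∈ W, ∀ i, |v i| ≤ V := by
    intro v hv i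
    have h1 : |v i| ≤ ∑ i, |v i| :=
      Finset.single_le_sum (f := fun i => |v i|) (fun i _ => abs_nonneg _) (Finset.mem_univ i)
    have h2 : ∑ i, |v i| ≤ ∑ v ∈ W, ∑ i, |v i| :=
      Finset.single_le_sum (f := fun v : Fin d → ℝ => ∑ i, |v i|)
        (fun v _ => Finset.sum_nonneg fun i _ => abs_nonneg _) hv
    rw [hVdef]; linarith
  have hV0 : 0 ≤ V := by
    rw [hVdef]
    have : 0 ≤ ∑ v ∈ W, ∑ i, |v i| :=
      Finset.sum_nonneg fun v _ => Finset.sum_nonneg fun i _ => abs_nonneg _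
    linarith
  set B : ℝ := 1 + (N.reactions.card : ℝ) * (ε⁻¹ * ε⁻¹) with hBdef
  have hinvpos : 0 < ε⁻¹ := inv_pos.mpr hε
  have hB : 0 < B := by rw [hBdef]; positivity
  have hBK : (N.reactions.card : ℝ) * ε⁻¹ ≤ Real.exp B * ε := by
    have h1 : B + 1 ≤ Real.exp B := Real.add_one_le_exp B
    have h2 : (N.reactions.card : ℝ) * (ε⁻¹ * ε⁻¹) ≤ Real.exp B := by
      rw [hBdef] at h1 ⊢
      linarith
    have h3 := mul_le_mul_of_nonneg_right h2 hε.le
    have e : (N.reactions.card : ℝ) * (ε⁻¹ * ε⁻¹) * ε = (N.reactions.card : ℝ) * ε⁻¹ := by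
      field_simp
    rwa [e] at h3
  set A0 : ℝ := B + ((d : ℝ) * V) * (2 + B * Real.exp B) with hA0
  have hA0nn : 0 ≤ A0 := by
    rw [hA0]
    have : 0 ≤ B * Real.exp B := (mul_pos hB (Real.exp_pos _)).le
    have h2 : 0 ≤ (d : ℝ) * V := mul_nonneg (Nat.cast_nonneg d) hV0
    have h3 := mul_nonneg h2 (by linarith : 0 ≤ 2 + B * Real.exp B)
    linarith
  -- the far level
  obtain ⟨c0, hc0⟩ := exists_common_bound
    (W ×ˢ W ×ˢ (Finset.univ : Finset (Fin d)) ×ˢ (Finset.univ : Finset (Fin d)))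
    (fun (a : (Fin d → ℝ) × (Fin d → ℝ) × Fin d × Fin d) c0 =>
      a.1 a.2.2.1 * a.2.1 a.2.2.2 - a.1 a.2.2.2 * a.2.1 a.2.2.1 ≠ 0 →
      ∀ y : Fin d → ℝ, (∀ k, 0 < y k) → (∃ α β : ℝ, ∀ k, y k - c k = α * a.1 k + β * a.2.1 k) →
      phi a.1 y = 0 → |phi a.2.1 y| ≤ A0 → ent y ≤ c0)
    (by
      intro a c1 c2 h12 h hm y hy hab h1 h2
      exact le_trans (h hm y hy hab h1 h2) h12)
    (by
      intro a _
      by_cases hm : a.1 a.2.2.1 * a.2.1 a.2.2.2 - a.1 a.2.2.2 * a.2.1 a.2.2.1 ≠ 0
      · obtain ⟨c0, h⟩ := far_level hc hm hA0nn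
        exact ⟨c0, fun _ => h⟩
      · exact ⟨0, fun h => absurd h hm⟩)
  have hfar : ∀ u ∈ W, ∀ v ∈ W, ∀ i j : Fin d, u i * v j - u j * v i ≠ 0 →
      ∀ y : Fin d → ℝ, (∀ k, 0 < y k) → (∃ α β : ℝ, ∀ k, y k - c k = α * u k + β * v k) →
      phi u y = 0 → |phi v y| ≤ A0 → ent y ≤ c0 := by
    intro u hu v hv i j hm
    exact hc0 (u, v, i, j) (by simp [hu, hv]) hm
  -- the level C
  set C : ℝ := |c0| + 1 + ∑ u ∈ W, |fmin u c| with hCdef
  have hsumnn : 0 ≤ ∑ u ∈ W, |fmin u c| := Finset.sum_nonneg fun u _ => abs_nonneg _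
  have hC1 : c0 + 1 ≤ C := by
    rw [hCdef]
    have := le_abs_self c0
    linarith
  have hC2 : ∀ u ∈ W, fmin u c ≤ C := by
    intro u hu
    have h1 : |fmin u c| ≤ ∑ u ∈ W, |fmin u c| :=
      Finset.single_le_sum (f := fun u => |fmin u c|) (fun u _ => abs_nonneg _) hu
    have h2 := le_abs_self (fmin u c)
    rw [hCdef]
    have := abs_nonneg c0
    linarith
  -- an independent pair
  obtain ⟨r1, hr1, r2, hr2, i, j, hm⟩ := exists_independent N hS
  obtain ⟨R, hR⟩ := coord_le_of_two hm C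
  refine ⟨R, ?_⟩
  intro k hk T x hsol hx0 t ht l
  have hg : ∀ u ∈ W, fmin u (x t) ≤ C := by
    refine max_le_of_right W (fun u s => fmin u (x s)) (T := T) (C := C) ?_ ?_ ?_ t ht
    · intro u hu
      show fmin u (x 0) ≤ C
      rw [hx0]
      exact hC2 u hu
    · intro u hu
      exact (fmin_continuousOn (hW u hu).1).comp hsol.cont (fun s hs => hsol.pos s hs)
    · intro t ht u hu hC hact ε' hε'
      show ∀ᶠ s in 𝓝[>] t, fmin u (x s) ≤ fmin u (x t) + ε' * (s - t)
      have hC' : C ≤ fmin u (x t) := hC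
      have hact' : ∀ v ∈ W, fmin v (x t) ≤ fmin u (x t) := hact
      have hxt := hsol.pos t ht
      have hune := (hW u hu).1
      obtain ⟨s0, hs0pos, hs0⟩ := exists_min_line hxt hune
      have hval : fmin u (x t) = ent (fun j => x t j + s0 * u j) := fmin_eq hs0pos hs0
      have hxS : x t - c ∈ N.stoich := by
        rw [← hx0]; exact sol_sub_mem N hsol ht
      have hineq := active_step N hN hS hW hW4 hV hB hε hBK hfar (hk t) hxt hxS hu hs0pos hs0
        (by rw [← hval]; linarith)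
        (by intro v hv; rw [← hval]; exact hact' v hv)
      have hder := ent_line_deriv (hsol.deriv t ht) u s0 hs0pos
      have hslope := hder.Ioi_of_Ici.limsup_slope_le' (lt_irrefl t)
        (lt_of_le_of_lt hineq hε')
      have hcw : ContinuousWithinAt x (Set.Ioi t) t :=
        (hsol.deriv t ht).continuousWithinAt.mono Set.Ioi_subset_Ici_self
      have hposev : ∀ᶠ s in 𝓝[>] t, ∀ i, 0 < x s i + s0 * u i := by
        rw [Filter.eventually_all]
        intro i
        have h1 : ContinuousWithinAt (fun s => x s i + s0 * u i) (Set.Ioi t) t :=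
          ((continuous_apply i).continuousAt.comp_continuousWithinAt hcw).add
            continuousWithinAt_const
        exact h1.tendsto.eventually (lt_mem_nhds (hs0pos i))
      have hIco : ∀ᶠ s in 𝓝[>] t, s ∈ Set.Ico 0 T := by
        apply mem_of_superset (Ioo_mem_nhdsGT ht.2)
        intro s hs
        exact ⟨le_trans ht.1 hs.1.le, hs.2⟩
      have hself : ∀ᶠ s in 𝓝[>] t, t < s := self_mem_nhdsWithin
      filter_upwards [hslope, hposev, hIco, hself] with s h1 h2 h3 h4
      have h5 := fmin_le (hsol.pos s h3) hune h2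
      rw [slope_def_field, div_lt_iff₀ (sub_pos.mpr h4)] at h1
      rw [hval]
      linarith
  exact hR (x t) (hsol.pos t ht) (hg _ (hW5 r1 hr1)) (hg _ (hW5 r2 hr2)) l

end Vale.Agent.P072
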