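import Vale.Agent.P072.Defs

namespace Vale.Agent.P072

open Finset

/-- Layer-cake step: if every threshold cut has nonpositive flow then so has the function. -/
theorem sum_le_zero_of_cuts {ι V : Type*} (R : Finset ι) (a b : ι → V) (w : ι → ℝ) :
    ∀ (n : ℕ) (h : V → ℝ),
      ((R.image (fun r => h (a r))) ∪ (R.image (fun r => h (b r)))).card ≤ n →
      (∀ τ : ℝ, ∑ r ∈ R, w r * ((if τ < h (b r) then (1:ℝ) else 0)
          - (if τ < h (a r) then (1:ℝ) else 0)) ≤ 0) →
      ∑ r ∈ R, w r * (h (b r) - h (a r)) ≤ 0 := by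
  classical
  intro n
  induction n with
  | zero =>
    intro h hcard _
    have hempty : (R.image (fun r => h (a r))) ∪ (R.image (fun r => h (b r))) = ∅ :=
      Finset.card_eq_zero.mp (Nat.le_zero.mp hcard)
    have hR : R = ∅ := by
      by_contra hne
      obtain ⟨r, hr⟩ := Finset.nonempty_iff_ne_empty.mpr hne
      have : h (a r) ∈ (R.image (fun r => h (a r))) ∪ (R.image (fun r => h (b r))) :=
        Finset.mem_union_left _ (Finset.mem_image_of_mem _ hr)
      rw [hempty] at this
      simp at this
    simp [hR]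
  | succ n ih =>
    intro h hcard hcut
    set vals := (R.image (fun r => h (a r))) ∪ (R.image (fun r => h (b r))) with hvals
    have hamem : ∀ r ∈ R, h (a r) ∈ vals := fun r hr =>
      Finset.mem_union_left _ (Finset.mem_image_of_mem (fun r => h (a r)) hr)
    have hbmem : ∀ r ∈ R, h (b r) ∈ vals := fun r hr =>
      Finset.mem_union_right _ (Finset.mem_image_of_mem (fun r => h (b r)) hr)
    by_cases hsmall : vals.card ≤ 1
    · have hzero : ∀ r ∈ R, w r * (h (b r) - h (a r)) = 0 := by
        intro r hr
        have := Finset.card_le_one.mp hsmall _ (hbmem r hr) _ (hamem r hr)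
        rw [this]; ring
      rw [Finset.sum_eq_zero hzero]
    · push Not at hsmall
      have hne : vals.Nonempty := Finset.card_pos.mp (by omega)
      set m := vals.max' hne with hm
      have hne' : (vals.erase m).Nonempty := by
        apply Finset.card_pos.mp
        rw [Finset.card_erase_of_mem (Finset.max'_mem _ _)]
        omega
      set m' := (vals.erase m).max' hne' with hm'
      have hm'mem : m' ∈ vals.erase m := Finset.max'_mem _ _
      have hm'lt : m' < m := by
        have h1 : m' ≤ m := Finset.le_max' _ _ (Finset.mem_of_mem_erase hm'mem)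
        exact lt_of_le_of_ne h1 (Finset.ne_of_mem_erase hm'mem)
      have hle : ∀ u ∈ vals, u ≠ m → u ≤ m' := fun u hu hum =>
        Finset.le_max' _ _ (Finset.mem_erase.mpr ⟨hum, hu⟩)
      have hlem : ∀ u ∈ vals, u ≤ m := fun u hu => Finset.le_max' _ _ hu
      set h' : V → ℝ := fun y => min (h y) m' with hh'
      have hsplit : ∀ u ∈ vals, u = min u m' + (m - m') * (if m' < u then (1:ℝ) else 0) := by
        intro u hu
        by_cases hum : u = m
        · subst hum
          rw [if_pos hm'lt, min_eq_right hm'lt.le]; ring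
        · have := hle u hu hum
          rw [if_neg (not_lt.mpr this), min_eq_left this]; ring
      have hmin_mem : ∀ u ∈ vals, min u m' ∈ vals.erase m := by
        intro u hu
        by_cases hum : u = m
        · subst hum; rw [min_eq_right hm'lt.le]; exact hm'mem
        · have := hle u hu hum
          rw [min_eq_left this]
          exact Finset.mem_erase.mpr ⟨hum, hu⟩
      have hcard' : ((R.image (fun r => h' (a r))) ∪ (R.image (fun r => h' (b r)))).card ≤ n := by
        have hsub : (R.image (fun r => h' (a r))) ∪ (R.image (fun r => h' (b r))) ⊆ vals.erase m := by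
          intro u hu
          rcases Finset.mem_union.mp hu with hu | hu
          · obtain ⟨r, hr, rfl⟩ := Finset.mem_image.mp hu
            exact hmin_mem _ (hamem r hr)
          · obtain ⟨r, hr, rfl⟩ := Finset.mem_image.mp hu
            exact hmin_mem _ (hbmem r hr)
        have h2 := Finset.card_le_card hsub
        rw [Finset.card_erase_of_mem (Finset.max'_mem _ _)] at h2
        omega
      have hcut' : ∀ τ : ℝ, ∑ r ∈ R, w r * ((if τ < h' (b r) then (1:ℝ) else 0)
          - (if τ < h' (a r) then (1:ℝ) else 0)) ≤ 0 := by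
        intro τ
        by_cases hτ : τ < m'
        · have hiff : ∀ y, (τ < h' y) ↔ τ < h y := by
            intro y
            simp only [hh', lt_min_iff]
            exact ⟨fun h1 => h1.1, fun h1 => ⟨h1, hτ⟩⟩
          simpa only [hiff] using hcut τ
        · have hfalse : ∀ y, ¬ (τ < h' y) := by
            intro y h1
            simp only [hh', lt_min_iff] at h1
            exact hτ h1.2
          simp [hfalse]
      have hih := ih h' hcard' hcut'
      have hcutm := hcut m'
      have hdecomp : ∑ r ∈ R, w r * (h (b r) - h (a r))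
          = ∑ r ∈ R, w r * (h' (b r) - h' (a r))
            + (m - m') * ∑ r ∈ R, w r * ((if m' < h (b r) then (1:ℝ) else 0)
                - (if m' < h (a r) then (1:ℝ) else 0)) := by
        rw [Finset.mul_sum, ← Finset.sum_add_distrib]
        apply Finset.sum_congr rfl
        intro r hr
        have h1 := hsplit _ (hbmem r hr)
        have h2 := hsplit _ (hamem r hr)
        have h3 : h' (b r) = min (h (b r)) m' := rfl
        have h4 : h' (a r) = min (h (a r)) m' := rfl
        rw [h3, h4]
        nth_rewrite 1 [h1]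
        nth_rewrite 1 [h2]
        ring
      rw [hdecomp]
      have hmm : 0 ≤ m - m' := by linarith
      nlinarith [mul_nonpos_of_nonneg_of_nonpos hmm hcutm]

variable {d : ℕ}

theorem exists_exit {N : Network d} {h : Cplx d → ℝ} {τ : ℝ} {p q : Cplx d}
    (hpq : Relation.ReflTransGen N.Step p q) (hp : τ < h p) (hq : ¬ τ < h q) :
    ∃ y y', N.Step y y' ∧ Relation.ReflTransGen N.Step p y ∧ τ < h y ∧ ¬ τ < h y' := by
  induction hpq with
  | refl => exact absurd hp hq
  | @tail b c hab hbc ih =>
    by_cases hb : τ < h b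
    · exact ⟨b, c, hbc, hab, hb, hq⟩
    · exact ih hb

theorem mono_nonneg {x : Fin d → ℝ} (hx : ∀ i, 0 < x i) (y : Cplx d) : 0 ≤ mono x y :=
  Finset.prod_nonneg fun i _ => pow_nonneg (hx i).le _

theorem mono_pos {x : Fin d → ℝ} (hx : ∀ i, 0 < x i) (y : Cplx d) : 0 < mono x y :=
  Finset.prod_pos fun i _ => pow_pos (hx i) _

/-- One cut: the flow into an upper level set is at most the flow out of it. -/
theorem cut_nonpos (N : Network d) (hN : N.WeaklyReversible) (k : Cplx d × Cplx d → ℝ)
    (kmin kmax K : ℝ) (hkmin : 0 ≤ kmin)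
    (hk : ∀ r ∈ N.reactions, kmin ≤ k r ∧ k r ≤ kmax)
    (hK : (N.reactions.card : ℝ) * kmax ≤ K * kmin)
    {x : Fin d → ℝ} (hx : ∀ i, 0 < x i) (h : Cplx d → ℝ)
    (hH : ∀ y y' : Cplx d, Relation.ReflTransGen N.Step y' y → h y' < h y →
      K * mono x y' ≤ mono x y) (τ : ℝ) :
    ∑ r ∈ N.reactions, (k r * mono x r.1) * ((if τ < h r.2 then (1:ℝ) else 0)
        - (if τ < h r.1 then (1:ℝ) else 0)) ≤ 0 := by
  classical
  set R := N.reactions with hRdef
  set w : Cplx d × Cplx d → ℝ := fun r => k r * mono x r.1 with hw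
  have hwnn : ∀ r ∈ R, 0 ≤ w r := fun r hr =>
    mul_nonneg (le_trans hkmin (hk r hr).1) (mono_nonneg hx _)
  set E := R.filter (fun r => ¬ τ < h r.1 ∧ τ < h r.2) with hE
  set X := R.filter (fun r => τ < h r.1 ∧ ¬ τ < h r.2) with hX
  have hsum : ∑ r ∈ R, w r * ((if τ < h r.2 then (1:ℝ) else 0)
        - (if τ < h r.1 then (1:ℝ) else 0)) = ∑ r ∈ E, w r - ∑ r ∈ X, w r := by
    rw [hE, hX, Finset.sum_filter, Finset.sum_filter, ← Finset.sum_sub_distrib]
    apply Finset.sum_congr rfl
    intro r _
    by_cases h1 : τ < h r.1 <;> by_cases h2 : τ < h r.2 <;> simp [h1, h2]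
  rw [hsum]
  have hXnn : 0 ≤ ∑ r ∈ X, w r := Finset.sum_nonneg fun r hr =>
    hwnn r (Finset.mem_of_mem_filter r hr)
  by_cases hEne : E.Nonempty
  · have hN0 : 0 < (R.card : ℝ) := by
      obtain ⟨r, hr⟩ := hEne
      exact_mod_cast Finset.card_pos.mpr ⟨r, Finset.mem_of_mem_filter r hr⟩
    have hcharge : ∀ r ∈ E, (R.card : ℝ) * w r ≤ ∑ r ∈ X, w r := by
      intro r hr
      obtain ⟨hrR, hr1, hr2⟩ := Finset.mem_filter.mp hr
      have hback : Relation.ReflTransGen N.Step r.2 r.1 := hN r hrR
      obtain ⟨y, y', hstep, hreach, hy, hy'⟩ := exists_exit hback hr2 hr1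
      have hdR : (y, y') ∈ R := hstep
      have hdX : (y, y') ∈ X := Finset.mem_filter.mpr ⟨hdR, hy, hy'⟩
      have hfirst : N.Step r.1 r.2 := by
        change (r.1, r.2) ∈ N.reactions
        simpa using hrR
      have hreach' : Relation.ReflTransGen N.Step r.1 y :=
        Relation.ReflTransGen.head hfirst hreach
      have hlev : h r.1 < h y := lt_of_le_of_lt (not_lt.mp hr1) hy
      have hKm := hH y r.1 hreach' hlev
      have hm0 := mono_nonneg hx r.1
      have hmy0 := mono_nonneg hx y
      have hk1 := (hk r hrR).2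
      have hk2 := (hk _ hdR).1
      have hstep1 : (R.card : ℝ) * w r ≤ w (y, y') := by
        have e1 : (R.card : ℝ) * w r ≤ (R.card : ℝ) * (kmax * mono x r.1) := by
          apply mul_le_mul_of_nonneg_left _ hN0.le
          exact mul_le_mul_of_nonneg_right hk1 hm0
        have e2 : (R.card : ℝ) * (kmax * mono x r.1) ≤ (K * kmin) * mono x r.1 := by
          have := mul_le_mul_of_nonneg_right hK hm0
          linarith
        have e3 : (K * kmin) * mono x r.1 ≤ kmin * mono x y := by
          have := mul_le_mul_of_nonneg_left hKm hkmin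
          linarith
        have e4 : kmin * mono x y ≤ w (y, y') := mul_le_mul_of_nonneg_right hk2 hmy0
        linarith
      have hsingle : w (y, y') ≤ ∑ r ∈ X, w r :=
        Finset.single_le_sum (fun r hr => hwnn r (Finset.mem_of_mem_filter r hr)) hdX
      linarith
    have hEcard : (E.card : ℝ) ≤ R.card := by
      exact_mod_cast Finset.card_le_card (Finset.filter_subset _ _)
    have htot : (R.card : ℝ) * ∑ r ∈ E, w r ≤ (R.card : ℝ) * ∑ r ∈ X, w r := by
      calc (R.card : ℝ) * ∑ r ∈ E, w r = ∑ r ∈ E, (R.card : ℝ) * w r := Finset.mul_sum _ _ _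
        _ ≤ ∑ _r ∈ E, ∑ r ∈ X, w r := Finset.sum_le_sum hcharge
        _ = (E.card : ℝ) * ∑ r ∈ X, w r := by simp
        _ ≤ (R.card : ℝ) * ∑ r ∈ X, w r := mul_le_mul_of_nonneg_right hEcard hXnn
    have := le_of_mul_le_mul_left htot hN0
    linarith
  · rw [Finset.not_nonempty_iff_eq_empty.mp hEne]
    simp only [Finset.sum_empty]
    linarith

/-- The key pointwise inequality (the level-cut form of the rearrangement lemma): if
`h y' < h y` forces the monomial ratio `x^y / x^y'` to be at least `K` along the reachability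
relation, with `K` large compared to the rates, then the field does not increase `h`. -/
theorem flow_nonpos (N : Network d) (hN : N.WeaklyReversible) (k : Cplx d × Cplx d → ℝ)
    (kmin kmax K : ℝ) (hkmin : 0 ≤ kmin)
    (hk : ∀ r ∈ N.reactions, kmin ≤ k r ∧ k r ≤ kmax)
    (hK : (N.reactions.card : ℝ) * kmax ≤ K * kmin)
    {x : Fin d → ℝ} (hx : ∀ i, 0 < x i) (h : Cplx d → ℝ)
    (hH : ∀ y y' : Cplx d, Relation.ReflTransGen N.Step y' y → h y' < h y →
      K * mono x y' ≤ mono x y) :
    ∑ r ∈ N.reactions, (k r * mono x r.1) * (h r.2 - h r.1) ≤ 0 := by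
  classical
  apply sum_le_zero_of_cuts N.reactions (fun r => r.1) (fun r => r.2)
    (fun r => k r * mono x r.1) _ h le_rfl
  intro τ
  exact cut_nonpos N hN k kmin kmax K hkmin hk hK hx h hH τ

end Vale.Agent.P072
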