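import Mathlib

namespace Vale.Agent.P072

/-- A complex on `d` species: a vector of nonnegative integer stoichiometric coefficients. -/
abbrev Cplx (d : ℕ) := Fin d → ℕ

/-- A finite reaction network: finitely many reactions `y → y'` with `y ≠ y'`. -/
structure Network (d : ℕ) where
  reactions : Finset (Cplx d × Cplx d)
  ne : ∀ r ∈ reactions, r.1 ≠ r.2

variable {d : ℕ}

/-- `y → y'` is a reaction of the network. -/
def Network.Step (N : Network d) (y y' : Cplx d) : Prop := (y, y') ∈ N.reactions

/-- Weak reversibility: for every reaction `y → y'` there is a directed path from `y'` to `y`. -/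
def Network.WeaklyReversible (N : Network d) : Prop :=
  ∀ r ∈ N.reactions, Relation.ReflTransGen N.Step r.2 r.1

/-- The reaction vector `y' - y` of a reaction `y → y'`. -/
def reactionVec (r : Cplx d × Cplx d) : Fin d → ℝ := fun i => (r.2 i : ℝ) - (r.1 i : ℝ)

/-- The stoichiometric subspace: the span of all reaction vectors. -/
def Network.stoich (N : Network d) : Submodule ℝ (Fin d → ℝ) :=
  Submodule.span ℝ (reactionVec '' (N.reactions : Set (Cplx d × Cplx d)))

/-- The monomial `x^y`. -/
def mono (x : Fin d → ℝ) (y : Cplx d) : ℝ := ∏ i, x i ^ y i

/-- The mass-action vector field with rate constants `k`. -/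
def massAction (N : Network d) (k : Cplx d × Cplx d → ℝ) (x : Fin d → ℝ) : Fin d → ℝ :=
  fun i => ∑ r ∈ N.reactions, k r * mono x r.1 * reactionVec r i

/-- `x` is a positive solution on the time interval `[0,T)` of the mass-action system with
rates `k t` at time `t`: it stays in the open positive orthant, is continuous, and at every
time has right derivative given by the mass-action field (for constant rates and a solution in
the usual sense this is automatic). -/
structure IsPositiveSolution (N : Network d) (k : ℝ → Cplx d × Cplx d → ℝ) (T : ℝ)
    (x : ℝ → Fin d → ℝ) : Prop where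
  pos : ∀ t ∈ Set.Ico 0 T, ∀ i, 0 < x t i
  cont : ContinuousOn x (Set.Ico 0 T)
  deriv : ∀ t ∈ Set.Ico 0 T, HasDerivWithinAt x (massAction N (k t) (x t)) (Set.Ici t) t

end Vale.Agent.P072
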