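import Vale.Agent.P072.Defs

namespace Vale.Agent.P072

open Finset

variable {d : ℕ}

/-- The entropy `∑ (x_i log x_i - x_i)`. -/
noncomputable def ent (x : Fin d → ℝ) : ℝ := ∑ i, (x i * Real.log (x i) - x i)

/-- The log-monomial pairing `⟨v, log x⟩`. -/
noncomputable def phi (v x : Fin d → ℝ) : ℝ := ∑ i, v i * Real.log (x i)

/-- The one-dimensional Bregman divergence of `t log t - t`. -/
noncomputable def brg (p q : ℝ) : ℝ := p * Real.log p - p * Real.log q - p + q

theorem brg_nonneg {p q : ℝ} (hp : 0 < p) (hq : 0 < q) : 0 ≤ brg p q := by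
  unfold brg
  have h := Real.log_le_sub_one_of_pos (div_pos hq hp)
  rw [Real.log_div hq.ne' hp.ne'] at h
  have h2 := mul_le_mul_of_nonneg_left h hp.le
  have h3 : p * (q / p - 1) = q - p := by field_simp
  rw [h3] at h2
  nlinarith

theorem brg_ge {p q Λ : ℝ} (hp : 0 < p) (hq : 0 < q) (hΛ : 0 ≤ Λ)
    (h : Λ ≤ |Real.log q - Real.log p|) : p * (Λ - 1) ≤ brg p q := by
  unfold brg
  rcases le_abs.mp h with h1 | h1
  · -- q much larger than p
    set ρ := Real.log q - Real.log p with hρ
    have hρ0 : 0 ≤ ρ := le_trans hΛ h1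
    have hq' : q = p * Real.exp ρ := by
      rw [hρ, Real.exp_sub, Real.exp_log hq, Real.exp_log hp]; field_simp
    have hexp := Real.quadratic_le_exp_of_nonneg hρ0
    have hexp2 : ρ + Λ ≤ Real.exp ρ := by nlinarith [sq_nonneg (ρ - 1)]
    have : p * (Λ - 1) ≤ p * (Real.exp ρ - ρ - 1) :=
      mul_le_mul_of_nonneg_left (by linarith) hp.le
    have hlogq : Real.log q = Real.log p + ρ := by rw [hρ]; ring
    have e : p * Real.log p - p * Real.log q - p + q = p * (Real.exp ρ - ρ - 1) := by
      rw [hlogq]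
      linear_combination hq'
    rw [e]; exact this
  · have h2 : Λ ≤ Real.log p - Real.log q := by linarith
    have := mul_le_mul_of_nonneg_left h2 hp.le
    nlinarith

theorem ent_bregman (x y : Fin d → ℝ) :
    ent y = ent x + ∑ i, (y i - x i) * Real.log (x i) + ∑ i, brg (y i) (x i) := by
  unfold ent brg
  rw [← Finset.sum_add_distrib, ← Finset.sum_add_distrib]
  apply Finset.sum_congr rfl
  intro i _
  ring

theorem ent_ge {x y : Fin d → ℝ} (hx : ∀ i, 0 < x i) (hy : ∀ i, 0 < y i) :
    ent x + ∑ i, (y i - x i) * Real.log (x i) ≤ ent y := by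
  rw [ent_bregman x y]
  have : 0 ≤ ∑ i, brg (y i) (x i) := Finset.sum_nonneg fun i _ => brg_nonneg (hy i) (hx i)
  linarith

theorem sum_line_log (xh : Fin d → ℝ) (y : Fin d → ℝ) (v : Fin d → ℝ) (s : ℝ)
    (h : ∀ i, y i - xh i = s * v i) :
    ∑ i, (y i - xh i) * Real.log (xh i) = s * phi v xh := by
  unfold phi
  rw [Finset.mul_sum]
  apply Finset.sum_congr rfl
  intro i _
  rw [h i]; ring

/-- Each term of the log pairing moves in the direction of `s`. -/
theorem term_nonneg {x s v : ℝ} (hs : 0 ≤ s) (hx : 0 < x) (hxs : 0 < x + s * v) :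
    0 ≤ v * (Real.log (x + s * v) - Real.log x) := by
  rcases le_or_gt 0 v with hv | hv
  · apply mul_nonneg hv
    have : x ≤ x + s * v := by nlinarith [mul_nonneg hs hv]
    linarith [Real.log_le_log hx this]
  · apply mul_nonneg_of_nonpos_of_nonpos hv.le
    have : x + s * v ≤ x := by nlinarith [mul_nonneg hs (neg_pos.mpr hv).le]
    linarith [Real.log_le_log hxs this]

theorem phi_line_ge {x v : Fin d → ℝ} {s : ℝ} (hs : 0 ≤ s) (hx : ∀ i, 0 < x i)
    (hxs : ∀ i, 0 < x i + s * v i) (i : Fin d) :
    phi v x + v i * (Real.log (x i + s * v i) - Real.log (x i)) ≤ phi v (fun j => x j + s * v j) := by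
  have hsum : phi v (fun j => x j + s * v j) - phi v x
      = ∑ j, v j * (Real.log (x j + s * v j) - Real.log (x j)) := by
    unfold phi
    rw [← Finset.sum_sub_distrib]
    apply Finset.sum_congr rfl
    intro j _
    ring
  have hsingle : v i * (Real.log (x i + s * v i) - Real.log (x i))
      ≤ ∑ j, v j * (Real.log (x j + s * v j) - Real.log (x j)) :=
    Finset.single_le_sum (f := fun j => v j * (Real.log (x j + s * v j) - Real.log (x j)))
      (fun j _ => term_nonneg hs (hx j) (hxs j)) (Finset.mem_univ i)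
  linarith

/-- Upper bracket: moving along `v` the pairing `⟨v, log x⟩` can be made nonnegative. -/
theorem exists_upper {x v : Fin d → ℝ} (hx : ∀ i, 0 < x i) (hv : ∃ i, v i ≠ 0) :
    ∃ s : ℝ, 0 ≤ s ∧ (∀ i, 0 < x i + s * v i) ∧ 0 ≤ phi v (fun j => x j + s * v j) := by
  by_cases hG : 0 ≤ phi v x
  · refine ⟨0, le_rfl, by simpa using hx, by simpa using hG⟩
  push Not at hG
  set G := phi v x with hGdef
  by_cases hneg : ∃ i, v i < 0
  · -- some coordinate decreases: run it close to zero
    classical
    set T := Finset.univ.filter (fun i => v i < 0) with hT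
    have hTne : T.Nonempty := by
      obtain ⟨i, hi⟩ := hneg
      exact ⟨i, Finset.mem_filter.mpr ⟨Finset.mem_univ i, hi⟩⟩
    obtain ⟨i0, hi0T, hi0min⟩ := Finset.exists_min_image T (fun i => x i / (- v i)) hTne
    have hi0 : v i0 < 0 := (Finset.mem_filter.mp hi0T).2
    have hwpos : 0 < - v i0 := neg_pos.mpr hi0
    set W := - v i0 with hW
    set Tm := (-G) / W + 1 with hTm
    have hTmpos : 0 < Tm := by
      have : 0 ≤ (-G) / W := div_nonneg (by linarith) hwpos.le
      linarith
    set η := Real.exp (-Tm) with hη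
    have hηpos : 0 < η := Real.exp_pos _
    have hηlt : η < 1 := by
      rw [hη, Real.exp_lt_one_iff]; linarith
    set s₀ := x i0 / W with hs₀
    have hs₀pos : 0 < s₀ := div_pos (hx i0) hwpos
    set s := s₀ * (1 - η) with hs
    have hs0 : 0 ≤ s := mul_nonneg hs₀pos.le (by linarith)
    have hslt : s < s₀ := by
      rw [hs]; nlinarith
    have hpos : ∀ i, 0 < x i + s * v i := by
      intro i
      rcases le_or_gt 0 (v i) with hvi | hvi
      · nlinarith [mul_nonneg hs0 hvi, hx i]
      · have hiT : i ∈ T := Finset.mem_filter.mpr ⟨Finset.mem_univ i, hvi⟩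
        have hm := hi0min i hiT
        have hwi : 0 < - v i := neg_pos.mpr hvi
        have h1 : s < x i / (- v i) := lt_of_lt_of_le hslt hm
        have h2 : s * (- v i) < x i := (lt_div_iff₀ hwi).mp h1
        nlinarith
    refine ⟨s, hs0, hpos, ?_⟩
    have hge := phi_line_ge hs0 hx hpos i0
    have hval : x i0 + s * v i0 = x i0 * η := by
      have hW' : v i0 = - W := by rw [hW]; ring
      rw [hW', hs, hs₀]
      field_simp
      ring
    rw [hval, Real.log_mul (hx i0).ne' hηpos.ne', hη, Real.log_exp] at hge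
    have hvW : v i0 = - W := by rw [hW]; ring
    have hcalc : v i0 * (Real.log (x i0) + -Tm - Real.log (x i0)) = W * Tm := by
      rw [hvW]; ring
    rw [hcalc] at hge
    have hWT : W * Tm = -G + W := by
      rw [hTm]; field_simp
    rw [hWT] at hge
    linarith
  · push Not at hneg
    obtain ⟨i, hi⟩ := hv
    have hvi : 0 < v i := lt_of_le_of_ne (hneg i) (Ne.symm hi)
    set Tm := (-G) / v i with hTm
    have hTm0 : 0 ≤ Tm := div_nonneg (by linarith) hvi.le
    set s := x i * Real.exp Tm / v i with hs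
    have hs0 : 0 ≤ s := div_nonneg (mul_nonneg (hx i).le (Real.exp_pos _).le) hvi.le
    have hpos : ∀ j, 0 < x j + s * v j := fun j => by
      nlinarith [mul_nonneg hs0 (hneg j), hx j]
    refine ⟨s, hs0, hpos, ?_⟩
    have hge := phi_line_ge hs0 hx hpos i
    have hval : x i + s * v i = x i * (1 + Real.exp Tm) := by
      rw [hs]; field_simp
    have hlog : Tm ≤ Real.log (1 + Real.exp Tm) := by
      have : Real.exp Tm ≤ 1 + Real.exp Tm := by linarith
      have h2 := Real.log_le_log (Real.exp_pos _) this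
      rwa [Real.log_exp] at h2
    rw [hval, Real.log_mul (hx i).ne' (by positivity)] at hge
    have hmul : v i * Tm = -G := by
      rw [hTm]; field_simp
    have : v i * Tm ≤ v i * Real.log (1 + Real.exp Tm) :=
      mul_le_mul_of_nonneg_left hlog hvi.le
    have e : v i * (Real.log (x i) + Real.log (1 + Real.exp Tm) - Real.log (x i))
        = v i * Real.log (1 + Real.exp Tm) := by ring
    rw [e] at hge
    linarith

/-- On any line through the orthant in a nonzero direction there is a point where the pairing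
vanishes: the one-dimensional Birch point. -/
theorem exists_min_line {x v : Fin d → ℝ} (hx : ∀ i, 0 < x i) (hv : ∃ i, v i ≠ 0) :
    ∃ s : ℝ, (∀ i, 0 < x i + s * v i) ∧ phi v (fun j => x j + s * v j) = 0 := by
  obtain ⟨s1, hs1, hpos1, hphi1⟩ := exists_upper hx hv
  have hv' : ∃ i, (- v) i ≠ 0 := by
    obtain ⟨i, hi⟩ := hv
    exact ⟨i, by simpa using hi⟩
  obtain ⟨s2, hs2, hpos2, hphi2⟩ := exists_upper hx hv'
  have hpos2' : ∀ i, 0 < x i + (-s2) * v i := by
    intro i
    have := hpos2 i
    simp only [Pi.neg_apply] at this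
    nlinarith
  have hphi2' : phi v (fun j => x j + (-s2) * v j) ≤ 0 := by
    have e : phi (-v) (fun j => x j + s2 * (-v) j) = - phi v (fun j => x j + (-s2) * v j) := by
      unfold phi
      rw [← Finset.sum_neg_distrib]
      apply Finset.sum_congr rfl
      intro j _
      simp only [Pi.neg_apply]
      have : x j + s2 * -v j = x j + -s2 * v j := by ring
      rw [this]; ring
    rw [e] at hphi2
    linarith
  have hle : -s2 ≤ s1 := by linarith
  have hposseg : ∀ τ ∈ Set.Icc (-s2) s1, ∀ i, 0 < x i + τ * v i := by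
    intro τ hτ i
    rcases le_or_gt 0 (v i) with hvi | hvi
    · have := mul_le_mul_of_nonneg_right hτ.1 hvi
      linarith [hpos2' i]
    · have := mul_le_mul_of_nonpos_right hτ.2 hvi.le
      linarith [hpos1 i]
  have hcont : ContinuousOn (fun τ : ℝ => phi v (fun j => x j + τ * v j)) (Set.Icc (-s2) s1) := by
    unfold phi
    apply continuousOn_finsetSum
    intro i _
    apply ContinuousOn.mul continuousOn_const
    apply ContinuousOn.log
    · fun_prop
    · intro τ hτ
      exact (hposseg τ hτ i).ne'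
  have hivt := intermediate_value_Icc hle hcont
  obtain ⟨s, hs, hs0⟩ := hivt (Set.mem_Icc.mpr ⟨hphi2', hphi1⟩)
  exact ⟨s, hposseg s hs, hs0⟩

/-- The minimum of the entropy along the line `x + ℝ v`, as a total function. -/
noncomputable def fmin (v x : Fin d → ℝ) : ℝ :=
  sInf {e : ℝ | ∃ s : ℝ, (∀ i, 0 < x i + s * v i) ∧ e = ent (fun j => x j + s * v j)}

theorem ent_line_ge_of_phi_zero {x v : Fin d → ℝ} {s s' : ℝ} (hpos : ∀ i, 0 < x i + s * v i)
    (hpos' : ∀ i, 0 < x i + s' * v i) (h0 : phi v (fun j => x j + s * v j) = 0) :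
    ent (fun j => x j + s * v j) ≤ ent (fun j => x j + s' * v j) := by
  have h := ent_ge (x := fun j => x j + s * v j) (y := fun j => x j + s' * v j) hpos hpos'
  have h2 := sum_line_log (fun j => x j + s * v j) (fun j => x j + s' * v j) v (s' - s)
    (fun i => by ring)
  rw [h2, h0] at h
  linarith

theorem fmin_eq {x v : Fin d → ℝ} {s : ℝ} (hpos : ∀ i, 0 < x i + s * v i)
    (h0 : phi v (fun j => x j + s * v j) = 0) :
    fmin v x = ent (fun j => x j + s * v j) := by
  apply IsLeast.csInf_eq
  refine ⟨⟨s, hpos, rfl⟩, ?_⟩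
  rintro e ⟨s', hpos', rfl⟩
  exact ent_line_ge_of_phi_zero hpos hpos' h0

theorem fmin_le {x v : Fin d → ℝ} (hx : ∀ i, 0 < x i) (hv : ∃ i, v i ≠ 0) {s : ℝ}
    (hpos : ∀ i, 0 < x i + s * v i) : fmin v x ≤ ent (fun j => x j + s * v j) := by
  obtain ⟨s0, hs0, h0⟩ := exists_min_line hx hv
  rw [fmin_eq hs0 h0]
  exact ent_line_ge_of_phi_zero hs0 hpos h0

theorem fmin_le_self {x v : Fin d → ℝ} (hx : ∀ i, 0 < x i) (hv : ∃ i, v i ≠ 0) :
    fmin v x ≤ ent x := by
  have := fmin_le (s := 0) hx hv (by simpa using hx)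
  simpa using this

/-- The open positive orthant. -/
def orth (d : ℕ) : Set (Fin d → ℝ) := {x | ∀ i, 0 < x i}

theorem isOpen_orth : IsOpen (orth d) := by
  have : orth d = ⋂ i, {x : Fin d → ℝ | 0 < x i} := by
    ext x; simp [orth]
  rw [this]
  exact isOpen_iInter_of_finite fun i => isOpen_lt continuous_const (continuous_apply i)

theorem convex_orth : Convex ℝ (orth d) := by
  intro x hx y hy a b ha hb hab i
  simp only [Pi.add_apply, Pi.smul_apply, smul_eq_mul]
  rcases eq_or_lt_of_le ha with h | h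
  · subst h
    have : b = 1 := by linarith
    subst this
    simpa using hy i
  · have := mul_pos h (hx i)
    have := mul_nonneg hb (hy i).le
    linarith

theorem ent_convex {x y : Fin d → ℝ} (hx : ∀ i, 0 < x i) (hy : ∀ i, 0 < y i) {a b : ℝ}
    (ha : 0 ≤ a) (hb : 0 ≤ b) (hab : a + b = 1) :
    ent (fun j => a * x j + b * y j) ≤ a * ent x + b * ent y := by
  have hw : ∀ i, 0 < a * x i + b * y i := by
    have := convex_orth (d := d) (x := x) hx (y := y) hy ha hb hab
    simpa [orth] using this
  have h1 := ent_ge hw hx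
  have h2 := ent_ge hw hy
  have h3 := mul_le_mul_of_nonneg_left h1 ha
  have h4 := mul_le_mul_of_nonneg_left h2 hb
  have hzero : a * ∑ i, (x i - (a * x i + b * y i)) * Real.log (a * x i + b * y i)
      + b * ∑ i, (y i - (a * x i + b * y i)) * Real.log (a * x i + b * y i) = 0 := by
    rw [Finset.mul_sum, Finset.mul_sum, ← Finset.sum_add_distrib]
    apply Finset.sum_eq_zero
    intro i _
    have hb' : b = 1 - a := by linarith
    rw [hb']
    ring
  set E := ent (fun j => a * x j + b * y j) with hE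
  set S1 := ∑ i, (x i - (a * x i + b * y i)) * Real.log (a * x i + b * y i) with hS1
  set S2 := ∑ i, (y i - (a * x i + b * y i)) * Real.log (a * x i + b * y i) with hS2
  have hEE : a * E + b * E = E := by rw [← add_mul, hab, one_mul]
  rw [mul_add] at h3 h4
  linarith

theorem fmin_convex {v : Fin d → ℝ} (hv : ∃ i, v i ≠ 0) : ConvexOn ℝ (orth d) (fmin v) := by
  refine ⟨convex_orth, ?_⟩
  intro x hx y hy a b ha hb hab
  obtain ⟨s1, hs1, h1⟩ := exists_min_line hx hv
  obtain ⟨s2, hs2, h2⟩ := exists_min_line hy hv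
  have hz : (a • x + b • y) ∈ orth d := convex_orth hx hy ha hb hab
  have hposw : ∀ i, 0 < (a • x + b • y) i + (a * s1 + b * s2) * v i := by
    have : (a • (fun j => x j + s1 * v j) + b • (fun j => y j + s2 * v j)) ∈ orth d :=
      convex_orth hs1 hs2 ha hb hab
    intro i
    have h3 := this i
    simp only [Pi.add_apply, Pi.smul_apply, smul_eq_mul] at h3 ⊢
    nlinarith
  have hle := fmin_le (x := a • x + b • y) hz hv hposw
  have hconv := ent_convex hs1 hs2 ha hb hab
  simp only [smul_eq_mul]
  rw [fmin_eq hs1 h1, fmin_eq hs2 h2]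
  refine le_trans hle (le_trans (le_of_eq ?_) hconv)
  congr 1
  funext j
  simp only [Pi.add_apply, Pi.smul_apply, smul_eq_mul]
  ring

theorem fmin_continuousOn {v : Fin d → ℝ} (hv : ∃ i, v i ≠ 0) :
    ContinuousOn (fmin v) (orth d) :=
  (fmin_convex hv).continuousOn isOpen_orth

end Vale.Agent.P072
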