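import Vale.Agent.P072.Gen2Chain

namespace Vale.Agent.P072.Gen

noncomputable section

open Classical

/-- A compact subset of the positive stoichiometric class absorbs every positive solution. -/
theorem absorbing_compact {n : ℕ} (N : Network n) (hN : N.WeaklyReversible) (ε : ℝ) (hε : 0 < ε)
    (c : Fin n → ℝ) (hc : ∀ i, 0 < c i) :
    ∃ K : Set (Fin n → ℝ), IsCompact K ∧ (∀ y ∈ K, (∀ i, 0 < y i) ∧ y - c ∈ N.stoich) ∧
      ∀ x₀ : Fin n → ℝ, (∀ i, 0 < x₀ i) → x₀ - c ∈ N.stoich →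
        ∃ T₀ : ℝ, ∀ k : ℝ → Cplx n × Cplx n → ℝ,
          (∀ t, ∀ r ∈ N.reactions, ε ≤ k t r ∧ k t r ≤ ε⁻¹) →
          ∀ (T : ℝ) (x : ℝ → Fin n → ℝ), IsPositiveSolution N k T x → x 0 = x₀ →
            ∀ t ∈ Set.Ico 0 T, T₀ ≤ t → x t ∈ K := by
  obtain ⟨δ, hδ, R, h⟩ := absorbing N hN ε hε c hc
  refine ⟨Set.Icc (fun _ => δ) (fun _ => R) ∩ {y | y - c ∈ N.stoich}, ?_, ?_, ?_⟩
  · apply IsCompact.inter_right isCompact_Icc
    have hcl : IsClosed (N.stoich : Set (Fin n → ℝ)) := Submodule.closed_of_finiteDimensional _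
    exact hcl.preimage (continuous_id.sub continuous_const)
  · rintro y ⟨hy1, hy2⟩
    refine ⟨fun i => lt_of_lt_of_le hδ (hy1.1 i), hy2⟩
  · intro x₀ hx₀ hxc
    obtain ⟨T₀, hT₀⟩ := h x₀ hx₀ hxc
    refine ⟨T₀, ?_⟩
    intro k hk T x hsol hx0 t ht hT
    have hb := hT₀ k hk T x hsol hx0 t ht hT
    refine ⟨⟨fun i => (hb i).1, fun i => (hb i).2⟩, ?_⟩
    show x t - c ∈ N.stoich
    have h1 := sol_sub_mem N hsol ht
    have e : x t - c = (x t - x 0) + (x 0 - c) := by abel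
    rw [e, hx0]
    rw [hx0] at h1
    exact Submodule.add_mem _ h1 hxc

end

end Vale.Agent.P072.Gen
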