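import Vale.Agent.P072.Gen2Const

namespace Vale.Agent.P072.Gen

noncomputable section

open Classical

variable {d V : ℕ} {B : ℝ}

/-- Membership in the region gives coordinate bounds. -/
theorem Cfg.InK.bounds {cfg : Cfg d V B} {b : ℕ → ℝ} {C : ℝ} {x : Fin d → ℝ}
    (h : cfg.InK b C x) (hx : ∀ i, 0 < x i)
    (hb : ∀ k, 1 ≤ k → k ≤ d → cfg.bm k ≤ b k ∧ b k ≤ cfg.bp k) (hC : C ≤ cfg.Cp) (j : Fin d) :
    cfg.θ 1 ≤ x j ∧ x j ≤ cfg.M := by
  obtain ⟨Zm, hZm0, hZm⟩ := exists_ub (fun m => (cfg.pk m).Zbar) d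
  obtain ⟨R', hR'⟩ : ∃ R' : ℝ, R' = ∑ i, |Real.log (x i)| := ⟨_, rfl⟩
  have hR'b : ∀ i, |Real.log (x i)| ≤ R' := by
    intro i
    rw [hR']
    exact Finset.single_le_sum (f := fun i => |Real.log (x i)|) (fun _ _ => abs_nonneg _)
      (Finset.mem_univ i)
  obtain ⟨R, hR⟩ : ∃ R : ℝ, R = R' + |cfg.p0.Zbar| + Zm + 2 := ⟨_, rfl⟩
  have hZa := abs_nonneg cfg.p0.Zbar
  have hZl := le_abs_self cfg.p0.Zbar
  have s : St cfg R R' x b C 0 := by
    refine ⟨hx, hR'b, ?_, ?_, hb, hC, le_rfl, cfg.ηpos, ?_, ?_⟩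
    · rw [hR]
      linarith
    · intro k _ hk
      have := hZm k hk
      rw [hR]
      linarith
    · intro π L hadm hlen
      have := h.1 R π L hadm hlen
      linarith
    · intro π k L h1 h2 hadm hlen
      by_cases hlt : blk x π k < cfg.ρ k
      · have := h.2 R π k L h1 h2 hadm hlen hlt
        exact le_trans (min_le_left _ _) (by linarith)
      · exact le_trans (min_le_right _ _) (by linarith)
  exact ⟨s.low j, s.up j⟩

/-- The network constants. -/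
theorem exists_NV {n : ℕ} (N : Network n) : ∃ V, 1 ≤ V ∧ NV N V := by
  refine ⟨1 + ∑ r ∈ N.reactions, ∑ i, (r.1 i + r.2 i), by omega, ?_, ?_⟩
  · have hcomplex : ∀ y : Cplx n, (∃ r ∈ N.reactions, r.1 = y ∨ r.2 = y) → ∀ i,
        y i + 1 ≤ 1 + ∑ r ∈ N.reactions, ∑ i, (r.1 i + r.2 i) := by
      rintro y ⟨r, hr, hy⟩ i
      have h1 : r.1 i + r.2 i ≤ ∑ i, (r.1 i + r.2 i) :=
        Finset.single_le_sum (f := fun i => r.1 i + r.2 i) (fun _ _ => Nat.zero_le _)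
          (Finset.mem_univ i)
      have h2 : ∑ i, (r.1 i + r.2 i) ≤ ∑ r ∈ N.reactions, ∑ i, (r.1 i + r.2 i) :=
        Finset.single_le_sum (f := fun r : Cplx n × Cplx n => ∑ i, (r.1 i + r.2 i))
          (fun _ _ => Nat.zero_le _) hr
      rcases hy with rfl | rfl
      · omega
      · omega
    intro y y' hr hne i
    obtain ⟨h1, h2⟩ := mem_complexes_of_reach N hr hne
    have h3 := hcomplex y' h1 i
    have h4 := hcomplex y h2 i
    rw [abs_le]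
    constructor <;> omega
  · intro r hr
    have h1 : ∑ i, r.1 i ≤ ∑ i, (r.1 i + r.2 i) :=
      Finset.sum_le_sum (fun i _ => Nat.le_add_right _ _)
    have h2 : ∑ i, (r.1 i + r.2 i) ≤ ∑ r ∈ N.reactions, ∑ i, (r.1 i + r.2 i) :=
      Finset.single_le_sum (f := fun r : Cplx n × Cplx n => ∑ i, (r.1 i + r.2 i))
        (fun _ _ => Nat.zero_le _) hr
    omega

/-- The constant in the exponent. -/
theorem exists_BK {n : ℕ} (N : Network n) {ε : ℝ} (hε : 0 < ε) :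
    ∃ B : ℝ, (N.reactions.card : ℝ) * (2 * ε⁻¹) ≤ Real.exp B * ε := by
  have hinvpos : 0 < ε⁻¹ := inv_pos.mpr hε
  refine ⟨1 + (N.reactions.card : ℝ) * (2 * (ε⁻¹ * ε⁻¹)), ?_⟩
  have h1 := Real.add_one_le_exp (1 + (N.reactions.card : ℝ) * (2 * (ε⁻¹ * ε⁻¹)))
  have h2 : (N.reactions.card : ℝ) * (2 * (ε⁻¹ * ε⁻¹))
      ≤ Real.exp (1 + (N.reactions.card : ℝ) * (2 * (ε⁻¹ * ε⁻¹))) := by linarith
  have h3 := mul_le_mul_of_nonneg_right h2 hε.le
  have e : (N.reactions.card : ℝ) * (2 * (ε⁻¹ * ε⁻¹)) * ε = (N.reactions.card : ℝ) * (2 * ε⁻¹) := by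
    field_simp
  rwa [e] at h3

/-- A state with all coordinates above the barrier and low entropy lies in the region. -/
theorem start_in {cfg : Cfg d V B} {W0 A τ : ℝ} (hs : IsScale cfg W0 A τ) (hA : 1 ≤ A) (hτ : 0 ≤ τ)
    {c : Fin d → ℝ} (hc : ∀ j, 0 < c j) (h1 : ∀ j, Real.exp (- (τ / 2)) ≤ c j)
    (h2 : ∑ j, (Ee (c j) + Par.Zbar ⟨d, V, W0⟩ * c j) ≤ Real.exp (3 * τ)) (b : ℕ → ℝ) :
    cfg.InK b cfg.Cp c := by
  have hp : cfg.p0 = ⟨d, V, W0⟩ := by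
    unfold Cfg.p0
    rw [hs.w0]
  constructor
  · intro R π L hadm hlen
    have g : Par.Good cfg.p0 B := cfg.good0
    have h3 : val cfg.p0 c π L ≤ ∑ j, (Ee (c j) + cfg.p0.Zbar * c j) :=
      psi_init (p := cfg.p0) g hc π hadm hlen
    rw [hp] at h3
    rw [hs.Cp, hp]
    exact le_trans h3 h2
  · intro R π k L h1k hkd _ _ hlt
    exfalso
    have hdpos : 0 < d := by omega
    have h3 := blk_ge hc π (i := ⟨0, hdpos⟩) (k := k) (by show 0 < k; omega)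
    have h4 := h1 (π ⟨0, hdpos⟩)
    rw [hs.ρ k] at hlt
    have h5 : Real.exp (- (Tl d A τ k / 2)) ≤ Real.exp (- (τ / 2)) := by
      apply Real.exp_le_exp.mpr
      have := Tl_ge (d := d) hA hτ k
      linarith
    linarith

/-- Every positive solution of a weakly reversible system stays in a compact subset of the
positive orthant depending only on the network, the rate bounds and the initial state. -/
theorem bounded_persistent {n : ℕ} (N : Network n) (hN : N.WeaklyReversible) (ε : ℝ) (hε : 0 < ε)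
    (c : Fin n → ℝ) (hc : ∀ i, 0 < c i) :
    ∃ δ : ℝ, 0 < δ ∧ ∃ R : ℝ, ∀ k : ℝ → Cplx n × Cplx n → ℝ,
      (∀ t, ∀ r ∈ N.reactions, ε ≤ k t r ∧ k t r ≤ ε⁻¹) →
      ∀ (T : ℝ) (x : ℝ → Fin n → ℝ), IsPositiveSolution N k T x → x 0 = c →
        ∀ t ∈ Set.Ico 0 T, ∀ i, δ ≤ x t i ∧ x t i ≤ R := by
  by_cases hn : n = 0
  · subst hn
    exact ⟨1, one_pos, 1, fun _ _ _ _ _ _ _ _ i => i.elim0⟩
  have hn1 : 1 ≤ n := by omega
  obtain ⟨V', hV1, nv⟩ := exists_NV N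
  obtain ⟨B', hBK⟩ := exists_BK N hε
  obtain ⟨W0, A, τ₀, hA, hτ₀, hcfg⟩ := exists_cfg n V' hV1 hn1 B'
  obtain ⟨S, hS⟩ : ∃ S : ℝ, S = ∑ j, (Ee (c j) + Par.Zbar ⟨n, V', W0⟩ * c j) := ⟨_, rfl⟩
  obtain ⟨Lc, hLc⟩ : ∃ Lc : ℝ, Lc = ∑ i, |Real.log (c i)| := ⟨_, rfl⟩
  have hLc0 : 0 ≤ Lc := by
    rw [hLc]
    exact Finset.sum_nonneg fun _ _ => abs_nonneg _
  obtain ⟨τ, hτ⟩ : ∃ τ : ℝ, τ = τ₀ + 2 * Lc + |S| := ⟨_, rfl⟩
  have hSa := abs_nonneg S
  have hτ1 : τ₀ ≤ τ := by rw [hτ]; linarith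
  have hτ0 : 0 ≤ τ := by linarith
  obtain ⟨cfg, hsc⟩ := hcfg τ hτ1
  have hstart : cfg.InK cfg.bm cfg.Cp c := by
    refine start_in hsc hA hτ0 hc ?_ ?_ _
    · intro j
      have h1 : |Real.log (c j)| ≤ Lc := by
        rw [hLc]
        exact Finset.single_le_sum (f := fun i => |Real.log (c i)|) (fun _ _ => abs_nonneg _)
          (Finset.mem_univ j)
      have h2 := neg_abs_le (Real.log (c j))
      rw [← Real.le_log_iff_exp_le (hc j)]
      rw [hτ]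
      linarith
    · rw [← hS]
      have h1 := Real.add_one_le_exp (3 * τ)
      have h2 := le_abs_self S
      rw [hτ] at h1 ⊢
      linarith
  have hθ := cfg.θpos 1 le_rfl hn1
  refine ⟨cfg.θ 1, hθ, cfg.M, ?_⟩
  intro k hk T x hsol hx0 t ht i
  have hmain := evolve cfg N hN nv hε hBK hk hsol cfg.bm (fun _ => 0) cfg.Cp 0 0
    (fun _ _ _ => le_rfl) le_rfl
    (fun s _ j h1 h2 => by
      constructor
      · simp
      · simpa using cfg.bmp j h1 h2)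
    (fun s _ => by simp)
    (Or.inl rfl) (by rw [hx0]; exact hstart) t ht
  refine Cfg.InK.bounds hmain (hsol.pos t ht) ?_ (by simp) i
  intro j h1 h2
  constructor
  · simp
  · simpa using cfg.bmp j h1 h2

end

end Vale.Agent.P072.Gen
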