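import Vale.Agent.P072.Gen2Flow

namespace Vale.Agent.P072.Gen

noncomputable section

open Classical Filter Topology

/-- The exit-time argument, needing the step only just above the level. -/
theorem max_le_of_right' {ι : Type*} (W : Finset ι) (g : ι → ℝ → ℝ) {T C η : ℝ} (hη : 0 < η)
    (h0 : ∀ u ∈ W, g u 0 ≤ C)
    (hcont : ∀ u ∈ W, ContinuousOn (g u) (Set.Ico 0 T))
    (hstep : ∀ t ∈ Set.Ico 0 T, ∀ u ∈ W, C ≤ g u t → g u t < C + η →
      (∀ v ∈ W, g v t ≤ g u t) →
      ∀ ε > 0, ∀ᶠ s in 𝓝[>] t, g u s ≤ g u t + ε * (s - t)) :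
    ∀ t ∈ Set.Ico 0 T, ∀ u ∈ W, g u t ≤ C := by
  classical
  have key : ∀ ε > 0, ∀ t₁ ∈ Set.Ico 0 T, ε * t₁ < η → ∀ u ∈ W, g u t₁ ≤ C + ε * t₁ := by
    intro ε hε t₁ ht₁ hsmall
    set S : Set ℝ := {t | ∀ u ∈ W, g u t ≤ C + ε * t} with hS
    have hsub : Set.Icc 0 t₁ ⊆ Set.Ico 0 T := fun t ht => ⟨ht.1, lt_of_le_of_lt ht.2 ht₁.2⟩
    have hclosed : IsClosed (S ∩ Set.Icc 0 t₁) := by
      have e : S ∩ Set.Icc 0 t₁ = Set.Icc 0 t₁ ∩ ⋂ u ∈ W,
          (Set.Icc 0 t₁ ∩ (fun t => g u t - (C + ε * t)) ⁻¹' Set.Iic 0) := by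
        ext t
        simp only [hS, Set.mem_inter_iff, Set.mem_ofPred_eq, Set.mem_iInter, Set.mem_preimage,
          Set.mem_Iic, sub_nonpos]
        constructor
        · rintro ⟨h1, h2⟩
          exact ⟨h2, fun u hu => ⟨h2, h1 u hu⟩⟩
        · rintro ⟨h2, h1⟩
          exact ⟨fun u hu => (h1 u hu).2, h2⟩
      rw [e]
      apply IsClosed.inter isClosed_Icc
      apply isClosed_biInter
      intro u hu
      apply ContinuousOn.preimage_isClosed_of_isClosed _ isClosed_Icc isClosed_Iic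
      apply ContinuousOn.sub ((hcont u hu).mono hsub)
      fun_prop
    have ha : (0:ℝ) ∈ S := by
      intro u hu
      simpa using h0 u hu
    have hgt : ∀ x ∈ S ∩ Set.Ico 0 t₁, S ∈ 𝓝[>] x := by
      rintro x ⟨hxS, hx⟩
      have hx0 : 0 ≤ x := hx.1
      have hxT : x ∈ Set.Ico 0 T := ⟨hx.1, lt_trans hx.2 ht₁.2⟩
      have hev : ∀ᶠ s in 𝓝[>] x, ∀ u ∈ W, g u s ≤ C + ε * s := by
        rw [Filter.eventually_all_finset]
        intro u hu
        rcases lt_or_eq_of_le (hxS u hu) with hlt | heq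
        · have hIoi : Set.Ico 0 T ∈ 𝓝[>] x := by
            apply mem_of_superset (Ioo_mem_nhdsGT hxT.2)
            intro s hs
            exact ⟨le_trans hx0 hs.1.le, hs.2⟩
          have hcw : ContinuousWithinAt (fun t => g u t - (C + ε * t)) (Set.Ioi x) x := by
            have h1 : ContinuousWithinAt (g u) (Set.Ioi x) x :=
              ((hcont u hu) x hxT).mono_of_mem_nhdsWithin hIoi
            apply ContinuousWithinAt.sub h1
            fun_prop
          have hneg : g u x - (C + ε * x) < 0 := by linarith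
          have := hcw.tendsto.eventually (gt_mem_nhds hneg)
          filter_upwards [this] with s hs
          linarith
        · have hact : ∀ v ∈ W, g v x ≤ g u x := fun v hv => by
            rw [heq]; exact hxS v hv
          have hC : C ≤ g u x := by
            rw [heq]
            have := mul_nonneg hε.le hx0
            linarith
          have hlt : g u x < C + η := by
            rw [heq]
            have : ε * x ≤ ε * t₁ := mul_le_mul_of_nonneg_left hx.2.le hε.le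
            linarith
          have := hstep x hxT u hu hC hlt hact ε hε
          filter_upwards [this] with s hs
          rw [heq] at hs
          nlinarith
      filter_upwards [hev] with s hs
      exact hs
    have hall := IsClosed.Icc_subset_of_forall_mem_nhdsWithin hclosed ha hgt
    intro u hu
    exact hall (Set.mem_Icc.mpr ⟨ht₁.1, le_rfl⟩) u hu
  intro t ht u hu
  apply le_of_forall_pos_le_add
  intro δ hδ
  have hpos : 0 < t + 1 := by linarith [ht.1]
  set m := min δ η with hm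
  have hm0 : 0 < m := lt_min hδ hη
  have hε : 0 < m / (2 * (t + 1)) := by positivity
  have h2 : m / (2 * (t + 1)) * t ≤ m / 2 := by
    rw [div_mul_eq_mul_div, div_le_iff₀ (by positivity)]
    nlinarith [ht.1]
  have h1 := key _ hε t ht (by
    have : m ≤ η := min_le_right _ _
    linarith) u hu
  have h3 : m ≤ δ := min_le_left _ _
  linarith

/-- A right-derivative bound gives an eventual one-sided estimate. -/
theorem eventually_le_of_deriv {f : ℝ → ℝ} {f' t ε : ℝ}
    (hd : HasDerivWithinAt f f' (Set.Ici t) t) (h : f' < ε) :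
    ∀ᶠ s in 𝓝[>] t, f s ≤ f t + ε * (s - t) := by
  have hslope := hd.Ioi_of_Ici.limsup_slope_le' (lt_irrefl t) h
  have hself : ∀ᶠ s in 𝓝[>] t, t < s := self_mem_nhdsWithin
  filter_upwards [hslope, hself] with s h1 h4
  rw [slope_def_field, div_lt_iff₀ (sub_pos.mpr h4)] at h1
  linarith

/-- Lower bound for the greedy term of a small number. -/
theorem Ee_lower {u θ G : ℝ} (hu : 0 < u) (hθ : u ≤ θ) (hG : θ ≤ Real.exp (-1 - G)) :
    - (4 * Real.sqrt θ) ≤ Ee u - G * u := by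
  have h1 : Real.log u ≤ -1 - G := by
    rw [Real.log_le_iff_le_exp hu]
    exact le_trans hθ hG
  have hs : 0 < Real.sqrt u := Real.sqrt_pos.mpr hu
  have hsq : Real.sqrt u * Real.sqrt u = u := Real.mul_self_sqrt hu.le
  have h2 : - Real.log (Real.sqrt u) ≤ (Real.sqrt u)⁻¹ := by
    have h3 := Real.log_le_sub_one_of_pos (inv_pos.mpr hs)
    rw [Real.log_inv] at h3
    linarith
  have h4 : Real.log u = 2 * Real.log (Real.sqrt u) := by
    conv_lhs => rw [← hsq, Real.log_mul hs.ne' hs.ne']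
    ring
  have h5 : - (u * Real.log u) ≤ 2 * Real.sqrt u := by
    rw [h4]
    have h6 := mul_le_mul_of_nonneg_left h2 (by positivity : 0 ≤ 2 * u)
    have h7 : 2 * u * (Real.sqrt u)⁻¹ = 2 * Real.sqrt u := by
      nth_rewrite 1 [← hsq]
      field_simp
    rw [h7] at h6
    linarith
  have h8 : Real.sqrt u ≤ Real.sqrt θ := Real.sqrt_le_sqrt hθ
  unfold Ee
  have h9 := mul_le_mul_of_nonneg_left h1 hu.le
  nlinarith

/-- Positive lower bound for the gaps of integer combinations of an admissible list. -/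
def Par.Bm (p : Par) : ℕ := 1 + ∑ r ∈ Finset.range p.d, p.bnd r

def Par.smin (p : Par) : ℝ := min 1 (p.zt p.d * p.W0) / (p.Bm : ℝ) ^ p.d

theorem Par.Bm_ge (p : Par) : (1 : ℝ) ≤ p.Bm := by
  unfold Par.Bm
  push_cast
  have : (0 : ℝ) ≤ ∑ r ∈ Finset.range p.d, (p.bnd r : ℝ) := by positivity
  linarith

theorem Par.bnd_le_Bm (p : Par) {r : ℕ} (h : r < p.d) : (p.bnd r : ℝ) ≤ p.Bm := by
  unfold Par.Bm
  push_cast
  have h1 : (p.bnd r : ℝ) ≤ ∑ r ∈ Finset.range p.d, (p.bnd r : ℝ) :=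
    Finset.single_le_sum (f := fun r => (p.bnd r : ℝ)) (fun _ _ => by positivity)
      (Finset.mem_range.mpr h)
  linarith

theorem Par.sepv_ge {p : Par} {B R : ℝ} (g : p.Good B) : ∀ Q : List ℝ, p.Adm R Q →
    Q.length ≤ p.d → min 1 (p.zt p.d * p.W0) / (p.Bm : ℝ) ^ Q.length ≤ p.sepv Q
  | [], _, _ => by
    simp only [List.length_nil, pow_zero, div_one]
    exact min_le_right _ _
  | l :: Q, hQ, hlen => by
    have hlen' : Q.length < p.d := hlen
    have ih := Par.sepv_ge g Q hQ.1 hlen'.le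
    have hBm := p.Bm_ge
    have hBm0 : (0 : ℝ) < p.Bm := by linarith
    set m := min 1 (p.zt p.d * p.W0) with hm
    have hm1 : m ≤ 1 := min_le_left _ _
    have hm0 : 0 ≤ m := by
      apply le_min zero_le_one
      exact mul_nonneg (p.zt_nonneg _) g.W0pos.le
    have hpow : (0 : ℝ) < (p.Bm : ℝ) ^ Q.length := by positivity
    have e : m / (p.Bm : ℝ) ^ (l :: Q).length = m / (p.Bm : ℝ) ^ Q.length / p.Bm := by
      simp only [List.length_cons, pow_succ]
      field_simp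
    have ht : m / (p.Bm : ℝ) ^ Q.length / p.Bm ≤ m / (p.Bm : ℝ) ^ Q.length :=
      div_le_self (by positivity) hBm
    have ht1 : m / (p.Bm : ℝ) ^ Q.length ≤ 1 := by
      rw [div_le_one hpow]
      have : (1 : ℝ) ≤ (p.Bm : ℝ) ^ Q.length := one_le_pow₀ hBm
      linarith
    rw [e]
    show _ ≤ if p.wall Q l then p.sepv Q / (p.bnd (p.rr Q) : ℝ) else min (p.sepv Q) (p.Zv Q)
    split_ifs
    · have hH : (0 : ℝ) < (p.bnd (p.rr Q) : ℝ) := by
        exact_mod_cast p.one_le_bnd g.hV (p.rr Q)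
      have hH2 := p.bnd_le_Bm (p.rr_lt hlen')
      have hsnn : 0 ≤ p.sepv Q := le_trans (by positivity) ih
      calc m / (p.Bm : ℝ) ^ Q.length / p.Bm ≤ p.sepv Q / p.Bm :=
            div_le_div_of_nonneg_right ih hBm0.le
        _ ≤ p.sepv Q / (p.bnd (p.rr Q) : ℝ) := div_le_div_of_nonneg_left hsnn hH hH2
    · apply le_min
      · linarith
      · have := g.Zv_ge3 Q
        linarith

theorem Par.zt_pos {p : Par} (hV : 1 ≤ p.V) (r : ℕ) : 0 < p.zt (r + 1) := by
  have h1 := p.zt_succ_ge1 r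
  have h2 : (1 : ℝ) ≤ (p.bnd r : ℝ) := by exact_mod_cast p.one_le_bnd hV r
  have h3 := p.kap_ge
  have h4 := p.zz_ge r
  have h5 : 0 < ((p.bnd r : ℝ) ^ 2) * (2 * p.zz r + p.kap) := by positivity
  linarith

theorem Par.smin_pos {p : Par} {B : ℝ} (g : p.Good B) (hd : 1 ≤ p.d) : 0 < p.smin := by
  unfold Par.smin
  have hBm := p.Bm_ge
  have h1 : 0 < p.zt p.d := by
    obtain ⟨r, hr⟩ : ∃ r, p.d = r + 1 := ⟨p.d - 1, by omega⟩
    rw [hr]
    exact Par.zt_pos g.hV r
  have h2 : 0 < min 1 (p.zt p.d * p.W0) := lt_min one_pos (mul_pos h1 g.W0pos)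
  have h3 : (0 : ℝ) < p.Bm := by linarith
  positivity

theorem Par.smin_le {p : Par} {B R : ℝ} (g : p.Good B) {L : List ℝ} (hadm : p.Adm R L)
    (hlen : L.length = p.d) : p.smin ≤ p.sepv L := by
  have h := Par.sepv_ge g L hadm hlen.le
  rw [hlen] at h
  exact h

theorem Par.adm_mono {p : Par} {R R' : ℝ} (h : R ≤ R') : ∀ L : List ℝ, p.Adm R L → p.Adm R' L
  | [], _ => trivial
  | _ :: Q, hL => ⟨Par.adm_mono h Q hL.1, hL.2.1, hL.2.2.1, le_trans hL.2.2.2 h⟩

/-- Pairing with a reaction difference is zero or bounded away from zero. -/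
theorem gap_lower {n : ℕ} {p : Par} {B R : ℝ} (hk : p.d ≤ n) (g : p.Good B) {π : Equiv.Perm (Fin n)}
    {L : List ℝ} (hadm : p.Adm R L) (hlen : L.length = p.d) (c c' : Cplx n)
    (hV : ∀ i, |(c i : ℤ) - (c' i : ℤ)| ≤ (p.V : ℤ)) :
    ∑ i, (c i : ℝ) * ltil L π i - ∑ i, (c' i : ℝ) * ltil L π i = 0 ∨
      p.smin ≤ |∑ i, (c i : ℝ) * ltil L π i - ∑ i, (c' i : ℝ) * ltil L π i| := by
  have hlen' : L.length ≤ n := by omega
  set v : ℕ → ℤ := fun i => if hi : i < n then
    (c (π ⟨i, hi⟩) : ℤ) - (c' (π ⟨i, hi⟩) : ℤ) else 0 with hv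
  have hvb : ∀ i, |v i| ≤ (p.V : ℤ) := by
    intro i
    rw [hv]
    dsimp only
    by_cases hi : i < n
    · rw [dif_pos hi]
      exact hV _
    · rw [dif_neg hi]
      simp
  have hvr : ∀ i, (v i : ℝ)
      = ext (fun j => (c (π j) : ℝ)) i - ext (fun j => (c' (π j) : ℝ)) i := by
    intro i
    rw [hv]
    unfold ext
    dsimp only
    by_cases hi : i < n
    · simp only [dif_pos hi]
      push_cast
      rfl
    · simp only [dif_neg hi]
      simp
  have hdot : Par.dot v L = ∑ i, (c i : ℝ) * ltil L π i - ∑ i, (c' i : ℝ) * ltil L π i := by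
    rw [Par.dot_eq_dotr, dotr_congr hvr, dotr_sub, dotr_ext' (fun j => (c j : ℝ)) π hlen',
      dotr_ext' (fun j => (c' j : ℝ)) π hlen']
    have e1 : ∀ u : Cplx n, ∑ j, ltil L π j * (u j : ℝ) = ∑ i, (u i : ℝ) * ltil L π i :=
      fun u => Finset.sum_congr rfl fun i _ => mul_comm _ _
    rw [e1, e1]
  rw [← hdot]
  have hI := Par.sep_inv g.hV g.W0pos L hadm hlen.le
  have hcomb := hI.comb
  have hrem : p.d - L.length = 0 := by omega
  rw [hrem] at hcomb
  have hH : ∀ i, |v i| ≤ ((p.bnd 0 : ℕ) : ℤ) := hvb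
  rcases hcomb _ (Par.dot_mem hH L) with h0 | h1
  · left; exact h0
  · right; exact le_trans (Par.smin_le g hadm hlen) h1

/-- From the alignment to the flow bounds. -/
theorem flow_of_align {n : ℕ} {N : Network n} (hN : N.WeaklyReversible)
    {k : Cplx n × Cplx n → ℝ} {ε B : ℝ} (hε : 0 < ε)
    (hk : ∀ r ∈ N.reactions, ε ≤ k r ∧ k r ≤ ε⁻¹)
    (hBK : (N.reactions.card : ℝ) * (2 * ε⁻¹) ≤ Real.exp B * ε)
    {x : Fin n → ℝ} (hx : ∀ i, 0 < x i) (l : Fin n → ℝ)
    (halign : ∀ y y' : Cplx n, Relation.ReflTransGen N.Step y' y →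
      ∑ i, (y' i : ℝ) * l i < ∑ i, (y i : ℝ) * l i → B ≤ phi (diffVec y y') x) :
    ∑ i, l i * massAction N k x i ≤ 0 ∧
    ∀ r₀ ∈ N.reactions, ∑ i, l i * massAction N k x i ≤
      -(1 / 2) * ((k r₀ * mono x r₀.1) *
        |∑ i, (r₀.2 i : ℝ) * l i - ∑ i, (r₀.1 i : ℝ) * l i|) := by
  set h : Cplx n → ℝ := fun y => ∑ i, (y i : ℝ) * l i with hh
  have hH : ∀ y y' : Cplx n, Relation.ReflTransGen N.Step y' y → h y' < h y →
      Real.exp B * mono x y' ≤ mono x y := by
    intro y y' hr hlt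
    exact mono_ratio hx (halign y y' hr hlt)
  have hinv : 0 < ε⁻¹ := inv_pos.mpr hε
  have hK1 : (N.reactions.card : ℝ) * ε⁻¹ ≤ Real.exp B * ε := by
    have h1 : (0 : ℝ) ≤ (N.reactions.card : ℝ) * ε⁻¹ := by positivity
    nlinarith
  rw [inner_massAction]
  constructor
  · exact flow_nonpos N hN k ε ε⁻¹ (Real.exp B) hε.le hk hK1 hx h hH
  · intro r₀ hr₀
    exact flow_strict N hN k hε hk hBK hx h hH hr₀

end

end Vale.Agent.P072.Gen
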