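import Vale.Agent.P072.Gen2Shift

namespace Vale.Agent.P072.Gen

noncomputable section

open Classical

variable {d V : ℕ} {B : ℝ}

/-- The shell step: the large region enters the small region within a fixed time. -/
theorem shell {cfg : Cfg d V B} {W0 A τ : ℝ} (hs : IsScale cfg W0 A τ) (hA : 1 ≤ A) (hτ4 : 4 ≤ τ)
    (N : Network d) (hN : N.WeaklyReversible) (nv : NV N V) {ε : ℝ} (hε : 0 < ε)
    (hBK : (N.reactions.card : ℝ) * (2 * ε⁻¹) ≤ Real.exp B * ε) (hd : 1 ≤ d)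
    {c : Fin d → ℝ} (hc : ∀ j, 0 < c j) (hcτ : ∀ j, Real.exp (- τ) < c j)
    (hSτ : ∑ j, (Ee (c j) + Par.Zbar ⟨d, V, W0⟩ * c j) < Real.exp τ) :
    ∃ D : ℝ, 0 ≤ D ∧ ∀ k : ℝ → Cplx d × Cplx d → ℝ,
      (∀ t, ∀ r ∈ N.reactions, ε ≤ k t r ∧ k t r ≤ ε⁻¹) →
      ∀ (T : ℝ) (x : ℝ → Fin d → ℝ), IsPositiveSolution N k T x → x 0 - c ∈ N.stoich →
        cfg.InK cfg.bm cfg.Cp (x 0) → ∀ t ∈ Set.Ico 0 T, D ≤ t →
          cfg.InK cfg.bp (Real.exp τ) (x t) := by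
  have hθ := cfg.θpos 1 le_rfl hd
  have hsm := cfg.smpos
  obtain ⟨κ, hκ⟩ : ∃ κ : ℝ, κ = (1 / 2) * (ε * ((cfg.θ 1) ^ V * cfg.sm)) := ⟨_, rfl⟩
  have hκ0 : 0 < κ := by rw [hκ]; positivity
  have hCp : cfg.Cp = Real.exp (3 * τ) := hs.Cp
  have hCm : Real.exp τ ≤ cfg.Cp := by
    rw [hCp]
    exact Real.exp_le_exp.mpr (by linarith)
  have hE := Real.exp_pos τ
  have hCp0 : 0 < cfg.Cp := by linarith
  obtain ⟨ι, hι⟩ : ∃ ι : ℝ, ι = κ / (1 + cfg.Cp) := ⟨_, rfl⟩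
  have hι0 : 0 < ι := by rw [hι]; positivity
  have hικ : (1 + cfg.Cp) * ι = κ := by
    rw [hι]
    field_simp
  have hp : cfg.p0 = ⟨d, V, W0⟩ := by
    unfold Cfg.p0
    rw [hs.w0]
  refine ⟨1 / ι, by positivity, ?_⟩
  intro k hk T x hsol hxc h0 t ht hDt
  obtain ⟨D, hD⟩ : ∃ D : ℝ, D = 1 / ι := ⟨_, rfl⟩
  rw [← hD] at hDt
  have hD0 : 0 < D := by rw [hD]; positivity
  have hιD : ι * D = 1 := by
    rw [hD]
    field_simp
  have hDT : D < T := lt_of_le_of_lt hDt ht.2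
  have hsolD := sol_restrict hsol hDT.le
  have hbm0 : ∀ j, 1 ≤ j → j ≤ d → 0 ≤ cfg.bp j - cfg.bm j := fun j h1 h2 => by
    have := cfg.bmp j h1 h2
    linarith
  have hbp1 : ∀ j, cfg.bp j - cfg.bm j ≤ 1 := fun j => by
    rw [hs.bp j, hs.bm j]
    have h1 := Real.exp_pos (- (3 * Tl d A τ j))
    have h2 : Real.exp (- Tl d A τ j) ≤ 1 := Real.exp_le_one_iff.mpr (by
      have := Tl_ge (d := d) hA (by linarith : 0 ≤ τ) j
      linarith)
    linarith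
  have hscale : ∀ s ∈ Set.Ico 0 D, 0 ≤ ι * s ∧ ι * s ≤ 1 := fun s hs' => by
    constructor
    · exact mul_nonneg hι0.le hs'.1
    · rw [← hιD]
      exact mul_le_mul_of_nonneg_left hs'.2.le hι0.le
  have hmain := evolve cfg N hN nv hε hBK hk hsolD cfg.bm (fun j => (cfg.bp j - cfg.bm j) * ι) cfg.Cp
    ((cfg.Cp - Real.exp τ) * ι) κ
    (fun j _ _ => by
      have h1 := hbp1 j
      nlinarith)
    (by nlinarith)
    (fun s hs' j h1 h2 => by
      obtain ⟨h3, h4⟩ := hscale s hs'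
      have h5 := hbm0 j h1 h2
      have e : (cfg.bp j - cfg.bm j) * ι * s = (cfg.bp j - cfg.bm j) * (ι * s) := by ring
      constructor
      · rw [e]
        nlinarith
      · rw [e]
        nlinarith)
    (fun s hs' => by
      obtain ⟨h3, _⟩ := hscale s hs'
      have h5 : 0 ≤ cfg.Cp - Real.exp τ := by linarith
      have e : (cfg.Cp - Real.exp τ) * ι * s = (cfg.Cp - Real.exp τ) * (ι * s) := by ring
      rw [e]
      nlinarith)
    (Or.inr ⟨c, hc,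
      (fun m h1 h2 j => by
        rw [hs.bp m]
        refine lt_of_le_of_lt (Real.exp_le_exp.mpr ?_) (hcτ j)
        have := Tl_ge (d := d) hA (by linarith : 0 ≤ τ) m
        linarith),
      (fun s hs' => by
        have h1 := sol_sub_mem N hsolD hs'
        have e : x s - c = (x s - x 0) + (x 0 - c) := by abel
        rw [e]
        exact Submodule.add_mem _ h1 hxc),
      (fun s hs' => by
        obtain ⟨_, h4⟩ := hscale s hs'
        have h5 : 0 ≤ cfg.Cp - Real.exp τ := by linarith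
        have e : (cfg.Cp - Real.exp τ) * ι * s = (cfg.Cp - Real.exp τ) * (ι * s) := by ring
        rw [e, hp]
        nlinarith),
      hκ.le⟩)
    h0
  have hsubI : Set.Icc 0 D ⊆ Set.Ico 0 T := fun s hs' => ⟨hs'.1, lt_of_le_of_lt hs'.2 hDT⟩
  have hcl := InK_closed hD0 (hsol.cont.mono hsubI) cfg.bm (fun j => (cfg.bp j - cfg.bm j) * ι) cfg.Cp
    ((cfg.Cp - Real.exp τ) * ι) hmain
  have e1 : (fun j => cfg.bm j + (cfg.bp j - cfg.bm j) * ι * D) = cfg.bp := by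
    funext j
    have : (cfg.bp j - cfg.bm j) * ι * D = (cfg.bp j - cfg.bm j) * (ι * D) := by ring
    rw [this, hιD]
    ring
  have e2 : cfg.Cp - (cfg.Cp - Real.exp τ) * ι * D = Real.exp τ := by
    have : (cfg.Cp - Real.exp τ) * ι * D = (cfg.Cp - Real.exp τ) * (ι * D) := by ring
    rw [this, hιD]
    ring
  simp only [e1, e2] at hcl
  have hsol2 := sol_shift hsol hD0.le
  have hcl' : cfg.InK cfg.bp (Real.exp τ) ((fun s => x (s + D)) 0) := by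
    simpa using hcl
  have hm2 := evolve cfg N hN nv hε hBK (k := fun s => k (s + D)) (fun s => hk (s + D)) hsol2
    cfg.bp (fun _ => 0) (Real.exp τ) 0 0 (fun _ _ _ => le_rfl) le_rfl
    (fun s _ j h1 h2 => by
      have := cfg.bmp j h1 h2
      simpa using this)
    (fun s _ => by simpa using hCm)
    (Or.inl rfl) hcl' (t - D) ⟨by linarith, by linarith [ht.2]⟩
  have e3 : (fun j => cfg.bp j + (fun _ => (0 : ℝ)) j * (t - D)) = cfg.bp := by
    funext j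
    simp
  rw [e3] at hm2
  have e4 : t - D + D = t := by ring
  simp only [zero_mul, sub_zero, e4] at hm2
  exact hm2

/-- The chain of scales. -/
theorem chain {W0 A τ₁ : ℝ} {cfgs : ℕ → Cfg d V B} (hsc : ∀ i : ℕ, IsScale (cfgs i) W0 A (2 ^ i * τ₁))
    (hA : 1 ≤ A) (hτ4 : 4 ≤ τ₁)
    (N : Network d) (hN : N.WeaklyReversible) (nv : NV N V) {ε : ℝ} (hε : 0 < ε)
    (hBK : (N.reactions.card : ℝ) * (2 * ε⁻¹) ≤ Real.exp B * ε) (hd : 1 ≤ d)
    {c : Fin d → ℝ} (hc : ∀ j, 0 < c j) (hcτ : ∀ j, Real.exp (- τ₁) < c j)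
    (hSτ : ∑ j, (Ee (c j) + Par.Zbar ⟨d, V, W0⟩ * c j) < Real.exp τ₁) (i : ℕ) :
    ∃ T₀ : ℝ, 0 ≤ T₀ ∧ ∀ k : ℝ → Cplx d × Cplx d → ℝ,
      (∀ t, ∀ r ∈ N.reactions, ε ≤ k t r ∧ k t r ≤ ε⁻¹) →
      ∀ (T : ℝ) (x : ℝ → Fin d → ℝ), IsPositiveSolution N k T x → x 0 - c ∈ N.stoich →
        (cfgs i).InK (cfgs i).bm (cfgs i).Cp (x 0) → ∀ t ∈ Set.Ico 0 T, T₀ ≤ t →
          (cfgs 0).InK (cfgs 0).bp (Real.exp τ₁) (x t) := by
  have hge : ∀ i : ℕ, τ₁ ≤ 2 ^ i * τ₁ := fun i => by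
    have : (1 : ℝ) ≤ 2 ^ i := one_le_pow₀ (by norm_num)
    nlinarith
  induction i with
  | zero =>
    have h0 : IsScale (cfgs 0) W0 A τ₁ := by simpa using hsc 0
    exact shell h0 hA hτ4 N hN nv hε hBK hd hc hcτ hSτ
  | succ i ih =>
    obtain ⟨Ti, hTi, hi⟩ := ih
    have hτ' := hge (i + 1)
    obtain ⟨D, hD, hshell⟩ := shell (hsc (i + 1)) hA (by linarith) N hN nv hε hBK hd hc
      (fun j => lt_of_le_of_lt (Real.exp_le_exp.mpr (by linarith)) (hcτ j))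
      (lt_of_lt_of_le hSτ (Real.exp_le_exp.mpr hτ'))
    refine ⟨D + Ti, by linarith, ?_⟩
    intro k hk T x hsol hxc h0 t ht hT
    have hDt : D ≤ t := by linarith
    have hDT : D ∈ Set.Ico 0 T := ⟨hD, lt_of_le_of_lt hDt ht.2⟩
    have hr := hshell k hk T x hsol hxc h0 D hDT le_rfl
    have e : (2 : ℝ) ^ (i + 1) * τ₁ = 2 * (2 ^ i * τ₁) := by
      rw [pow_succ]
      ring
    rw [e] at hr
    have hsc' : IsScale (cfgs (i + 1)) W0 A (2 * (2 ^ i * τ₁)) := by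
      have := hsc (i + 1)
      rwa [e] at this
    have hin := incl (hsc i) hsc' hA (by linarith [hge i]) (hsol.pos D hDT) hr
    have hsol2 := sol_shift hsol hD
    have hs0 : x (0 + D) = x D := by rw [zero_add]
    have hm := hi (fun s => k (s + D)) (fun s => hk (s + D)) (T - D) (fun s => x (s + D)) hsol2
      (by
        rw [hs0]
        have h1 := sol_sub_mem N hsol hDT
        have e : x D - c = (x D - x 0) + (x 0 - c) := by abel
        rw [e]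
        exact Submodule.add_mem _ h1 hxc)
      (by
        rw [hs0]
        exact hin)
      (t - D) ⟨by linarith, by linarith [ht.2]⟩ (by linarith)
    have e4 : t - D + D = t := by ring
    simp only [e4] at hm
    exact hm

/-- There is a box in the open orthant which absorbs every positive solution in a stoichiometric
class, after a time depending on the initial state only. -/
theorem absorbing {n : ℕ} (N : Network n) (hN : N.WeaklyReversible) (ε : ℝ) (hε : 0 < ε)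
    (c : Fin n → ℝ) (hc : ∀ i, 0 < c i) :
    ∃ δ : ℝ, 0 < δ ∧ ∃ R : ℝ, ∀ x₀ : Fin n → ℝ, (∀ i, 0 < x₀ i) → x₀ - c ∈ N.stoich →
      ∃ T₀ : ℝ, ∀ k : ℝ → Cplx n × Cplx n → ℝ,
        (∀ t, ∀ r ∈ N.reactions, ε ≤ k t r ∧ k t r ≤ ε⁻¹) →
        ∀ (T : ℝ) (x : ℝ → Fin n → ℝ), IsPositiveSolution N k T x → x 0 = x₀ →
          ∀ t ∈ Set.Ico 0 T, T₀ ≤ t → ∀ i, δ ≤ x t i ∧ x t i ≤ R := by
  by_cases hn : n = 0
  · subst hn
    exact ⟨1, one_pos, 1, fun _ _ _ => ⟨0, fun _ _ _ _ _ _ _ _ _ i => i.elim0⟩⟩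
  have hn1 : 1 ≤ n := by omega
  obtain ⟨V', hV1, nv⟩ := exists_NV N
  obtain ⟨B', hBK⟩ := exists_BK N hε
  obtain ⟨W0, A, τ₀, hA, hτ₀, hcfg⟩ := exists_cfg n V' hV1 hn1 B'
  obtain ⟨S, hS⟩ : ∃ S : ℝ, S = ∑ j, (Ee (c j) + Par.Zbar ⟨n, V', W0⟩ * c j) := ⟨_, rfl⟩
  obtain ⟨Lc, hLc⟩ : ∃ Lc : ℝ, Lc = ∑ i, |Real.log (c i)| := ⟨_, rfl⟩
  have hLc0 : 0 ≤ Lc := by
    rw [hLc]
    exact Finset.sum_nonneg fun _ _ => abs_nonneg _
  have hSa := abs_nonneg S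
  obtain ⟨τ₁, hτ₁⟩ : ∃ τ₁ : ℝ, τ₁ = 4 + τ₀ + Lc + |S| := ⟨_, rfl⟩
  have hτ₁4 : 4 ≤ τ₁ := by rw [hτ₁]; linarith
  have hge : ∀ i : ℕ, τ₁ ≤ 2 ^ i * τ₁ := fun i => by
    have : (1 : ℝ) ≤ 2 ^ i := one_le_pow₀ (by norm_num)
    nlinarith
  have hτ₀τ : ∀ i : ℕ, τ₀ ≤ 2 ^ i * τ₁ := fun i => by
    have := hge i
    rw [hτ₁] at this ⊢
    linarith
  choose cfgs hsc using fun i : ℕ => hcfg _ (hτ₀τ i)
  have hsc0 : IsScale (cfgs 0) W0 A τ₁ := by simpa using hsc 0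
  have hθ := (cfgs 0).θpos 1 le_rfl hn1
  refine ⟨(cfgs 0).θ 1, hθ, (cfgs 0).M, ?_⟩
  intro x₀ hx₀ hxc
  -- the scale of the initial state
  obtain ⟨S', hS'⟩ : ∃ S' : ℝ, S' = ∑ j, (Ee (x₀ j) + Par.Zbar ⟨n, V', W0⟩ * x₀ j) := ⟨_, rfl⟩
  obtain ⟨L', hL'⟩ : ∃ L' : ℝ, L' = ∑ i, |Real.log (x₀ i)| := ⟨_, rfl⟩
  have hL'0 : 0 ≤ L' := by
    rw [hL']
    exact Finset.sum_nonneg fun _ _ => abs_nonneg _
  have hS'a := abs_nonneg S'
  obtain ⟨i, hi⟩ := exists_nat_ge (2 * L' + |S'|)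
  have hτi : 2 * L' + |S'| ≤ 2 ^ i * τ₁ := by
    have h1 : (i : ℝ) ≤ 2 ^ i := by
      exact_mod_cast Nat.lt_two_pow_self.le
    have h2 : (2 : ℝ) ^ i * 1 ≤ 2 ^ i * τ₁ :=
      mul_le_mul_of_nonneg_left (by linarith) (by positivity)
    linarith
  have hτi0 : 0 ≤ 2 ^ i * τ₁ := by positivity
  have hstart : (cfgs i).InK (cfgs i).bm (cfgs i).Cp x₀ := by
    refine start_in (hsc i) hA hτi0 hx₀ ?_ ?_ _
    · intro j
      have h1 : |Real.log (x₀ j)| ≤ L' := by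
        rw [hL']
        exact Finset.single_le_sum (f := fun i => |Real.log (x₀ i)|) (fun _ _ => abs_nonneg _)
          (Finset.mem_univ j)
      have h2 := neg_abs_le (Real.log (x₀ j))
      rw [← Real.le_log_iff_exp_le (hx₀ j)]
      linarith
    · rw [← hS']
      have h1 := Real.add_one_le_exp (3 * (2 ^ i * τ₁))
      have h2 := le_abs_self S'
      linarith
  obtain ⟨T₀, _, hT₀⟩ := chain hsc hA hτ₁4 N hN nv hε hBK hn1 hc
    (fun j => by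
      have h1 : |Real.log (c j)| ≤ Lc := by
        rw [hLc]
        exact Finset.single_le_sum (f := fun i => |Real.log (c i)|) (fun _ _ => abs_nonneg _)
          (Finset.mem_univ j)
      have h2 := neg_abs_le (Real.log (c j))
      rw [← Real.lt_log_iff_exp_lt (hc j)]
      rw [hτ₁]
      linarith)
    (by
      rw [← hS]
      have h1 := Real.add_one_le_exp τ₁
      have h2 := le_abs_self S
      rw [hτ₁] at h1 ⊢
      linarith) i
  refine ⟨T₀, ?_⟩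
  intro k hk T x hsol hx0 t ht hT i'
  have hin := hT₀ k hk T x hsol (by rw [hx0]; exact hxc) (by rw [hx0]; exact hstart) t ht hT
  refine Cfg.InK.bounds hin (hsol.pos t ht) ?_ ?_ i'
  · intro j h1 h2
    exact ⟨(cfgs 0).bmp j h1 h2, le_rfl⟩
  · rw [hsc0.Cp]
    exact Real.exp_le_exp.mpr (by linarith)

end

end Vale.Agent.P072.Gen
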