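import Vale.Agent.P072.Gen2Evolve

namespace Vale.Agent.P072.Gen

noncomputable section

open Classical

/-- The slope of `Zbar` as a function of the window. -/
def Lam (k V : ℕ) : ℝ := Par.zmax ⟨k, V, 0⟩ * (2 * Par.zmax ⟨k, V, 0⟩) ^ k

theorem Lam_ge (k V : ℕ) : 1 ≤ Lam k V := by
  unfold Lam
  have h := Par.zmax_ge ⟨k, V, 0⟩
  have h1 : (1 : ℝ) ≤ (2 * Par.zmax ⟨k, V, 0⟩) ^ k := one_le_pow₀ (by linarith)
  nlinarith

theorem Zbar_eq (k V : ℕ) (W : ℝ) : Par.Zbar ⟨k, V, W⟩ = Lam k V * W := by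
  have hzm : Par.zmax ⟨k, V, W⟩ = Par.zmax ⟨k, V, 0⟩ := Par.zmax_congr rfl rfl
  unfold Par.Zbar Par.Wbar Lam
  rw [hzm]
  ring

/-- Large windows are good. -/
theorem good_of_large (k V : ℕ) (hV : 1 ≤ V) : ∃ K₀ : ℝ, 0 ≤ K₀ ∧ ∀ W, K₀ ≤ W → Par.Good ⟨k, V, W⟩ W := by
  set Λ := Lam k V with hΛ
  have hΛ0 : 0 ≤ Λ := by linarith [Lam_ge k V]
  have hd0 : (0 : ℝ) ≤ k := by positivity
  set K : ℝ := 2 * Λ + 4 + 12 * Λ * k + 8 * k with hK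
  have hK0 : 0 ≤ K := by positivity
  refine ⟨3 + 2 * K, by positivity, ?_⟩
  intro W hW
  have hW3 : 3 ≤ W := by linarith
  have hexp : K * W ≤ Real.exp W := by
    have h1 := Real.quadratic_le_exp_of_nonneg (by linarith : 0 ≤ W)
    have h2 : 2 * K ≤ W := by linarith
    nlinarith
  have hZ : Par.Zbar ⟨k, V, W⟩ = Λ * W := Zbar_eq k V W
  have hCb : Par.Cb ⟨k, V, W⟩ = 2 * (Λ * W) + 1 := by
    unfold Par.Cb
    rw [hZ]
  have hdW : (k : ℝ) ≤ k * W := by nlinarith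
  have hΛdW : 0 ≤ Λ * k * W := by positivity
  refine ⟨hV, hW3, le_rfl, ?_, ?_, ?_, ?_⟩
  · rw [hZ, hCb]
    show 2 * (Λ * W + 2 + (2 * (Λ * W) + 1) * k) ≤ Real.exp W
    refine le_trans ?_ hexp
    rw [hK]
    nlinarith
  · rw [hCb]
    show 4 * (k : ℝ) * (2 * (Λ * W) + 1) ≤ Real.exp W
    refine le_trans ?_ hexp
    rw [hK]
    nlinarith
  · show 2 * (k : ℝ) * W ≤ Real.exp W
    refine le_trans ?_ hexp
    rw [hK]
    nlinarith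
  · show 4 * (k : ℝ) ≤ Real.exp W
    refine le_trans ?_ hexp
    rw [hK]
    nlinarith

/-- A common upper bound of a real sequence on an initial segment. -/
theorem exists_ub (f : ℕ → ℝ) (n : ℕ) : ∃ m : ℝ, 0 ≤ m ∧ ∀ k ≤ n, f k ≤ m := by
  refine ⟨∑ k ∈ Finset.range (n + 1), |f k|, Finset.sum_nonneg fun _ _ => abs_nonneg _, ?_⟩
  intro k hk
  have h1 : |f k| ≤ ∑ k ∈ Finset.range (n + 1), |f k| :=
    Finset.single_le_sum (f := fun k => |f k|) (fun _ _ => abs_nonneg _)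
      (Finset.mem_range.mpr (by omega))
  exact le_trans (le_abs_self _) h1

/-- A common positive lower bound on an initial segment. -/
theorem exists_lb (f : ℕ → ℝ) (n : ℕ) (h : ∀ k, 1 ≤ k → k ≤ n → 0 < f k) :
    ∃ m : ℝ, 0 < m ∧ ∀ k, 1 ≤ k → k ≤ n → m ≤ f k := by
  induction n with
  | zero => exact ⟨1, one_pos, fun k h1 h2 => by omega⟩
  | succ n ih =>
    obtain ⟨m, hm, hm2⟩ := ih (fun k h1 h2 => h k h1 (by omega))
    refine ⟨min m (f (n + 1)), lt_min hm (h _ (by omega) le_rfl), ?_⟩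
    intro k h1 h2
    by_cases hk : k = n + 1
    · rw [hk]; exact min_le_right _ _
    · exact le_trans (min_le_left _ _) (hm2 k h1 (by omega))

/-- The scales. -/
def Tl (d : ℕ) (A τ : ℝ) (k : ℕ) : ℝ := A ^ (d - k) * τ

theorem Tl_ge {d : ℕ} {A τ : ℝ} (hA : 1 ≤ A) (hτ : 0 ≤ τ) (k : ℕ) : τ ≤ Tl d A τ k := by
  unfold Tl
  have : (1 : ℝ) ≤ A ^ (d - k) := one_le_pow₀ hA
  nlinarith

theorem Tl_succ {d : ℕ} {A τ : ℝ} {k : ℕ} (hk : k < d) : Tl d A τ k = A * Tl d A τ (k + 1) := by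
  unfold Tl
  have : d - k = (d - (k + 1)) + 1 := by omega
  rw [this, pow_succ]
  ring

theorem Tl_mono {d : ℕ} {A τ : ℝ} (hA : 1 ≤ A) (hτ : 0 ≤ τ) {j k : ℕ} (h : j ≤ k) :
    Tl d A τ k ≤ Tl d A τ j := by
  unfold Tl
  apply mul_le_mul_of_nonneg_right _ hτ
  exact pow_le_pow_right₀ hA (by omega)

theorem Tl_two {d : ℕ} {A τ : ℝ} (k : ℕ) : Tl d A (2 * τ) k = 2 * Tl d A τ k := by
  unfold Tl
  ring

/-- What a configuration at a given scale looks like. -/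
structure IsScale {d V : ℕ} {B : ℝ} (cfg : Cfg d V B) (W0 A τ : ℝ) : Prop where
  w0 : cfg.W0 = W0
  bm : ∀ k, cfg.bm k = Real.exp (- (3 * Tl d A τ k))
  bp : ∀ k, cfg.bp k = Real.exp (- Tl d A τ k)
  ρ : ∀ k, cfg.ρ k = Real.exp (- (Tl d A τ k / 2))
  Cp : cfg.Cp = Real.exp (3 * τ)
  Z : ∀ k, 1 ≤ k → k ≤ d → 4 * Par.Zbar ⟨k, V, cfg.Wk k⟩ ≤ Tl d A τ k

theorem exp_q (x : ℝ) {q : ℝ} (hq : 0 < q) :
    (Real.exp (- (3 * x)) / q) ^ 2 = Real.exp (- (6 * x + 2 * Real.log q)) := by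
  have h1 : Real.exp (2 * Real.log q) = q ^ 2 := by
    rw [two_mul, Real.exp_add, Real.exp_log hq]
    ring
  have h2 : Real.exp (- (6 * x + 2 * Real.log q))
      = Real.exp (- (3 * x)) ^ 2 / Real.exp (2 * Real.log q) := by
    rw [← Real.exp_nat_mul, ← Real.exp_sub]
    congr 1
    push_cast
    ring
  rw [h2, h1, div_pow]

theorem f_bpρ {T T1 : ℝ} (h : T ≤ T1) (h4 : 4 ≤ T) :
    Real.exp (- T) + Real.exp (- (3 * T1)) / 4 ≤ Real.exp (- (T / 2)) := by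
  have h3 : Real.exp (- (3 * T1)) ≤ Real.exp (- T) := Real.exp_le_exp.mpr (by linarith)
  have e : Real.exp (- (T / 2)) = Real.exp (- T) * Real.exp (T / 2) := by
    rw [← Real.exp_add]; congr 1; ring
  have h5 := Real.add_one_le_exp (T / 2)
  rw [e]
  have h7 := Real.exp_pos (- T)
  have h8 := Real.exp_pos (- (3 * T1))
  nlinarith

theorem f_ηb {T T1 : ℝ} (h : T ≤ T1) : 2 * (Real.exp (- (3 * T1)) / 4) < Real.exp (- (3 * T)) := by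
  have h3 : Real.exp (- (3 * T1)) ≤ Real.exp (- (3 * T)) := Real.exp_le_exp.mpr (by linarith)
  have h4 := Real.exp_pos (- (3 * T1))
  linarith

theorem f_ηρ {T T1 : ℝ} (h : T ≤ T1) (h0 : 0 ≤ T) :
    2 * (Real.exp (- (3 * T1)) / 4) < Real.exp (- (T / 2)) := by
  have h3 : Real.exp (- (3 * T1)) ≤ Real.exp (- (T / 2)) := Real.exp_le_exp.mpr (by linarith)
  have h4 := Real.exp_pos (- (3 * T1))
  linarith

theorem f_θ2 {T dr q : ℝ} (h4 : 0 ≤ T) (hdr : 0 ≤ dr) (hq : q = 8 * dr + 8) :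
    dr * (Real.exp (- (3 * T)) / q) ^ 2 ≤ Real.exp (- (T / 2)) / 2 := by
  have hq0 : 0 < q := by linarith
  have h1 : Real.exp (- (3 * T)) ≤ Real.exp (- (T / 2)) := Real.exp_le_exp.mpr (by linarith)
  have h2 : Real.exp (- (3 * T)) ≤ 1 := Real.exp_le_one_iff.mpr (by linarith)
  have h3 : 0 < Real.exp (- (3 * T)) := Real.exp_pos _
  have h4' : Real.exp (- (3 * T)) ^ 2 ≤ Real.exp (- (3 * T)) := by nlinarith
  have h5 : dr / q ^ 2 ≤ 1 / 2 := by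
    rw [div_le_iff₀ (by positivity), hq]
    nlinarith
  rw [div_pow]
  calc dr * (Real.exp (- (3 * T)) ^ 2 / q ^ 2)
      = (dr / q ^ 2) * Real.exp (- (3 * T)) ^ 2 := by ring
    _ ≤ (1 / 2) * Real.exp (- (3 * T)) ^ 2 :=
        mul_le_mul_of_nonneg_right h5 (by positivity)
    _ ≤ Real.exp (- (T / 2)) / 2 := by linarith

theorem f_θ3 {T dr q : ℝ} (hdr : 0 ≤ dr) (hq : q = 8 * dr + 8) :
    8 * dr * Real.sqrt ((Real.exp (- (3 * T)) / q) ^ 2) ≤ Real.exp (- (3 * T)) := by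
  have hq0 : 0 < q := by linarith
  rw [Real.sqrt_sq (by positivity)]
  have h1 := Real.exp_pos (- (3 * T))
  have e : 8 * dr * (Real.exp (- (3 * T)) / q) = (8 * dr / q) * Real.exp (- (3 * T)) := by
    ring
  rw [e]
  have h2 : 8 * dr / q ≤ 1 := by
    rw [div_le_one hq0, hq]
    linarith
  nlinarith

theorem f_M {Cp η D1 D2 τ : ℝ} (hCp : Cp = Real.exp (3 * τ)) (hτ : 0 ≤ τ) (hη0 : 0 < η) (hη1 : η ≤ 1)
    (hD1 : 0 ≤ D1) (hD2 : 0 ≤ D2) :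
    1 ≤ |Cp + η| + D1 + D2 ∧
      |Real.log (|Cp + η| + D1 + D2)| ≤ 3 * τ + Real.log (2 + (D1 + D2)) := by
  have hCp1 : 1 ≤ Cp := by
    rw [hCp]
    exact Real.one_le_exp (by linarith)
  have hCpos : 0 < Cp + η := by linarith
  rw [abs_of_pos hCpos]
  have hge : 1 ≤ Cp + η + D1 + D2 := by linarith
  refine ⟨hge, ?_⟩
  rw [abs_of_nonneg (Real.log_nonneg hge)]
  have h1 : Cp + η + D1 + D2 ≤ Cp * (2 + (D1 + D2)) := by nlinarith
  have h2 := Real.log_le_log (by linarith) h1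
  have h3 : Real.log Cp = 3 * τ := by rw [hCp, Real.log_exp]
  rw [Real.log_mul (by linarith) (by linarith), h3] at h2
  exact h2

theorem f_Ξ1 {T lc M u : ℝ} (hT : 0 ≤ T) (hlc : 0 ≤ lc) (h1 : Real.exp (- (6 * T + lc)) ≤ u)
    (h2 : u ≤ M) : |Real.log u| ≤ 6 * T + lc + |Real.log M| := by
  have hu : 0 < u := lt_of_lt_of_le (Real.exp_pos _) h1
  have h3 : - (6 * T + lc) ≤ Real.log u := by
    rw [Real.le_log_iff_exp_le hu]
    exact h1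
  have h4 : Real.log u ≤ Real.log M := Real.log_le_log hu h2
  have h5 := le_abs_self (Real.log M)
  have h6 := abs_nonneg (Real.log M)
  rw [abs_le]
  constructor <;> linarith

theorem f_Z_lt {Λk Λm K VD T' lc L A W : ℝ} (hΛ : Λk ≤ Λm) (hΛm : 0 ≤ Λm)
    (hVD : 0 ≤ VD) (hW0 : 0 ≤ W) (hW : W = K + VD * (6 * T' + lc + L)) (hK : K ≤ T') (hlc : lc ≤ T')
    (hL : L ≤ 4 * T') (hT' : 0 ≤ T')
    (hA : 4 * Λm * (1 + 11 * VD) ≤ A) : 4 * (Λk * W) ≤ A * T' := by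
  have h1 : Λk * W ≤ Λm * W := mul_le_mul_of_nonneg_right hΛ hW0
  have h3 : 6 * T' + lc + L ≤ 11 * T' := by linarith
  have h6 : VD * (6 * T' + lc + L) ≤ VD * (11 * T') := mul_le_mul_of_nonneg_left h3 hVD
  have h2 : W ≤ (1 + 11 * VD) * T' := by
    rw [hW]
    nlinarith
  have h8 : Λm * W ≤ Λm * ((1 + 11 * VD) * T') := mul_le_mul_of_nonneg_left h2 hΛm
  have h9 : 4 * Λm * (1 + 11 * VD) * T' ≤ A * T' := mul_le_mul_of_nonneg_right hA hT'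
  nlinarith

theorem f_Z_d {Λk Λm K τ : ℝ} (hΛ : Λk ≤ Λm) (hK : 0 ≤ K) (hτ : 4 * Λm * K ≤ τ) :
    4 * (Λk * K) ≤ τ := by
  have h4 : Λk * K ≤ Λm * K := mul_le_mul_of_nonneg_right hΛ hK
  linarith

/-- Assembling a configuration from the scales. -/
theorem cfg_build {d V : ℕ} {B : ℝ} (hV : 1 ≤ V) (hd : 1 ≤ d) {W0 : ℝ} (g0 : Par.Good ⟨d, V, W0⟩ B)
    {T : ℕ → ℝ} {τ : ℝ} {q : ℝ} (hq : q = 8 * (d : ℝ) + 8) (hT4 : ∀ k, 4 ≤ T k)
    (hTmono : ∀ k, 1 ≤ k → T k ≤ T 1)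
    (hchain : ∀ k, 1 ≤ k → k < d → 6 * T (k + 1) + 2 * Real.log q ≤ T k)
    (hτ : 0 ≤ τ) {M : ℝ}
    (hM : M = |Real.exp (3 * τ) + Real.exp (- (3 * T 1)) / 4|
      + (d : ℝ) * Real.exp (Par.Gl ⟨d, V, W0⟩) + Real.exp (Par.Gl ⟨d, V, W0⟩ + 2))
    {Ξ Wk : ℕ → ℝ} (hΞ0 : ∀ k, 0 ≤ Ξ k)
    (hΞe : ∀ k, k < d → Ξ k = 6 * T (k + 1) + 2 * Real.log q + |Real.log M|)
    (hmargin : ∀ k, B + (V : ℝ) * d * Ξ k ≤ Wk k)
    (hgood : ∀ k, 1 ≤ k → k ≤ d → Par.Good ⟨k, V, Wk k⟩ (Wk k))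
    (hZ4 : ∀ k, 1 ≤ k → k ≤ d → 4 * Par.Zbar ⟨k, V, Wk k⟩ ≤ T k) :
    ∃ cfg : Cfg d V B, cfg.W0 = W0 ∧ (∀ k, cfg.bm k = Real.exp (- (3 * T k))) ∧
      (∀ k, cfg.bp k = Real.exp (- T k)) ∧ (∀ k, cfg.ρ k = Real.exp (- (T k / 2))) ∧
      cfg.Cp = Real.exp (3 * τ) ∧ (∀ k, cfg.Wk k = Wk k) := by
  have hq8 : 8 ≤ q := by
    rw [hq]
    have : (0 : ℝ) ≤ d := by positivity
    linarith
  have hq0 : 0 < q := by linarith
  have hlc0 : 0 ≤ 2 * Real.log q := by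
    have := Real.log_nonneg (by linarith : (1 : ℝ) ≤ q)
    linarith
  have hdr : (0 : ℝ) ≤ d := by positivity
  obtain ⟨sm₁, hsm₁, hsm₁2⟩ := exists_lb (fun k => Par.smin ⟨k, V, Wk k⟩) d (fun k h1 h2 =>
    Par.smin_pos (hgood k h1 h2) h1)
  have hsm0 : 0 < Par.smin ⟨d, V, W0⟩ := Par.smin_pos g0 hd
  have hηpos : 0 < Real.exp (- (3 * T 1)) / 4 := by positivity
  refine ⟨{
    W0 := W0
    Wk := Wk
    ρ := fun k => Real.exp (- (T k / 2))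
    bm := fun k => Real.exp (- (3 * T k))
    bp := fun k => Real.exp (- T k)
    θ := fun k => (Real.exp (- (3 * T k)) / q) ^ 2
    Cp := Real.exp (3 * τ)
    M := M
    Ξ := Ξ
    η := Real.exp (- (3 * T 1)) / 4
    sm := min sm₁ (Par.smin ⟨d, V, W0⟩)
    hV := hV
    good0 := g0
    goodk := hgood
    ηpos := hηpos
    smpos := lt_min hsm₁ hsm0
    sm0 := fun _ => min_le_right _ _
    smk := fun k h1 h2 => le_trans (min_le_left _ _) (hsm₁2 k h1 h2)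
    ρpos := fun k _ _ => Real.exp_pos _
    ρle := fun k h1 h2 => Real.exp_le_exp.mpr (by linarith [hZ4 k h1 h2, hT4 k])
    bmpos := fun k _ _ => Real.exp_pos _
    bmp := fun k _ _ => Real.exp_le_exp.mpr (by linarith [hT4 k])
    bpρ := fun k h1 _ => f_bpρ (hTmono k h1) (hT4 k)
    ηb := fun k h1 _ => f_ηb (hTmono k h1)
    ηρ := fun k h1 _ => f_ηρ (hTmono k h1) (by linarith [hT4 k])
    θpos := fun k _ _ => by positivity
    θle1 := fun k _ _ => by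
      show (Real.exp (- (3 * T k)) / q) ^ 2 ≤ 1
      rw [exp_q _ hq0]
      exact Real.exp_le_one_iff.mpr (by linarith [hT4 k])
    θ1 := fun k h1 h2 => by
      show (Real.exp (- (3 * T k)) / q) ^ 2 ≤ _
      rw [exp_q _ hq0]
      apply Real.exp_le_exp.mpr
      have h3 := hZ4 k h1 h2
      have h4 : Par.Gl ⟨k, V, Wk k⟩ = Par.Zbar ⟨k, V, Wk k⟩ + 1 := rfl
      rw [h4]
      linarith [hT4 k]
    θ2 := fun k _ _ => f_θ2 (by linarith [hT4 k]) hdr hq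
    θ3 := fun k _ _ => f_θ3 hdr hq
    chain := fun k h1 hk => by
      show Real.exp (- T k) ≤ (Real.exp (- (3 * T (k + 1))) / q) ^ 2
      rw [exp_q _ hq0]
      apply Real.exp_le_exp.mpr
      linarith [hchain k h1 hk]
    M1 := hM.symm.le
    Ξ0 := hΞ0
    Ξ1 := fun k _ hk u h1 h2 => by
      rw [hΞe k hk]
      have h3 : (Real.exp (- (3 * T (k + 1))) / q) ^ 2 ≤ u := h1
      rw [exp_q _ hq0] at h3
      exact f_Ξ1 (by linarith [hT4 (k + 1)]) hlc0 h3 h2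
    margin := fun k _ _ => hmargin k }, rfl, fun _ => rfl, fun _ => rfl, fun _ => rfl, rfl,
    fun _ => rfl⟩

/-- Construction of the configurations. -/
theorem exists_cfg (d V : ℕ) (hV : 1 ≤ V) (hd : 1 ≤ d) (B : ℝ) :
    ∃ (W0 A τ₀ : ℝ), 1 ≤ A ∧ 0 < τ₀ ∧ ∀ τ, τ₀ ≤ τ → ∃ cfg : Cfg d V B, IsScale cfg W0 A τ := by
  obtain ⟨W0, g0⟩ := exists_good d V hV B
  choose K₀f hK₀0 hK₀ using fun k => good_of_large k V hV
  obtain ⟨K₀m, hK₀m0, hK₀m⟩ := exists_ub K₀f d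
  obtain ⟨Λm, hΛm0, hΛm⟩ := exists_ub (fun k => Lam k V) d
  have hdr1 : (1 : ℝ) ≤ (d : ℝ) := by exact_mod_cast hd
  have hVr1 : (1 : ℝ) ≤ (V : ℝ) := by exact_mod_cast hV
  obtain ⟨VD, hVD⟩ : ∃ VD : ℝ, VD = (V : ℝ) * (d : ℝ) := ⟨_, rfl⟩
  have hVD0 : 0 ≤ VD := by rw [hVD]; positivity
  obtain ⟨A, hA⟩ : ∃ A : ℝ, A = 7 + 4 * Λm * (1 + 11 * VD) := ⟨_, rfl⟩
  have hA4 : 4 * Λm * (1 + 11 * VD) ≤ A := by rw [hA]; linarith
  have hA7 : 7 ≤ A := by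
    rw [hA]
    have : 0 ≤ 4 * Λm * (1 + 11 * VD) := by positivity
    linarith
  have hA1 : 1 ≤ A := by linarith
  obtain ⟨q, hq⟩ : ∃ q : ℝ, q = 8 * (d : ℝ) + 8 := ⟨_, rfl⟩
  have hq1 : 1 ≤ q := by rw [hq]; linarith
  obtain ⟨lc, hlc⟩ : ∃ lc : ℝ, lc = 2 * Real.log q := ⟨_, rfl⟩
  have hlc0 : 0 ≤ lc := by
    rw [hlc]
    have := Real.log_nonneg hq1
    linarith
  obtain ⟨D1, hD1⟩ : ∃ D1 : ℝ, D1 = (d : ℝ) * Real.exp (Par.Gl ⟨d, V, W0⟩) := ⟨_, rfl⟩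
  obtain ⟨D2, hD2⟩ : ∃ D2 : ℝ, D2 = Real.exp (Par.Gl ⟨d, V, W0⟩ + 2) := ⟨_, rfl⟩
  have hD10 : 0 ≤ D1 := by rw [hD1]; positivity
  have hD20 : 0 ≤ D2 := by rw [hD2]; positivity
  obtain ⟨c3, hc3⟩ : ∃ c3 : ℝ, c3 = Real.log (2 + (D1 + D2)) := ⟨_, rfl⟩
  have hc30 : 0 ≤ c3 := by
    rw [hc3]
    exact Real.log_nonneg (by linarith)
  have hBa := abs_nonneg B
  have hΛK : 0 ≤ 4 * Λm * (K₀m + |B|) := by positivity
  obtain ⟨τ₀, hτ₀⟩ : ∃ τ₀ : ℝ, τ₀ = 4 + K₀m + |B| + lc + c3 + 4 * Λm * (K₀m + |B|) := ⟨_, rfl⟩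
  have hτ₀4 : 4 ≤ τ₀ := by rw [hτ₀]; linarith
  refine ⟨W0, A, τ₀, hA1, by linarith, ?_⟩
  intro τ hτ
  have hτ4 : 4 ≤ τ := by linarith
  have hτ0 : 0 ≤ τ := by linarith
  have hτK : K₀m + |B| ≤ τ := by linarith
  have hτlc : lc ≤ τ := by linarith
  have hτc3 : c3 ≤ τ := by linarith
  have hτΛ : 4 * Λm * (K₀m + |B|) ≤ τ := by linarith
  obtain ⟨T, hT⟩ : ∃ T : ℕ → ℝ, T = Tl d A τ := ⟨_, rfl⟩
  have hTge : ∀ k, τ ≤ T k := fun k => by rw [hT]; exact Tl_ge hA1 hτ0 k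
  have hT4 : ∀ k, 4 ≤ T k := fun k => le_trans hτ4 (hTge k)
  have hTmono : ∀ k, 1 ≤ k → T k ≤ T 1 := fun k hk => by rw [hT]; exact Tl_mono hA1 hτ0 hk
  obtain ⟨M, hM⟩ : ∃ M : ℝ, M = |Real.exp (3 * τ) + Real.exp (- (3 * T 1)) / 4| + D1 + D2 := ⟨_, rfl⟩
  have hMb : 1 ≤ M ∧ |Real.log M| ≤ 3 * τ + c3 := by
    rw [hM, hc3]
    refine f_M rfl hτ0 (by positivity) ?_ hD10 hD20
    have : Real.exp (- (3 * T 1)) ≤ 1 := Real.exp_le_one_iff.mpr (by linarith [hT4 1])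
    linarith
  obtain ⟨Ξ, hΞ⟩ : ∃ Ξ : ℕ → ℝ, Ξ = fun k => if k < d then 6 * T (k + 1) + lc + |Real.log M| else 0 :=
    ⟨_, rfl⟩
  have hΞ0 : ∀ k, 0 ≤ Ξ k := by
    intro k
    rw [hΞ]
    dsimp only
    split_ifs
    · have := hT4 (k + 1)
      have := abs_nonneg (Real.log M)
      linarith
    · exact le_rfl
  have hΞe : ∀ k, k < d → Ξ k = 6 * T (k + 1) + 2 * Real.log q + |Real.log M| := by
    intro k hk
    rw [hΞ, ← hlc]
    simp only [if_pos hk]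
  have hΞd : ∀ k, ¬ k < d → Ξ k = 0 := by
    intro k hk
    rw [hΞ]
    simp only [if_neg hk]
  obtain ⟨Wk, hWk⟩ : ∃ Wk : ℕ → ℝ, Wk = fun k => K₀m + |B| + VD * Ξ k := ⟨_, rfl⟩
  have hWk1 : ∀ k, K₀m ≤ Wk k := by
    intro k
    rw [hWk]
    have : 0 ≤ VD * Ξ k := mul_nonneg hVD0 (hΞ0 k)
    dsimp only
    linarith
  have hgood : ∀ k, 1 ≤ k → k ≤ d → Par.Good ⟨k, V, Wk k⟩ (Wk k) := by
    intro k _ hk
    exact hK₀ k _ (le_trans (hK₀m k hk) (hWk1 k))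
  have hZ4 : ∀ k, 1 ≤ k → k ≤ d → 4 * Par.Zbar ⟨k, V, Wk k⟩ ≤ T k := by
    intro k _ hk
    rw [Zbar_eq]
    have hΛk : Lam k V ≤ Λm := hΛm k hk
    have hWpos : 0 ≤ Wk k := le_trans hK₀m0 (hWk1 k)
    by_cases hkd : k < d
    · have e : Wk k = K₀m + |B| + VD * (6 * T (k + 1) + lc + |Real.log M|) := by
        rw [hWk]
        dsimp only
        rw [hΞe k hkd, hlc]
      have hTk : T k = A * T (k + 1) := by rw [hT]; exact Tl_succ hkd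
      have hT1 := hTge (k + 1)
      rw [hTk]
      exact f_Z_lt hΛk hΛm0 hVD0 hWpos e (by linarith) (by linarith)
        (by linarith [hMb.2]) (by linarith) hA4
    · have e : Wk k = K₀m + |B| := by
        rw [hWk]
        dsimp only
        rw [hΞd k hkd]
        ring
      rw [e]
      have h2 := hTge k
      have h3 := f_Z_d hΛk (add_nonneg hK₀m0 hBa) hτΛ
      linarith
  have hchain : ∀ k, 1 ≤ k → k < d → 6 * T (k + 1) + 2 * Real.log q ≤ T k := by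
    intro k _ hk
    have hTk : T k = A * T (k + 1) := by rw [hT]; exact Tl_succ hk
    have h1 := hTge (k + 1)
    have h2 := hT4 (k + 1)
    rw [← hlc, hTk]
    nlinarith
  obtain ⟨cfg, h1, h2, h3, h4, h5, h6⟩ := cfg_build (B := B) (Ξ := Ξ) (Wk := Wk) (M := M) hV hd g0 hq hT4
    hTmono hchain hτ0 (by rw [hM, hD1, hD2]) hΞ0 hΞe
    (by
      intro k
      rw [hWk, ← hVD]
      dsimp only
      have := le_abs_self B
      linarith)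
    hgood hZ4
  refine ⟨cfg, h1, ?_, ?_, ?_, h5, ?_⟩
  · rw [← hT]; exact h2
  · rw [← hT]; exact h3
  · rw [← hT]; exact h4
  · intro k h7 h8
    rw [h6 k, ← hT]
    exact hZ4 k h7 h8

end

end Vale.Agent.P072.Gen
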