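import Vale.Agent.P072.Gen2State

namespace Vale.Agent.P072.Gen

noncomputable section

open Classical Filter Topology

variable {d V : ℕ} {B : ℝ} {cfg : Cfg d V B} {R R' C φ : ℝ} {x : Fin d → ℝ} {b : ℕ → ℝ}

/-- A nonzero gap at an active upper candidate. -/
theorem St.gap_up (s : St cfg R R' x b C φ) (N : Network d) {π : Equiv.Perm (Fin d)} {L : List ℝ}
    (hadm : cfg.p0.Adm R L) (hlen : L.length = d) (hact : val cfg.p0 x π L - C = φ)
    {c : Fin d → ℝ} (hc : ∀ j, 0 < c j) (hxc : x - c ∈ N.stoich)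
    (hCc : ∑ j, (Ee (c j) + cfg.p0.Zbar * c j) < C) :
    ∃ r₀ ∈ N.reactions, ∑ i, (r₀.2 i : ℝ) * ltil L π i - ∑ i, (r₀.1 i : ℝ) * ltil L π i ≠ 0 := by
  by_contra hcon
  push Not at hcon
  have h1 := ortho_of_gaps N (ltil L π) hcon hxc
  have g : Par.Good cfg.p0 B := cfg.good0
  have h2 : val cfg.p0 x π L = val cfg.p0 c π L := by
    unfold val
    rw [psi_ext' cfg.p0 x π hlen.le, psi_ext' cfg.p0 c π hlen.le]
    have h3 : ∑ i, ltil L π i * x i - ∑ i, ltil L π i * c i = 0 := by
      rw [← Finset.sum_sub_distrib, ← h1]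
      apply Finset.sum_congr rfl
      intro i _
      simp only [Pi.sub_apply]
      ring
    linarith
  have h3 : val cfg.p0 c π L ≤ ∑ j, (Ee (c j) + cfg.p0.Zbar * c j) :=
    psi_init (p := cfg.p0) g hc π hadm hlen
  have h4 := s.hφ0
  linarith

/-- A nonzero gap at an active barrier candidate. -/
theorem St.gap_bar (s : St cfg R R' x b C φ) (N : Network d) {π : Equiv.Perm (Fin d)} {k : ℕ}
    {L : List ℝ} (h1 : 1 ≤ k) (h2 : k ≤ d) (hlen : L.length = k) (hblk : blk x π k ≤ b k)
    (hwin : ∀ j : Fin d, ((π.symm j : Fin d) : ℕ) < k →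
      |Real.log (x j) - ltil L π j| ≤ (cfg.pk k).Wbar)
    {c : Fin d → ℝ} (hbc : ∀ j, cfg.bp k < c j) (hxc : x - c ∈ N.stoich) :
    ∃ r₀ ∈ N.reactions, ∑ i, (r₀.2 i : ℝ) * ltil L π i - ∑ i, (r₀.1 i : ℝ) * ltil L π i ≠ 0 := by
  by_contra hcon
  push Not at hcon
  have h3 := ortho_of_gaps N (ltil L π) hcon hxc
  have g : Par.Good (cfg.pk k) (cfg.Wk k) := cfg.goodk k h1 h2
  have hW0 := g.W0pos
  have hzm := (cfg.pk k).zmax_ge
  have hWbar : 0 < (cfg.pk k).Wbar := by
    unfold Par.Wbar
    have : 0 < 2 * (cfg.pk k).zmax := by linarith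
    positivity
  have hWZ : (cfg.pk k).Wbar ≤ (cfg.pk k).Zbar := by
    unfold Par.Zbar
    nlinarith
  have hterm : ∀ j ∈ (Finset.univ : Finset (Fin d)), ((π.symm j : Fin d) : ℕ) < k →
      ltil L π j < 0 ∧ x j - c j < 0 := by
    intro j _ hj
    have h4 : x j ≤ blk x π k := by
      have := blk_ge s.hx π hj
      simpa using this
    have hbk := (s.hb k h1 h2).2
    have h5 := hbc j
    have h6 := cfg.bpρ k h1 h2
    have h7 := cfg.ρle k h1 h2
    have h8 := cfg.ηpos
    have h9 : Real.log (x j) < - (cfg.pk k).Zbar := by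
      rw [Real.log_lt_iff_lt_exp (s.hx j)]
      have : x j < cfg.ρ k := by linarith
      exact lt_of_lt_of_le this h7
    have h10 := (abs_le.mp (hwin j hj)).1
    constructor
    · linarith
    · linarith
  have hpos : 0 < ∑ i, ltil L π i * (x - c) i := by
    apply Finset.sum_pos'
    · intro j hj
      by_cases hjk : ((π.symm j : Fin d) : ℕ) < k
      · obtain ⟨h4, h5⟩ := hterm j hj hjk
        simp only [Pi.sub_apply]
        exact (mul_pos_of_neg_of_neg h4 h5).le
      · have h4 : ltil L π j = 0 := pos_ge L _ (by omega)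
        rw [h4, zero_mul]
    · have hd : 0 < d := by omega
      refine ⟨π ⟨0, hd⟩, Finset.mem_univ _, ?_⟩
      have hj : ((π.symm (π ⟨0, hd⟩) : Fin d) : ℕ) < k := by
        simp only [Equiv.symm_apply_apply]
        show 0 < k
        omega
      obtain ⟨h4, h5⟩ := hterm _ (Finset.mem_univ _) hj
      simp only [Pi.sub_apply]
      exact mul_pos_of_neg_of_neg h4 h5
  linarith

/-- The strict estimate, given a nonzero gap. -/
theorem St.flow_le (s : St cfg R R' x b C φ) (N : Network d) (nv : NV N V) {ε : ℝ} (hε : 0 < ε)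
    {p : Par} {B' : ℝ} (hpV : p.V = V) (hpd : p.d ≤ d) (g : p.Good B') (hsm : cfg.sm ≤ p.smin)
    {L : List ℝ} {π : Equiv.Perm (Fin d)} (hadm : p.Adm R L) (hlen : L.length = p.d)
    {k : Cplx d × Cplx d → ℝ} (hk : ∀ r ∈ N.reactions, ε ≤ k r ∧ k r ≤ ε⁻¹) {D : ℝ}
    (hf : ∀ r₀ ∈ N.reactions, D ≤ -(1 / 2) * ((k r₀ * mono x r₀.1) *
        |∑ i, (r₀.2 i : ℝ) * ltil L π i - ∑ i, (r₀.1 i : ℝ) * ltil L π i|))
    (hd : 1 ≤ d)
    (hgap : ∃ r₀ ∈ N.reactions,
      ∑ i, (r₀.2 i : ℝ) * ltil L π i - ∑ i, (r₀.1 i : ℝ) * ltil L π i ≠ 0) :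
    D ≤ - ((1 / 2) * (ε * ((cfg.θ 1) ^ V * cfg.sm))) := by
  obtain ⟨r₀, hr₀, hne⟩ := hgap
  have hstep : N.Step r₀.1 r₀.2 := by
    change (r₀.1, r₀.2) ∈ N.reactions
    simpa using hr₀
  have hVb := nv.hV r₀.2 r₀.1 (Relation.ReflTransGen.single hstep) (fun h => N.ne r₀ hr₀ h.symm)
  have hlow := gap_lower hpd g (π := π) hadm hlen r₀.2 r₀.1 (fun i => by rw [hpV]; exact hVb i)
  have hlow2 : cfg.sm ≤ |∑ i, (r₀.2 i : ℝ) * ltil L π i - ∑ i, (r₀.1 i : ℝ) * ltil L π i| := by
    rcases hlow with h | h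
    · exact absurd h hne
    · exact le_trans hsm h
  have hmono := s.mono_ge hd (nv.hsum r₀ hr₀)
  have hk1 := (hk r₀ hr₀).1
  have hθ0 := cfg.θpos 1 le_rfl hd
  have hsm0 := cfg.smpos
  have h1 : ε * ((cfg.θ 1) ^ V * cfg.sm) ≤ (k r₀ * mono x r₀.1) *
      |∑ i, (r₀.2 i : ℝ) * ltil L π i - ∑ i, (r₀.1 i : ℝ) * ltil L π i| := by
    have h2 : (cfg.θ 1) ^ V * cfg.sm ≤ mono x r₀.1 *
        |∑ i, (r₀.2 i : ℝ) * ltil L π i - ∑ i, (r₀.1 i : ℝ) * ltil L π i| :=
      mul_le_mul hmono hlow2 hsm0.le (le_trans (by positivity) hmono)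
    have h3 : ε * ((cfg.θ 1) ^ V * cfg.sm) ≤ k r₀ * ((cfg.θ 1) ^ V * cfg.sm) :=
      mul_le_mul_of_nonneg_right hk1 (by positivity)
    have h4 : k r₀ * ((cfg.θ 1) ^ V * cfg.sm) ≤ k r₀ * (mono x r₀.1 *
        |∑ i, (r₀.2 i : ℝ) * ltil L π i - ∑ i, (r₀.1 i : ℝ) * ltil L π i|) :=
      mul_le_mul_of_nonneg_left h2 (by linarith)
    calc _ ≤ _ := h3
      _ ≤ _ := h4
      _ = _ := by ring
  have h2 := hf r₀ hr₀
  linarith

/-- The strict hypotheses of the evolution theorem. -/
structure SH (cfg : Cfg d V B) (N : Network d) (ε κ C0 γ T : ℝ) (x : ℝ → Fin d → ℝ)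
    (c : Fin d → ℝ) : Prop where
  hc : ∀ j, 0 < c j
  hbc : ∀ m, 1 ≤ m → m ≤ d → ∀ j, cfg.bp m < c j
  hxc : ∀ t ∈ Set.Ico 0 T, x t - c ∈ N.stoich
  hCc : ∀ t ∈ Set.Ico 0 T, ∑ j, (Ee (c j) + cfg.p0.Zbar * c j) < C0 - γ * t
  hκ : κ ≤ (1 / 2) * (ε * ((cfg.θ 1) ^ V * cfg.sm))

/-- The evolution of the invariant region with levels affine in time. -/
theorem evolve (cfg : Cfg d V B) (N : Network d) (hN : N.WeaklyReversible) (nv : NV N V)
    {ε : ℝ} (hε : 0 < ε) (hBK : (N.reactions.card : ℝ) * (2 * ε⁻¹) ≤ Real.exp B * ε)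
    {k : ℝ → Cplx d × Cplx d → ℝ} (hk : ∀ t, ∀ r ∈ N.reactions, ε ≤ k t r ∧ k t r ≤ ε⁻¹)
    {T : ℝ} {x : ℝ → Fin d → ℝ} (hsol : IsPositiveSolution N k T x)
    (b0 β : ℕ → ℝ) (C0 γ κ : ℝ)
    (hβ : ∀ j, 1 ≤ j → j ≤ d → β j ≤ κ) (hγ : γ ≤ κ)
    (hb : ∀ t ∈ Set.Ico 0 T, ∀ j, 1 ≤ j → j ≤ d →
      cfg.bm j ≤ b0 j + β j * t ∧ b0 j + β j * t ≤ cfg.bp j)
    (hC : ∀ t ∈ Set.Ico 0 T, C0 - γ * t ≤ cfg.Cp)
    (hκ : κ = 0 ∨ ∃ c, SH cfg N ε κ C0 γ T x c)
    (h0 : cfg.InK b0 C0 (x 0)) :
    ∀ t ∈ Set.Ico 0 T, cfg.InK (fun j => b0 j + β j * t) (C0 - γ * t) (x t) := by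
  intro t ht
  set T₂ := (t + T) / 2 with hT₂
  have htT₂ : t < T₂ := by
    have := ht.2
    rw [hT₂]
    linarith
  have hT₂T : T₂ < T := by
    have := ht.2
    rw [hT₂]
    linarith
  have hsub : Set.Icc 0 T₂ ⊆ Set.Ico 0 T := fun s hs => ⟨hs.1, lt_of_le_of_lt hs.2 hT₂T⟩
  have hlogc : ContinuousOn (fun s => ∑ j, |Real.log (x s j)|) (Set.Icc 0 T₂) := by
    apply continuousOn_finsetSum
    intro j _
    apply ContinuousOn.abs
    apply ContinuousOn.log
    · exact (continuous_apply j).comp_continuousOn (hsol.cont.mono hsub)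
    · intro s hs
      exact (hsol.pos s (hsub hs) j).ne'
  obtain ⟨M₀, hM₀⟩ := isCompact_Icc.exists_bound_of_continuousOn hlogc
  have hlogb : ∀ s ∈ Set.Icc 0 T₂, ∀ j, |Real.log (x s j)| ≤ M₀ := by
    intro s hs j
    have h1 := hM₀ s hs
    have h2 : |Real.log (x s j)| ≤ ∑ j, |Real.log (x s j)| :=
      Finset.single_le_sum (f := fun j => |Real.log (x s j)|) (fun j _ => abs_nonneg _)
        (Finset.mem_univ j)
    have h3 := le_abs_self (∑ j, |Real.log (x s j)|)
    rw [Real.norm_eq_abs] at h1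
    linarith
  set Zm : ℝ := |cfg.p0.Zbar| + ∑ m ∈ Finset.range (d + 1), |(cfg.pk m).Zbar| with hZm
  have hZsum : 0 ≤ ∑ m ∈ Finset.range (d + 1), |(cfg.pk m).Zbar| :=
    Finset.sum_nonneg fun _ _ => abs_nonneg _
  have hZ0 : cfg.p0.Zbar ≤ Zm := by
    rw [hZm]
    have := le_abs_self cfg.p0.Zbar
    linarith
  have hZk : ∀ m, m ≤ d → (cfg.pk m).Zbar ≤ Zm := by
    intro m hm
    have h1 : |(cfg.pk m).Zbar| ≤ ∑ m ∈ Finset.range (d + 1), |(cfg.pk m).Zbar| :=
      Finset.single_le_sum (f := fun m => |(cfg.pk m).Zbar|) (fun _ _ => abs_nonneg _)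
        (Finset.mem_range.mpr (by omega))
    have h2 := le_abs_self (cfg.pk m).Zbar
    rw [hZm]
    have := abs_nonneg cfg.p0.Zbar
    linarith
  -- the family, for each large `R`
  have hmain : ∀ R, M₀ + Zm + 2 ≤ R →
      (∀ π L, cfg.p0.Adm R L → L.length = d → val cfg.p0 (x t) π L - (C0 - γ * t) ≤ 0) ∧
      (∀ π m L, 1 ≤ m → m ≤ d → (cfg.pk m).Adm R L → L.length = m →
        min (val (cfg.pk m) (x t) π L + (b0 m + β m * t)) (cfg.ρ m - blk (x t) π m) ≤ 0) := by
    intro R hR
    set A : ℕ → Set (List ℝ) := fun m => if m = 0 then {L | cfg.p0.Adm R L ∧ L.length = d}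
      else {L | (cfg.pk m).Adm R L ∧ L.length = m} with hA
    have hAfin : ∀ m, (A m).Finite := by
      intro m
      simp only [hA]
      split_ifs
      · exact Par.adm_finite cfg.hV R d
      · exact Par.adm_finite cfg.hV R m
    have hf : {q : ℕ × List ℝ | q.1 ≤ d ∧ q.2 ∈ A q.1}.Finite := by
      have h1 : (⋃ m ∈ Set.Iic d, (fun L => (m, L)) '' (A m)).Finite :=
        (Set.finite_Iic d).biUnion (fun m _ => (hAfin m).image _)
      refine h1.subset ?_
      rintro ⟨m, L⟩ ⟨h2, h3⟩
      simp only [Set.mem_iUnion]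
      exact ⟨m, h2, L, h3, rfl⟩
    set W : Finset (Equiv.Perm (Fin d) × ℕ × List ℝ) := Finset.univ ×ˢ hf.toFinset with hW
    have hWmem : ∀ (π : Equiv.Perm (Fin d)) (m : ℕ) (L : List ℝ), (π, m, L) ∈ W ↔
        (m ≤ d ∧ L ∈ A m) := by
      intro π m L
      simp [hW]
    set G : Equiv.Perm (Fin d) × ℕ × List ℝ → ℝ → ℝ := fun u s =>
      if u.2.1 = 0 then val cfg.p0 (x s) u.1 u.2.2 - (C0 - γ * s)
      else min (val (cfg.pk u.2.1) (x s) u.1 u.2.2 + (b0 u.2.1 + β u.2.1 * s))
        (cfg.ρ u.2.1 - blk (x s) u.1 u.2.1) with hG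
    have hG0 : ∀ π L s, G (π, 0, L) s = val cfg.p0 (x s) π L - (C0 - γ * s) := by
      intro π L s
      simp [hG]
    have hGk : ∀ π m L s, m ≠ 0 → G (π, m, L) s =
        min (val (cfg.pk m) (x s) π L + (b0 m + β m * s)) (cfg.ρ m - blk (x s) π m) := by
      intro π m L s hm
      simp [hG, hm]
    have hbound := max_le_of_right' W G (T := T₂) (C := 0) cfg.ηpos
      (by
        rintro ⟨π, m, L⟩ hu
        obtain ⟨hmd, hL⟩ := (hWmem π m L).mp hu
        by_cases hm : m = 0
        · subst hm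
          simp only [hA, if_true] at hL
          rw [hG0]
          have h1 := h0.1 R π L hL.1 hL.2
          simp only [mul_zero, sub_zero]
          linarith
        · simp only [hA, if_neg hm] at hL
          rw [hGk _ _ _ _ hm]
          simp only [mul_zero, add_zero]
          by_cases hlt : blk (x 0) π m < cfg.ρ m
          · have h1 := h0.2 R π m L (by omega) hmd hL.1 hL.2 hlt
            exact le_trans (min_le_left _ _) (by linarith)
          · exact le_trans (min_le_right _ _) (by linarith))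
      (by
        rintro ⟨π, m, L⟩ _
        have hcont : ContinuousOn x (Set.Ico 0 T₂) := hsol.cont.mono (fun s hs =>
          ⟨hs.1, lt_trans hs.2 hT₂T⟩)
        by_cases hm : m = 0
        · subst hm
          have : G (π, 0, L) = fun s => val cfg.p0 (x s) π L - (C0 - γ * s) := by
            funext s
            exact hG0 π L s
          rw [this]
          apply ContinuousOn.sub (val_cont _ π L hcont)
          fun_prop
        · have : G (π, m, L) = fun s =>
              min (val (cfg.pk m) (x s) π L + (b0 m + β m * s)) (cfg.ρ m - blk (x s) π m) := by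
            funext s
            exact hGk π m L s hm
          rw [this]
          apply ContinuousOn.inf
          · apply ContinuousOn.add (val_cont _ π L hcont)
            fun_prop
          · apply ContinuousOn.sub continuousOn_const (blk_cont π hcont))
      (by
        rintro s hs ⟨π, m, L⟩ hu hG1 hG2 hact ε' hε'
        obtain ⟨hmd, hL⟩ := (hWmem π m L).mp hu
        have hsI : s ∈ Set.Icc 0 T₂ := ⟨hs.1, hs.2.le⟩
        have hsT : s ∈ Set.Ico 0 T := hsub hsI
        have hG2' : G (π, m, L) s < cfg.η := by linarith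
        have hS : St cfg R M₀ (x s) (fun j => b0 j + β j * s) (C0 - γ * s) (G (π, m, L) s) := by
          refine ⟨hsol.pos s hsT, hlogb s hsI, by linarith, ?_, hb s hsT, hC s hsT, hG1, hG2', ?_, ?_⟩
          · intro j _ hj
            have := hZk j hj
            linarith
          · intro π' L' hadm' hlen'
            have h1 := hact (π', 0, L') ((hWmem _ _ _).mpr ⟨Nat.zero_le _, by
              simp only [hA, if_true]
              exact ⟨hadm', hlen'⟩⟩)
            rwa [hG0] at h1
          · intro π' k' L' h1 h2 hadm' hlen'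
            have hk0 : k' ≠ 0 := by omega
            have h3 := hact (π', k', L') ((hWmem _ _ _).mpr ⟨h2, by
              simp only [hA, if_neg hk0]
              exact ⟨hadm', hlen'⟩⟩)
            rwa [hGk _ _ _ _ hk0] at h3
        have hdrv := hsol.deriv s hsT
        by_cases hm : m = 0
        · subst hm
          simp only [hA, if_true] at hL
          obtain ⟨hadm, hlen⟩ := hL
          have g : Par.Good cfg.p0 B := cfg.good0
          have hact' : val cfg.p0 (x s) π L - (C0 - γ * s) = G (π, 0, L) s := (hG0 π L s).symm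
          obtain ⟨halign, _⟩ := active_align (p := cfg.p0) (B₁ := B) (n := d) le_rfl g N nv.hV
            (hsol.pos s hsT) hS.hR0 (hlogb s hsI) hadm hlen
            (by
              intro τ _ L' hL' hlen'
              have h1 := hS.hU (π * τ) L' hL' hlen'
              rw [← hact'] at h1
              have h2 : val cfg.p0 (x s) (π * τ) L' ≤ val cfg.p0 (x s) π L := by linarith
              exact h2)
            (Ξ := 0) (B := B)
            (fun i hi => absurd i.isLt (by
              have : d ≤ (i : ℕ) := hi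
              omega))
            (by simp) le_rfl
          obtain ⟨hf1, hf2⟩ := flow_of_align hN hε (hk s) hBK (hsol.pos s hsT) (ltil L π) halign
          have hflow : ∑ j, ltil L π j * massAction N (k s) (x s) j ≤ - κ := by
            rcases hκ with h | ⟨c, hsh⟩
            · rw [h, neg_zero]
              exact hf1
            · have hgap := hS.gap_up N hadm hlen hact' hsh.hc (hsh.hxc s hsT) (hsh.hCc s hsT)
              have hd : 1 ≤ d := by
                by_contra hcon
                have hd0 : d = 0 := by omega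
                subst hd0
                obtain ⟨r₀, _, hne⟩ := hgap
                exact hne (by simp)
              have h3 := hS.flow_le N nv hε (p := cfg.p0) rfl le_rfl g (cfg.sm0 hd) hadm hlen
                (hk s) hf2 hd hgap
              linarith [hsh.hκ]
          have hder := (val_deriv cfg.p0 (F := massAction N (k s) (x s)) π hlen.le hdrv).sub
            (((hasDerivAt_id s).const_mul γ).const_sub C0).hasDerivWithinAt
          have hder' : HasDerivWithinAt (fun s' => val cfg.p0 (x s') π L - (C0 - γ * s'))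
              (∑ j, ltil L π j * massAction N (k s) (x s) j - (-(γ * 1))) (Set.Ici s) s := hder
          have hlt : ∑ j, ltil L π j * massAction N (k s) (x s) j - (-(γ * 1)) < ε' := by
            linarith
          have hev := eventually_le_of_deriv hder' hlt
          filter_upwards [hev] with s' hs'
          rw [hG0, hG0]
          exact hs'
        · simp only [hA, if_neg hm] at hL
          obtain ⟨hadm, hlen⟩ := hL
          have h1m : 1 ≤ m := by omega
          have g : Par.Good (cfg.pk m) (cfg.Wk m) := cfg.goodk m h1m hmd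
          have hact' := hGk π m L s hm
          obtain ⟨hval, hblk, hcomp, hout⟩ := hS.bar h1m hmd hadm hlen hact'.symm
          obtain ⟨halign, hwin⟩ := active_align (p := cfg.pk m) (B₁ := cfg.Wk m) (n := d) hmd g N
            nv.hV (hsol.pos s hsT) (hS.hRk m h1m hmd) (hlogb s hsI) hadm hlen hcomp
            (Ξ := cfg.Ξ m) (B := B) hout (cfg.margin m h1m hmd) (cfg.Ξ0 m)
          obtain ⟨hf1, hf2⟩ := flow_of_align hN hε (hk s) hBK (hsol.pos s hsT) (ltil L π) halign
          have hflow : ∑ j, ltil L π j * massAction N (k s) (x s) j ≤ - κ := by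
            rcases hκ with h | ⟨c, hsh⟩
            · rw [h, neg_zero]
              exact hf1
            · have hd : 1 ≤ d := by omega
              have hgap := hS.gap_bar N h1m hmd hlen hblk hwin (hsh.hbc m h1m hmd) (hsh.hxc s hsT)
              have h3 := hS.flow_le N nv hε (p := cfg.pk m) rfl hmd g (cfg.smk m h1m hmd) hadm hlen
                (hk s) hf2 hd hgap
              linarith [hsh.hκ]
          have hder := (val_deriv (cfg.pk m) (F := massAction N (k s) (x s)) π
            (by rw [hlen]; exact hmd) hdrv).add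
            (((hasDerivAt_id s).const_mul (β m)).const_add (b0 m)).hasDerivWithinAt
          have hder' : HasDerivWithinAt
              (fun s' => val (cfg.pk m) (x s') π L + (b0 m + β m * s'))
              (∑ j, ltil L π j * massAction N (k s) (x s) j + β m * 1) (Set.Ici s) s := hder
          have hlt : ∑ j, ltil L π j * massAction N (k s) (x s) j + β m * 1 < ε' := by
            have := hβ m h1m hmd
            linarith
          have hev := eventually_le_of_deriv hder' hlt
          filter_upwards [hev] with s' hs'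
          rw [hGk _ _ _ _ hm]
          refine le_trans (min_le_left _ _) ?_
          have h9 : val (cfg.pk m) (x s) π L + (b0 m + β m * s) = G (π, m, L) s := hval
          rw [← h9]
          exact hs')
    have htin : t ∈ Set.Ico 0 T₂ := ⟨ht.1, htT₂⟩
    constructor
    · intro π L hadm hlen
      have h1 := hbound t htin (π, 0, L) ((hWmem _ _ _).mpr ⟨Nat.zero_le _, by
        simp only [hA, if_true]
        exact ⟨hadm, hlen⟩⟩)
      rwa [hG0] at h1
    · intro π m L h1 h2 hadm hlen
      have hm : m ≠ 0 := by omega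
      have h3 := hbound t htin (π, m, L) ((hWmem _ _ _).mpr ⟨h2, by
        simp only [hA, if_neg hm]
        exact ⟨hadm, hlen⟩⟩)
      rwa [hGk _ _ _ _ hm] at h3
  constructor
  · intro R π L hadm hlen
    have hR := le_max_right R (M₀ + Zm + 2)
    have h1 := (hmain _ hR).1 π L (Par.adm_mono (le_max_left _ _) L hadm) hlen
    linarith
  · intro R π m L h1 h2 hadm hlen hlt
    have hR := le_max_right R (M₀ + Zm + 2)
    have h3 := (hmain _ hR).2 π m L h1 h2 (Par.adm_mono (le_max_left _ _) L hadm) hlen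
    rcases min_le_iff.mp h3 with h4 | h4
    · simp only
      linarith
    · linarith

end

end Vale.Agent.P072.Gen
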