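import Vale.Agent.P072.GenFinal

namespace Vale.Agent.P072.Gen

noncomputable section

open Classical Filter Topology

/-- A quantitative form of the flow inequality, obtained by doubling the upward rates. -/
theorem flow_strict {n : ℕ} (N : Network n) (hN : N.WeaklyReversible)
    (k : Cplx n × Cplx n → ℝ) {ε K : ℝ} (hε : 0 < ε)
    (hk : ∀ r ∈ N.reactions, ε ≤ k r ∧ k r ≤ ε⁻¹)
    (hK : (N.reactions.card : ℝ) * (2 * ε⁻¹) ≤ K * ε)
    {x : Fin n → ℝ} (hx : ∀ i, 0 < x i) (h : Cplx n → ℝ)
    (hH : ∀ y y' : Cplx n, Relation.ReflTransGen N.Step y' y → h y' < h y →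
      K * mono x y' ≤ mono x y) {r₀ : Cplx n × Cplx n} (hr₀ : r₀ ∈ N.reactions) :
    ∑ r ∈ N.reactions, (k r * mono x r.1) * (h r.2 - h r.1)
      ≤ -(1 / 2) * ((k r₀ * mono x r₀.1) * |h r₀.2 - h r₀.1|) := by
  set k' : Cplx n × Cplx n → ℝ := fun r => k r * (if h r.1 < h r.2 then 2 else 1) with hk'
  have hinv : 0 < ε⁻¹ := inv_pos.mpr hε
  have hbd : ∀ r ∈ N.reactions, ε ≤ k' r ∧ k' r ≤ 2 * ε⁻¹ := by
    intro r hr
    have h1 := hk r hr
    simp only [hk']
    split_ifs <;> constructor <;> nlinarith [h1.1, h1.2]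
  have hflow := flow_nonpos N hN k' ε (2 * ε⁻¹) K hε.le hbd hK hx h hH
  set w : Cplx n × Cplx n → ℝ := fun r => k r * mono x r.1 with hw
  have hwnn : ∀ r ∈ N.reactions, 0 ≤ w r := fun r hr =>
    mul_nonneg (le_trans hε.le (hk r hr).1) (mono_nonneg hx _)
  set up : Cplx n × Cplx n → ℝ := fun r => max (h r.2 - h r.1) 0 with hup
  set dn : Cplx n × Cplx n → ℝ := fun r => max (h r.1 - h r.2) 0 with hdn
  have e1 : ∀ r, h r.2 - h r.1 = up r - dn r := by
    intro r
    simp only [hup, hdn]
    rcases le_total (h r.1) (h r.2) with hle | hle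
    · rw [max_eq_left (by linarith), max_eq_right (by linarith)]; ring
    · rw [max_eq_right (by linarith), max_eq_left (by linarith)]; ring
  have e2 : ∀ r, (k' r * mono x r.1) * (h r.2 - h r.1) = w r * (2 * up r - dn r) := by
    intro r
    simp only [hk', hw, hup, hdn]
    by_cases hlt : h r.1 < h r.2
    · rw [if_pos hlt, max_eq_left (by linarith), max_eq_right (by linarith)]; ring
    · rw [if_neg hlt]
      push Not at hlt
      rw [max_eq_right (by linarith), max_eq_left (by linarith)]; ring
  set A := ∑ r ∈ N.reactions, w r * up r with hA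
  set D := ∑ r ∈ N.reactions, w r * dn r with hD
  have hT : ∑ r ∈ N.reactions, (k r * mono x r.1) * (h r.2 - h r.1) = A - D := by
    rw [hA, hD, ← Finset.sum_sub_distrib]
    apply Finset.sum_congr rfl
    intro r _
    show w r * _ = _
    rw [e1 r]; ring
  have hT' : 2 * A - D ≤ 0 := by
    have : ∑ r ∈ N.reactions, (k' r * mono x r.1) * (h r.2 - h r.1) = 2 * A - D := by
      rw [hA, hD, Finset.mul_sum, ← Finset.sum_sub_distrib]
      apply Finset.sum_congr rfl
      intro r _
      rw [e2 r]; ring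
    rw [← this]
    exact hflow
  have hupnn : ∀ r ∈ N.reactions, 0 ≤ w r * up r := fun r hr =>
    mul_nonneg (hwnn r hr) (le_max_right _ _)
  have hdnnn : ∀ r ∈ N.reactions, 0 ≤ w r * dn r := fun r hr =>
    mul_nonneg (hwnn r hr) (le_max_right _ _)
  have hA1 : w r₀ * up r₀ ≤ A := Finset.single_le_sum hupnn hr₀
  have hD1 : w r₀ * dn r₀ ≤ D := Finset.single_le_sum hdnnn hr₀
  have hw0 := hwnn r₀ hr₀
  rw [hT]
  show A - D ≤ -(1 / 2) * (w r₀ * |h r₀.2 - h r₀.1|)
  have habs : |h r₀.2 - h r₀.1| = up r₀ + dn r₀ := by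
    simp only [hup, hdn]
    rcases le_total (h r₀.1) (h r₀.2) with hle | hle
    · rw [abs_of_nonneg (by linarith), max_eq_left (by linarith), max_eq_right (by linarith)]
      ring
    · rw [abs_of_nonpos (by linarith), max_eq_right (by linarith), max_eq_left (by linarith)]
      ring
  rw [habs]
  have hup0 : 0 ≤ up r₀ := le_max_right _ _
  have hdn0 : 0 ≤ dn r₀ := le_max_right _ _
  have h3 : up r₀ = 0 ∨ dn r₀ = 0 := by
    simp only [hup, hdn]
    rcases le_total (h r₀.1) (h r₀.2) with hle | hle
    · right; exact max_eq_right (by linarith)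
    · left; exact max_eq_right (by linarith)
  rcases h3 with h3 | h3
  · rw [h3]
    nlinarith
  · rw [h3]
    nlinarith

/-- Sorting a block of positions, preserving an antitone weight on the block. -/
theorem exists_block_sort {n k : ℕ} (a u : Fin n → ℝ)
    (ha : ∀ i j : Fin n, i ≤ j → (j : ℕ) < k → a j ≤ a i)
    (ha0 : ∀ i : Fin n, k ≤ (i : ℕ) → a i = 0)
    (hsw : ∀ i j : Fin n, (i : ℕ) < k → (j : ℕ) < k → a j < a i → u j ≤ u i) :
    ∃ τ : Equiv.Perm (Fin n), (∀ i, ((τ i : ℕ) < k ↔ (i : ℕ) < k)) ∧ (∀ i, a (τ i) = a i) ∧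
      ∀ i j : Fin n, i ≤ j → (j : ℕ) < k → u (τ j) ≤ u (τ i) := by
  set c : Fin n → ℝ := fun i => if (i : ℕ) < k then 0 else 1 with hc
  set key : Fin n → ℝ ×ₗ ℝ := fun i => toLex (c i, - a i) with hkey
  set f : Fin n → (ℝ ×ₗ ℝ) ×ₗ ℝ := fun i => toLex (key i, - u i) with hf
  set τ := Tuple.sort f with hτ
  have hmono : Monotone (f ∘ τ) := Tuple.monotone_sort f
  have hlex : ∀ i j, i ≤ j → key (τ i) < key (τ j) ∨
      (key (τ i) = key (τ j) ∧ - u (τ i) ≤ - u (τ j)) := by
    intro i j hij
    have h1 := hmono hij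
    simp only [Function.comp, hf] at h1
    rw [Prod.Lex.toLex_le_toLex] at h1
    exact h1
  have hkeym : Monotone key := by
    intro i j hij
    simp only [hkey]
    rw [Prod.Lex.toLex_le_toLex]
    by_cases hj : (j : ℕ) < k
    · have hi : (i : ℕ) < k := lt_of_le_of_lt hij hj
      right
      simp only [hc, if_pos hi, if_pos hj]
      exact ⟨trivial, by linarith [ha i j hij hj]⟩
    · by_cases hi : (i : ℕ) < k
      · left
        simp only [hc, if_pos hi, if_neg hj]
        norm_num
      · right
        push Not at hi hj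
        simp only [hc]
        rw [if_neg (not_lt.mpr hi), if_neg (not_lt.mpr hj), ha0 i hi, ha0 j hj]
        exact ⟨rfl, le_rfl⟩
  have hkeyτ : Monotone (key ∘ τ) := by
    intro i j hij
    simp only [Function.comp]
    rcases hlex i j hij with h | ⟨h, _⟩
    · exact h.le
    · exact h.le
  have h1 := (Tuple.comp_sort_eq_comp_iff_monotone (f := key) (σ := τ)).mpr hkeyτ
  have h2 := (Tuple.comp_sort_eq_comp_iff_monotone (f := key) (σ := 1)).mpr hkeym
  have hkeyeq : ∀ i, key (τ i) = key i := by
    intro i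
    have h3 := congrFun (h1.trans h2.symm) i
    simpa using h3
  have hceq : ∀ i, c (τ i) = c i ∧ a (τ i) = a i := by
    intro i
    have h3 := hkeyeq i
    simp only [hkey] at h3
    have h4 := toLex.injective h3
    simp only [Prod.mk.injEq] at h4
    exact ⟨h4.1, by linarith [h4.2]⟩
  refine ⟨τ, ?_, fun i => (hceq i).2, ?_⟩
  · intro i
    have h3 := (hceq i).1
    simp only [hc] at h3
    by_cases hi : (i : ℕ) < k
    · rw [if_pos hi] at h3
      constructor
      · exact fun _ => hi
      · intro _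
        by_contra hcon
        rw [if_neg hcon] at h3
        norm_num at h3
    · rw [if_neg hi] at h3
      constructor
      · intro h4
        rw [if_pos h4] at h3
        norm_num at h3
      · exact fun h4 => absurd h4 hi
  · intro i j hij hj
    have hi : (i : ℕ) < k := lt_of_le_of_lt hij hj
    have hτj : (τ j : ℕ) < k := by
      by_contra hcon
      have h3 := (hceq j).1
      simp only [hc] at h3
      rw [if_neg hcon, if_pos hj] at h3
      norm_num at h3
    have hτi : (τ i : ℕ) < k := by
      by_contra hcon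
      have h3 := (hceq i).1
      simp only [hc] at h3
      rw [if_neg hcon, if_pos hi] at h3
      norm_num at h3
    rcases hlex i j hij with h | ⟨_, h⟩
    · apply hsw _ _ hτi hτj
      rw [hkeyeq, hkeyeq] at h
      simp only [hkey] at h
      rw [Prod.Lex.toLex_lt_toLex] at h
      rcases h with h | ⟨_, h⟩
      · exfalso
        simp only [hc, if_pos hi, if_pos hj] at h
        exact lt_irrefl _ h
      · rw [(hceq i).2, (hceq j).2]
        have h5 : - a i < - a j := h
        linarith
    · linarith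

theorem swap_le' {n : ℕ} (a u : Fin n → ℝ) {i j : Fin n}
    (hs : ∑ l, a l * u (Equiv.swap i j l) ≤ ∑ l, a l * u l)
    (h : a j < a i) : u j ≤ u i := by
  by_contra hcon
  push Not at hcon
  have hne : i ≠ j := by
    rintro rfl
    exact lt_irrefl _ h
  have h2 : ∑ l, a l * u (Equiv.swap i j l) - ∑ l, a l * u l
      = (a i - a j) * (u j - u i) := by
    rw [← Finset.sum_sub_distrib]
    rw [Finset.sum_eq_add i j hne]
    · rw [Equiv.swap_apply_left, Equiv.swap_apply_right]
      ring
    · intro c _ hc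
      rw [Equiv.swap_apply_of_ne_of_ne hc.1 hc.2]
      ring
    · intro h3; exact absurd (Finset.mem_univ i) h3
    · intro h3; exact absurd (Finset.mem_univ j) h3
  have h3 : 0 < (a i - a j) * (u j - u i) := mul_pos (by linarith) (by linarith)
  linarith

theorem pos_ge : ∀ (L : List ℝ) (i : ℕ), L.length ≤ i → pos L i = 0
  | [], _, _ => rfl
  | l :: Q, i, h => by
    have h1 : i ≠ Q.length := by
      simp only [List.length_cons] at h
      omega
    have e : pos (l :: Q) i = pos Q i := if_neg h1
    rw [e]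
    exact pos_ge Q i (by simp only [List.length_cons] at h; omega)

/-- The weight vector on the species attached to a list and an arrangement. -/
def ltil {n : ℕ} (L : List ℝ) (π : Equiv.Perm (Fin n)) (j : Fin n) : ℝ := pos L (π.symm j)

theorem dotr_ext' {n : ℕ} (z : Fin n → ℝ) (π : Equiv.Perm (Fin n)) {L : List ℝ}
    (h : L.length ≤ n) :
    dotr (ext (fun j => z (π j))) L = ∑ j, ltil L π j * z j := by
  rw [dotr_eq_sum]
  have h1 : ∑ i ∈ Finset.range L.length, pos L i * ext (fun j => z (π j)) i
      = ∑ i ∈ Finset.range n, pos L i * ext (fun j => z (π j)) i := by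
    apply Finset.sum_subset
    · intro i hi
      exact Finset.mem_range.mpr (lt_of_lt_of_le (Finset.mem_range.mp hi) h)
    · intro i _ hi
      rw [pos_ge L i (by simpa using hi), zero_mul]
  rw [h1, Finset.sum_range]
  have h2 := Equiv.sum_comp π (fun j => ltil L π j * z j)
  rw [← h2]
  apply Finset.sum_congr rfl
  intro i _
  rw [ext_coe]
  simp [ltil]

theorem psi_ext' (p : Par) {n : ℕ} (z : Fin n → ℝ) (π : Equiv.Perm (Fin n)) {L : List ℝ}
    (h : L.length ≤ n) :
    p.Psi (ext (fun j => z (π j))) L = ∑ j, ltil L π j * z j + p.Psi (fun _ => 0) L := by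
  rw [p.psi_eq, dotr_ext' z π h]

theorem ltil_perm {n : ℕ} {L : List ℝ} (π τ : Equiv.Perm (Fin n))
    (hτ : ∀ i, pos L (τ i) = pos L i) (j : Fin n) : ltil L (π * τ) j = ltil L π j := by
  unfold ltil
  have h1 := hτ (τ.symm (π.symm j))
  simp only [Equiv.apply_symm_apply] at h1
  have e : (π * τ).symm j = τ.symm (π.symm j) := rfl
  rw [e, ← h1]

/-- Block sums. -/
theorem sum_block {n k : ℕ} (hk : k ≤ n) (φ : ℕ → ℝ) :
    ∑ i ∈ Finset.range k, φ i = ∑ i : Fin n, if (i : ℕ) < k then φ i else 0 := by
  have h1 : ∑ i : Fin n, (if (i : ℕ) < k then φ i else 0)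
      = ∑ i ∈ Finset.range n, if i < k then φ i else 0 := by
    rw [Finset.sum_range (fun i => if i < k then φ i else 0)]
  rw [h1, ← Finset.sum_filter]
  apply Finset.sum_congr _ (fun _ _ => rfl)
  ext i
  simp only [Finset.mem_range, Finset.mem_filter]
  constructor
  · intro h
    exact ⟨lt_of_lt_of_le h hk, h⟩
  · intro h
    exact h.2

/-- The windows along a maximal list, as a statement on positions. -/
theorem pos_window {p : Par} {B R R' : ℝ} (g : p.Good B) {y : ℕ → ℝ} {L : List ℝ}
    (M : Par.Mx p R R' y L) : ∀ Q S : List ℝ, L = S ++ Q → ∀ i, i < Q.length →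
    |Real.log (y i) - pos Q i| ≤ p.Wbar
  | [], _, _, i, hi => by simp at hi
  | l :: Q, S, hL, i, hi => by
    obtain ⟨_, _, hlen, hsum⟩ := M.split hL
    by_cases hq : i = Q.length
    · have e : pos (l :: Q) i = l := if_pos hq
      rw [e, hq]
      have h1 := Par.window g M hL
      refine le_trans h1 (p.win_le_Wbar g.W0pos ?_)
      simp only [List.length_cons]
      omega
    · have e : pos (l :: Q) i = pos Q i := if_neg hq
      rw [e]
      refine pos_window g M Q (S ++ [l]) (by rw [hL, List.append_assoc]; rfl) i ?_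
      simp only [List.length_cons] at hi
      omega

/-- The alignment at an active candidate with a block of positions. -/
theorem active_align {n : ℕ} {p : Par} {B₁ : ℝ} (hk : p.d ≤ n) (g : p.Good B₁) (N : Network n)
    (hV : ∀ y y' : Cplx n, Relation.ReflTransGen N.Step y' y → y ≠ y' →
      ∀ i, |(y i : ℤ) - (y' i : ℤ)| ≤ (p.V : ℤ))
    {x : Fin n → ℝ} (hx : ∀ i, 0 < x i) {R R' : ℝ} (hR : R' + p.Zbar + 2 ≤ R)
    (hlog : ∀ i, |Real.log (x i)| ≤ R') {π : Equiv.Perm (Fin n)} {L : List ℝ}
    (hadm : p.Adm R L) (hlen : L.length = p.d)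
    (hact : ∀ τ : Equiv.Perm (Fin n), (∀ i, ((τ i : ℕ) < p.d ↔ (i : ℕ) < p.d)) →
      ∀ L', p.Adm R L' → L'.length = p.d →
      p.Psi (ext (fun j => x ((π * τ) j))) L' ≤ p.Psi (ext (fun j => x (π j))) L)
    {Ξ B : ℝ} (hout : ∀ i : Fin n, p.d ≤ (i : ℕ) → |Real.log (x (π i))| ≤ Ξ)
    (hmargin : B + (p.V : ℝ) * n * Ξ ≤ B₁) (hΞ : 0 ≤ Ξ) :
    (∀ y y' : Cplx n, Relation.ReflTransGen N.Step y' y →
      ∑ i, (y' i : ℝ) * ltil L π i < ∑ i, (y i : ℝ) * ltil L π i →
      B ≤ phi (diffVec y y') x) ∧
    (∀ j : Fin n, ((π.symm j : Fin n) : ℕ) < p.d → |Real.log (x j) - ltil L π j| ≤ p.Wbar) := by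
  set a : Fin n → ℝ := fun i => pos L i with ha
  have hlen' : L.length ≤ n := by omega
  obtain ⟨τ, hτ1, hτ2, hτ3⟩ := exists_block_sort (k := p.d) a (fun j => x (π j))
    (by
      intro i j hij hj
      exact Par.pos_anti L hadm i j hij (by rw [hlen]; exact hj))
    (by
      intro i hi
      exact pos_ge L i (by rw [hlen]; exact hi))
    (by
      intro i j hi hj hlt
      apply swap_le' a (fun j => x (π j)) _ hlt
      have hs : ∀ l, ((Equiv.swap i j l : Fin n) : ℕ) < p.d ↔ (l : ℕ) < p.d := by
        intro l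
        by_cases h1 : l = i
        · subst h1
          rw [Equiv.swap_apply_left]
          exact ⟨fun _ => hi, fun _ => hj⟩
        · by_cases h2 : l = j
          · subst h2
            rw [Equiv.swap_apply_right]
            exact ⟨fun _ => hj, fun _ => hi⟩
          · rw [Equiv.swap_apply_of_ne_of_ne h1 h2]
      have h1 := hact (Equiv.swap i j) hs L hadm hlen
      have e : ∀ z : Fin n → ℝ, p.Psi (ext z) L
          = ∑ i : Fin n, a i * z i + p.Psi (fun _ => 0) L := by
        intro z
        rw [p.psi_eq (ext z) L, dotr_eq_sum]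
        congr 1
        have h2 : ∑ i ∈ Finset.range L.length, pos L i * ext z i
            = ∑ i ∈ Finset.range n, pos L i * ext z i := by
          apply Finset.sum_subset
          · intro i hi
            exact Finset.mem_range.mpr (lt_of_lt_of_le (Finset.mem_range.mp hi) hlen')
          · intro i _ hi
            rw [pos_ge L i (by simpa using hi), zero_mul]
        rw [h2, Finset.sum_range]
        apply Finset.sum_congr rfl
        intro i _
        rw [ext_coe]
      rw [e, e] at h1
      simp only [Equiv.Perm.mul_apply] at h1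
      linarith)
  have hposτ : ∀ i : Fin n, pos L (τ i) = pos L i := hτ2
  set π' : Equiv.Perm (Fin n) := π * τ with hπ'
  have hl : ∀ j, ltil L π' j = ltil L π j := fun j => ltil_perm π τ hposτ j
  have hfun : ∀ z : Fin n → ℝ,
      p.Psi (ext (fun j => z (π' j))) L = p.Psi (ext (fun j => z (π j))) L := by
    intro z
    rw [psi_ext' p z π' hlen', psi_ext' p z π hlen']
    simp only [hl]
  set y : ℕ → ℝ := ext (fun j => x (π' j)) with hy
  have hxπ : ∀ (i : ℕ) (hi : i < n), y i = x (π' ⟨i, hi⟩) := by
    intro i hi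
    rw [hy]
    unfold ext
    rw [dif_pos hi]
  have hposv : Par.PosV p R' y := by
    refine ⟨fun i hi => ?_, fun i j hij hj => ?_, fun i hi => ?_⟩
    · rw [hxπ i (by omega)]; exact hx _
    · rw [hxπ j (by omega), hxπ i (by omega)]
      exact hτ3 ⟨i, by omega⟩ ⟨j, by omega⟩ hij hj
    · rw [hxπ i (by omega)]; exact hlog _
  have hM : Par.Mx p R R' y L := by
    refine ⟨hposv, hadm, hlen, hR, ?_⟩
    intro L' hL' hlen2
    have h1 := hact τ hτ1 L' hL' hlen2
    rw [← hfun x] at h1
    exact h1
  constructor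
  · intro c c' hreach hlt
    have hne : c ≠ c' := by
      rintro rfl
      exact lt_irrefl _ hlt
    set v : ℕ → ℤ := fun i => if hi : i < n then
      (c (π' ⟨i, hi⟩) : ℤ) - (c' (π' ⟨i, hi⟩) : ℤ) else 0 with hv
    have hvb : ∀ i, |v i| ≤ (p.V : ℤ) := by
      intro i
      rw [hv]
      dsimp only
      by_cases hi : i < n
      · rw [dif_pos hi]
        exact hV c c' hreach hne _
      · rw [dif_neg hi]
        simp
    have hvr : ∀ i, (v i : ℝ)
        = ext (fun j => (c (π' j) : ℝ)) i - ext (fun j => (c' (π' j) : ℝ)) i := by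
      intro i
      rw [hv]
      unfold ext
      dsimp only
      by_cases hi : i < n
      · simp only [dif_pos hi]
        push_cast
        rfl
      · simp only [dif_neg hi]
        simp
    have hdot : 0 < Par.dot v L := by
      rw [Par.dot_eq_dotr, dotr_congr hvr, dotr_sub, dotr_ext' (fun j => (c j : ℝ)) π' hlen',
        dotr_ext' (fun j => (c' j : ℝ)) π' hlen']
      simp only [hl]
      have e1 : ∀ u : Cplx n, ∑ j, ltil L π j * (u j : ℝ) = ∑ i, (u i : ℝ) * ltil L π i :=
        fun u => Finset.sum_congr rfl fun i _ => mul_comm _ _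
      rw [e1, e1]
      linarith
    have hal := Par.align g hM hvb L [] rfl hdot
    have hsplit : phi (diffVec c c') x
        = ∑ i : Fin n, ((c (π' i) : ℝ) - (c' (π' i) : ℝ)) * Real.log (x (π' i)) := by
      unfold phi diffVec
      exact (Equiv.sum_comp π' (fun j => ((c j : ℝ) - (c' j : ℝ)) * Real.log (x j))).symm
    have hblock : ∑ i ∈ Finset.range L.length, (v i : ℝ) * Real.log (y i)
        = ∑ i : Fin n, if (i : ℕ) < p.d then
            ((c (π' i) : ℝ) - (c' (π' i) : ℝ)) * Real.log (x (π' i)) else 0 := by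
      rw [hlen, sum_block hk]
      apply Finset.sum_congr rfl
      intro i _
      split_ifs
      · rw [hvr, hy, ext_coe, ext_coe, ext_coe]
      · rfl
    rw [hblock] at hal
    have hrest : - ((p.V : ℝ) * n * Ξ) ≤ ∑ i : Fin n, if (i : ℕ) < p.d then 0 else
        ((c (π' i) : ℝ) - (c' (π' i) : ℝ)) * Real.log (x (π' i)) := by
      have h1 : ∑ _i : Fin n, (-((p.V : ℝ) * Ξ)) ≤ ∑ i : Fin n, if (i : ℕ) < p.d then 0 else
          ((c (π' i) : ℝ) - (c' (π' i) : ℝ)) * Real.log (x (π' i)) := by
        apply Finset.sum_le_sum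
        intro i _
        have hVΞ : 0 ≤ (p.V : ℝ) * Ξ := by positivity
        split_ifs with hi
        · linarith
        · push Not at hi
          have h2 : (p.d : ℕ) ≤ ((τ i : Fin n) : ℕ) := by
            by_contra hcon
            exact absurd ((hτ1 i).mp (by omega)) (by omega)
          have h3 := hout (τ i) h2
          have h4 : |((c (π' i) : ℝ) - (c' (π' i) : ℝ))| ≤ (p.V : ℝ) := by
            have h5 := hV c c' hreach hne (π' i)
            have h6 : ((|(c (π' i) : ℤ) - (c' (π' i) : ℤ)| : ℤ) : ℝ) ≤ ((p.V : ℤ) : ℝ) := by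
              exact_mod_cast h5
            push_cast at h6
            simpa using h6
          have h7 : |((c (π' i) : ℝ) - (c' (π' i) : ℝ)) * Real.log (x (π' i))|
              ≤ (p.V : ℝ) * Ξ := by
            rw [abs_mul]
            exact mul_le_mul h4 h3 (abs_nonneg _) (by positivity)
          have h8 := (abs_le.mp h7).1
          exact h8
      simp only [Finset.sum_const, Finset.card_univ, Fintype.card_fin, nsmul_eq_mul] at h1
      have e : (n : ℝ) * -((p.V : ℝ) * Ξ) = -((p.V : ℝ) * n * Ξ) := by ring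
      rw [e] at h1
      exact h1
    have hsum : ∑ i : Fin n, ((c (π' i) : ℝ) - (c' (π' i) : ℝ)) * Real.log (x (π' i))
        = (∑ i : Fin n, if (i : ℕ) < p.d then
            ((c (π' i) : ℝ) - (c' (π' i) : ℝ)) * Real.log (x (π' i)) else 0)
          + ∑ i : Fin n, if (i : ℕ) < p.d then 0 else
            ((c (π' i) : ℝ) - (c' (π' i) : ℝ)) * Real.log (x (π' i)) := by
      rw [← Finset.sum_add_distrib]
      apply Finset.sum_congr rfl
      intro i _
      split_ifs <;> simp
    rw [hsplit, hsum]
    linarith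
  · intro j hj
    have hτj : ((τ.symm (π.symm j) : Fin n) : ℕ) < p.d := by
      rw [← hτ1]
      simpa using hj
    have e1 : π' (τ.symm (π.symm j)) = j := by
      simp [hπ']
    have h1 := pos_window g hM L [] rfl (τ.symm (π.symm j)) (by rw [hlen]; exact hτj)
    rw [hy, ext_coe, e1] at h1
    rw [← hl j]
    have e2 : ltil L π' j = pos L ((τ.symm (π.symm j) : Fin n) : ℕ) := rfl
    rw [e2]
    exact h1

end

end Vale.Agent.P072.Gen
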