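import Vale.Agent.P072.Gen2Abs
import Vale.Agent.P072h7.Exist

namespace Vale.Agent.P072.Gen

noncomputable section

open Classical

/-- A common positive lower bound. -/
theorem exists_min_bound {n : ℕ} (g : Fin n → ℝ) (hg : ∀ i, 0 < g i) {δ : ℝ} (hδ : 0 < δ) :
    ∃ δ₁ : ℝ, 0 < δ₁ ∧ δ₁ ≤ δ ∧ ∀ i, δ₁ ≤ g i := by
  have hs : 0 ≤ ∑ i, (g i)⁻¹ := Finset.sum_nonneg fun i _ => (inv_pos.mpr (hg i)).le
  have hδi := inv_pos.mpr hδ
  refine ⟨(δ⁻¹ + ∑ i, (g i)⁻¹)⁻¹, by positivity, ?_, ?_⟩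
  · rw [inv_le_comm₀ (by positivity) hδ]
    linarith
  · intro i
    have h1 : (g i)⁻¹ ≤ ∑ i, (g i)⁻¹ :=
      Finset.single_le_sum (f := fun i => (g i)⁻¹) (fun i _ => (inv_pos.mpr (hg i)).le)
        (Finset.mem_univ i)
    rw [inv_le_comm₀ (by positivity) (hg i)]
    linarith

/-- Rates on a finite set lie between some `ε` and `1/ε`. -/
theorem exists_eps {n : ℕ} (N : Network n) (k : Cplx n × Cplx n → ℝ)
    (hk : ∀ r ∈ N.reactions, 0 < k r) :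
    ∃ ε : ℝ, 0 < ε ∧ ∀ r ∈ N.reactions, ε ≤ k r ∧ k r ≤ ε⁻¹ := by
  obtain ⟨m, hm⟩ : ∃ m : ℝ, m = 1 + ∑ r ∈ N.reactions, (|k r| + |(k r)⁻¹|) := ⟨_, rfl⟩
  have hs : 0 ≤ ∑ r ∈ N.reactions, (|k r| + |(k r)⁻¹|) :=
    Finset.sum_nonneg fun _ _ => by positivity
  have hm0 : 0 < m := by rw [hm]; linarith
  refine ⟨m⁻¹, inv_pos.mpr hm0, ?_⟩
  intro r hr
  have h1 : |k r| + |(k r)⁻¹| ≤ ∑ r ∈ N.reactions, (|k r| + |(k r)⁻¹|) :=
    Finset.single_le_sum (f := fun r => |k r| + |(k r)⁻¹|) (fun _ _ => by positivity) hr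
  have h2 := le_abs_self (k r)
  have h3 := le_abs_self (k r)⁻¹
  have h4 := abs_nonneg (k r)
  have h5 := abs_nonneg (k r)⁻¹
  have hkr := hk r hr
  constructor
  · rw [inv_le_comm₀ hm0 hkr, hm]
    linarith
  · rw [inv_inv, hm]
    linarith

/-- The permanence theorem for weakly reversible mass-action systems. -/
theorem permanent {d : ℕ} (N : Network d) (hN : N.WeaklyReversible)
    (k : Cplx d × Cplx d → ℝ) (hk : ∀ r ∈ N.reactions, 0 < k r)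
    (c : Fin d → ℝ) (hc : ∀ i, 0 < c i) :
    ∃ K : Set (Fin d → ℝ), IsCompact K ∧ (∀ y ∈ K, (∀ i, 0 < y i) ∧ y - c ∈ N.stoich) ∧
      ∀ x₀ : Fin d → ℝ, (∀ i, 0 < x₀ i) → x₀ - c ∈ N.stoich →
        ∃ x : ℝ → Fin d → ℝ, x 0 = x₀ ∧
          (∀ t, 0 ≤ t → (∀ i, 0 < x t i) ∧ x t - c ∈ N.stoich) ∧
          HasDerivWithinAt x (massAction N k x₀) (Set.Ici 0) 0 ∧
          (∀ t, 0 < t → HasDerivAt x (massAction N k (x t)) t) ∧
          (∀ (T : ℝ) (x' : ℝ → Fin d → ℝ), IsPositiveSolution N (fun _ => k) T x' → x' 0 = x₀ →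
            ∀ t ∈ Set.Ico 0 T, x' t = x t) ∧
          ∃ T₀ : ℝ, ∀ t, T₀ ≤ t → x t ∈ K := by
  obtain ⟨ε, hε, hkε⟩ := exists_eps N k hk
  obtain ⟨K, hKc, hKsub, hKabs⟩ := absorbing_compact N hN ε hε c hc
  refine ⟨K, hKc, hKsub, ?_⟩
  intro x₀ hx₀ hxc
  obtain ⟨T₀, hT₀⟩ := hKabs x₀ hx₀ hxc
  obtain ⟨δ, hδ, R, hbox⟩ := bounded_persistent N hN ε hε x₀ hx₀
  obtain ⟨δ₁, hδ₁, hδ₁δ, hδ₁x⟩ := exists_min_bound x₀ hx₀ hδ
  obtain ⟨R₁, hR₁⟩ : ∃ R₁ : ℝ, R₁ = |R| + ∑ i, |x₀ i| := ⟨_, rfl⟩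
  have hR₁R : R ≤ R₁ := by
    rw [hR₁]
    have : 0 ≤ ∑ i, |x₀ i| := Finset.sum_nonneg fun _ _ => abs_nonneg _
    have := le_abs_self R
    linarith
  have hR₁x : ∀ i, x₀ i ≤ R₁ := by
    intro i
    have h1 : |x₀ i| ≤ ∑ i, |x₀ i| :=
      Finset.single_le_sum (f := fun i => |x₀ i|) (fun _ _ => abs_nonneg _) (Finset.mem_univ i)
    have h2 := le_abs_self (x₀ i)
    have h3 := abs_nonneg R
    rw [hR₁]
    linarith
  have hk' : ∀ t : ℝ, ∀ r ∈ N.reactions, ε ≤ (fun _ : ℝ => k) t r ∧ (fun _ : ℝ => k) t r ≤ ε⁻¹ :=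
    fun _ => hkε
  have trap : ∀ (T : ℝ) (x : ℝ → Fin d → ℝ), IsPositiveSolution N (fun _ => k) T x → x 0 = x₀ →
      ∀ t ∈ Set.Ico 0 T, x t ∈ Vale.Agent.P072h7.box d δ₁ R₁ := by
    intro T x hs h0 t ht i
    have h1 := hbox (fun _ => k) hk' T x hs h0 t ht i
    exact ⟨le_trans hδ₁δ h1.1, le_trans h1.2 hR₁R⟩
  obtain ⟨x, hx0, hxs⟩ := Vale.Agent.P072h7.exists_global N k hδ₁ (R := R₁) (c := x₀)
    (fun i => ⟨hδ₁x i, hR₁x i⟩) trap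
  refine ⟨x, hx0, ?_, ?_, ?_, ?_, ?_⟩
  · intro t ht
    have hti : t ∈ Set.Ico 0 (t + 1) := ⟨ht, by linarith⟩
    refine ⟨(hxs (t + 1)).pos t hti, ?_⟩
    have h1 := sol_sub_mem N (hxs (t + 1)) hti
    have e : x t - c = (x t - x 0) + (x 0 - c) := by abel
    rw [e, hx0]
    rw [hx0] at h1
    exact Submodule.add_mem _ h1 hxc
  · have h1 := (hxs 1).deriv 0 ⟨le_rfl, one_pos⟩
    rw [hx0] at h1
    exact h1
  · intro t ht
    exact Vale.Agent.P072h7.hasDerivAt_of_right (hxs (t + 1)) ht (by linarith)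
  · intro T x' hs' h0' t ht
    have hB : IsCompact (Vale.Agent.P072h7.box d δ₁ R₁) := Vale.Agent.P072h7.isCompact_box _ _
    obtain ⟨K₁, hK₁⟩ : ∃ K₁, LipschitzOnWith K₁ (massAction N k)
        (Vale.Agent.P072h7.box d δ₁ R₁) :=
      LocallyLipschitzOn.exists_lipschitzOnWith_of_compact hB
        (((Vale.Agent.P072h7.massAction_contDiff N k).locallyLipschitz).locallyLipschitzOn)
    have hxT := hxs T
    have hsub : Set.Icc 0 t ⊆ Set.Ico 0 T := fun s hs => ⟨hs.1, lt_of_le_of_lt hs.2 ht.2⟩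
    have hsub2 : Set.Ico 0 t ⊆ Set.Ico 0 T := fun s hs => ⟨hs.1, lt_trans hs.2 ht.2⟩
    have h := ODE_solution_unique_of_mem_Icc_right (v := fun _ => massAction N k)
      (s := fun _ => Vale.Agent.P072h7.box d δ₁ R₁) (K := K₁) (f := x') (g := x) (a := 0) (b := t)
      (fun _ _ => hK₁) (hs'.cont.mono hsub) (fun s hs => hs'.deriv s (hsub2 hs))
      (fun s hs => trap T x' hs' h0' s (hsub2 hs)) (hxT.cont.mono hsub)
      (fun s hs => hxT.deriv s (hsub2 hs)) (fun s hs => trap T x hxT hx0 s (hsub2 hs))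
      (h0'.trans hx0.symm)
    exact h ⟨ht.1, le_rfl⟩
  · refine ⟨max T₀ 0, ?_⟩
    intro t ht
    have h1 : T₀ ≤ t := le_trans (le_max_left _ _) ht
    have h2 : 0 ≤ t := le_trans (le_max_right _ _) ht
    exact hT₀ (fun _ => k) hk' (t + 1) x (hxs (t + 1)) hx0 t ⟨h2, by linarith⟩ h1

end

end Vale.Agent.P072.Gen
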