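import Vale.Agent.P072.Gen2Bound

namespace Vale.Agent.P072.Gen

noncomputable section

open Classical Filter Topology

variable {d V : ℕ} {B : ℝ}

/-- Restricting a solution to a shorter time interval. -/
theorem sol_restrict {n : ℕ} {N : Network n} {k : ℝ → Cplx n × Cplx n → ℝ} {T T' : ℝ}
    {x : ℝ → Fin n → ℝ} (h : IsPositiveSolution N k T x) (hT : T' ≤ T) :
    IsPositiveSolution N k T' x := by
  have hsub : Set.Ico 0 T' ⊆ Set.Ico 0 T := fun s hs => ⟨hs.1, lt_of_lt_of_le hs.2 hT⟩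
  exact ⟨fun t ht => h.pos t (hsub ht), h.cont.mono hsub, fun t ht => h.deriv t (hsub ht)⟩

/-- Shifting a solution in time. -/
theorem sol_shift {n : ℕ} {N : Network n} {k : ℝ → Cplx n × Cplx n → ℝ} {T : ℝ}
    {x : ℝ → Fin n → ℝ} (h : IsPositiveSolution N k T x) {t₀ : ℝ} (ht₀ : 0 ≤ t₀) :
    IsPositiveSolution N (fun s => k (s + t₀)) (T - t₀) (fun s => x (s + t₀)) := by
  have hm : ∀ s ∈ Set.Ico 0 (T - t₀), s + t₀ ∈ Set.Ico 0 T := fun s hs =>
    ⟨by linarith [hs.1], by linarith [hs.2]⟩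
  refine ⟨fun t ht => h.pos _ (hm t ht), ?_, fun t ht => ?_⟩
  · exact h.cont.comp (continuousOn_id.add continuousOn_const) hm
  · have h1 := h.deriv _ (hm t ht)
    have h2 : HasDerivWithinAt (fun s : ℝ => s + t₀) 1 (Set.Ici t) t :=
      (hasDerivWithinAt_id t _).add_const t₀
    have h3 := HasDerivWithinAt.scomp (𝕜' := ℝ) t h1 h2 (fun s hs => by
      simp only [Set.mem_Ici] at hs ⊢
      linarith)
    rw [one_smul] at h3
    exact h3

/-- The closedness of the region along a continuous path. -/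
theorem InK_closed {cfg : Cfg d V B} {x : ℝ → Fin d → ℝ} {D : ℝ} (hD : 0 < D)
    (hcont : ContinuousOn x (Set.Icc 0 D)) (b0 β : ℕ → ℝ) (C0 γ : ℝ)
    (h : ∀ t ∈ Set.Ico 0 D, cfg.InK (fun j => b0 j + β j * t) (C0 - γ * t) (x t)) :
    cfg.InK (fun j => b0 j + β j * D) (C0 - γ * D) (x D) := by
  have hmem : Set.Icc 0 D ∈ 𝓝[<] D := Icc_mem_nhdsLT hD
  have hDI : D ∈ Set.Icc 0 D := ⟨hD.le, le_rfl⟩
  have hico : ∀ᶠ s in 𝓝[<] D, s ∈ Set.Ico 0 D := by
    have h1 : Set.Ioo 0 D ∈ 𝓝[<] D := Ioo_mem_nhdsLT hD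
    filter_upwards [h1] with s hs
    exact ⟨hs.1.le, hs.2⟩
  have hlim : ∀ f : ℝ → ℝ, ContinuousOn f (Set.Icc 0 D) → Tendsto f (𝓝[<] D) (𝓝 (f D)) := by
    intro f hf
    exact (hf D hDI).mono_left (nhdsWithin_le_of_mem hmem)
  constructor
  · intro R π L hadm hlen
    have hf : ContinuousOn (fun s => val cfg.p0 (x s) π L - (C0 - γ * s)) (Set.Icc 0 D) := by
      apply ContinuousOn.sub (val_cont _ π L hcont)
      fun_prop
    have h1 := hlim _ hf
    have h2 : ∀ᶠ s in 𝓝[<] D, val cfg.p0 (x s) π L - (C0 - γ * s) ≤ 0 := by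
      filter_upwards [hico] with s hs
      have := (h s hs).1 R π L hadm hlen
      linarith
    have h3 := le_of_tendsto h1 h2
    linarith
  · intro R π m L h1 h2 hadm hlen hlt
    have hf : ContinuousOn (fun s => val (cfg.pk m) (x s) π L + (b0 m + β m * s))
        (Set.Icc 0 D) := by
      apply ContinuousOn.add (val_cont _ π L hcont)
      fun_prop
    have hb : Tendsto (fun s => blk (x s) π m) (𝓝[<] D) (𝓝 (blk (x D) π m)) :=
      hlim _ (blk_cont π hcont)
    have hblk : ∀ᶠ s in 𝓝[<] D, blk (x s) π m < cfg.ρ m := hb.eventually_lt_const hlt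
    have h3 := hlim _ hf
    have h4 : ∀ᶠ s in 𝓝[<] D, val (cfg.pk m) (x s) π L + (b0 m + β m * s) ≤ 0 := by
      filter_upwards [hico, hblk] with s hs hs2
      have := (h s hs).2 R π m L h1 h2 hadm hlen hs2
      simp only at this
      linarith
    have h5 := le_of_tendsto h3 h4
    simp only
    linarith

/-- The entropy density with a sign. -/
def Gg (u : ℝ) : ℝ := - (u * Real.log u)

theorem blk_fun {n k : ℕ} (hk : k ≤ n) (G : ℝ → ℝ) (x : Fin n → ℝ) (π : Equiv.Perm (Fin n)) :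
    blk (fun j => G (x j)) π k = ∑ i ∈ Finset.range k, G (ext (fun j => x (π j)) i) := by
  rw [blk_eq hk]
  apply Finset.sum_congr rfl
  intro i hi
  have hi' : i < n := lt_of_lt_of_le (Finset.mem_range.mp hi) hk
  unfold ext
  rw [dif_pos hi', dif_pos hi']

/-- A candidate with a large value on a small block forces a very small block. -/
theorem val_large_imp {n : ℕ} {p : Par} {B₁ R T b : ℝ} (g : p.Good B₁) (hk : p.d ≤ n) {L : List ℝ}
    (hadm : p.Adm R L) (hlen : L.length = p.d) {x : Fin n → ℝ} (hx : ∀ i, 0 < x i)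
    (π : Equiv.Perm (Fin n)) (hT4 : 4 ≤ T) (hZ : 4 * p.Zbar ≤ T)
    (hblk : blk x π p.d < Real.exp (- (T / 2))) (hval : - b < val p x π L) :
    blk (fun j => Gg (x j)) π p.d < 2 * b ∧ blk x π p.d < 2 * b := by
  set y : ℕ → ℝ := ext (fun j => x (π j)) with hy
  have hypos : ∀ i, i < p.d → 0 < y i := fun i hi => ext_pos (fun j => hx (π j)) (by omega)
  have h1 := Par.gain_le (R := R) g hypos [] L (by simpa using hadm) (by simpa using hlen.le)
  simp only [List.append_nil, List.length_nil, zero_add] at h1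
  have e0 : p.Psi y [] = 0 := rfl
  rw [e0, zero_add, hlen] at h1
  have hlog : ∀ i ∈ Finset.range p.d, Real.log (y i) < - (T / 2) := by
    intro i hi
    have hi' := Finset.mem_range.mp hi
    have hyi := hypos i hi'
    have h3 : y i ≤ blk x π p.d := by
      rw [hy]
      unfold ext
      rw [dif_pos (by omega)]
      exact blk_ge hx π (i := ⟨i, by omega⟩) hi'
    rw [Real.log_lt_iff_lt_exp hyi]
    exact lt_of_le_of_lt h3 hblk
  have h2 : ∑ i ∈ Finset.range p.d, (Ee (y i) + p.Zbar * y i)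
      ≤ ∑ i ∈ Finset.range p.d, (- (1 / 2) * Gg (y i)) := by
    apply Finset.sum_le_sum
    intro i hi
    have h3 := hlog i hi
    have hi' := Finset.mem_range.mp hi
    have hyi := hypos i hi'
    unfold Ee Gg
    have h4 : p.Zbar ≤ T / 4 := by linarith
    have h5 : y i * (p.Zbar - 1 - (1 / 2) * (- Real.log (y i))) ≤ 0 := by
      apply mul_nonpos_of_nonneg_of_nonpos hyi.le
      linarith
    nlinarith
  rw [← Finset.mul_sum] at h2
  have h3 : - b < - (1 / 2) * ∑ i ∈ Finset.range p.d, Gg (y i) := by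
    have h4 : val p x π L = p.Psi y L := rfl
    linarith
  have h4 : ∑ i ∈ Finset.range p.d, Gg (y i) < 2 * b := by linarith
  have h5 : ∑ i ∈ Finset.range p.d, y i ≤ ∑ i ∈ Finset.range p.d, Gg (y i) := by
    apply Finset.sum_le_sum
    intro i hi
    have h6 := hlog i hi
    have hi' := Finset.mem_range.mp hi
    have hyi := hypos i hi'
    unfold Gg
    have h7 : Real.log (y i) ≤ -1 := by linarith
    nlinarith
  constructor
  · rw [blk_fun hk]
    exact h4
  · rw [blk_eq hk]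
    linarith

/-- On a very small block some candidate has a value not far below zero. -/
theorem exists_val_ge {n : ℕ} {p : Par} {B₁ R R' : ℝ} (g : p.Good B₁) (hk : p.d ≤ n)
    {x : Fin n → ℝ} (hx : ∀ i, 0 < x i) (π : Equiv.Perm (Fin n))
    (hlog : ∀ i, |Real.log (x i)| ≤ R') (hR : R' + p.Zbar + 2 ≤ R)
    (hsmall : ∀ i : Fin n, (i : ℕ) < p.d → Real.log (x (π i)) ≤ - (1 + p.Gl)) :
    ∃ τ : Equiv.Perm (Fin n), (∀ i, ((τ i : ℕ) < p.d ↔ (i : ℕ) < p.d)) ∧ ∃ S : List ℝ,
      p.Adm R S ∧ S.length = p.d ∧ - (2 * blk (fun j => Gg (x j)) π p.d) ≤ val p x (π * τ) S := by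
  obtain ⟨τ, hτ1, _, hτ3⟩ := exists_block_sort (k := p.d) (fun _ => (0 : ℝ)) (fun j => x (π j))
    (fun _ _ _ _ => le_rfl) (fun _ _ => rfl) (fun _ _ _ _ h => absurd h (lt_irrefl _))
  refine ⟨τ, hτ1, ?_⟩
  set π₂ : Equiv.Perm (Fin n) := π * τ with hπ₂
  set y : ℕ → ℝ := ext (fun j => x (π₂ j)) with hy
  have hxπ : ∀ (i : ℕ) (hi : i < n), y i = x (π₂ ⟨i, hi⟩) := by
    intro i hi
    rw [hy]
    unfold ext
    rw [dif_pos hi]
  have hposv : Par.PosV p R' y := by
    refine ⟨fun i hi => ?_, fun i j hij hj => ?_, fun i hi => ?_⟩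
    · rw [hxπ i (by omega)]; exact hx _
    · rw [hxπ j (by omega), hxπ i (by omega)]
      exact hτ3 ⟨i, by omega⟩ ⟨j, by omega⟩ hij hj
    · rw [hxπ i (by omega)]; exact hlog _
  obtain ⟨S, hS, hadm, hsum⟩ := Par.greedy (R := R) g hposv hR p.d [] trivial
    (by simp) (by simp)
  simp only [List.append_nil, List.length_nil, zero_add] at hadm hsum
  have e0 : p.Psi y [] = 0 := rfl
  rw [e0, sub_zero] at hsum
  refine ⟨S, hadm, hS, ?_⟩
  have hterm : ∀ i ∈ Finset.range p.d, - (2 * Gg (y i)) ≤ Ee (y i) - p.Gl * y i := by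
    intro i hi
    have hi' := Finset.mem_range.mp hi
    have hid : i < n := by omega
    have hy1 : y i = x (π (τ ⟨i, hid⟩)) := hxπ i hid
    have hτi : ((τ ⟨i, hid⟩ : Fin n) : ℕ) < p.d := (hτ1 _).mpr hi'
    have hl : Real.log (y i) ≤ - (1 + p.Gl) := by
      rw [hy1]
      exact hsmall _ hτi
    have hyi : 0 < y i := by
      rw [hy1]
      exact hx _
    unfold Gg Ee
    nlinarith
  have hsum2 := Finset.sum_le_sum hterm
  rw [Finset.sum_neg_distrib, ← Finset.mul_sum] at hsum2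
  have e1 : blk (fun j => Gg (x j)) π p.d = blk (fun j => Gg (x j)) π₂ p.d :=
    (blk_perm _ π τ hτ1).symm
  rw [e1, blk_fun hk]
  have h9 : val p x π₂ S = p.Psi y S := rfl
  rw [h9]
  linarith

/-- The small region at a large scale lies in the large region at half the scale. -/
theorem incl {cfg cfg' : Cfg d V B} {W0 A τ : ℝ} (hs : IsScale cfg W0 A τ)
    (hs' : IsScale cfg' W0 A (2 * τ)) (hA : 1 ≤ A) (hτ4 : 4 ≤ τ) {x : Fin d → ℝ}
    (hx : ∀ i, 0 < x i) (h : cfg'.InK cfg'.bp (Real.exp (2 * τ)) x) :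
    cfg.InK cfg.bm cfg.Cp x := by
  have hp : cfg.p0 = cfg'.p0 := by
    unfold Cfg.p0
    rw [hs.w0, hs'.w0]
  constructor
  · intro R π L hadm hlen
    rw [hp] at hadm ⊢
    have h1 := h.1 R π L hadm hlen
    rw [hs.Cp]
    refine le_trans h1 (Real.exp_le_exp.mpr (by linarith))
  · intro R π k L h1 h2 hadm hlen hlt
    by_contra hcon
    push Not at hcon
    obtain ⟨T, hT⟩ : ∃ T : ℝ, T = Tl d A τ k := ⟨_, rfl⟩
    have hTτ : τ ≤ T := by
      rw [hT]
      exact Tl_ge hA (by linarith) k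
    have hT4 : 4 ≤ T := by linarith
    have hZ : 4 * (cfg.pk k).Zbar ≤ T := by
      rw [hT]
      exact hs.Z k h1 h2
    have hZ' : 4 * (cfg'.pk k).Zbar ≤ 2 * T := by
      rw [hT, ← Tl_two]
      exact hs'.Z k h1 h2
    have g : Par.Good (cfg.pk k) (cfg.Wk k) := cfg.goodk k h1 h2
    have g' : Par.Good (cfg'.pk k) (cfg'.Wk k) := cfg'.goodk k h1 h2
    have hpd : (cfg.pk k).d = k := rfl
    have hpd' : (cfg'.pk k).d = k := rfl
    have hρ : cfg.ρ k = Real.exp (- (T / 2)) := by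
      rw [hT]
      exact hs.ρ k
    have hbm : cfg.bm k = Real.exp (- (3 * T)) := by
      rw [hT]
      exact hs.bm k
    have hρ' : cfg'.ρ k = Real.exp (- T) := by
      rw [hs'.ρ k, Tl_two, hT]
      congr 2
      ring
    have hbp' : cfg'.bp k = Real.exp (- (2 * T)) := by
      rw [hs'.bp k, Tl_two, hT]
    rw [hρ] at hlt
    rw [hbm] at hcon
    obtain ⟨hG, hb⟩ := val_large_imp (p := cfg.pk k) (T := T) g h2 hadm hlen hx π hT4 hZ hlt hcon
    rw [hpd] at hG hb
    -- the logarithmic bound on the block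
    have h3exp : Real.exp (- (3 * T)) * Real.exp (T) = Real.exp (- (2 * T)) := by
      rw [← Real.exp_add]
      congr 1
      ring
    have hexpT : 5 ≤ Real.exp T := by
      have := Real.add_one_le_exp T
      linarith
    have hE3 := Real.exp_pos (- (3 * T))
    have h2E : 2 * Real.exp (- (3 * T)) ≤ Real.exp (1 - 3 * T) := by
      have e : Real.exp (1 - 3 * T) = Real.exp 1 * Real.exp (- (3 * T)) := by
        rw [← Real.exp_add, sub_eq_add_neg]
      rw [e]
      have := Real.add_one_le_exp (1 : ℝ)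
      nlinarith
    have hsmall : ∀ i : Fin d, (i : ℕ) < (cfg'.pk k).d →
        Real.log (x (π i)) ≤ - (1 + (cfg'.pk k).Gl) := by
      intro i hi
      have h5 := blk_ge hx π (i := i) (k := k) hi
      have h6 : x (π i) ≤ Real.exp (1 - 3 * T) := by linarith
      have h7 : Real.log (x (π i)) ≤ 1 - 3 * T := by
        rw [Real.log_le_iff_le_exp (hx _)]
        exact h6
      have h8 : (cfg'.pk k).Gl = (cfg'.pk k).Zbar + 1 := rfl
      rw [h8]
      linarith
    obtain ⟨R', hR'⟩ : ∃ R' : ℝ, R' = ∑ i, |Real.log (x i)| := ⟨_, rfl⟩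
    have hR'b : ∀ i, |Real.log (x i)| ≤ R' := by
      intro i
      rw [hR']
      exact Finset.single_le_sum (f := fun i => |Real.log (x i)|) (fun _ _ => abs_nonneg _)
        (Finset.mem_univ i)
    obtain ⟨τ', hτ', S, hadmS, hlenS, hvalS⟩ := exists_val_ge (p := cfg'.pk k)
      (R := R' + (cfg'.pk k).Zbar + 2) g' h2 hx π hR'b le_rfl hsmall
    rw [hpd'] at hτ' hlenS hvalS
    have hblk2 : blk x (π * τ') k < cfg'.ρ k := by
      rw [blk_perm x π τ' hτ', hρ']
      have e : Real.exp (- T) = Real.exp (- (3 * T)) * Real.exp (2 * T) := by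
        rw [← Real.exp_add]
        congr 1
        ring
      have h9 : 2 ≤ Real.exp (2 * T) := by
        have := Real.add_one_le_exp (2 * T)
        linarith
      rw [e]
      nlinarith
    have h10 := h.2 (R' + (cfg'.pk k).Zbar + 2) (π * τ') k S h1 h2 hadmS hlenS hblk2
    rw [hbp'] at h10
    have h11 : Real.exp (- (2 * T)) < 4 * Real.exp (- (3 * T)) := by linarith
    rw [← h3exp] at h11
    nlinarith

end

end Vale.Agent.P072.Gen
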