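import Vale.Agent.P072.Gen2Cfg

namespace Vale.Agent.P072.Gen

noncomputable section

open Classical Filter Topology

/-- The value of a candidate at a state. -/
def val (p : Par) {n : ℕ} (x : Fin n → ℝ) (π : Equiv.Perm (Fin n)) (L : List ℝ) : ℝ :=
  p.Psi (ext (fun j => x (π j))) L

/-- The sum over the first `k` positions. -/
def blk {n : ℕ} (x : Fin n → ℝ) (π : Equiv.Perm (Fin n)) (k : ℕ) : ℝ :=
  ∑ i : Fin n, if (i : ℕ) < k then x (π i) else 0

theorem blk_eq {n k : ℕ} (hk : k ≤ n) (x : Fin n → ℝ) (π : Equiv.Perm (Fin n)) :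
    blk x π k = ∑ i ∈ Finset.range k, ext (fun j => x (π j)) i := by
  rw [sum_block hk]
  unfold blk
  apply Finset.sum_congr rfl
  intro i _
  rw [ext_coe]

theorem blk_ge {n k : ℕ} {x : Fin n → ℝ} (hx : ∀ i, 0 < x i) (π : Equiv.Perm (Fin n))
    {i : Fin n} (hi : (i : ℕ) < k) : x (π i) ≤ blk x π k := by
  unfold blk
  have h := Finset.single_le_sum (f := fun i : Fin n => if (i : ℕ) < k then x (π i) else 0)
    (fun j _ => by
      split_ifs
      · exact (hx _).le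
      · exact le_rfl) (Finset.mem_univ i)
  simp only [if_pos hi] at h
  exact h

theorem blk_perm {n k : ℕ} (x : Fin n → ℝ) (π τ : Equiv.Perm (Fin n))
    (hτ : ∀ i, ((τ i : ℕ) < k ↔ (i : ℕ) < k)) : blk x (π * τ) k = blk x π k := by
  unfold blk
  have h := Equiv.sum_comp τ (fun j : Fin n => if (j : ℕ) < k then x (π j) else 0)
  rw [← h]
  apply Finset.sum_congr rfl
  intro i _
  simp only [hτ i, Equiv.Perm.mul_apply]

theorem val_deriv (p : Par) {n : ℕ} {x : ℝ → Fin n → ℝ} {F : Fin n → ℝ} {t : ℝ}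
    (π : Equiv.Perm (Fin n)) {L : List ℝ} (h : L.length ≤ n)
    (hd : HasDerivWithinAt x F (Set.Ici t) t) :
    HasDerivWithinAt (fun s => val p (x s) π L) (∑ j, ltil L π j * F j) (Set.Ici t) t := by
  have h1 := psi_deriv p (fun i => ext_deriv π hd i) L
  rw [dotr_ext' F π h] at h1
  exact h1

theorem val_cont (p : Par) {n : ℕ} {x : ℝ → Fin n → ℝ} {A : Set ℝ}
    (π : Equiv.Perm (Fin n)) (L : List ℝ) (hc : ContinuousOn x A) :
    ContinuousOn (fun s => val p (x s) π L) A :=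
  psi_cont p (fun i => ext_cont π hc i) L

theorem blk_cont {n k : ℕ} {x : ℝ → Fin n → ℝ} {A : Set ℝ}
    (π : Equiv.Perm (Fin n)) (hc : ContinuousOn x A) :
    ContinuousOn (fun s => blk (x s) π k) A := by
  unfold blk
  apply continuousOn_finsetSum
  intro i _
  split_ifs
  · exact (continuous_apply (π i)).comp_continuousOn hc
  · exact continuousOn_const

theorem val_le_neg {n : ℕ} {p : Par} {B R : ℝ} (g : p.Good B) (hk : p.d ≤ n) {L : List ℝ}
    (hadm : p.Adm R L) (hlen : L.length = p.d) {x : Fin n → ℝ} (hx : ∀ i, 0 < x i)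
    (π : Equiv.Perm (Fin n)) (hsmall : blk x π p.d ≤ Real.exp (- p.Zbar)) :
    val p x π L ≤ - blk x π p.d := by
  set y : ℕ → ℝ := ext (fun j => x (π j)) with hy
  have hypos : ∀ i, i < p.d → 0 < y i := fun i hi => ext_pos (fun j => hx (π j)) (by omega)
  have h1 := Par.gain_le (R := R) g hypos [] L (by simpa using hadm) (by simpa using hlen.le)
  simp only [List.append_nil, List.length_nil, zero_add] at h1
  have e0 : p.Psi y [] = 0 := rfl
  rw [e0, zero_add, hlen] at h1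
  rw [blk_eq hk, ← hy]
  have h2 : ∑ i ∈ Finset.range p.d, (Ee (y i) + p.Zbar * y i)
      ≤ ∑ i ∈ Finset.range p.d, (- y i) := by
    apply Finset.sum_le_sum
    intro i hi
    have hi' := Finset.mem_range.mp hi
    have hyi := hypos i hi'
    have h3 : y i ≤ blk x π p.d := by
      rw [hy]
      unfold ext
      rw [dif_pos (by omega)]
      exact blk_ge hx π (i := ⟨i, by omega⟩) hi'
    have h4 : Real.log (y i) ≤ - p.Zbar := by
      rw [Real.log_le_iff_le_exp hyi]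
      exact le_trans h3 hsmall
    unfold Ee
    nlinarith
  rw [Finset.sum_neg_distrib] at h2
  exact le_trans h1 h2

/-- The assumptions on the network. -/
structure NV {d : ℕ} (N : Network d) (V : ℕ) : Prop where
  hV : ∀ y y' : Cplx d, Relation.ReflTransGen N.Step y' y → y ≠ y' →
    ∀ i, |(y i : ℤ) - (y' i : ℤ)| ≤ (V : ℤ)
  hsum : ∀ r ∈ N.reactions, ∑ i, r.1 i ≤ V

/-- A configuration of constants for the barrier. -/
structure Cfg (d V : ℕ) (B : ℝ) where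
  W0 : ℝ
  Wk : ℕ → ℝ
  ρ : ℕ → ℝ
  bm : ℕ → ℝ
  bp : ℕ → ℝ
  θ : ℕ → ℝ
  Cp : ℝ
  M : ℝ
  Ξ : ℕ → ℝ
  η : ℝ
  sm : ℝ
  hV : 1 ≤ V
  good0 : Par.Good ⟨d, V, W0⟩ B
  goodk : ∀ k, 1 ≤ k → k ≤ d → Par.Good ⟨k, V, Wk k⟩ (Wk k)
  ηpos : 0 < η
  smpos : 0 < sm
  sm0 : 1 ≤ d → sm ≤ Par.smin ⟨d, V, W0⟩
  smk : ∀ k, 1 ≤ k → k ≤ d → sm ≤ Par.smin ⟨k, V, Wk k⟩
  ρpos : ∀ k, 1 ≤ k → k ≤ d → 0 < ρ k
  ρle : ∀ k, 1 ≤ k → k ≤ d → ρ k ≤ Real.exp (- Par.Zbar ⟨k, V, Wk k⟩)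
  bmpos : ∀ k, 1 ≤ k → k ≤ d → 0 < bm k
  bmp : ∀ k, 1 ≤ k → k ≤ d → bm k ≤ bp k
  bpρ : ∀ k, 1 ≤ k → k ≤ d → bp k + η ≤ ρ k
  ηb : ∀ k, 1 ≤ k → k ≤ d → 2 * η < bm k
  ηρ : ∀ k, 1 ≤ k → k ≤ d → 2 * η < ρ k
  θpos : ∀ k, 1 ≤ k → k ≤ d → 0 < θ k
  θle1 : ∀ k, 1 ≤ k → k ≤ d → θ k ≤ 1
  θ1 : ∀ k, 1 ≤ k → k ≤ d → θ k ≤ Real.exp (-1 - Par.Gl ⟨k, V, Wk k⟩)
  θ2 : ∀ k, 1 ≤ k → k ≤ d → (d : ℝ) * θ k ≤ ρ k / 2
  θ3 : ∀ k, 1 ≤ k → k ≤ d → 8 * (d : ℝ) * Real.sqrt (θ k) ≤ bm k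
  chain : ∀ k, 1 ≤ k → k < d → bp k ≤ θ (k + 1)
  M1 : |Cp + η| + (d : ℝ) * Real.exp (Par.Gl ⟨d, V, W0⟩) + Real.exp (Par.Gl ⟨d, V, W0⟩ + 2) ≤ M
  Ξ0 : ∀ k, 0 ≤ Ξ k
  Ξ1 : ∀ k, 1 ≤ k → k < d → ∀ u : ℝ, θ (k + 1) ≤ u → u ≤ M → |Real.log u| ≤ Ξ k
  margin : ∀ k, 1 ≤ k → k ≤ d → B + (V : ℝ) * d * Ξ k ≤ Wk k

variable {d V : ℕ} {B : ℝ}

namespace Cfg

/-- The parameter of the upper candidates. -/
def p0 (cfg : Cfg d V B) : Par := ⟨d, V, cfg.W0⟩

/-- The parameter of the candidates of level `k`. -/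
def pk (cfg : Cfg d V B) (k : ℕ) : Par := ⟨k, V, cfg.Wk k⟩

/-- The invariant region. -/
def InK (cfg : Cfg d V B) (b : ℕ → ℝ) (C : ℝ) (x : Fin d → ℝ) : Prop :=
  (∀ (R : ℝ) (π : Equiv.Perm (Fin d)) (L : List ℝ), cfg.p0.Adm R L → L.length = d →
      val cfg.p0 x π L ≤ C) ∧
  (∀ (R : ℝ) (π : Equiv.Perm (Fin d)) (k : ℕ) (L : List ℝ), 1 ≤ k → k ≤ d →
      (cfg.pk k).Adm R L → L.length = k → blk x π k < cfg.ρ k → val (cfg.pk k) x π L ≤ - b k)

end Cfg

/-- The state at an active time. -/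
structure St (cfg : Cfg d V B) (R R' : ℝ) (x : Fin d → ℝ) (b : ℕ → ℝ) (C φ : ℝ) : Prop where
  hx : ∀ i, 0 < x i
  hlog : ∀ i, |Real.log (x i)| ≤ R'
  hR0 : R' + cfg.p0.Zbar + 2 ≤ R
  hRk : ∀ k, 1 ≤ k → k ≤ d → R' + (cfg.pk k).Zbar + 2 ≤ R
  hb : ∀ k, 1 ≤ k → k ≤ d → cfg.bm k ≤ b k ∧ b k ≤ cfg.bp k
  hC : C ≤ cfg.Cp
  hφ0 : 0 ≤ φ
  hφ : φ < cfg.η
  hU : ∀ π L, cfg.p0.Adm R L → L.length = d → val cfg.p0 x π L - C ≤ φ
  hB : ∀ π k L, 1 ≤ k → k ≤ d → (cfg.pk k).Adm R L → L.length = k →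
    min (val (cfg.pk k) x π L + b k) (cfg.ρ k - blk x π k) ≤ φ

namespace St

variable {cfg : Cfg d V B} {R R' C φ : ℝ} {x : Fin d → ℝ} {b : ℕ → ℝ}

/-- No block of coordinates can be too small. -/
theorem no_small (s : St cfg R R' x b C φ) {k' : ℕ} (h1 : 1 ≤ k') (h2 : k' ≤ d)
    (π₁ : Equiv.Perm (Fin d)) (hsmall : ∀ i : Fin d, (i : ℕ) < k' → x (π₁ i) ≤ cfg.θ k') :
    False := by
  have g : Par.Good (cfg.pk k') (cfg.Wk k') := cfg.goodk k' h1 h2
  have hpd : (cfg.pk k').d = k' := rfl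
  obtain ⟨τ, hτ1, _, hτ3⟩ := exists_block_sort (k := k') (fun _ => (0 : ℝ)) (fun j => x (π₁ j))
    (fun _ _ _ _ => le_rfl) (fun _ _ => rfl) (fun _ _ _ _ h => absurd h (lt_irrefl _))
  set π₂ : Equiv.Perm (Fin d) := π₁ * τ with hπ₂
  set y : ℕ → ℝ := ext (fun j => x (π₂ j)) with hy
  have hxπ : ∀ (i : ℕ) (hi : i < d), y i = x (π₂ ⟨i, hi⟩) := by
    intro i hi
    rw [hy]
    unfold ext
    rw [dif_pos hi]
  have hposv : Par.PosV (cfg.pk k') R' y := by
    refine ⟨fun i hi => ?_, fun i j hij hj => ?_, fun i hi => ?_⟩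
    · rw [hxπ i (by rw [hpd] at hi; omega)]; exact s.hx _
    · rw [hpd] at hj
      rw [hxπ j (by omega), hxπ i (by omega)]
      exact hτ3 ⟨i, by omega⟩ ⟨j, by omega⟩ hij hj
    · rw [hxπ i (by rw [hpd] at hi; omega)]; exact s.hlog _
  obtain ⟨S, hS, hadm, hsum⟩ := Par.greedy (R := R) g hposv (s.hRk k' h1 h2) k' [] trivial
    (by simp [hpd]) (by simp)
  simp only [List.append_nil, List.length_nil, zero_add] at hadm hsum
  have e0 : (cfg.pk k').Psi y [] = 0 := rfl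
  rw [e0, sub_zero] at hsum
  have hθpos := cfg.θpos k' h1 h2
  have hsq : 0 ≤ Real.sqrt (cfg.θ k') := Real.sqrt_nonneg _
  have hterm : ∀ i ∈ Finset.range k', - (4 * Real.sqrt (cfg.θ k'))
      ≤ Ee (y i) - (cfg.pk k').Gl * y i := by
    intro i hi
    have hi' := Finset.mem_range.mp hi
    have hid : i < d := by omega
    have hy1 : y i = x (π₁ (τ ⟨i, hid⟩)) := hxπ i hid
    have hτi : ((τ ⟨i, hid⟩ : Fin d) : ℕ) < k' := (hτ1 _).mpr hi'
    have hy2 : y i ≤ cfg.θ k' := by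
      rw [hy1]
      exact hsmall _ hτi
    exact Ee_lower (by rw [hy1]; exact s.hx _) hy2 (cfg.θ1 k' h1 h2)
  have hsum2 : (k' : ℝ) * (- (4 * Real.sqrt (cfg.θ k')))
      ≤ ∑ i ∈ Finset.range k', (Ee (y i) - (cfg.pk k').Gl * y i) := by
    have := Finset.card_nsmul_le_sum (Finset.range k') _ _ hterm
    simpa using this
  have hk'd : (k' : ℝ) ≤ d := by exact_mod_cast h2
  have hθ3 := cfg.θ3 k' h1 h2
  have hval : - (cfg.bm k' / 2) ≤ val (cfg.pk k') x π₂ S := by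
    have h3 : (k' : ℝ) * (4 * Real.sqrt (cfg.θ k')) ≤ (d : ℝ) * (4 * Real.sqrt (cfg.θ k')) :=
      mul_le_mul_of_nonneg_right hk'd (by positivity)
    show _ ≤ (cfg.pk k').Psi y S
    nlinarith
  have hblk : blk x π₂ k' ≤ cfg.ρ k' / 2 := by
    rw [blk_eq h2, ← hy]
    have h3 : ∑ i ∈ Finset.range k', y i ≤ ∑ _i ∈ Finset.range k', cfg.θ k' := by
      apply Finset.sum_le_sum
      intro i hi
      have hi' := Finset.mem_range.mp hi
      have hid : i < d := by omega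
      have hy1 : y i = x (π₁ (τ ⟨i, hid⟩)) := hxπ i hid
      have hτi : ((τ ⟨i, hid⟩ : Fin d) : ℕ) < k' := (hτ1 _).mpr hi'
      rw [hy1]
      exact hsmall _ hτi
    rw [Finset.sum_const, Finset.card_range, nsmul_eq_mul] at h3
    have h4 := mul_le_mul_of_nonneg_right hk'd hθpos.le
    have h5 := cfg.θ2 k' h1 h2
    linarith
  have hmin := s.hB π₂ k' S h1 h2 hadm hS
  have hb1 := (s.hb k' h1 h2).1
  have hηb := cfg.ηb k' h1 h2
  have hηρ := cfg.ηρ k' h1 h2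
  have hφη := s.hφ
  have h5 : φ < min (val (cfg.pk k') x π₂ S + b k') (cfg.ρ k' - blk x π₂ k') := by
    apply lt_min
    · linarith
    · linarith
  linarith

theorem low (s : St cfg R R' x b C φ) (j : Fin d) : cfg.θ 1 ≤ x j := by
  by_contra hcon
  push Not at hcon
  have hd : 0 < d := j.pos
  refine s.no_small le_rfl hd (Equiv.swap ⟨0, hd⟩ j) ?_
  intro i hi
  have h1 : i = ⟨0, hd⟩ := Fin.ext (by
    show (i : ℕ) = 0
    omega)
  rw [h1, Equiv.swap_apply_left]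
  exact hcon.le

theorem up (s : St cfg R R' x b C φ) (j : Fin d) : x j ≤ cfg.M := by
  have g : Par.Good cfg.p0 B := cfg.good0
  have hpd : cfg.p0.d = d := rfl
  obtain ⟨π₀, hπ₀⟩ := exists_anti x
  set y : ℕ → ℝ := ext (fun j => x (π₀ j)) with hy
  have hxπ : ∀ (i : ℕ) (hi : i < d), y i = x (π₀ ⟨i, hi⟩) := by
    intro i hi
    rw [hy]
    unfold ext
    rw [dif_pos hi]
  have hposv : Par.PosV cfg.p0 R' y := by
    refine ⟨fun i hi => ?_, fun i j hij hj => ?_, fun i hi => ?_⟩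
    · rw [hxπ i hi]; exact s.hx _
    · rw [hxπ j hj, hxπ i (lt_of_le_of_lt hij hj)]
      exact hπ₀ ⟨i, lt_of_le_of_lt hij hj⟩ ⟨j, hj⟩ hij
    · rw [hxπ i hi]; exact s.hlog _
  obtain ⟨S, hS, hadm, hsum⟩ := Par.greedy (R := R) g hposv s.hR0 d [] trivial
    (by simp [hpd]) (by simp)
  simp only [List.append_nil, List.length_nil, zero_add] at hadm hsum
  have e0 : cfg.p0.Psi y [] = 0 := rfl
  rw [e0, sub_zero] at hsum
  have h1 := s.hU π₀ S hadm hS
  have h2 : cfg.p0.Psi y S - C ≤ φ := h1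
  rw [Finset.sum_range] at hsum
  simp only [hy, ext_coe] at hsum
  have h3 := Equiv.sum_comp π₀ (fun j => Ee (x j) - cfg.p0.Gl * x j)
  rw [h3] at hsum
  have h4 : ∑ j, (Ee (x j) - cfg.p0.Gl * x j) ≤ cfg.Cp + cfg.η := by
    have h5 := s.hC
    have h6 := s.hφ
    have h7 : cfg.p0.Psi (ext fun j => x (π₀ j)) S ≤ C + φ := by linarith
    linarith
  have h8 := coord_bound x s.hx h4 j
  exact le_trans h8 cfg.M1

/-- The facts at an active barrier candidate. -/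
theorem bar (s : St cfg R R' x b C φ) {π : Equiv.Perm (Fin d)} {k : ℕ} {L : List ℝ} (h1 : 1 ≤ k)
    (h2 : k ≤ d) (hadm : (cfg.pk k).Adm R L) (hlen : L.length = k)
    (hact : min (val (cfg.pk k) x π L + b k) (cfg.ρ k - blk x π k) = φ) :
    val (cfg.pk k) x π L + b k = φ ∧ blk x π k ≤ b k ∧
    (∀ τ : Equiv.Perm (Fin d), (∀ i, ((τ i : ℕ) < k ↔ (i : ℕ) < k)) →
      ∀ L', (cfg.pk k).Adm R L' → L'.length = k →
      val (cfg.pk k) x (π * τ) L' ≤ val (cfg.pk k) x π L) ∧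
    (∀ i : Fin d, k ≤ (i : ℕ) → |Real.log (x (π i))| ≤ cfg.Ξ k) := by
  have g : Par.Good (cfg.pk k) (cfg.Wk k) := cfg.goodk k h1 h2
  have hA : φ ≤ val (cfg.pk k) x π L + b k := by rw [← hact]; exact min_le_left _ _
  have hB' : φ ≤ cfg.ρ k - blk x π k := by rw [← hact]; exact min_le_right _ _
  have hφ0 := s.hφ0
  have hφ := s.hφ
  have hbk := s.hb k h1 h2
  have hρ := cfg.ρle k h1 h2
  have hbρ := cfg.bpρ k h1 h2
  have hblkρ : blk x π k ≤ cfg.ρ k := by linarith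
  have hneg := val_le_neg (R := R) g h2 hadm hlen s.hx π (le_trans hblkρ hρ)
  have hneg' : val (cfg.pk k) x π L ≤ - blk x π k := hneg
  have hblk : blk x π k ≤ b k := by linarith
  have hgap : φ < cfg.ρ k - blk x π k := by linarith [hbk.2]
  have hval : val (cfg.pk k) x π L + b k = φ := by
    rcases min_choice (val (cfg.pk k) x π L + b k) (cfg.ρ k - blk x π k) with h | h
    · rw [h] at hact
      exact hact
    · rw [h] at hact
      linarith
  refine ⟨hval, hblk, ?_, ?_⟩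
  · intro τ hτ L' hL' hlen'
    have h3 := s.hB (π * τ) k L' h1 h2 hL' hlen'
    rw [blk_perm x π τ hτ] at h3
    rcases min_le_iff.mp h3 with h4 | h4
    · linarith
    · linarith
  · intro i hi
    have hid : k < d := by
      have := i.isLt
      omega
    have hi2 := s.up (π i)
    apply cfg.Ξ1 k h1 hid _ _ hi2
    by_contra hcon
    push Not at hcon
    refine s.no_small (k' := k + 1) (by omega) (by omega)
      (π * Equiv.swap i ⟨k, hid⟩) ?_
    intro a ha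
    by_cases hak : (a : ℕ) = k
    · have e : a = ⟨k, hid⟩ := Fin.ext hak
      rw [e, Equiv.Perm.mul_apply, Equiv.swap_apply_right]
      exact hcon.le
    · have ha' : (a : ℕ) < k := by omega
      have e1 : a ≠ i := by
        intro h
        rw [h] at ha'
        omega
      have e2 : a ≠ ⟨k, hid⟩ := by
        intro h
        apply hak
        rw [h]
      rw [Equiv.Perm.mul_apply, Equiv.swap_apply_of_ne_of_ne e1 e2]
      have h5 := blk_ge s.hx π ha'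
      have h6 := cfg.chain k h1 hid
      linarith [hbk.2]

/-- The lower bound of monomials at an active state. -/
theorem mono_ge (s : St cfg R R' x b C φ) (hd : 1 ≤ d) {y : Cplx d} (hy : ∑ i, y i ≤ V) :
    (cfg.θ 1) ^ V ≤ mono x y := by
  have hθ1 := cfg.θle1 1 le_rfl hd
  have hθ0 := cfg.θpos 1 le_rfl hd
  have h1 : ∏ i, (cfg.θ 1) ^ y i ≤ mono x y := by
    unfold mono
    apply Finset.prod_le_prod
    · intro i _
      positivity
    · intro i _
      exact pow_le_pow_left₀ hθ0.le (s.low i) _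
  rw [Finset.prod_pow_eq_pow_sum] at h1
  exact le_trans (pow_le_pow_of_le_one hθ0.le hθ1 hy) h1

end St

/-- If the pairing vanishes on all reactions it vanishes on the stoichiometric subspace. -/
theorem ortho_of_gaps {n : ℕ} (N : Network n) (l : Fin n → ℝ)
    (h : ∀ r ∈ N.reactions, ∑ i, (r.2 i : ℝ) * l i - ∑ i, (r.1 i : ℝ) * l i = 0)
    {v : Fin n → ℝ} (hv : v ∈ N.stoich) : ∑ i, l i * v i = 0 := by
  unfold Network.stoich at hv
  induction hv using Submodule.span_induction with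
  | mem w hw =>
    obtain ⟨r, hr, rfl⟩ := hw
    have h1 := h r hr
    rw [← Finset.sum_sub_distrib] at h1
    rw [← h1]
    apply Finset.sum_congr rfl
    intro i _
    unfold reactionVec
    ring
  | zero => simp
  | add a b _ _ ha hb =>
    simp only [Pi.add_apply, mul_add]
    rw [Finset.sum_add_distrib, ha, hb, add_zero]
  | smul c a _ ha =>
    simp only [Pi.smul_apply, smul_eq_mul]
    have : ∑ i, l i * (c * a i) = c * ∑ i, l i * a i := by
      rw [Finset.mul_sum]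
      apply Finset.sum_congr rfl
      intro i _
      ring
    rw [this, ha, mul_zero]

end

end Vale.Agent.P072.Gen
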