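import Vale.Agent.P072.GenTile

namespace Vale.Agent.P072.Gen

noncomputable section

open Classical

namespace Par

variable {p : Par} {B R : ℝ}

theorem dot_mem {H : ℕ} {v : ℕ → ℤ} (hv : ∀ i, |v i| ≤ (H : ℤ)) :
    ∀ Q : List ℝ, dot v Q ∈ Comb H Q
  | [] => rfl
  | l :: Q => ⟨v Q.length, hv _, dot v Q, dot_mem hv Q, by
      show dot v Q + (v Q.length : ℝ) * l = _
      ring⟩

theorem window (g : p.Good B) {R' : ℝ} {y : ℕ → ℝ} {L : List ℝ} (M : Mx p R R' y L)
    {S Q : List ℝ} {l : ℝ} (hL : L = S ++ l :: Q) :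
    |Real.log (y Q.length) - l| ≤ p.win (l :: Q) := by
  rw [abs_le]
  have h1 := win_lower g M hL
  have h2 := win_upper g M Q S l hL
  constructor <;> linarith

theorem dot_close (g : p.Good B) {R' : ℝ} {y : ℕ → ℝ} {L : List ℝ} (M : Mx p R R' y L)
    {v : ℕ → ℤ} (hv : ∀ i, |v i| ≤ (p.V : ℤ)) : ∀ Q S : List ℝ, L = S ++ Q →
    |∑ i ∈ Finset.range Q.length, (v i : ℝ) * Real.log (y i) - dot v Q|
      ≤ (Q.length : ℝ) * p.V * p.win Q
  | [], _, _ => by simp [dot]
  | l :: Q, S, hL => by
    have ih := dot_close g M hv Q (S ++ [l]) (by rw [hL, List.append_assoc]; rfl)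
    have hw := window g M hL
    have hmono := p.win_cons_ge g.W0pos l Q
    have hvr : |(v Q.length : ℝ)| ≤ (p.V : ℝ) := by
      have h1 : ((|v Q.length| : ℤ) : ℝ) ≤ ((p.V : ℤ) : ℝ) := by exact_mod_cast hv Q.length
      simpa using h1
    have e : ∑ i ∈ Finset.range (l :: Q).length, (v i : ℝ) * Real.log (y i) - dot v (l :: Q)
        = (∑ i ∈ Finset.range Q.length, (v i : ℝ) * Real.log (y i) - dot v Q)
          + (v Q.length : ℝ) * (Real.log (y Q.length) - l) := by
      simp only [List.length_cons]
      rw [Finset.sum_range_succ]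
      show _ - (dot v Q + (v Q.length : ℝ) * l) = _
      ring
    rw [e]
    refine le_trans (abs_add_le _ _) ?_
    rw [abs_mul]
    have h1 : |(v Q.length : ℝ)| * |Real.log (y Q.length) - l| ≤ (p.V : ℝ) * p.win (l :: Q) :=
      mul_le_mul hvr hw (abs_nonneg _) (by positivity)
    have h2 : (Q.length : ℝ) * p.V * p.win Q ≤ (Q.length : ℝ) * p.V * p.win (l :: Q) :=
      mul_le_mul_of_nonneg_left hmono (by positivity)
    simp only [List.length_cons]
    push_cast
    nlinarith

/-- The bound coming from an admissible wall above the current value. -/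
theorem log_le_of_wall (g : p.Good B) {R' : ℝ} {y : ℕ → ℝ} {L : List ℝ} (M : Mx p R R' y L)
    {S Q : List ℝ} {l E : ℝ} (hL : L = S ++ l :: Q) (hstart : ∀ t, Q.head? = some t → l < t)
    (hE : p.wall Q E) (hopt : p.Opt R Q E) (hlt : l < E) :
    Real.log (y Q.length) ≤ E - p.Zv Q + 1 := by
  obtain ⟨hQ, hl, hlen, hsum⟩ := M.split hL
  have hu := M.posv.pos _ hlen
  have hup := upper g M S.length S l Q E rfl hL hstart hopt hlt
  rw [cost_flat p hE] at hup
  have hfar := opt_far g hQ hlen hl hE hlt.ne
  rw [abs_sub_comm, abs_of_pos (by linarith)] at hfar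
  have hZ3 := g.Zv_ge3 Q
  have h3 : p.Zv Q * y Q.length ≤ (E - l) * y Q.length :=
    mul_le_mul_of_nonneg_right hfar hu.le
  have h4 : p.Zv Q * y Q.length ≤ p.Zv Q * (2 * Real.exp (E - p.Zv Q)) := by
    linarith
  have h5 : y Q.length ≤ 2 * Real.exp (E - p.Zv Q) := le_of_mul_le_mul_left h4 (by linarith)
  rw [Real.log_le_iff_le_exp hu]
  have e : Real.exp (E - p.Zv Q + 1) = Real.exp (E - p.Zv Q) * Real.exp 1 := Real.exp_add _ _
  rw [e]
  have h6 := two_le_exp_one
  have h7 := Real.exp_pos (E - p.Zv Q)
  nlinarith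

/-- Above a wall below the current value. -/
theorem above_wall (g : p.Good B) {R' : ℝ} {y : ℕ → ℝ} {L : List ℝ} (M : Mx p R R' y L)
    {S Q : List ℝ} {l E : ℝ} (hL : L = S ++ l :: Q) (hE : p.wall Q E) (hlt : E < l) :
    (p.kap - 1) * p.win Q ≤ Real.log (y Q.length) - E := by
  obtain ⟨hQ, hl, hlen, hsum⟩ := M.split hL
  have hlow := win_lower g M hL
  have hWpos := p.win_pos g.W0pos Q
  by_cases hw : p.wall Q l
  · rw [win_cons_flat p hw] at hlow
    have h1 := wall_sep g.hV g.W0pos hQ hlen hw hE hlt.ne'
    rw [abs_of_pos (by linarith)] at h1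
    linarith
  · rw [win_cons_nonflat p hw] at hlow
    have h1 := opt_far g hQ hlen hl hE hlt.ne'
    rw [abs_of_pos (by linarith)] at h1
    have h2 := p.Zv_ge_kap g.W0pos Q
    linarith

/-- Below a wall above the current value. -/
theorem below_wall (g : p.Good B) {R' : ℝ} {y : ℕ → ℝ} {L : List ℝ} (M : Mx p R R' y L)
    {S Q : List ℝ} {l E : ℝ} (hL : L = S ++ l :: Q) (hE : p.wall Q E) (hlt : l < E) :
    (p.kap - 1) * p.win Q ≤ E - Real.log (y Q.length) := by
  obtain ⟨hQ, hl, hlen, hsum⟩ := M.split hL
  have hWpos := g.win_ge3 Q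
  have hZ3 := g.Zv_ge3 Q
  have hZk := p.Zv_ge_kap g.W0pos Q
  by_cases hstay : Q.head? = some l
  · cases Q with
    | nil => simp at hstay
    | cons t Q₁ =>
      simp only [List.head?_cons, Option.some.injEq] at hstay
      subst hstay
      have h1 := wall_sep g.hV g.W0pos hQ hlen hE (head_wall g.hV t Q₁) hlt.ne'
      rw [abs_of_pos (by linarith)] at h1
      have h2 := win_upper g M Q₁ (S ++ [t]) t (by rw [hL, List.append_assoc]; rfl)
      have h3 := M.posv.log_anti (i := Q₁.length) (j := (t :: Q₁).length) (by simp) hlen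
      linarith
  · have hstart : ∀ t, Q.head? = some t → l < t := by
      intro t ht
      have h1 := hl.2.1 t ht
      rcases lt_or_eq_of_le h1 with h | h
      · exact h
      · exact absurd (h ▸ ht) hstay
    by_cases hEt : ∀ t, Q.head? = some t → E ≤ t
    · have hER : |E| ≤ R := by
        cases Q with
        | nil =>
          obtain ⟨n, hn0, _, κ, hκ, e⟩ := hE
          have hκ0 : κ = 0 := hκ
          subst hκ0
          have hn0' : (n : ℝ) ≠ 0 := by exact_mod_cast hn0
          have hE0 : E = 0 := by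
            have : (n : ℝ) * E = 0 := by linarith
            exact (mul_eq_zero.mp this).resolve_left hn0'
          have hlR := abs_le.mp hl.2.2
          rw [hE0, abs_zero]
          linarith
        | cons t Q₁ =>
          have h1 := hEt t rfl
          have h2 := abs_le.mp hQ.2.2.2
          have h3 := abs_le.mp hl.2.2
          rw [abs_le]
          constructor <;> linarith
      have h := log_le_of_wall g M hL hstart hE (opt_wall hE hEt hER) hlt
      nlinarith
    · push Not at hEt
      obtain ⟨t, ht, htE⟩ := hEt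
      have hwt := wall_of_head g.hV ht
      have hoptt : p.Opt R Q t := by
        cases Q with
        | nil => simp at ht
        | cons a Q₁ =>
          simp only [List.head?_cons, Option.some.injEq] at ht
          subst ht
          exact opt_stay g.hV hQ
      have h := log_le_of_wall g M hL hstart hwt hoptt (hstart t ht)
      have h1 := wall_sep g.hV g.W0pos hQ hlen hE hwt htE.ne'
      rw [abs_of_pos (by linarith)] at h1
      nlinarith

/-- The alignment property of a maximal list. -/
theorem align (g : p.Good B) {R' : ℝ} {y : ℕ → ℝ} {L : List ℝ} (M : Mx p R R' y L)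
    {v : ℕ → ℤ} (hv : ∀ i, |v i| ≤ (p.V : ℤ)) : ∀ Q S : List ℝ, L = S ++ Q →
    0 < dot v Q → B ≤ ∑ i ∈ Finset.range Q.length, (v i : ℝ) * Real.log (y i)
  | [], _, _, h => by simp [dot] at h
  | l :: Q, S, hL, hdot => by
    obtain ⟨hQ, hl, hlen, hsum⟩ := M.split hL
    have hdot' : 0 < dot v Q + (v Q.length : ℝ) * l := hdot
    simp only [List.length_cons]
    rw [Finset.sum_range_succ]
    by_cases hv0 : v Q.length = 0
    · rw [hv0] at hdot' ⊢
      simp only [Int.cast_zero, zero_mul, add_zero] at hdot' ⊢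
      exact align g M hv Q (S ++ [l]) (by rw [hL, List.append_assoc]; rfl) hdot'
    · set n₀ := v Q.length with hn₀
      have hn₀r : (n₀ : ℝ) ≠ 0 := by exact_mod_cast hv0
      set κ := dot v Q with hκ
      have hHV := p.bnd_ge_V g.hV (p.rr Q)
      have hvH : ∀ i, |v i| ≤ ((p.bnd (p.rr Q) : ℕ) : ℤ) := fun i =>
        le_trans (hv i) (by exact_mod_cast hHV)
      have hκmem : κ ∈ Comb (p.bnd (p.rr Q)) Q := dot_mem hvH Q
      set E := - κ / (n₀ : ℝ) with hEdef
      have hE : p.wall Q E := ⟨n₀, hv0, hvH _, κ, hκmem, wall_neg_mem hv0⟩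
      have hnE : (n₀ : ℝ) * E = - κ := by
        rw [hEdef]; field_simp
      have hclose := dot_close g M hv Q (S ++ [l]) (by rw [hL, List.append_assoc]; rfl)
      have hclose' := (abs_le.mp hclose).1
      have hclaim : (p.kap - 1) * p.win Q
          ≤ (n₀ : ℝ) * (Real.log (y Q.length) - E) := by
        have hWpos := g.win_ge3 Q
        have hk := p.kap_ge
        have hpos : 0 < (p.kap - 1) * p.win Q := by nlinarith
        have h1 : (n₀ : ℝ) * (l - E) > 0 := by
          have : (n₀ : ℝ) * (l - E) = κ + (n₀ : ℝ) * l := by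
            rw [mul_sub, hnE]; ring
          rw [this]
          exact hdot'
        rcases lt_or_gt_of_ne hv0 with hneg | hpos'
        · have hn1 : (n₀ : ℝ) ≤ -1 := by exact_mod_cast (by omega : n₀ ≤ -1)
          have hlt : l < E := by
            by_contra hcon
            push Not at hcon
            have : (n₀ : ℝ) * (l - E) ≤ 0 :=
              mul_nonpos_of_nonpos_of_nonneg (by linarith) (by linarith)
            linarith
          have h2 := below_wall g M hL hE hlt
          nlinarith
        · have hn1 : (1 : ℝ) ≤ (n₀ : ℝ) := by exact_mod_cast (by omega : 1 ≤ n₀)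
          have hlt : E < l := by
            by_contra hcon
            push Not at hcon
            have : (n₀ : ℝ) * (l - E) ≤ 0 :=
              mul_nonpos_of_nonneg_of_nonpos (by linarith) (by linarith)
            linarith
          have h2 := above_wall g M hL hE hlt
          nlinarith
      have hWW := p.win_ge g.W0pos Q
      have hlenr : (Q.length : ℝ) * p.V ≤ (p.d : ℝ) * p.V := by
        apply mul_le_mul_of_nonneg_right _ (by positivity)
        exact_mod_cast hlen.le
      have hWpos := p.win_pos g.W0pos Q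
      have hkap : p.kap = (p.d : ℝ) * p.V + 4 := rfl
      have hbig : (Q.length : ℝ) * p.V * p.win Q ≤ (p.d : ℝ) * p.V * p.win Q :=
        mul_le_mul_of_nonneg_right hlenr hWpos.le
      have e3 : (p.kap - 1) * p.win Q = (p.d : ℝ) * p.V * p.win Q + 3 * p.win Q := by
        rw [hkap]; ring
      have hB := g.hB
      have hW3 := g.hW0
      nlinarith

end Par

end

end Vale.Agent.P072.Gen
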