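import Mathlib

namespace Vale.Agent.P072.Gen

noncomputable section

open Classical

/-- Integer combinations with coefficients bounded by `H` of the entries of a list. -/
def Comb (H : ℕ) : List ℝ → Set ℝ
  | [] => {0}
  | l :: Q => {x | ∃ n : ℤ, |n| ≤ (H : ℤ) ∧ ∃ κ ∈ Comb H Q, x = (n : ℝ) * l + κ}

/-- `E` solves a linear equation with coefficients bounded by `H` over the list. -/
def IsWall (H : ℕ) (Q : List ℝ) (E : ℝ) : Prop :=
  ∃ n : ℤ, n ≠ 0 ∧ |n| ≤ (H : ℤ) ∧ ∃ κ ∈ Comb H Q, (n : ℝ) * E + κ = 0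

/-- Parameters of the construction. -/
structure Par where
  d : ℕ
  V : ℕ
  W0 : ℝ

namespace Par

variable (p : Par)

/-- Coefficient bounds, by the number of remaining positions. -/
def bnd : ℕ → ℕ
  | 0 => p.V
  | r + 1 => 2 * (bnd r) ^ 2

/-- A basic constant. -/
def kap : ℝ := (p.d : ℝ) * p.V + 4

/-- Separation constants. -/
def zt : ℕ → ℝ
  | 0 => 0
  | r + 1 => max (max (((p.bnd r : ℝ) ^ 2) * (2 * max (zt r) p.kap + p.kap))
      ((p.bnd r : ℝ) * zt r * (2 * max (zt r) p.kap))) (zt r)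

/-- Zone constants. -/
def zz (r : ℕ) : ℝ := max (p.zt r) p.kap

/-- Remaining positions after the next one. -/
def rr (Q : List ℝ) : ℕ := p.d - Q.length - 1

/-- The walls at the position following the list `Q`. -/
def wall (Q : List ℝ) (E : ℝ) : Prop := IsWall (p.bnd (p.rr Q)) Q E

/-- The window size attached to a list. -/
def win : List ℝ → ℝ
  | [] => p.W0
  | l :: Q => if p.wall Q l then 2 * (p.zz (p.rr Q) * win Q) else win Q

/-- The zone size attached to a list. -/
def Zv (Q : List ℝ) : ℝ := p.zz (p.rr Q) * p.win Q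

/-- The cost of the value `l` after the list `Q`. -/
def cost (Q : List ℝ) (l : ℝ) : ℝ :=
  if p.wall Q l then p.Zv Q * Real.exp (l - p.Zv Q) else Real.exp l

/-- The admissible values after the list `Q`. -/
def Opt (R : ℝ) (Q : List ℝ) (l : ℝ) : Prop :=
  (p.wall Q l ∨ ((∃ m : ℤ, l = m) ∧ ∀ E, p.wall Q E → p.Zv Q ≤ |l - E|)) ∧
    (∀ t, Q.head? = some t → l ≤ t) ∧ |l| ≤ R

/-- Admissible lists; the head is the most recent position. -/
def Adm (R : ℝ) : List ℝ → Prop
  | [] => True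
  | l :: Q => Adm R Q ∧ p.Opt R Q l

/-- The affine function attached to a list, evaluated at the position vector `y`. -/
def Psi (y : ℕ → ℝ) : List ℝ → ℝ
  | [] => 0
  | l :: Q => Psi y Q + l * y Q.length - p.cost Q l

/-- The pairing with an integer vector. -/
def dot (v : ℕ → ℤ) : List ℝ → ℝ
  | [] => 0
  | l :: Q => dot v Q + (v Q.length : ℝ) * l

/-- The separation value attached to a list. -/
def sepv : List ℝ → ℝ
  | [] => p.zt p.d * p.W0
  | l :: Q => if p.wall Q l then sepv Q / (p.bnd (p.rr Q) : ℝ) else min (sepv Q) (p.Zv Q)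

/-- Upper bound for the zone constants. -/
def zmax : ℝ := 1 + ∑ r ∈ Finset.range p.d, p.zz r

/-- Upper bound for windows. -/
def Wbar : ℝ := (2 * p.zmax) ^ p.d * p.W0

/-- Upper bound for zones. -/
def Zbar : ℝ := p.zmax * p.Wbar

/-- The greedy loss. -/
def Gl : ℝ := p.Zbar + 1

/-- The comparison constant. -/
def Cb : ℝ := 2 * p.Zbar + 1

/-- The numerical conditions on the parameters. -/
structure Good (B : ℝ) : Prop where
  hV : 1 ≤ p.V
  hW0 : 3 ≤ p.W0
  hB : B ≤ p.W0
  e1 : 2 * (p.Zbar + 2 + p.Cb * p.d) ≤ Real.exp p.W0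
  e2 : 4 * p.d * p.Cb ≤ Real.exp p.W0
  e3 : 2 * p.d * p.W0 ≤ Real.exp p.W0
  e4 : 4 * p.d ≤ Real.exp p.W0

end Par

end

end Vale.Agent.P072.Gen
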