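import Vale.Agent.P072.GenPerm
import Vale.Agent.P072.Bounded

namespace Vale.Agent.P072.Gen

noncomputable section

open Classical Filter Topology

theorem psi_deriv (p : Par) {Y : ℝ → ℕ → ℝ} {D : ℕ → ℝ} {t : ℝ}
    (h : ∀ i, HasDerivWithinAt (fun s => Y s i) (D i) (Set.Ici t) t) :
    ∀ L : List ℝ, HasDerivWithinAt (fun s => p.Psi (Y s) L) (dotr D L) (Set.Ici t) t
  | [] => hasDerivWithinAt_const _ _ _
  | l :: Q => by
    have h1 := psi_deriv p h Q
    have h2 := (h Q.length).const_mul l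
    exact (h1.fun_add h2).sub_const (p.cost Q l)

theorem psi_cont (p : Par) {Y : ℝ → ℕ → ℝ} {A : Set ℝ}
    (h : ∀ i, ContinuousOn (fun s => Y s i) A) :
    ∀ L : List ℝ, ContinuousOn (fun s => p.Psi (Y s) L) A
  | [] => continuousOn_const
  | l :: Q => by
    have h1 := psi_cont p h Q
    have h2 := (h Q.length).const_smul l
    exact (h1.add h2).sub continuousOn_const

theorem ext_deriv {n : ℕ} {x : ℝ → Fin n → ℝ} {F : Fin n → ℝ} {t : ℝ} (π : Equiv.Perm (Fin n))
    (hd : HasDerivWithinAt x F (Set.Ici t) t) (i : ℕ) :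
    HasDerivWithinAt (fun s => ext (fun j => x s (π j)) i) (ext (fun j => F (π j)) i)
      (Set.Ici t) t := by
  unfold ext
  by_cases h : i < n
  · simp only [dif_pos h]
    exact (hasDerivWithinAt_pi.mp hd) (π ⟨i, h⟩)
  · simp only [dif_neg h]
    exact hasDerivWithinAt_const _ _ _

theorem ext_cont {n : ℕ} {x : ℝ → Fin n → ℝ} {A : Set ℝ} (π : Equiv.Perm (Fin n))
    (hc : ContinuousOn x A) (i : ℕ) :
    ContinuousOn (fun s => ext (fun j => x s (π j)) i) A := by
  unfold ext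
  by_cases h : i < n
  · simp only [dif_pos h]
    exact (continuous_apply (π ⟨i, h⟩)).comp_continuousOn hc
  · simp only [dif_neg h]
    exact continuousOn_const

theorem ext_pos {n : ℕ} {z : Fin n → ℝ} (h : ∀ j, 0 < z j) {i : ℕ} (hi : i < n) : 0 < ext z i := by
  unfold ext
  rw [dif_pos hi]
  exact h _

variable {p : Par} {B : ℝ}

theorem psi_ext (p : Par) (z : Fin p.d → ℝ) {L : List ℝ} (h : L.length = p.d) :
    p.Psi (ext z) L = ∑ i : Fin p.d, pos L i * z i + p.Psi (fun _ => 0) L := by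
  rw [p.psi_eq, dotr_ext z h]

/-- The pointwise inequality at an active candidate. -/
theorem active_step (g : p.Good B) (N : Network p.d) (hN : N.WeaklyReversible)
    (hV : ∀ y y' : Cplx p.d, Relation.ReflTransGen N.Step y' y → y ≠ y' →
      ∀ i, |(y i : ℤ) - (y' i : ℤ)| ≤ (p.V : ℤ))
    {ε : ℝ} (hε : 0 < ε) (hBK : (N.reactions.card : ℝ) * ε⁻¹ ≤ Real.exp B * ε)
    {k : Cplx p.d × Cplx p.d → ℝ} (hk : ∀ r ∈ N.reactions, ε ≤ k r ∧ k r ≤ ε⁻¹)
    {x : Fin p.d → ℝ} (hx : ∀ i, 0 < x i) {R R' : ℝ} (hR : R' + p.Zbar + 2 ≤ R)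
    (hlog : ∀ i, |Real.log (x i)| ≤ R') {π : Equiv.Perm (Fin p.d)} {L : List ℝ}
    (hadm : p.Adm R L) (hlen : L.length = p.d)
    (hact : ∀ (π' : Equiv.Perm (Fin p.d)) (L' : List ℝ), p.Adm R L' → L'.length = p.d →
      p.Psi (ext (fun j => x (π' j))) L' ≤ p.Psi (ext (fun j => x (π j))) L) :
    ∃ π' : Equiv.Perm (Fin p.d),
      (∀ z : Fin p.d → ℝ, p.Psi (ext (fun j => z (π' j))) L = p.Psi (ext (fun j => z (π j))) L) ∧
      dotr (ext (fun j => massAction N k x (π' j))) L ≤ 0 := by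
  set a : Fin p.d → ℝ := fun i => pos L i with ha
  have hanti : Antitone a := by
    intro i j hij
    exact Par.pos_anti L hadm i j hij (by rw [hlen]; exact j.isLt)
  obtain ⟨τ, hτ1, hτ2⟩ := exists_sort a (fun j => x (π j)) hanti (by
    intro σ
    have h1 := hact (π * σ) L hadm hlen
    rw [psi_ext p _ hlen, psi_ext p _ hlen] at h1
    simp only [Equiv.Perm.mul_apply] at h1
    simpa [ha] using h1)
  set π' : Equiv.Perm (Fin p.d) := π * τ with hπ'
  have hfun : ∀ z : Fin p.d → ℝ,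
      p.Psi (ext (fun j => z (π' j))) L = p.Psi (ext (fun j => z (π j))) L := by
    intro z
    rw [psi_ext p _ hlen, psi_ext p _ hlen]
    congr 1
    have h1 := Equiv.sum_comp τ (fun i => a i * z (π i))
    rw [← h1]
    apply Finset.sum_congr rfl
    intro i _
    show a i * z ((π * τ) i) = a (τ i) * z (π (τ i))
    rw [hτ1 i]
    rfl
  refine ⟨π', hfun, ?_⟩
  set y : ℕ → ℝ := ext (fun j => x (π' j)) with hy
  have hxπ : ∀ (i : ℕ) (hi : i < p.d), y i = x (π' ⟨i, hi⟩) := by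
    intro i hi
    rw [hy]
    unfold ext
    rw [dif_pos hi]
  have hposv : Par.PosV p R' y := by
    refine ⟨fun i hi => ?_, fun i j hij hj => ?_, fun i hi => ?_⟩
    · rw [hxπ i hi]; exact hx _
    · rw [hxπ j hj, hxπ i (lt_of_le_of_lt hij hj)]
      exact hτ2 ⟨i, lt_of_le_of_lt hij hj⟩ ⟨j, hj⟩ hij
    · rw [hxπ i hi]; exact hlog _
  have hM : Par.Mx p R R' y L := by
    refine ⟨hposv, hadm, hlen, hR, ?_⟩
    intro L' hL' hlen'
    have h1 := hact π' L' hL' hlen'
    rw [← hfun x] at h1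
    exact h1
  set h : Cplx p.d → ℝ := fun c => dotr (ext (fun j => (c (π' j) : ℝ))) L with hh
  have hflow := flow_nonpos N hN k ε ε⁻¹ (Real.exp B) hε.le hk hBK hx h (by
    intro c c' hreach hlt
    apply mono_ratio hx
    have hne : c ≠ c' := by
      rintro rfl
      exact lt_irrefl _ hlt
    set v : ℕ → ℤ := fun i => if hi : i < p.d then
      (c (π' ⟨i, hi⟩) : ℤ) - (c' (π' ⟨i, hi⟩) : ℤ) else 0 with hv
    have hvb : ∀ i, |v i| ≤ (p.V : ℤ) := by
      intro i
      rw [hv]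
      dsimp only
      by_cases hi : i < p.d
      · rw [dif_pos hi]
        exact hV c c' hreach hne _
      · rw [dif_neg hi]
        simp
    have hvr : ∀ i, (v i : ℝ)
        = ext (fun j => (c (π' j) : ℝ)) i - ext (fun j => (c' (π' j) : ℝ)) i := by
      intro i
      rw [hv]
      unfold ext
      dsimp only
      by_cases hi : i < p.d
      · simp only [dif_pos hi]
        push_cast
        rfl
      · simp only [dif_neg hi]
        simp
    have hdot : 0 < Par.dot v L := by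
      rw [Par.dot_eq_dotr, dotr_congr hvr, dotr_sub]
      show 0 < h c - h c'
      linarith
    have hal := Par.align g hM hvb L [] rfl hdot
    have e : ∑ i ∈ Finset.range L.length, (v i : ℝ) * Real.log (y i)
        = phi (diffVec c c') x := by
      rw [hlen, Finset.sum_range]
      unfold phi diffVec
      have h1 := Equiv.sum_comp π'
        (fun j => ((c j : ℝ) - (c' j : ℝ)) * Real.log (x j))
      rw [← h1]
      apply Finset.sum_congr rfl
      intro i _
      rw [hvr, ext_coe, ext_coe, hxπ i i.isLt]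
    rw [e] at hal
    exact hal)
  have hfield : ∀ i, ext (fun j => massAction N k x (π' j)) i
      = ∑ r ∈ N.reactions, (k r * mono x r.1) *
        (ext (fun j => (r.2 (π' j) : ℝ)) i - ext (fun j => (r.1 (π' j) : ℝ)) i) := by
    intro i
    unfold ext
    by_cases hi : i < p.d
    · simp only [dif_pos hi]
      rfl
    · simp only [dif_neg hi]
      simp
  rw [dotr_congr hfield, dotr_sum]
  have e2 : ∀ r ∈ N.reactions, (k r * mono x r.1) *
      dotr (fun i => ext (fun j => (r.2 (π' j) : ℝ)) i - ext (fun j => (r.1 (π' j) : ℝ)) i) L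
      = (k r * mono x r.1) * (h r.2 - h r.1) := by
    intro r _
    rw [dotr_sub]
  rw [Finset.sum_congr rfl e2]
  exact hflow

/-- The final coordinate bound from the entropy bound. -/
theorem coord_bound {n : ℕ} (X : Fin n → ℝ) (hX : ∀ j, 0 < X j) {G C : ℝ}
    (h : ∑ j, (Ee (X j) - G * X j) ≤ C) (i : Fin n) :
    X i ≤ |C| + (n : ℝ) * Real.exp G + Real.exp (G + 2) := by
  have h1 : ∀ j, 0 ≤ Ee (X j) - G * X j + Real.exp G := by
    intro j
    have := fenchel (hX j) G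
    linarith
  have h2 := Finset.single_le_sum (f := fun j => Ee (X j) - G * X j + Real.exp G)
    (fun j _ => h1 j) (Finset.mem_univ i)
  rw [Finset.sum_add_distrib] at h2
  simp only [Finset.sum_const, Finset.card_univ, Fintype.card_fin, nsmul_eq_mul] at h2
  have h3 := fenchel (hX i) (G + 2)
  have h4 := le_abs_self C
  have h5 := Real.exp_pos G
  have h6 := Real.exp_pos (G + 2)
  have h7 := hX i
  have h8 : 0 ≤ (n : ℝ) * Real.exp G := by positivity
  have h9 := abs_nonneg C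
  nlinarith

/-- A sorted arrangement. -/
theorem exists_anti {n : ℕ} (X : Fin n → ℝ) :
    ∃ π : Equiv.Perm (Fin n), ∀ i j, i ≤ j → X (π j) ≤ X (π i) := by
  refine ⟨Tuple.sort (fun j => - X j), ?_⟩
  intro i j hij
  have h := Tuple.monotone_sort (fun j => - X j) hij
  simp only [Function.comp] at h
  linarith

theorem psi_init (g : p.Good B) {R : ℝ} {c : Fin p.d → ℝ} (hc : ∀ i, 0 < c i)
    (π : Equiv.Perm (Fin p.d)) {L : List ℝ} (hadm : p.Adm R L) (hlen : L.length = p.d) :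
    p.Psi (ext (fun j => c (π j))) L ≤ ∑ j, (Ee (c j) + p.Zbar * c j) := by
  have h1 := Par.gain_le (R := R) g (y := ext (fun j => c (π j)))
    (fun i hi => ext_pos (fun j => hc (π j)) hi) [] L
    (by simpa using hadm) (by simpa using hlen.le)
  simp only [List.append_nil, List.length_nil, zero_add] at h1
  have e0 : p.Psi (ext (fun j => c (π j))) [] = 0 := rfl
  rw [e0, zero_add, hlen, Finset.sum_range] at h1
  simp only [ext_coe] at h1
  have h2 := Equiv.sum_comp π (fun j => Ee (c j) + p.Zbar * c j)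
  rw [h2] at h1
  exact h1

/-- The main boundedness theorem, for good parameters. -/
theorem main_bound (g : p.Good B) (N : Network p.d) (hN : N.WeaklyReversible)
    (hV : ∀ y y' : Cplx p.d, Relation.ReflTransGen N.Step y' y → y ≠ y' →
      ∀ i, |(y i : ℤ) - (y' i : ℤ)| ≤ (p.V : ℤ))
    {ε : ℝ} (hε : 0 < ε) (hBK : (N.reactions.card : ℝ) * ε⁻¹ ≤ Real.exp B * ε)
    {c : Fin p.d → ℝ} (hc : ∀ i, 0 < c i)
    {k : ℝ → Cplx p.d × Cplx p.d → ℝ}
    (hk : ∀ t, ∀ r ∈ N.reactions, ε ≤ k t r ∧ k t r ≤ ε⁻¹)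
    {T : ℝ} {x : ℝ → Fin p.d → ℝ} (hsol : IsPositiveSolution N k T x) (hx0 : x 0 = c)
    {t : ℝ} (ht : t ∈ Set.Ico 0 T) (i : Fin p.d) :
    x t i ≤ |∑ j, (Ee (c j) + p.Zbar * c j)| + (p.d : ℝ) * Real.exp p.Gl
      + Real.exp (p.Gl + 2) := by
  set C := ∑ j, (Ee (c j) + p.Zbar * c j) with hC
  set T₂ := (t + T) / 2 with hT₂
  have htT₂ : t < T₂ := by
    have := ht.2
    rw [hT₂]
    linarith
  have hT₂T : T₂ < T := by
    have := ht.2
    rw [hT₂]
    linarith
  have hsub : Set.Icc 0 T₂ ⊆ Set.Ico 0 T := fun s hs => ⟨hs.1, lt_of_le_of_lt hs.2 hT₂T⟩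
  have hlogc : ContinuousOn (fun s => ∑ j, |Real.log (x s j)|) (Set.Icc 0 T₂) := by
    apply continuousOn_finsetSum
    intro j _
    apply ContinuousOn.abs
    apply ContinuousOn.log
    · exact (continuous_apply j).comp_continuousOn (hsol.cont.mono hsub)
    · intro s hs
      exact (hsol.pos s (hsub hs) j).ne'
  obtain ⟨M₀, hM₀⟩ := isCompact_Icc.exists_bound_of_continuousOn hlogc
  have hlogb : ∀ s ∈ Set.Icc 0 T₂, ∀ j, |Real.log (x s j)| ≤ M₀ := by
    intro s hs j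
    have h1 := hM₀ s hs
    have h2 : |Real.log (x s j)| ≤ ∑ j, |Real.log (x s j)| :=
      Finset.single_le_sum (f := fun j => |Real.log (x s j)|) (fun j _ => abs_nonneg _)
        (Finset.mem_univ j)
    have h3 := le_abs_self (∑ j, |Real.log (x s j)|)
    rw [Real.norm_eq_abs] at h1
    linarith
  set R := M₀ + p.Zbar + 2 with hR
  have hRle : M₀ + p.Zbar + 2 ≤ R := le_rfl
  set W : Finset (Equiv.Perm (Fin p.d) × List ℝ) :=
    Finset.univ ×ˢ (Par.adm_finite g.hV R p.d).toFinset with hW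
  have hWmem : ∀ u : Equiv.Perm (Fin p.d) × List ℝ, u ∈ W ↔ (p.Adm R u.2 ∧ u.2.length = p.d) := by
    intro u
    simp [hW]
  set G : Equiv.Perm (Fin p.d) × List ℝ → ℝ → ℝ :=
    fun u s => p.Psi (ext (fun j => x s (u.1 j))) u.2 with hG
  have hbound := Vale.Agent.P072.max_le_of_right W G (T := T₂) (C := C)
    (by
      intro u hu
      obtain ⟨h1, h2⟩ := (hWmem u).mp hu
      show p.Psi (ext (fun j => x 0 (u.1 j))) u.2 ≤ C
      rw [hx0]
      exact psi_init g hc u.1 h1 h2)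
    (by
      intro u _
      refine psi_cont p (fun i => ext_cont u.1 (hsol.cont.mono ?_) i) u.2
      intro s hs
      exact ⟨hs.1, lt_trans hs.2 hT₂T⟩)
    (by
      intro s hs u hu _ hact ε' hε'
      obtain ⟨hadm, hlen⟩ := (hWmem u).mp hu
      have hsI : s ∈ Set.Icc 0 T₂ := ⟨hs.1, hs.2.le⟩
      have hsT : s ∈ Set.Ico 0 T := hsub hsI
      obtain ⟨π', hfun, hineq⟩ := active_step g N hN hV hε hBK (hk s) (hsol.pos s hsT) hRle
        (hlogb s hsI) (π := u.1) hadm hlen (by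
          intro π' L' hL' hlen'
          exact hact (π', L') ((hWmem _).mpr ⟨hL', hlen'⟩))
      have hGeq : ∀ s', G u s' = p.Psi (ext (fun j => x s' (π' j))) u.2 := by
        intro s'
        exact (hfun (x s')).symm
      have hder := psi_deriv p (fun i => ext_deriv π' (hsol.deriv s hsT) i) u.2
      have hslope := hder.Ioi_of_Ici.limsup_slope_le' (lt_irrefl s)
        (lt_of_le_of_lt hineq hε')
      have hself : ∀ᶠ s' in 𝓝[>] s, s < s' := self_mem_nhdsWithin
      filter_upwards [hslope, hself] with s' h1 h4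
      rw [slope_def_field, div_lt_iff₀ (sub_pos.mpr h4)] at h1
      rw [hGeq, hGeq]
      linarith)
  have htI : t ∈ Set.Icc 0 T₂ := ⟨ht.1, htT₂.le⟩
  have htT := hsub htI
  obtain ⟨π₀, hπ₀⟩ := exists_anti (x t)
  set y : ℕ → ℝ := ext (fun j => x t (π₀ j)) with hy
  have hxπ : ∀ (i : ℕ) (hi : i < p.d), y i = x t (π₀ ⟨i, hi⟩) := by
    intro i hi
    rw [hy]
    unfold ext
    rw [dif_pos hi]
  have hposv : Par.PosV p M₀ y := by
    refine ⟨fun i hi => ?_, fun i j hij hj => ?_, fun i hi => ?_⟩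
    · rw [hxπ i hi]; exact hsol.pos t htT _
    · rw [hxπ j hj, hxπ i (lt_of_le_of_lt hij hj)]
      exact hπ₀ ⟨i, lt_of_le_of_lt hij hj⟩ ⟨j, hj⟩ hij
    · rw [hxπ i hi]; exact hlogb t htI _
  obtain ⟨S, hS, hadmS, hsumS⟩ := Par.greedy g hposv hRle p.d [] trivial (by simp) (by simp)
  rw [List.append_nil] at hadmS hsumS
  have hval := hbound t ⟨ht.1, htT₂⟩ (π₀, S) ((hWmem _).mpr ⟨hadmS, hS⟩)
  have hval' : p.Psi y S ≤ C := hval
  have e0 : p.Psi y [] = 0 := rfl
  rw [e0, sub_zero] at hsumS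
  simp only [List.length_nil, zero_add] at hsumS
  rw [Finset.sum_range] at hsumS
  simp only [hy, ext_coe] at hsumS
  have h2 := Equiv.sum_comp π₀ (fun j => Ee (x t j) - p.Gl * x t j)
  rw [h2] at hsumS
  exact coord_bound (x t) (hsol.pos t htT) (le_trans hsumS hval') i

namespace Par

theorem bnd_congr {p q : Par} (h : p.V = q.V) : ∀ r, p.bnd r = q.bnd r
  | 0 => h
  | r + 1 => by
    show 2 * (p.bnd r) ^ 2 = 2 * (q.bnd r) ^ 2
    rw [bnd_congr h r]

theorem zt_congr {p q : Par} (hd : p.d = q.d) (h : p.V = q.V) : ∀ r, p.zt r = q.zt r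
  | 0 => rfl
  | r + 1 => by
    have ih := zt_congr hd h r
    have hk : p.kap = q.kap := by
      unfold kap
      rw [hd, h]
    show max (max (((p.bnd r : ℝ) ^ 2) * (2 * max (p.zt r) p.kap + p.kap))
      ((p.bnd r : ℝ) * p.zt r * (2 * max (p.zt r) p.kap))) (p.zt r) =
      max (max (((q.bnd r : ℝ) ^ 2) * (2 * max (q.zt r) q.kap + q.kap))
      ((q.bnd r : ℝ) * q.zt r * (2 * max (q.zt r) q.kap))) (q.zt r)
    rw [ih, hk, bnd_congr h r]

theorem zmax_congr {p q : Par} (hd : p.d = q.d) (h : p.V = q.V) : p.zmax = q.zmax := by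
  unfold zmax zz
  have hk : p.kap = q.kap := by
    unfold kap
    rw [hd, h]
  rw [hd]
  simp only [zt_congr hd h, hk]

end Par

/-- Existence of good parameters. -/
theorem exists_good (d V : ℕ) (hV : 1 ≤ V) (B : ℝ) : ∃ W0 : ℝ, Par.Good ⟨d, V, W0⟩ B := by
  set z : ℝ := Par.zmax ⟨d, V, 0⟩ with hz
  have hz1 : 1 ≤ z := Par.zmax_ge _
  set Λ : ℝ := z * (2 * z) ^ d with hΛ
  have hΛ0 : 0 ≤ Λ := by positivity
  have hd0 : (0 : ℝ) ≤ d := by positivity
  set K : ℝ := 2 * Λ + 4 + 12 * Λ * d + 8 * d with hK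
  have hK0 : 0 ≤ K := by positivity
  set W0 : ℝ := 3 + |B| + 2 * K with hW0
  have hB := le_abs_self B
  have hBa := abs_nonneg B
  have hW3 : 3 ≤ W0 := by rw [hW0]; linarith
  have hexp : K * W0 ≤ Real.exp W0 := by
    have h1 := Real.quadratic_le_exp_of_nonneg (by linarith : 0 ≤ W0)
    have h2 : 2 * K ≤ W0 := by rw [hW0]; linarith
    nlinarith
  have hzm : Par.zmax ⟨d, V, W0⟩ = z := Par.zmax_congr rfl rfl
  have hZ : Par.Zbar ⟨d, V, W0⟩ = Λ * W0 := by
    unfold Par.Zbar Par.Wbar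
    rw [hzm, hΛ]
    ring
  have hCb : Par.Cb ⟨d, V, W0⟩ = 2 * (Λ * W0) + 1 := by
    unfold Par.Cb
    rw [hZ]
  have hdW : (d : ℝ) ≤ d * W0 := by nlinarith
  have hΛdW : 0 ≤ Λ * d * W0 := by positivity
  refine ⟨W0, ⟨hV, hW3, ?_, ?_, ?_, ?_, ?_⟩⟩
  · show B ≤ W0
    rw [hW0]; linarith
  · rw [hZ, hCb]
    show 2 * (Λ * W0 + 2 + (2 * (Λ * W0) + 1) * d) ≤ Real.exp W0
    refine le_trans ?_ hexp
    rw [hK]
    nlinarith
  · rw [hCb]
    show 4 * (d : ℝ) * (2 * (Λ * W0) + 1) ≤ Real.exp W0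
    refine le_trans ?_ hexp
    rw [hK]
    nlinarith
  · show 2 * (d : ℝ) * W0 ≤ Real.exp W0
    refine le_trans ?_ hexp
    rw [hK]
    nlinarith
  · show 4 * (d : ℝ) ≤ Real.exp W0
    refine le_trans ?_ hexp
    rw [hK]
    nlinarith

/-- Every positive solution of a weakly reversible mass-action system, with rates between
`ε` and `1/ε`, is bounded by a constant depending only on the network, `ε` and the
initial state. -/
theorem bounded_all {d : ℕ} (N : Network d) (hN : N.WeaklyReversible) (ε : ℝ) (hε : 0 < ε)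
    (c : Fin d → ℝ) (hc : ∀ i, 0 < c i) :
    ∃ R : ℝ, ∀ k : ℝ → Cplx d × Cplx d → ℝ,
      (∀ t, ∀ r ∈ N.reactions, ε ≤ k t r ∧ k t r ≤ ε⁻¹) →
      ∀ (T : ℝ) (x : ℝ → Fin d → ℝ), IsPositiveSolution N k T x → x 0 = c →
        ∀ t ∈ Set.Ico 0 T, ∀ i, x t i ≤ R := by
  set V : ℕ := 1 + ∑ r ∈ N.reactions, ∑ i, (r.1 i + r.2 i) with hVdef
  have hV1 : 1 ≤ V := by rw [hVdef]; omega
  set B : ℝ := 1 + (N.reactions.card : ℝ) * (ε⁻¹ * ε⁻¹) with hBdef
  have hinvpos : 0 < ε⁻¹ := inv_pos.mpr hε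
  have hBK : (N.reactions.card : ℝ) * ε⁻¹ ≤ Real.exp B * ε := by
    have h1 : B + 1 ≤ Real.exp B := Real.add_one_le_exp B
    have h2 : (N.reactions.card : ℝ) * (ε⁻¹ * ε⁻¹) ≤ Real.exp B := by
      rw [hBdef] at h1 ⊢
      linarith
    have h3 := mul_le_mul_of_nonneg_right h2 hε.le
    have e : (N.reactions.card : ℝ) * (ε⁻¹ * ε⁻¹) * ε = (N.reactions.card : ℝ) * ε⁻¹ := by
      field_simp
    rwa [e] at h3
  obtain ⟨W0, g⟩ := exists_good d V hV1 B
  have hcomplex : ∀ y : Cplx d, (∃ r ∈ N.reactions, r.1 = y ∨ r.2 = y) → ∀ i, y i + 1 ≤ V := by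
    rintro y ⟨r, hr, hy⟩ i
    have h1 : r.1 i + r.2 i ≤ ∑ i, (r.1 i + r.2 i) :=
      Finset.single_le_sum (f := fun i => r.1 i + r.2 i) (fun _ _ => Nat.zero_le _)
        (Finset.mem_univ i)
    have h2 : ∑ i, (r.1 i + r.2 i) ≤ ∑ r ∈ N.reactions, ∑ i, (r.1 i + r.2 i) :=
      Finset.single_le_sum (f := fun r : Cplx d × Cplx d => ∑ i, (r.1 i + r.2 i))
        (fun _ _ => Nat.zero_le _) hr
    rcases hy with rfl | rfl
    · rw [hVdef]; omega
    · rw [hVdef]; omega
  have hVb : ∀ y y' : Cplx d, Relation.ReflTransGen N.Step y' y → y ≠ y' →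
      ∀ i, |(y i : ℤ) - (y' i : ℤ)| ≤ (V : ℤ) := by
    intro y y' hr hne i
    obtain ⟨h1, h2⟩ := mem_complexes_of_reach N hr hne
    have h3 := hcomplex y' h1 i
    have h4 := hcomplex y h2 i
    rw [abs_le]
    constructor <;> omega
  refine ⟨|∑ j, (Ee (c j) + Par.Zbar ⟨d, V, W0⟩ * c j)| + (d : ℝ) * Real.exp (Par.Gl ⟨d, V, W0⟩)
      + Real.exp (Par.Gl ⟨d, V, W0⟩ + 2), ?_⟩
  intro k hk T x hsol hx0 t ht i
  exact main_bound (p := ⟨d, V, W0⟩) g N hN hVb hε hBK hc hk hsol hx0 ht i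

end

end Vale.Agent.P072.Gen
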