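import Vale.Agent.P072.GenOpt

namespace Vale.Agent.P072.Gen

noncomputable section

open Classical

/-- The one-variable entropy. -/
def Ee (u : ℝ) : ℝ := u * Real.log u - u

theorem fenchel {u : ℝ} (hu : 0 < u) (l : ℝ) : l * u - Real.exp l ≤ Ee u := by
  unfold Ee
  have h1 : Real.exp l = u * Real.exp (l - Real.log u) := by
    rw [Real.exp_sub, Real.exp_log hu]; field_simp
  have h2 := Real.add_one_le_exp (l - Real.log u)
  have h3 := mul_le_mul_of_nonneg_left h2 hu.le
  rw [h1]
  nlinarith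

namespace Par

variable {p : Par} {B R : ℝ}

theorem cost_nonneg (g : p.Good B) (Q : List ℝ) (l : ℝ) : 0 ≤ p.cost Q l := by
  unfold cost
  split_ifs
  · have := g.Zv_ge3 Q
    positivity
  · positivity

theorem cost_le_exp (g : p.Good B) (Q : List ℝ) (l : ℝ) : p.cost Q l ≤ Real.exp l := by
  unfold cost
  split_ifs
  · have h1 := Real.add_one_le_exp (p.Zv Q)
    have e : Real.exp l = Real.exp (p.Zv Q) * Real.exp (l - p.Zv Q) := by
      rw [← Real.exp_add]; congr 1; ring
    rw [e]
    apply mul_le_mul_of_nonneg_right _ (Real.exp_pos _).le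
    linarith
  · exact le_rfl

theorem cost_fenchel (g : p.Good B) {Q : List ℝ} (hlen : Q.length < p.d) (l : ℝ) {u : ℝ}
    (hu : 0 < u) : l * u - p.cost Q l ≤ Ee u + p.Zbar * u := by
  have hZ := g.Zv_le hlen
  have hZ3 := g.Zv_ge3 Q
  unfold cost
  split_ifs
  · have h1 := fenchel hu (l - p.Zv Q)
    have h2 : Real.exp (l - p.Zv Q) ≤ p.Zv Q * Real.exp (l - p.Zv Q) := by
      have := Real.exp_pos (l - p.Zv Q)
      nlinarith
    have h3 := mul_le_mul_of_nonneg_right hZ hu.le
    nlinarith
  · have h1 := fenchel hu l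
    have : 0 ≤ p.Zbar * u := mul_nonneg (by linarith) hu.le
    linarith

theorem cost_gain (g : p.Good B) {Q : List ℝ} {l u : ℝ} (hu : 0 < u)
    (h1 : l ≤ Real.log u) (h2 : Real.log u - l ≤ p.Gl) :
    Ee u - p.Gl * u ≤ l * u - p.cost Q l := by
  have h3 := cost_le_exp g Q l
  have h4 : Real.exp l ≤ u := by
    have := Real.exp_le_exp.mpr h1
    rwa [Real.exp_log hu] at this
  have h5 := mul_le_mul_of_nonneg_right h2 hu.le
  unfold Ee
  nlinarith

/-- An upper bound for the gain of any admissible continuation. -/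
theorem gain_le (g : p.Good B) {y : ℕ → ℝ} (hy : ∀ i, i < p.d → 0 < y i) (Q : List ℝ) :
    ∀ S : List ℝ, p.Adm R (S ++ Q) → (S ++ Q).length ≤ p.d →
      p.Psi y (S ++ Q) ≤ p.Psi y Q + ∑ i ∈ Finset.range S.length,
        (Ee (y (Q.length + i)) + p.Zbar * y (Q.length + i))
  | [], _, _ => by simp
  | a :: S, hadm, hlen => by
    have hlen' : (S ++ Q).length < p.d := by
      simpa using hlen
    have ih := gain_le g hy Q S hadm.1 hlen'.le
    have hidx : (S ++ Q).length = Q.length + S.length := by simp [Nat.add_comm]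
    have h1 := cost_fenchel g hlen' a (hy _ hlen')
    rw [hidx] at h1
    show p.Psi y (S ++ Q) + a * y (S ++ Q).length - p.cost (S ++ Q) a ≤ _
    rw [hidx, List.length_cons, Finset.sum_range_succ]
    linarith

/-- The assumptions on a position vector. -/
structure PosV (p : Par) (R' : ℝ) (y : ℕ → ℝ) : Prop where
  pos : ∀ i, i < p.d → 0 < y i
  anti : ∀ i j, i ≤ j → j < p.d → y j ≤ y i
  logb : ∀ i, i < p.d → |Real.log (y i)| ≤ R'

theorem PosV.log_anti {R' : ℝ} {y : ℕ → ℝ} (hy : PosV p R' y) {i j : ℕ} (hij : i ≤ j)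
    (hj : j < p.d) : Real.log (y j) ≤ Real.log (y i) :=
  Real.log_le_log (hy.pos j hj) (hy.anti i j hij hj)

/-- The greedy continuation. -/
theorem greedy (g : p.Good B) {R' : ℝ} {y : ℕ → ℝ} (hy : PosV p R' y)
    (hR : R' + p.Zbar + 2 ≤ R) : ∀ (k : ℕ) (Q : List ℝ), p.Adm R Q → Q.length + k ≤ p.d →
      (k ≠ 0 → ∀ t, Q.head? = some t → Real.log (y Q.length) ≤ t + p.Gl) →
      ∃ S : List ℝ, S.length = k ∧ p.Adm R (S ++ Q) ∧
        ∑ i ∈ Finset.range k, (Ee (y (Q.length + i)) - p.Gl * y (Q.length + i))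
          ≤ p.Psi y (S ++ Q) - p.Psi y Q
  | 0, Q, hQ, _, _ => ⟨[], rfl, hQ, by simp⟩
  | k + 1, Q, hQ, hlen, htop => by
    have hlen' : Q.length < p.d := by omega
    obtain ⟨l, hl, hl1, hl2⟩ := select g hQ hlen' hR (hy.logb _ hlen') (htop (by omega))
    obtain ⟨S, hS, hadm, hsum⟩ := greedy g hy hR k (l :: Q) ⟨hQ, hl⟩
      (by simp only [List.length_cons]; omega)
      (by
        intro hk t ht
        simp only [List.head?_cons, Option.some.injEq] at ht
        subst ht
        have h1 : Q.length + 1 < p.d := by omega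
        have h2 := hy.log_anti (Nat.le_succ Q.length) h1
        simp only [List.length_cons]
        linarith)
    refine ⟨S ++ [l], by simp [hS], ?_, ?_⟩
    · rw [List.append_assoc]; exact hadm
    · rw [List.append_assoc, List.singleton_append]
      rw [Finset.sum_range_succ']
      have hgain := cost_gain (Q := Q) g (hy.pos _ hlen') hl1 hl2
      have e : ∀ i, (l :: Q).length + i = Q.length + (i + 1) := by
        intro i; simp only [List.length_cons]; omega
      simp only [e] at hsum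
      have hP : p.Psi y (l :: Q) = p.Psi y Q + l * y Q.length - p.cost Q l := rfl
      simp only [Nat.add_zero]
      linarith

/-- A maximal list at a position vector. -/
structure Mx (p : Par) (R R' : ℝ) (y : ℕ → ℝ) (L : List ℝ) : Prop where
  posv : PosV p R' y
  adm : p.Adm R L
  len : L.length = p.d
  hR : R' + p.Zbar + 2 ≤ R
  max : ∀ L', p.Adm R L' → L'.length = p.d → p.Psi y L' ≤ p.Psi y L

/-- Any initial list dominates competitors of the same length, up to the remaining mass. -/
theorem dom (g : p.Good B) {R' : ℝ} {y : ℕ → ℝ} {L : List ℝ} (M : Mx p R R' y L)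
    {S Q₁ Q₂ : List ℝ} (hL : L = S ++ Q₁) (hQ₂ : p.Adm R Q₂) (hlen : Q₂.length = Q₁.length)
    (htop : S ≠ [] → ∀ t, Q₂.head? = some t → Real.log (y Q₁.length) ≤ t + p.Gl) :
    p.Psi y Q₂ ≤ p.Psi y Q₁ + p.Cb * ∑ i ∈ Finset.range S.length, y (Q₁.length + i) := by
  have hlenL : S.length + Q₁.length = p.d := by
    have := M.len
    rw [hL] at this
    simpa using this
  obtain ⟨S₂, hS₂, hadm₂, hsum₂⟩ := greedy g M.posv M.hR S.length Q₂ hQ₂ (by omega)
    (by
      intro hk t ht
      rw [hlen]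
      exact htop (fun h => hk (by simp [h])) t ht)
  rw [hlen] at hsum₂
  have hmax := M.max (S₂ ++ Q₂) hadm₂ (by simp [hS₂]; omega)
  have hgain := gain_le (R := R) g M.posv.pos Q₁ S (by rw [← hL]; exact M.adm)
    (by rw [← hL, M.len])
  rw [← hL] at hgain
  have e1 : ∑ i ∈ Finset.range S.length, (Ee (y (Q₁.length + i)) + p.Zbar * y (Q₁.length + i))
      = ∑ i ∈ Finset.range S.length, (Ee (y (Q₁.length + i)) - p.Gl * y (Q₁.length + i))
        + p.Cb * ∑ i ∈ Finset.range S.length, y (Q₁.length + i) := by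
    rw [Finset.mul_sum, ← Finset.sum_add_distrib]
    apply Finset.sum_congr rfl
    intro i _
    unfold Cb Gl
    ring
  rw [e1] at hgain
  linarith

theorem mass_le {R' : ℝ} {y : ℕ → ℝ} (hy : PosV p R' y) {n j k : ℕ} (hn : n < p.d)
    (hj : n ≤ j) (hk : j + k ≤ p.d) :
    ∑ i ∈ Finset.range k, y (j + i) ≤ (p.d : ℝ) * y n := by
  have h1 : ∑ i ∈ Finset.range k, y (j + i) ≤ ∑ _i ∈ Finset.range k, y n := by
    apply Finset.sum_le_sum
    intro i hi
    have hi' := Finset.mem_range.mp hi
    exact hy.anti n (j + i) (by omega) (by omega)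
  rw [Finset.sum_const, Finset.card_range, nsmul_eq_mul] at h1
  have h2 : (k : ℝ) ≤ p.d := by
    exact_mod_cast (by omega : k ≤ p.d)
  have h3 := mul_le_mul_of_nonneg_right h2 (hy.pos n hn).le
  linarith

theorem Mx.split {R' : ℝ} {y : ℕ → ℝ} {L : List ℝ} (M : Mx p R R' y L)
    {S Q : List ℝ} {l : ℝ} (hL : L = S ++ l :: Q) :
    p.Adm R Q ∧ p.Opt R Q l ∧ Q.length < p.d ∧ S.length + (Q.length + 1) = p.d := by
  have h1 : p.Adm R (l :: Q) := adm_tail (S := S) (by rw [← hL]; exact M.adm)
  have h2 : S.length + (Q.length + 1) = p.d := by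
    have := M.len
    rw [hL] at this
    simpa using this
  exact ⟨h1.1, h1.2, by omega, h2⟩

/-- Lowering the value at one position. -/
theorem lower (g : p.Good B) {R' : ℝ} {y : ℕ → ℝ} {L : List ℝ} (M : Mx p R R' y L)
    {S Q : List ℝ} {l l' : ℝ} (hL : L = S ++ l :: Q) (hl' : p.Opt R Q l') (hlt : l' < l)
    (hgap : l - l' ≤ p.Gl) (hlog : Real.log (y Q.length) ≤ l) :
    p.cost Q l - p.cost Q l' ≤ (l - l' + p.Cb * p.d) * y Q.length := by
  obtain ⟨hQ, hl, hlen, hsum⟩ := M.split hL
  have hdom := dom g M hL (Q₂ := l' :: Q) ⟨hQ, hl'⟩ rfl (by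
    intro hS t ht
    simp only [List.head?_cons, Option.some.injEq] at ht
    subst ht
    have hS' : 0 < S.length := List.length_pos_iff.mpr hS
    have h1 := M.posv.log_anti (i := Q.length) (j := Q.length + 1) (Nat.le_succ _) (by omega)
    simp only [List.length_cons]
    linarith)
  have hmass := mass_le M.posv (n := Q.length) (j := (l :: Q).length) (k := S.length) hlen
    (by simp) (by simp only [List.length_cons]; omega)
  have hCb : 0 ≤ p.Cb := by
    unfold Cb
    have := g.Zbar_ge hlen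
    linarith
  have h2 := mul_le_mul_of_nonneg_left hmass hCb
  have e1 : p.Psi y (l' :: Q) = p.Psi y Q + l' * y Q.length - p.cost Q l' := rfl
  have e2 : p.Psi y (l :: Q) = p.Psi y Q + l * y Q.length - p.cost Q l := rfl
  rw [e1, e2] at hdom
  nlinarith

end Par

end

end Vale.Agent.P072.Gen
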