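import Vale.Agent.P072.GenSep

namespace Vale.Agent.P072.Gen

noncomputable section

open Classical

namespace Par

variable {p : Par} {B R : ℝ}

theorem Good.W0pos (g : p.Good B) : 0 < p.W0 := by linarith [g.hW0]

theorem Good.win_ge3 (g : p.Good B) (Q : List ℝ) : 3 ≤ p.win Q :=
  le_trans g.hW0 (p.win_ge g.W0pos Q)

theorem Good.Zv_ge3 (g : p.Good B) (Q : List ℝ) : 3 ≤ p.Zv Q :=
  le_trans (g.win_ge3 Q) (p.Zv_ge_win g.W0pos Q)

theorem Good.Zv_ge_W0 (g : p.Good B) (Q : List ℝ) : p.W0 ≤ p.Zv Q :=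
  p.Zv_ge_W0 g.W0pos Q

theorem Good.Zv_le (g : p.Good B) {Q : List ℝ} (h : Q.length < p.d) : p.Zv Q ≤ p.Zbar :=
  p.Zv_le_Zbar g.W0pos h

theorem Good.Zbar_ge (g : p.Good B) {Q : List ℝ} (h : Q.length < p.d) : 3 ≤ p.Zbar :=
  le_trans (g.Zv_ge3 Q) (g.Zv_le h)

theorem head_wall (hV : 1 ≤ p.V) (t : ℝ) (Q : List ℝ) : p.wall (t :: Q) t := by
  refine ⟨1, one_ne_zero, ?_, -t, ?_, ?_⟩
  · have := p.one_le_bnd hV (p.rr (t :: Q))
    simp only [abs_one]
    exact_mod_cast this
  · refine ⟨-1, ?_, 0, Comb.zero_mem _ Q, ?_⟩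
    · have := p.one_le_bnd hV (p.rr (t :: Q))
      simp only [abs_neg, abs_one]
      exact_mod_cast this
    · simp
  · simp

theorem opt_stay (hV : 1 ≤ p.V) {t : ℝ} {Q : List ℝ} (h : p.Adm R (t :: Q)) :
    p.Opt R (t :: Q) t := by
  refine ⟨Or.inl (head_wall hV t Q), ?_, h.2.2.2⟩
  intro s hs
  simp at hs
  exact hs.symm ▸ le_rfl

theorem adm_tail {S Q : List ℝ} : p.Adm R (S ++ Q) → p.Adm R Q := by
  induction S with
  | nil => exact id
  | cons a S ih => exact fun h => ih h.1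

theorem opt_far (g : p.Good B) {Q : List ℝ} (hQ : p.Adm R Q) (hlen : Q.length < p.d) {l E : ℝ}
    (hl : p.Opt R Q l) (hE : p.wall Q E) (hne : l ≠ E) : p.Zv Q ≤ |l - E| := by
  rcases hl.1 with h | h
  · have h1 := wall_sep g.hV g.W0pos hQ hlen h hE hne
    have h2 := g.Zv_ge3 Q
    have h3 : 0 ≤ p.kap * p.win Q :=
      mul_nonneg (by linarith [p.kap_ge]) (p.win_pos g.W0pos Q).le
    linarith
  · exact h.2 E hE

theorem kap_win_ge (g : p.Good B) (Q : List ℝ) : (1 : ℝ) ≤ p.kap * p.win Q := by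
  have h1 := p.kap_ge
  have h2 := g.win_ge3 Q
  nlinarith

theorem far_of_near (g : p.Good B) {Q : List ℝ} (hQ : p.Adm R Q) (hlen : Q.length < p.d)
    {x E : ℝ} (hE : p.wall Q E) (h1 : p.Zv Q ≤ |x - E|) (h2 : |x - E| ≤ p.Zv Q + 1) :
    ∀ E', p.wall Q E' → p.Zv Q ≤ |x - E'| := by
  intro E' hE'
  by_cases he : E = E'
  · rw [← he]; exact h1
  · have h3 := wall_sep g.hV g.W0pos hQ hlen hE hE' he
    have h4 : |E - E'| ≤ |x - E| + |x - E'| := by
      have : E - E' = -(x - E) + (x - E') := by ring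
      rw [this]
      exact le_trans (abs_add_le _ _) (by rw [abs_neg])
    have h5 := kap_win_ge g Q
    linarith

theorem not_wall_of_far (g : p.Good B) {Q : List ℝ} {x : ℝ}
    (h : ∀ E, p.wall Q E → p.Zv Q ≤ |x - E|) : ¬ p.wall Q x := by
  intro hw
  have h1 := h x hw
  have h2 := g.Zv_ge3 Q
  simp at h1
  linarith

theorem opt_int {Q : List ℝ} (m : ℤ) (hfar : ∀ E, p.wall Q E → p.Zv Q ≤ |(m : ℝ) - E|)
    (hhead : ∀ t, Q.head? = some t → (m : ℝ) ≤ t) (hR : |(m : ℝ)| ≤ R) : p.Opt R Q m :=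
  ⟨Or.inr ⟨⟨m, rfl⟩, hfar⟩, hhead, hR⟩

theorem opt_wall {Q : List ℝ} {E : ℝ} (hE : p.wall Q E)
    (hhead : ∀ t, Q.head? = some t → E ≤ t) (hR : |E| ≤ R) : p.Opt R Q E :=
  ⟨Or.inl hE, hhead, hR⟩

/-- Selection of a value just below a given real number. -/
theorem select (g : p.Good B) {Q : List ℝ} (hQ : p.Adm R Q) (hlen : Q.length < p.d)
    {R' ξ : ℝ} (hR : R' + p.Zbar + 2 ≤ R) (hξ : |ξ| ≤ R')
    (htop : ∀ t, Q.head? = some t → ξ ≤ t + p.Gl) :
    ∃ l, p.Opt R Q l ∧ l ≤ ξ ∧ ξ - l ≤ p.Gl := by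
  have hZ := g.Zv_le hlen
  have hZ3 := g.Zv_ge3 Q
  have hξ' := abs_le.mp hξ
  unfold Gl at htop ⊢
  by_cases hh : ∃ t, Q.head? = some t ∧ t ≤ ξ
  · obtain ⟨t, ht, htξ⟩ := hh
    cases Q with
    | nil => simp at ht
    | cons a Q' =>
      simp only [List.head?_cons, Option.some.injEq] at ht
      subst ht
      exact ⟨a, opt_stay g.hV hQ, htξ, by have := htop a rfl; linarith⟩
  · push Not at hh
    have hfl := Int.floor_le ξ
    have hfl2 := Int.lt_floor_add_one ξ
    set n := ⌊ξ⌋ with hn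
    by_cases hfar : ∀ E, p.wall Q E → p.Zv Q ≤ |(n : ℝ) - E|
    · refine ⟨n, opt_int n hfar ?_ ?_, hfl, by linarith⟩
      · intro t ht
        have := hh t ht
        linarith
      · rw [abs_le]; constructor <;> linarith
    · push Not at hfar
      obtain ⟨E, hE, hnE⟩ := hfar
      have hnE' := abs_lt.mp hnE
      by_cases hEξ : E ≤ ξ
      · refine ⟨E, opt_wall hE ?_ ?_, hEξ, by linarith⟩
        · intro t ht
          have := hh t ht
          linarith
        · rw [abs_le]; constructor <;> linarith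
      · push Not at hEξ
        have hfl3 := Int.floor_le (E - p.Zv Q)
        have hfl4 := Int.lt_floor_add_one (E - p.Zv Q)
        set m := ⌊E - p.Zv Q⌋ with hm
        have habs : |(m : ℝ) - E| = E - m := by
          rw [abs_sub_comm, abs_of_nonneg]
          linarith
        refine ⟨m, opt_int m ?_ ?_ ?_, by linarith, by linarith⟩
        · apply far_of_near g hQ hlen hE
          · rw [habs]; linarith
          · rw [habs]; linarith
        · intro t ht
          have := hh t ht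
          linarith
        · rw [abs_le]; constructor <;> linarith

/-- Values later in an admissible list are at most the earlier ones. -/
theorem adm_le {l : ℝ} {Q : List ℝ} : ∀ S : List ℝ, p.Adm R (S ++ l :: Q) → ∀ a ∈ S, a ≤ l
  | [], _, a, ha => by simp at ha
  | b :: S, h, a, ha => by
    have hb : b ≤ l := by
      cases S with
      | nil => exact h.2.2.1 l rfl
      | cons c S' =>
        have h1 := adm_le (c :: S') h.1 c (List.mem_cons_self)
        have h2 := h.2.2.1 c rfl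
        exact le_trans h2 h1
    rcases List.mem_cons.mp ha with rfl | ha'
    · exact hb
    · exact adm_le S h.1 a ha'

/-- Splitting off the copies of a value next to it. -/
theorem split_block (l : ℝ) (S : List ℝ) (h : ∀ a ∈ S, a ≤ l) :
    ∃ (T : List ℝ) (m : ℕ), S = T ++ List.replicate m l ∧
      (T = [] ∨ ∃ (T' : List ℝ) (a : ℝ), T = T' ++ [a] ∧ a < l) := by
  induction S using List.reverseRecOn with
  | nil => exact ⟨[], 0, rfl, Or.inl rfl⟩
  | append_singleton S b ih =>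
    have hb : b ≤ l := h b (by simp)
    rcases lt_or_eq_of_le hb with hlt | heq
    · exact ⟨S ++ [b], 0, by simp, Or.inr ⟨S, b, rfl, hlt⟩⟩
    · obtain ⟨T, m, e, hT⟩ := ih (fun a ha => h a (by simp [ha]))
      refine ⟨T, m + 1, ?_, hT⟩
      rw [List.replicate_succ', ← List.append_assoc, ← e, heq]

theorem rep_append (m : ℕ) (a : ℝ) (Q : List ℝ) :
    List.replicate (m + 1) a ++ Q = List.replicate m a ++ a :: Q := by
  rw [List.replicate_succ', List.append_assoc]
  rfl

theorem adm_rep (hV : 1 ≤ p.V) {a : ℝ} {Q : List ℝ} (hQ : p.Adm R Q) (ha : p.Opt R Q a) :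
    ∀ m : ℕ, p.Adm R (List.replicate (m + 1) a ++ Q)
  | 0 => ⟨hQ, ha⟩
  | m + 1 => by
    have h := adm_rep hV hQ ha m
    rw [List.replicate_succ, List.cons_append] at h ⊢
    exact ⟨h, opt_stay hV h⟩

theorem rep_length (m : ℕ) (a : ℝ) (Q : List ℝ) :
    (List.replicate (m + 1) a ++ Q).length = m + 1 + Q.length := by
  simp

theorem rep_head (m : ℕ) (a : ℝ) (Q : List ℝ) :
    (List.replicate (m + 1) a ++ Q).head? = some a := by
  rw [List.replicate_succ]; rfl

/-- Finiteness of the admissible values. -/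
theorem opt_finite (hV : 1 ≤ p.V) (R : ℝ) (Q : List ℝ) : {l | p.Opt R Q l}.Finite := by
  have h1 : {E | p.wall Q E}.Finite := IsWall.finite _ Q
  have h2 : (Set.Icc (⌈-R⌉) (⌊R⌋)).Finite := Set.finite_Icc _ _
  have h3 : ((fun m : ℤ => (m : ℝ)) '' (Set.Icc (⌈-R⌉) (⌊R⌋))).Finite := h2.image _
  refine (h1.union h3).subset ?_
  rintro l ⟨hw | ⟨⟨m, rfl⟩, _⟩, _, hR⟩
  · exact Or.inl hw
  · right
    refine ⟨m, ⟨?_, ?_⟩, rfl⟩
    · apply Int.ceil_le.mpr
      linarith [(abs_le.mp hR).1]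
    · apply Int.le_floor.mpr
      exact (abs_le.mp hR).2

theorem adm_finite (hV : 1 ≤ p.V) (R : ℝ) : ∀ n : ℕ, {L | p.Adm R L ∧ L.length = n}.Finite
  | 0 => by
    refine (Set.finite_singleton ([] : List ℝ)).subset ?_
    rintro L ⟨_, hL⟩
    exact List.length_eq_zero_iff.mp hL
  | n + 1 => by
    have hf := adm_finite hV R n
    have h2 : (⋃ Q ∈ {L | p.Adm R L ∧ L.length = n},
        (fun l => l :: Q) '' {l | p.Opt R Q l}).Finite :=
      hf.biUnion (fun Q _ => (opt_finite hV R Q).image _)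
    refine h2.subset ?_
    rintro L ⟨hL, hlen⟩
    cases L with
    | nil => simp at hlen
    | cons l Q =>
      simp only [Set.mem_iUnion]
      refine ⟨Q, ⟨hL.1, by simpa using hlen⟩, l, hL.2, rfl⟩

end Par

end

end Vale.Agent.P072.Gen
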