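import Vale.Agent.P072.GenAlign

namespace Vale.Agent.P072.Gen

noncomputable section

open Classical

/-- Swapping two indices: a weight maximal among all rearrangements is similarly ordered. -/
theorem swap_le {n : ℕ} (a u : Fin n → ℝ)
    (hmax : ∀ σ : Equiv.Perm (Fin n), ∑ i, a i * u (σ i) ≤ ∑ i, a i * u i) {i j : Fin n}
    (h : a j < a i) : u j ≤ u i := by
  by_contra hcon
  push Not at hcon
  have hne : i ≠ j := by
    rintro rfl
    exact lt_irrefl _ h
  have h1 := hmax (Equiv.swap i j)
  have h2 : ∑ k, a k * u (Equiv.swap i j k) - ∑ k, a k * u k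
      = (a i - a j) * (u j - u i) := by
    rw [← Finset.sum_sub_distrib]
    rw [Finset.sum_eq_add i j hne]
    · rw [Equiv.swap_apply_left, Equiv.swap_apply_right]
      ring
    · intro c _ hc
      rw [Equiv.swap_apply_of_ne_of_ne hc.1 hc.2]
      ring
    · intro h3; exact absurd (Finset.mem_univ i) h3
    · intro h3; exact absurd (Finset.mem_univ j) h3
  have h3 : 0 < (a i - a j) * (u j - u i) := mul_pos (by linarith) (by linarith)
  linarith

/-- A sorting permutation preserving an antitone weight. -/
theorem exists_sort {n : ℕ} (a u : Fin n → ℝ) (ha : Antitone a)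
    (hmax : ∀ σ : Equiv.Perm (Fin n), ∑ i, a i * u (σ i) ≤ ∑ i, a i * u i) :
    ∃ τ : Equiv.Perm (Fin n), (∀ i, a (τ i) = a i) ∧ ∀ i j, i ≤ j → u (τ j) ≤ u (τ i) := by
  set f : Fin n → ℝ ×ₗ ℝ := fun i => toLex (- a i, - u i) with hf
  set τ := Tuple.sort f with hτ
  have hmono : Monotone (f ∘ τ) := Tuple.monotone_sort f
  have hlex : ∀ i j, i ≤ j → a (τ j) < a (τ i) ∨ (a (τ j) = a (τ i) ∧ u (τ j) ≤ u (τ i)) := by
    intro i j hij
    have h1 := hmono hij
    simp only [Function.comp, hf] at h1
    rw [Prod.Lex.toLex_le_toLex] at h1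
    rcases h1 with h2 | ⟨h2, h3⟩
    · left; simpa using h2
    · right
      constructor
      · simpa using h2.symm
      · simpa using h3
  refine ⟨τ, ?_, ?_⟩
  · set g : Fin n → ℝ := fun i => - a i with hg
    have hgm : Monotone g := fun i j hij => by
      simp only [hg]
      linarith [ha hij]
    have hgτ : Monotone (g ∘ τ) := by
      intro i j hij
      simp only [Function.comp, hg]
      rcases hlex i j hij with h | ⟨h, _⟩ <;> linarith
    have h1 := (Tuple.comp_sort_eq_comp_iff_monotone (f := g) (σ := τ)).mpr hgτ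
    have h2 := (Tuple.comp_sort_eq_comp_iff_monotone (f := g) (σ := 1)).mpr hgm
    intro i
    have h3 := congrFun (h1.trans h2.symm) i
    simp only [Function.comp, hg, Equiv.Perm.coe_one, id] at h3
    linarith
  · intro i j hij
    rcases hlex i j hij with h | ⟨_, h⟩
    · exact swap_le a u hmax h
    · exact h

/-- Position vector attached to a vector on `Fin n`. -/
def ext {n : ℕ} (x : Fin n → ℝ) (i : ℕ) : ℝ := if h : i < n then x ⟨i, h⟩ else 0

theorem ext_coe {n : ℕ} (x : Fin n → ℝ) (i : Fin n) : ext x (i : ℕ) = x i := by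
  unfold ext
  rw [dif_pos i.isLt]

/-- The entry of a list at a position (the head is the last position). -/
def pos : List ℝ → ℕ → ℝ
  | [], _ => 0
  | l :: Q, i => if i = Q.length then l else pos Q i

/-- The linear part of the affine function attached to a list. -/
def dotr (y : ℕ → ℝ) : List ℝ → ℝ
  | [] => 0
  | l :: Q => dotr y Q + l * y Q.length

theorem dotr_eq_sum (y : ℕ → ℝ) : ∀ L : List ℝ,
    dotr y L = ∑ i ∈ Finset.range L.length, pos L i * y i
  | [] => by simp [dotr]
  | l :: Q => by
    have ih := dotr_eq_sum y Q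
    simp only [dotr, List.length_cons]
    rw [Finset.sum_range_succ, ih]
    have e : ∑ i ∈ Finset.range Q.length, pos (l :: Q) i * y i
        = ∑ i ∈ Finset.range Q.length, pos Q i * y i := by
      apply Finset.sum_congr rfl
      intro i hi
      have hi' := Finset.mem_range.mp hi
      have : pos (l :: Q) i = pos Q i := if_neg (by omega)
      rw [this]
    rw [e]
    have : pos (l :: Q) Q.length = l := if_pos rfl
    rw [this]

theorem dotr_ext {n : ℕ} (z : Fin n → ℝ) {L : List ℝ} (h : L.length = n) :
    dotr (ext z) L = ∑ i : Fin n, pos L i * z i := by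
  rw [dotr_eq_sum, h, Finset.sum_range]
  apply Finset.sum_congr rfl
  intro i _
  rw [ext_coe]

theorem dotr_congr {y y' : ℕ → ℝ} (h : ∀ i, y i = y' i) (L : List ℝ) : dotr y L = dotr y' L := by
  have : y = y' := funext h
  rw [this]

theorem dotr_sum {ι : Type*} (s : Finset ι) (w : ι → ℝ) (u : ι → ℕ → ℝ) : ∀ L : List ℝ,
    dotr (fun i => ∑ r ∈ s, w r * u r i) L = ∑ r ∈ s, w r * dotr (u r) L
  | [] => by simp [dotr]
  | l :: Q => by
    simp only [dotr]
    rw [dotr_sum s w u Q, Finset.mul_sum, ← Finset.sum_add_distrib]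
    apply Finset.sum_congr rfl
    intro r _
    ring

theorem dotr_sub (y y' : ℕ → ℝ) : ∀ L : List ℝ,
    dotr (fun i => y i - y' i) L = dotr y L - dotr y' L
  | [] => by simp [dotr]
  | l :: Q => by
    simp only [dotr]
    rw [dotr_sub y y' Q]
    ring

namespace Par

variable (p : Par)

theorem psi_eq (y : ℕ → ℝ) : ∀ L : List ℝ, p.Psi y L = dotr y L + p.Psi (fun _ => 0) L
  | [] => by simp [dotr, Psi]
  | l :: Q => by
    have ih := psi_eq y Q
    show p.Psi y Q + l * y Q.length - p.cost Q l
      = dotr y Q + l * y Q.length + (p.Psi (fun _ => 0) Q + l * 0 - p.cost Q l)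
    rw [ih]
    ring

theorem dot_eq_dotr (v : ℕ → ℤ) : ∀ L : List ℝ, dot v L = dotr (fun i => (v i : ℝ)) L
  | [] => rfl
  | l :: Q => by
    show dot v Q + (v Q.length : ℝ) * l = dotr (fun i => (v i : ℝ)) Q + l * (v Q.length : ℝ)
    rw [dot_eq_dotr v Q]
    ring

variable {p} {R : ℝ}

theorem pos_ge_of_head : ∀ (Q : List ℝ) (t : ℝ), p.Adm R (t :: Q) →
    ∀ i, i < Q.length → t ≤ pos Q i
  | [], _, _, i, hi => by simp at hi
  | s :: Q, t, h, i, hi => by
    have hts : t ≤ s := h.2.2.1 s rfl
    by_cases hi' : i = Q.length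
    · have : pos (s :: Q) i = s := if_pos hi'
      rw [this]
      exact hts
    · have : pos (s :: Q) i = pos Q i := if_neg hi'
      rw [this]
      have hi2 : i < Q.length := by
        simp only [List.length_cons] at hi
        omega
      exact le_trans hts (pos_ge_of_head Q s h.1 i hi2)

theorem pos_anti : ∀ (L : List ℝ), p.Adm R L → ∀ i j, i ≤ j → j < L.length → pos L j ≤ pos L i
  | [], _, _, j, _, hj => by simp at hj
  | l :: Q, h, i, j, hij, hj => by
    by_cases hj' : j = Q.length
    · have e1 : pos (l :: Q) j = l := if_pos hj'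
      rw [e1]
      by_cases hi' : i = Q.length
      · have e2 : pos (l :: Q) i = l := if_pos hi'
        rw [e2]
      · have e2 : pos (l :: Q) i = pos Q i := if_neg hi'
        rw [e2]
        exact pos_ge_of_head Q l h i (by omega)
    · have hj2 : j < Q.length := by
        simp only [List.length_cons] at hj
        omega
      have e1 : pos (l :: Q) j = pos Q j := if_neg hj'
      have e2 : pos (l :: Q) i = pos Q i := if_neg (by omega)
      rw [e1, e2]
      exact pos_anti Q h.1 i j hij hj2

end Par

end

end Vale.Agent.P072.Gen
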