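import Vale.Agent.P072.GenDefs

namespace Vale.Agent.P072.Gen

noncomputable section

open Classical

theorem Comb.zero_mem (H : ℕ) : ∀ Q : List ℝ, (0 : ℝ) ∈ Comb H Q
  | [] => rfl
  | l :: Q => ⟨0, by simp, 0, Comb.zero_mem H Q, by simp⟩

theorem Comb.mono {H H' : ℕ} (h : H ≤ H') : ∀ Q : List ℝ, Comb H Q ⊆ Comb H' Q
  | [], _, hx => hx
  | l :: Q, _, ⟨n, hn, κ, hκ, e⟩ =>
    ⟨n, le_trans hn (by exact_mod_cast h), κ, Comb.mono h Q hκ, e⟩

theorem Comb.add {H H' : ℕ} : ∀ (Q : List ℝ) {x y : ℝ}, x ∈ Comb H Q → y ∈ Comb H' Q →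
    x + y ∈ Comb (H + H') Q
  | [], x, y, hx, hy => by
    have h1 : x = 0 := hx
    have h2 : y = 0 := hy
    subst h1; subst h2
    simp [Comb]
  | l :: Q, _, _, ⟨n, hn, κ, hκ, e⟩, ⟨n', hn', κ', hκ', e'⟩ => by
    refine ⟨n + n', ?_, κ + κ', Comb.add Q hκ hκ', ?_⟩
    · have := abs_add_le n n'
      push_cast
      omega
    · rw [e, e']; push_cast; ring

theorem Comb.zsmul {H : ℕ} (a : ℤ) : ∀ (Q : List ℝ) {x : ℝ}, x ∈ Comb H Q →
    (a : ℝ) * x ∈ Comb (a.natAbs * H) Q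
  | [], x, hx => by
    have h1 : x = 0 := hx
    subst h1
    simp [Comb]
  | l :: Q, _, ⟨n, hn, κ, hκ, e⟩ => by
    refine ⟨a * n, ?_, (a : ℝ) * κ, Comb.zsmul a Q hκ, ?_⟩
    · rw [abs_mul]
      push_cast
      rw [Int.abs_eq_natAbs a]
      exact mul_le_mul_of_nonneg_left hn (by positivity)
    · rw [e]; push_cast; ring

/-- The combination used repeatedly in the separation invariant. -/
theorem Comb.mul_add_mem {H : ℕ} {a b : ℤ} (ha : |a| ≤ (H : ℤ)) (hb : |b| ≤ (H : ℤ))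
    (Q : List ℝ) {x y : ℝ} (hx : x ∈ Comb H Q) (hy : y ∈ Comb H Q) :
    (a : ℝ) * x + (b : ℝ) * y ∈ Comb (2 * H ^ 2) Q := by
  have h1 := Comb.zsmul a Q hx
  have h2 := Comb.zsmul b Q hy
  have h3 := Comb.add Q h1 h2
  refine Comb.mono ?_ Q h3
  have ha' : a.natAbs ≤ H := by
    rw [Int.abs_eq_natAbs] at ha
    exact_mod_cast ha
  have hb' : b.natAbs ≤ H := by
    rw [Int.abs_eq_natAbs] at hb
    exact_mod_cast hb
  have h4 : a.natAbs * H ≤ H * H := Nat.mul_le_mul_right _ ha'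
  have h5 : b.natAbs * H ≤ H * H := Nat.mul_le_mul_right _ hb'
  nlinarith

theorem Comb.finite (H : ℕ) : ∀ Q : List ℝ, (Comb H Q).Finite
  | [] => Set.finite_singleton _
  | l :: Q => by
    have h1 : (Set.Icc (-(H : ℤ)) (H : ℤ)).Finite := Set.finite_Icc _ _
    have h2 := h1.prod (Comb.finite H Q)
    refine (h2.image (fun a : ℤ × ℝ => (a.1 : ℝ) * l + a.2)).subset ?_
    rintro x ⟨n, hn, κ, hκ, e⟩
    refine ⟨(n, κ), ⟨?_, hκ⟩, e.symm⟩
    exact abs_le.mp hn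

theorem IsWall.finite (H : ℕ) (Q : List ℝ) : {E | IsWall H Q E}.Finite := by
  have h1 : (Set.Icc (-(H : ℤ)) (H : ℤ)).Finite := Set.finite_Icc _ _
  have h2 := h1.prod (Comb.finite H Q)
  refine (h2.image (fun a : ℤ × ℝ => - a.2 / (a.1 : ℝ))).subset ?_
  rintro E ⟨n, hn0, hn, κ, hκ, e⟩
  refine ⟨(n, κ), ⟨abs_le.mp hn, hκ⟩, ?_⟩
  have hn' : (n : ℝ) ≠ 0 := by exact_mod_cast hn0
  show - κ / (n : ℝ) = E
  field_simp
  linarith

namespace Par

variable (p : Par)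

theorem bnd_ge_V (hV : 1 ≤ p.V) : ∀ r, p.V ≤ p.bnd r
  | 0 => le_rfl
  | r + 1 => by
    have h := bnd_ge_V hV r
    show p.V ≤ 2 * (p.bnd r) ^ 2
    nlinarith

theorem one_le_bnd (hV : 1 ≤ p.V) (r : ℕ) : 1 ≤ p.bnd r := le_trans hV (p.bnd_ge_V hV r)

theorem bnd_le_succ (hV : 1 ≤ p.V) (r : ℕ) : p.bnd r ≤ p.bnd (r + 1) := by
  have h := p.one_le_bnd hV r
  show p.bnd r ≤ 2 * (p.bnd r) ^ 2
  nlinarith

theorem kap_ge : (4 : ℝ) ≤ p.kap := by
  unfold kap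
  have : (0 : ℝ) ≤ (p.d : ℝ) * p.V := by positivity
  linarith

theorem zz_ge_kap (r : ℕ) : p.kap ≤ p.zz r := le_max_right _ _

theorem zz_ge_zt (r : ℕ) : p.zt r ≤ p.zz r := le_max_left _ _

theorem zz_ge (r : ℕ) : (4 : ℝ) ≤ p.zz r := le_trans p.kap_ge (p.zz_ge_kap r)

theorem zt_nonneg : ∀ r, 0 ≤ p.zt r
  | 0 => le_rfl
  | r + 1 => le_trans (zt_nonneg r) (le_max_right _ _)

theorem zt_succ_ge (r : ℕ) : p.zt r ≤ p.zt (r + 1) := le_max_right _ _

theorem zt_succ_ge1 (r : ℕ) :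
    ((p.bnd r : ℝ) ^ 2) * (2 * p.zz r + p.kap) ≤ p.zt (r + 1) :=
  le_trans (le_max_left _ _) (le_max_left _ _)

theorem zt_succ_ge2 (r : ℕ) :
    (p.bnd r : ℝ) * p.zt r * (2 * p.zz r) ≤ p.zt (r + 1) :=
  le_trans (le_max_right _ _) (le_max_left _ _)

theorem win_pos (hW : 0 < p.W0) : ∀ _Q : List ℝ, 0 < p.win _Q
  | [] => hW
  | l :: Q => by
    have h := win_pos hW Q
    have hz := p.zz_ge (p.rr Q)
    show 0 < if p.wall Q l then 2 * (p.zz (p.rr Q) * p.win Q) else p.win Q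
    split_ifs
    · positivity
    · exact h

theorem win_cons_ge (hW : 0 < p.W0) (l : ℝ) (Q : List ℝ) : p.win Q ≤ p.win (l :: Q) := by
  have h := p.win_pos hW Q
  have hz := p.zz_ge (p.rr Q)
  show p.win Q ≤ if p.wall Q l then 2 * (p.zz (p.rr Q) * p.win Q) else p.win Q
  split_ifs
  · nlinarith
  · exact le_rfl

theorem win_ge (hW : 0 < p.W0) : ∀ Q : List ℝ, p.W0 ≤ p.win Q
  | [] => le_rfl
  | l :: Q => le_trans (win_ge hW Q) (p.win_cons_ge hW l Q)

theorem win_append_ge (hW : 0 < p.W0) : ∀ (S Q : List ℝ), p.win Q ≤ p.win (S ++ Q)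
  | [], Q => le_rfl
  | l :: S, Q => le_trans (win_append_ge hW S Q) (p.win_cons_ge hW l (S ++ Q))

theorem Zv_ge_kap (hW : 0 < p.W0) (Q : List ℝ) : p.kap * p.win Q ≤ p.Zv Q :=
  mul_le_mul_of_nonneg_right (p.zz_ge_kap _) (p.win_pos hW Q).le

theorem Zv_ge_win (hW : 0 < p.W0) (Q : List ℝ) : p.win Q ≤ p.Zv Q := by
  have h := p.win_pos hW Q
  have hz := p.zz_ge (p.rr Q)
  unfold Zv
  nlinarith

theorem Zv_ge_W0 (hW : 0 < p.W0) (Q : List ℝ) : p.W0 ≤ p.Zv Q :=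
  le_trans (p.win_ge hW Q) (p.Zv_ge_win hW Q)

theorem win_cons_flat {l : ℝ} {Q : List ℝ} (h : p.wall Q l) : p.win (l :: Q) = 2 * p.Zv Q := by
  show (if p.wall Q l then 2 * (p.zz (p.rr Q) * p.win Q) else p.win Q) = 2 * p.Zv Q
  rw [if_pos h]; rfl

theorem win_cons_nonflat {l : ℝ} {Q : List ℝ} (h : ¬ p.wall Q l) : p.win (l :: Q) = p.win Q := by
  show (if p.wall Q l then 2 * (p.zz (p.rr Q) * p.win Q) else p.win Q) = p.win Q
  rw [if_neg h]

theorem cost_flat {l : ℝ} {Q : List ℝ} (h : p.wall Q l) :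
    p.cost Q l = p.Zv Q * Real.exp (l - p.Zv Q) := by
  unfold cost; rw [if_pos h]

theorem cost_nonflat {l : ℝ} {Q : List ℝ} (h : ¬ p.wall Q l) :
    p.cost Q l = Real.exp l := by
  unfold cost; rw [if_neg h]

theorem zmax_ge : (1 : ℝ) ≤ p.zmax := by
  unfold zmax
  have : 0 ≤ ∑ r ∈ Finset.range p.d, p.zz r :=
    Finset.sum_nonneg fun r _ => by linarith [p.zz_ge r]
  linarith

theorem zz_le_zmax {r : ℕ} (hr : r < p.d) : p.zz r ≤ p.zmax := by
  unfold zmax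
  have : p.zz r ≤ ∑ r ∈ Finset.range p.d, p.zz r :=
    Finset.single_le_sum (f := fun r => p.zz r) (fun r _ => by linarith [p.zz_ge r])
      (Finset.mem_range.mpr hr)
  linarith

theorem rr_lt {Q : List ℝ} (h : Q.length < p.d) : p.rr Q < p.d := by
  unfold rr; omega

theorem win_le (hW : 0 < p.W0) : ∀ Q : List ℝ, Q.length ≤ p.d →
    p.win Q ≤ (2 * p.zmax) ^ Q.length * p.W0
  | [], _ => by simp [win]
  | l :: Q, hlen => by
    have hlen' : Q.length < p.d := hlen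
    have h1 := win_le hW Q hlen'.le
    have hz := p.zz_le_zmax (p.rr_lt hlen')
    have hz0 := p.zz_ge (p.rr Q)
    have hm := p.zmax_ge
    have hwp := p.win_pos hW Q
    have hpw : 0 < (2 * p.zmax) ^ Q.length * p.W0 := lt_of_lt_of_le hwp h1
    show (if p.wall Q l then 2 * (p.zz (p.rr Q) * p.win Q) else p.win Q)
      ≤ (2 * p.zmax) ^ (Q.length + 1) * p.W0
    have e : (2 * p.zmax) ^ (Q.length + 1) * p.W0
        = (2 * p.zmax) * ((2 * p.zmax) ^ Q.length * p.W0) := by ring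
    rw [e]
    split_ifs
    · have h2 : p.zz (p.rr Q) * p.win Q ≤ p.zmax * ((2 * p.zmax) ^ Q.length * p.W0) :=
        mul_le_mul hz h1 hwp.le (by linarith)
      linarith
    · nlinarith

theorem win_le_Wbar (hW : 0 < p.W0) {Q : List ℝ} (h : Q.length ≤ p.d) : p.win Q ≤ p.Wbar := by
  refine le_trans (p.win_le hW Q h) ?_
  unfold Wbar
  apply mul_le_mul_of_nonneg_right _ hW.le
  apply pow_le_pow_right₀ _ h
  linarith [p.zmax_ge]

theorem Zv_le_Zbar (hW : 0 < p.W0) {Q : List ℝ} (h : Q.length < p.d) : p.Zv Q ≤ p.Zbar := by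
  unfold Zv Zbar
  exact mul_le_mul (p.zz_le_zmax (p.rr_lt h)) (p.win_le_Wbar hW h.le) (p.win_pos hW Q).le
    (by linarith [p.zmax_ge])

/-- The separation invariant. -/
structure SepInv (Q : List ℝ) : Prop where
  comb : ∀ κ ∈ Comb (p.bnd (p.d - Q.length)) Q, κ = 0 ∨ p.sepv Q ≤ |κ|
  zt_le : p.zt (p.d - Q.length) * p.win Q ≤ p.sepv Q

variable {p}

theorem wall_neg_mem {n : ℤ} {κ : ℝ} (_hn : n ≠ 0) :
    (n : ℝ) * (- κ / (n : ℝ)) + κ = 0 := by
  have : (n : ℝ) ≠ 0 := by exact_mod_cast _hn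
  field_simp
  ring

/-- The flat step of the invariant. -/
theorem SepInv.flat (hV : 1 ≤ p.V) (hW : 0 < p.W0) {Q : List ℝ} {l : ℝ}
    (hlen : Q.length < p.d) (hI : p.SepInv Q) (hl : p.wall Q l) : p.SepInv (l :: Q) := by
  have hrem : p.d - Q.length = p.rr Q + 1 := by unfold rr; omega
  have hrem' : p.d - (l :: Q).length = p.rr Q := by
    simp only [List.length_cons]; unfold rr; omega
  have hsep : p.sepv (l :: Q) = p.sepv Q / (p.bnd (p.rr Q) : ℝ) := by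
    show (if p.wall Q l then _ else _) = _
    rw [if_pos hl]
  set H := p.bnd (p.rr Q) with hH
  have hH1 : 1 ≤ H := p.one_le_bnd hV _
  have hHr : (0 : ℝ) < (H : ℝ) := by exact_mod_cast hH1
  have hcomb := hI.comb
  have hzt := hI.zt_le
  rw [hrem] at hcomb hzt
  constructor
  · rw [hrem']
    rintro x ⟨n, hn, κ, hκ, rfl⟩
    obtain ⟨n₀, hn₀, hn₀H, κ₀, hκ₀, e₀⟩ := hl
    have hmem := Comb.mul_add_mem (a := -n) (b := n₀) (by rw [abs_neg]; exact hn) hn₀H Q hκ₀ hκ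
    have hmem' : ((-n : ℤ) : ℝ) * κ₀ + (n₀ : ℝ) * κ ∈ Comb (p.bnd (p.rr Q + 1)) Q := hmem
    rcases hcomb _ hmem' with h0 | h1
    · left
      have hne : (n₀ : ℝ) ≠ 0 := by exact_mod_cast hn₀
      have : (n₀ : ℝ) * ((n : ℝ) * l + κ) = 0 := by
        push_cast at h0
        linear_combination h0 + (n : ℝ) * e₀
      exact (mul_eq_zero.mp this).resolve_left hne
    · right
      rw [hsep, div_le_iff₀ hHr]
      have e : ((-n : ℤ) : ℝ) * κ₀ + (n₀ : ℝ) * κ = (n₀ : ℝ) * ((n : ℝ) * l + κ) := by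
        push_cast
        linear_combination (-(n : ℝ)) * e₀
      rw [e, abs_mul] at h1
      have hn₀r : |(n₀ : ℝ)| ≤ (H : ℝ) := by
        have : ((|n₀| : ℤ) : ℝ) ≤ ((H : ℤ) : ℝ) := by exact_mod_cast hn₀H
        simpa using this
      have := mul_le_mul_of_nonneg_right hn₀r (abs_nonneg ((n : ℝ) * l + κ))
      linarith
  · rw [hrem', hsep, le_div_iff₀ hHr, win_cons_flat p hl]
    have h2 := p.zt_succ_ge2 (p.rr Q)
    have hwp := p.win_pos hW Q
    have h3 := mul_le_mul_of_nonneg_right h2 hwp.le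
    have e : p.zt (p.rr Q) * (2 * p.Zv Q) * (H : ℝ)
        = (H : ℝ) * p.zt (p.rr Q) * (2 * p.zz (p.rr Q)) * p.win Q := by
      unfold Zv; ring
    rw [e]
    linarith

/-- The nonflat step of the invariant. -/
theorem SepInv.nonflat (hV : 1 ≤ p.V) (hW : 0 < p.W0) {Q : List ℝ} {l : ℝ}
    (hlen : Q.length < p.d) (hI : p.SepInv Q) (hl : ¬ p.wall Q l)
    (hfar : ∀ E, p.wall Q E → p.Zv Q ≤ |l - E|) : p.SepInv (l :: Q) := by
  have hrem : p.d - Q.length = p.rr Q + 1 := by unfold rr; omega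
  have hrem' : p.d - (l :: Q).length = p.rr Q := by
    simp only [List.length_cons]; unfold rr; omega
  have hsep : p.sepv (l :: Q) = min (p.sepv Q) (p.Zv Q) := by
    show (if p.wall Q l then _ else _) = _
    rw [if_neg hl]
  set H := p.bnd (p.rr Q) with hH
  have hcomb := hI.comb
  have hzt := hI.zt_le
  rw [hrem] at hcomb hzt
  constructor
  · rw [hrem']
    rintro x ⟨n, hn, κ, hκ, rfl⟩
    by_cases hn0 : n = 0
    · subst hn0
      have hmem : κ ∈ Comb (p.bnd (p.rr Q + 1)) Q := Comb.mono (p.bnd_le_succ hV _) Q hκ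
      rcases hcomb _ hmem with h0 | h1
      · left; simp [h0]
      · right
        rw [hsep]
        simp only [Int.cast_zero, zero_mul, zero_add]
        exact le_trans (min_le_left _ _) h1
    · right
      rw [hsep]
      apply le_trans (min_le_right _ _)
      have hnr : (n : ℝ) ≠ 0 := by exact_mod_cast hn0
      have hw : p.wall Q (- κ / (n : ℝ)) := by
        refine ⟨n, hn0, hn, κ, hκ, wall_neg_mem hn0⟩
      have h2 := hfar _ hw
      have e : (n : ℝ) * l + κ = (n : ℝ) * (l - (- κ / (n : ℝ))) := by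
        field_simp
        ring
      rw [e, abs_mul]
      have h3 : (1 : ℝ) ≤ |(n : ℝ)| := by
        have : (1 : ℤ) ≤ |n| := Int.one_le_abs hn0
        have h4 : ((1 : ℤ) : ℝ) ≤ ((|n| : ℤ) : ℝ) := by exact_mod_cast this
        simpa using h4
      nlinarith [abs_nonneg (l - (- κ / (n : ℝ)))]
  · rw [hrem', hsep, win_cons_nonflat p hl]
    have hwp := p.win_pos hW Q
    apply le_min
    · have := mul_le_mul_of_nonneg_right (p.zt_succ_ge (p.rr Q)) hwp.le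
      linarith
    · exact mul_le_mul_of_nonneg_right (p.zz_ge_zt _) hwp.le

theorem sep_inv (hV : 1 ≤ p.V) (hW : 0 < p.W0) {R : ℝ} : ∀ Q : List ℝ, p.Adm R Q →
    Q.length ≤ p.d → p.SepInv Q
  | [], _, _ => by
    constructor
    · intro κ hκ
      left; exact hκ
    · exact le_rfl
  | l :: Q, ⟨hQ, hl⟩, hlen => by
    have hlen' : Q.length < p.d := hlen
    have hI := sep_inv hV hW Q hQ hlen'.le
    by_cases hw : p.wall Q l
    · exact hI.flat hV hW hlen' hw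
    · rcases hl.1 with h | h
      · exact absurd h hw
      · exact hI.nonflat hV hW hlen' hw h.2

/-- Distinct walls are far apart. -/
theorem wall_sep (hV : 1 ≤ p.V) (hW : 0 < p.W0) {R : ℝ} {Q : List ℝ} (hQ : p.Adm R Q)
    (hlen : Q.length < p.d) {E E' : ℝ} (h : p.wall Q E) (h' : p.wall Q E') (hne : E ≠ E') :
    2 * p.Zv Q + p.kap * p.win Q ≤ |E - E'| := by
  have hI := sep_inv hV hW Q hQ hlen.le
  have hrem : p.d - Q.length = p.rr Q + 1 := by unfold rr; omega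
  have hcomb := hI.comb
  have hzt := hI.zt_le
  rw [hrem] at hcomb hzt
  obtain ⟨n, hn0, hn, κ, hκ, e⟩ := h
  obtain ⟨n', hn0', hn', κ', hκ', e'⟩ := h'
  set H := p.bnd (p.rr Q) with hH
  have hmem := Comb.mul_add_mem (a := -n') (b := n) (by rw [abs_neg]; exact hn') hn Q hκ hκ'
  have hmem' : ((-n' : ℤ) : ℝ) * κ + (n : ℝ) * κ' ∈ Comb (p.bnd (p.rr Q + 1)) Q := hmem
  have eq : ((-n' : ℤ) : ℝ) * κ + (n : ℝ) * κ' = (n : ℝ) * (n' : ℝ) * (E - E') := by
    push_cast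
    linear_combination (-(n' : ℝ)) * e + (n : ℝ) * e'
  rw [eq] at hmem'
  have hnr : (n : ℝ) ≠ 0 := by exact_mod_cast hn0
  have hnr' : (n' : ℝ) ≠ 0 := by exact_mod_cast hn0'
  have hdiff : E - E' ≠ 0 := sub_ne_zero.mpr hne
  rcases hcomb _ hmem' with h0 | h1
  · exact absurd h0 (mul_ne_zero (mul_ne_zero hnr hnr') hdiff)
  · rw [abs_mul, abs_mul] at h1
    have hHr1 : |(n : ℝ)| ≤ (H : ℝ) := by
      have : ((|n| : ℤ) : ℝ) ≤ ((H : ℤ) : ℝ) := by exact_mod_cast hn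
      simpa using this
    have hHr2 : |(n' : ℝ)| ≤ (H : ℝ) := by
      have : ((|n'| : ℤ) : ℝ) ≤ ((H : ℤ) : ℝ) := by exact_mod_cast hn'
      simpa using this
    have hH0 : (0 : ℝ) < (H : ℝ) := by
      exact_mod_cast p.one_le_bnd hV (p.rr Q)
    have h2 : |(n : ℝ)| * |(n' : ℝ)| ≤ (H : ℝ) ^ 2 := by
      rw [sq]
      exact mul_le_mul hHr1 hHr2 (abs_nonneg _) hH0.le
    have hdnn := abs_nonneg (E - E')
    have h3 : p.sepv Q ≤ (H : ℝ) ^ 2 * |E - E'| :=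
      le_trans h1 (mul_le_mul_of_nonneg_right h2 hdnn)
    have hwp := p.win_pos hW Q
    have h4 := mul_le_mul_of_nonneg_right (p.zt_succ_ge1 (p.rr Q)) hwp.le
    have h5 : (H : ℝ) ^ 2 * (2 * p.Zv Q + p.kap * p.win Q) ≤ (H : ℝ) ^ 2 * |E - E'| := by
      have e1 : (H : ℝ) ^ 2 * (2 * p.Zv Q + p.kap * p.win Q)
          = ((H : ℝ) ^ 2 * (2 * p.zz (p.rr Q) + p.kap)) * p.win Q := by
        unfold Zv; ring
      rw [e1]
      linarith
    exact le_of_mul_le_mul_left h5 (by positivity)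

end Par

end

end Vale.Agent.P072.Gen
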