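import Vale.Agent.P072.GenGreedy

namespace Vale.Agent.P072.Gen

noncomputable section

open Classical

theorem phi_anti {a b : ℝ} (l : ℝ) (ha : 1 ≤ a) (hab : a ≤ b) :
    b * Real.exp (l - b) ≤ a * Real.exp (l - a) := by
  have h1 : Real.exp (l - a) = Real.exp (l - b) * Real.exp (b - a) := by
    rw [← Real.exp_add]; congr 1; ring
  have h2 := Real.add_one_le_exp (b - a)
  rw [h1]
  have h3 := Real.exp_pos (l - b)
  have h4 : b ≤ a * Real.exp (b - a) := by nlinarith
  have h5 := mul_le_mul_of_nonneg_right h4 h3.le
  linarith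

theorem log_lower {u C x w : ℝ} (hu : 0 < u) (hC : 0 < C) (h1 : Real.exp x ≤ C * u)
    (h2 : C ≤ Real.exp w) : x - w ≤ Real.log u := by
  have h3 : x ≤ Real.log (C * u) := by
    rw [Real.le_log_iff_exp_le (mul_pos hC hu)]
    exact h1
  rw [Real.log_mul hC.ne' hu.ne'] at h3
  have h4 : Real.log C ≤ w := by
    rw [Real.log_le_iff_le_exp hC]
    exact h2
  linarith

theorem two_le_exp_one : (2 : ℝ) ≤ Real.exp 1 := by
  have := Real.add_one_le_exp (1 : ℝ)
  linarith

namespace Par

variable {p : Par} {B R : ℝ}

theorem psi_block (g : p.Good B) {y : ℕ → ℝ} {a b c : ℝ} {Q : List ℝ} (hab : a ≤ b) :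
    ∀ m : ℕ, (∀ j, j ≤ m → 0 ≤ y (Q.length + j)) →
      (∀ j, j < m → p.cost (List.replicate (j + 1) b ++ Q) b ≤ c) →
      (b - a) * y Q.length - p.cost Q b - m * c
        ≤ p.Psi y (List.replicate (m + 1) b ++ Q) - p.Psi y (List.replicate (m + 1) a ++ Q)
  | 0, hy, _ => by
    have e1 : p.Psi y (List.replicate (0 + 1) b ++ Q) = p.Psi y Q + b * y Q.length - p.cost Q b :=
      rfl
    have e2 : p.Psi y (List.replicate (0 + 1) a ++ Q) = p.Psi y Q + a * y Q.length - p.cost Q a :=
      rfl
    rw [e1, e2]
    have := cost_nonneg g Q a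
    simp only [Nat.cast_zero, zero_mul]
    linarith
  | m + 1, hy, hc => by
    have ih := psi_block g hab m (fun j hj => hy j (by omega)) (fun j hj => hc j (by omega))
    have e1 : p.Psi y (List.replicate (m + 1 + 1) b ++ Q)
        = p.Psi y (List.replicate (m + 1) b ++ Q)
          + b * y (List.replicate (m + 1) b ++ Q).length
          - p.cost (List.replicate (m + 1) b ++ Q) b := rfl
    have e2 : p.Psi y (List.replicate (m + 1 + 1) a ++ Q)
        = p.Psi y (List.replicate (m + 1) a ++ Q)
          + a * y (List.replicate (m + 1) a ++ Q).length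
          - p.cost (List.replicate (m + 1) a ++ Q) a := rfl
    rw [e1, e2, rep_length, rep_length]
    have h1 := hy (m + 1) le_rfl
    have e3 : Q.length + (m + 1) = m + 1 + Q.length := Nat.add_comm _ _
    rw [e3] at h1
    have h2 := hc m (Nat.lt_succ_self m)
    have h3 := cost_nonneg g (List.replicate (m + 1) a ++ Q) a
    have h4 : 0 ≤ (b - a) * y (m + 1 + Q.length) := mul_nonneg (by linarith) h1
    push_cast
    push_cast at ih
    nlinarith

/-- The cost of staying at a value is small compared with the cost of first reaching it. -/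
theorem stay_cost (g : p.Good B) {Q : List ℝ} {b : ℝ} (hlen : Q.length < p.d) (j : ℕ) :
    p.cost (List.replicate (j + 1) b ++ Q) b ≤ p.cost Q b / (2 * p.d) := by
  have hd : (0 : ℝ) < p.d := by
    have : 0 < p.d := by omega
    exact_mod_cast this
  rw [le_div_iff₀ (by positivity)]
  have hw : p.wall (List.replicate (j + 1) b ++ Q) b := by
    rw [List.replicate_succ]
    exact head_wall g.hV b _
  rw [cost_flat p hw]
  set Zt := p.Zv (List.replicate (j + 1) b ++ Q) with hZt
  have hZt1 : p.win (b :: Q) ≤ Zt := by
    refine le_trans ?_ (p.Zv_ge_win g.W0pos _)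
    rw [rep_append]
    exact p.win_append_ge g.W0pos _ _
  have hexp : ∀ x, p.W0 ≤ x → 4 * (p.d : ℝ) ≤ Real.exp x := fun x hx =>
    le_trans g.e4 (Real.exp_le_exp.mpr hx)
  by_cases hb : p.wall Q b
  · rw [win_cons_flat p hb] at hZt1
    rw [cost_flat p hb]
    set Z := p.Zv Q with hZ
    have hZ3 : 3 ≤ Z := g.Zv_ge3 Q
    have h1 := phi_anti b (by linarith : (1 : ℝ) ≤ 2 * Z) hZt1
    have h2 := hexp Z (g.Zv_ge_W0 Q)
    have e : Real.exp (b - Z) = Real.exp (b - 2 * Z) * Real.exp Z := by
      rw [← Real.exp_add]; congr 1; ring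
    rw [e]
    have h3 : 0 < Real.exp (b - 2 * Z) := Real.exp_pos _
    have h4 : 4 * (p.d : ℝ) * (Z * Real.exp (b - 2 * Z))
        ≤ Real.exp Z * (Z * Real.exp (b - 2 * Z)) :=
      mul_le_mul_of_nonneg_right h2 (by positivity)
    have h5 := mul_le_mul_of_nonneg_right h1 (by positivity : (0 : ℝ) ≤ 2 * (p.d : ℝ))
    nlinarith
  · rw [win_cons_nonflat p hb] at hZt1
    rw [cost_nonflat p hb]
    have hW := p.win_ge g.W0pos Q
    have h1 := phi_anti b (by linarith [g.hW0] : (1 : ℝ) ≤ p.W0) (le_trans hW hZt1)
    have e : Real.exp b = Real.exp (b - p.W0) * Real.exp p.W0 := by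
      rw [← Real.exp_add]; congr 1; ring
    rw [e]
    have h3 : 0 < Real.exp (b - p.W0) := Real.exp_pos _
    have h4 : 2 * (p.d : ℝ) * p.W0 * Real.exp (b - p.W0)
        ≤ Real.exp p.W0 * Real.exp (b - p.W0) :=
      mul_le_mul_of_nonneg_right g.e3 h3.le
    have h5 := mul_le_mul_of_nonneg_right h1 (by positivity : (0 : ℝ) ≤ 2 * (p.d : ℝ))
    nlinarith

theorem exp_le_cost (g : p.Good B) {Q : List ℝ} (hQ : p.Adm R Q) (hlen : Q.length < p.d)
    {l l' : ℝ} (hl : p.Opt R Q l) (hlt : l < l') : Real.exp l ≤ p.cost Q l' := by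
  by_cases hw : p.wall Q l'
  · rw [cost_flat p hw]
    have h1 := opt_far g hQ hlen hl hw hlt.ne
    rw [abs_sub_comm, abs_of_pos (by linarith)] at h1
    have h2 := g.Zv_ge3 Q
    have h3 : Real.exp l ≤ Real.exp (l' - p.Zv Q) := Real.exp_le_exp.mpr (by linarith)
    have h4 := Real.exp_pos (l' - p.Zv Q)
    nlinarith
  · rw [cost_nonflat p hw]
    exact Real.exp_le_exp.mpr hlt.le

/-- Moving the value at the start of a block up to any admissible higher value costs at
least the gain, up to a factor two. -/
theorem upper (g : p.Good B) {R' : ℝ} {y : ℕ → ℝ} {L : List ℝ} (M : Mx p R R' y L) :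
    ∀ (k : ℕ) (S : List ℝ) (l : ℝ) (Q : List ℝ) (l' : ℝ), S.length = k → L = S ++ l :: Q →
      (∀ t, Q.head? = some t → l < t) → p.Opt R Q l' → l < l' →
      (l' - l) * y Q.length ≤ 2 * p.cost Q l' := by
  intro k
  induction k using Nat.strong_induction_on with
  | _ k ih =>
    intro S l Q l' hk hL hstart hl' hlt
    obtain ⟨hQ, hl, hlen, hsum⟩ := M.split hL
    obtain ⟨T, m, hS, hT⟩ := split_block l S (adm_le S (hL ▸ M.adm))
    set Qr := List.replicate (m + 1) l ++ Q with hQr
    have hLr : L = T ++ Qr := by
      rw [hL, hS, hQr, rep_append, List.append_assoc]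
    have hadmr : p.Adm R Qr := adm_rep g.hV hQ hl m
    have hT_len : T.length + Qr.length = p.d := by
      have := M.len
      rw [hLr] at this
      simpa using this
    have hm_len : m + 1 + Q.length ≤ p.d := by
      have h1 := rep_length m l Q
      rw [← hQr] at h1
      omega
    have hctrl : p.Cb * ∑ i ∈ Finset.range T.length, y (Qr.length + i) ≤ p.cost Q l' / 2 ∧
        (T ≠ [] → Real.log (y Qr.length) ≤ l') := by
      rcases hT with rfl | ⟨T', a, rfl, ha⟩
      · refine ⟨?_, fun h => absurd rfl h⟩
        have := cost_nonneg g Q l'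
        simp only [List.length_nil, Finset.range_zero, Finset.sum_empty, mul_zero]
        linarith
      · have hL' : L = T' ++ a :: Qr := by rw [hLr, List.append_assoc]; rfl
        obtain ⟨hQr', ha', hlenr, hsumr⟩ := M.split hL'
        have hk' : T'.length < k := by
          rw [← hk, hS]
          simp
        have hw : p.wall Qr l := by
          rw [hQr, List.replicate_succ]
          exact head_wall g.hV l _
        have hoptr : p.Opt R Qr l := by
          refine opt_wall hw ?_ (hl.2.2)
          intro t ht
          rw [hQr, rep_head] at ht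
          simp only [Option.some.injEq] at ht
          exact ht.le
        have hu := ih T'.length hk' T' a Qr l rfl hL' (by
          intro t ht
          rw [hQr, rep_head] at ht
          simp only [Option.some.injEq] at ht
          rw [← ht]
          exact ha) hoptr ha
        rw [cost_flat p hw] at hu
        set Zr := p.Zv Qr with hZr
        have hZr3 : 3 ≤ Zr := g.Zv_ge3 Qr
        have hfar := opt_far g hQr' hlenr ha' hw ha.ne
        rw [abs_sub_comm, abs_of_pos (by linarith)] at hfar
        have hypos := M.posv.pos _ hlenr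
        have hy1 : y Qr.length ≤ 2 * Real.exp (l - Zr) := by
          have h1 := mul_le_mul_of_nonneg_right hfar hypos.le
          have h2 : Zr * y Qr.length ≤ Zr * (2 * Real.exp (l - Zr)) := by linarith
          exact le_of_mul_le_mul_left h2 (by linarith)
        have hexpZ : 4 * (p.d : ℝ) * p.Cb ≤ Real.exp Zr :=
          le_trans g.e2 (Real.exp_le_exp.mpr (g.Zv_ge_W0 Qr))
        have hCb : 0 ≤ p.Cb := by
          unfold Cb
          have := g.Zbar_ge hlen
          linarith
        have hmass := mass_le M.posv (n := Qr.length) (j := Qr.length)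
          (k := (T' ++ [a]).length) hlenr le_rfl (by omega)
        have hexpl := exp_le_cost g hQ hlen hl hlt
        have e : Real.exp l = Real.exp (l - Zr) * Real.exp Zr := by
          rw [← Real.exp_add]; congr 1; ring
        constructor
        · have h1 : p.Cb * ∑ i ∈ Finset.range (T' ++ [a]).length, y (Qr.length + i)
              ≤ p.Cb * ((p.d : ℝ) * y Qr.length) := mul_le_mul_of_nonneg_left hmass hCb
          have h2 : p.Cb * ((p.d : ℝ) * y Qr.length)
              ≤ p.Cb * ((p.d : ℝ) * (2 * Real.exp (l - Zr))) := by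
            apply mul_le_mul_of_nonneg_left _ hCb
            exact mul_le_mul_of_nonneg_left hy1 (by positivity)
          have h3 : 4 * (p.d : ℝ) * p.Cb * Real.exp (l - Zr)
              ≤ Real.exp Zr * Real.exp (l - Zr) :=
            mul_le_mul_of_nonneg_right hexpZ (Real.exp_pos _).le
          nlinarith
        · intro _
          have h1 : y Qr.length ≤ Real.exp l := by
            have h2 := Real.add_one_le_exp Zr
            have h3 := Real.exp_pos (l - Zr)
            nlinarith
          have h2 : Real.log (y Qr.length) ≤ l := by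
            rw [Real.log_le_iff_le_exp hypos]
            exact h1
          linarith
    obtain ⟨hctrl1, hctrl2⟩ := hctrl
    have hadm₂ : p.Adm R (List.replicate (m + 1) l' ++ Q) := adm_rep g.hV hQ hl' m
    have hdom := dom g M hLr hadm₂ (by rw [hQr]; simp) (by
      intro hTne t ht
      rw [rep_head] at ht
      simp only [Option.some.injEq] at ht
      rw [← ht]
      have := hctrl2 hTne
      have hG : 0 ≤ p.Gl := by
        unfold Gl
        have := g.Zbar_ge hlen
        linarith
      linarith)
    have hd : (0 : ℝ) < p.d := by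
      have : 0 < p.d := by omega
      exact_mod_cast this
    have hblock := psi_block (a := l) (b := l') (c := p.cost Q l' / (2 * p.d)) (Q := Q) g hlt.le m
      (by
        intro j hj
        exact (M.posv.pos _ (by omega)).le)
      (fun j _ => stay_cost g hlen j)
    have hmd : (m : ℝ) ≤ p.d := by
      exact_mod_cast (by omega : m ≤ p.d)
    have hcost := cost_nonneg g Q l'
    have hmc : (m : ℝ) * (p.cost Q l' / (2 * p.d)) ≤ p.cost Q l' / 2 := by
      have h1 : (m : ℝ) * (p.cost Q l' / (2 * p.d)) ≤ (p.d : ℝ) * (p.cost Q l' / (2 * p.d)) :=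
        mul_le_mul_of_nonneg_right hmd (by positivity)
      have h2 : (p.d : ℝ) * (p.cost Q l' / (2 * p.d)) = p.cost Q l' / 2 := by
        field_simp
      linarith
    linarith

theorem wall_of_head (hV : 1 ≤ p.V) {Q : List ℝ} {t : ℝ} (h : Q.head? = some t) : p.wall Q t := by
  cases Q with
  | nil => simp at h
  | cons a Q' =>
    simp only [List.head?_cons, Option.some.injEq] at h
    subst h
    exact head_wall hV a Q'

/-- The lower side of the window. -/
theorem win_lower (g : p.Good B) {R' : ℝ} {y : ℕ → ℝ} {L : List ℝ} (M : Mx p R R' y L)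
    {S Q : List ℝ} {l : ℝ} (hL : L = S ++ l :: Q) :
    l - Real.log (y Q.length) ≤ p.win (l :: Q) := by
  obtain ⟨hQ, hl, hlen, hsum⟩ := M.split hL
  have hwpos := p.win_pos g.W0pos (l :: Q)
  by_cases hξ : l ≤ Real.log (y Q.length)
  · linarith
  push Not at hξ
  have hu := M.posv.pos _ hlen
  have hlogb := abs_le.mp (M.posv.logb _ hlen)
  have hlR := abs_le.mp hl.2.2
  have hRb := M.hR
  have hZ3 := g.Zv_ge3 Q
  have hZbar := g.Zv_le hlen
  have hZW0 := g.Zv_ge_W0 Q
  have hWW0 := p.win_ge g.W0pos Q
  have hCb : 0 ≤ p.Cb := by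
    unfold Cb
    linarith
  have hCbd : 0 ≤ p.Cb * (p.d : ℝ) := mul_nonneg hCb (by positivity)
  set A := p.Zv Q + 1 + p.Cb * (p.d : ℝ) with hA
  have hApos : 0 < A := by rw [hA]; linarith
  have hAexp : 2 * A ≤ Real.exp p.W0 := by
    have := g.e1
    rw [hA]
    linarith
  have hGl : p.Gl = p.Zbar + 1 := rfl
  by_cases hw : p.wall Q l
  · rw [win_cons_flat p hw]
    have hfl := Int.floor_le (l - p.Zv Q)
    have hfl2 := Int.lt_floor_add_one (l - p.Zv Q)
    set m := ⌊l - p.Zv Q⌋ with hm
    have habs : |(m : ℝ) - l| = l - m := by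
      rw [abs_sub_comm, abs_of_nonneg]
      linarith
    have hfarm := far_of_near g hQ hlen hw (x := m) (by rw [habs]; linarith)
      (by rw [habs]; linarith)
    have hoptm : p.Opt R Q m := opt_int m hfarm
      (by
        intro t ht
        have := hl.2.1 t ht
        linarith)
      (by rw [abs_le]; constructor <;> linarith)
    have hlow := lower g M hL hoptm (by linarith) (by linarith) hξ.le
    rw [cost_flat p hw, cost_nonflat p (not_wall_of_far g hfarm)] at hlow
    have hexpm : Real.exp (m : ℝ) ≤ Real.exp (l - p.Zv Q) := Real.exp_le_exp.mpr hfl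
    have hE := Real.exp_pos (l - p.Zv Q)
    have h1 : (l - m + p.Cb * p.d) * y Q.length ≤ A * y Q.length := by
      apply mul_le_mul_of_nonneg_right _ hu.le
      rw [hA]
      linarith
    have h2 : Real.exp (l - p.Zv Q) ≤ A * y Q.length := by
      nlinarith
    have h3 : A ≤ Real.exp (p.Zv Q) := by
      have := Real.exp_le_exp.mpr hZW0
      linarith
    have h4 := log_lower hu hApos h2 h3
    linarith
  · rw [win_cons_nonflat p hw]
    rcases hl.1 with h | ⟨⟨n, hn⟩, hfar⟩
    · exact absurd h hw
    have hfinal : Real.exp l ≤ (2 * A) * y Q.length → l - p.win Q ≤ Real.log (y Q.length) := by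
      intro h
      exact log_lower hu (by linarith) h (le_trans hAexp (Real.exp_le_exp.mpr hWW0))
    have hwin := hfinal
    suffices hs : Real.exp l ≤ (2 * A) * y Q.length by
      have := hfinal hs
      linarith
    by_cases hfar1 : ∀ E, p.wall Q E → p.Zv Q ≤ |(l - 1) - E|
    · have hcast : (((n - 1 : ℤ)) : ℝ) = l - 1 := by
        push_cast
        rw [hn]
      have hoptm : p.Opt R Q (l - 1) := by
        rw [← hcast]
        refine opt_int (n - 1) (by rw [hcast]; exact hfar1) ?_ ?_
        · rw [hcast]
          intro t ht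
          have := hl.2.1 t ht
          linarith
        · rw [hcast, abs_le]
          constructor <;> linarith
      have hlow := lower g M hL hoptm (by linarith) (by
        have : 0 ≤ p.Zbar := by linarith
        linarith) hξ.le
      rw [cost_nonflat p hw, cost_nonflat p (not_wall_of_far g hfar1)] at hlow
      have e : Real.exp l = Real.exp (l - 1) * Real.exp 1 := by
        rw [← Real.exp_add]; congr 1; ring
      have h2 := two_le_exp_one
      have hE := Real.exp_pos (l - 1)
      have h3 : 2 * Real.exp (l - 1) ≤ Real.exp l := by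
        rw [e]; nlinarith
      have h4 : (l - (l - 1) + p.Cb * p.d) * y Q.length ≤ A * y Q.length := by
        apply mul_le_mul_of_nonneg_right _ hu.le
        rw [hA]
        linarith
      nlinarith
    · push Not at hfar1
      obtain ⟨E, hE, hlE⟩ := hfar1
      have hlE' := abs_lt.mp hlE
      have h0 := hfar E hE
      have hlE2 : p.Zv Q ≤ l - E := by
        rcases le_abs.mp h0 with h1 | h1
        · exact h1
        · exfalso
          linarith
      have hoptE : p.Opt R Q E := opt_wall hE
        (by
          intro t ht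
          have := hl.2.1 t ht
          linarith)
        (by rw [abs_le]; constructor <;> linarith)
      have hlow := lower g M hL hoptE (by linarith) (by linarith) hξ.le
      rw [cost_nonflat p hw, cost_flat p hE] at hlow
      have h1 : Real.exp (E - p.Zv Q) ≤ Real.exp (l - 2 * p.Zv Q) :=
        Real.exp_le_exp.mpr (by linarith)
      have e : Real.exp l = Real.exp (l - 2 * p.Zv Q) * Real.exp (2 * p.Zv Q) := by
        rw [← Real.exp_add]; congr 1; ring
      have h2 := Real.add_one_le_exp (2 * p.Zv Q)
      have hE0 := Real.exp_pos (l - 2 * p.Zv Q)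
      have h3 : p.Zv Q * Real.exp (E - p.Zv Q) ≤ p.Zv Q * Real.exp (l - 2 * p.Zv Q) :=
        mul_le_mul_of_nonneg_left h1 (by linarith)
      have h4 : 2 * (p.Zv Q * Real.exp (l - 2 * p.Zv Q)) ≤ Real.exp l := by
        rw [e]; nlinarith
      have h5 : (l - E + p.Cb * p.d) * y Q.length ≤ A * y Q.length := by
        apply mul_le_mul_of_nonneg_right _ hu.le
        rw [hA]
        linarith
      nlinarith

/-- The upper side of the window, at the start of a block. -/
theorem win_upper_start (g : p.Good B) {R' : ℝ} {y : ℕ → ℝ} {L : List ℝ} (M : Mx p R R' y L)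
    {S Q : List ℝ} {l : ℝ} (hL : L = S ++ l :: Q) (hstart : ∀ t, Q.head? = some t → l < t) :
    Real.log (y Q.length) - l ≤ p.win (l :: Q) := by
  obtain ⟨hQ, hl, hlen, hsum⟩ := M.split hL
  have hwpos := p.win_pos g.W0pos (l :: Q)
  by_cases hξ : Real.log (y Q.length) ≤ l
  · linarith
  push Not at hξ
  have hu := M.posv.pos _ hlen
  have hlogb := abs_le.mp (M.posv.logb _ hlen)
  have hlR := abs_le.mp hl.2.2
  have hRb := M.hR
  have hZ3 := g.Zv_ge3 Q
  have hZbar := g.Zv_le hlen
  have hWW0 := g.win_ge3 Q
  have hkW := kap_win_ge g Q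
  have hUp := fun l' (h1 : p.Opt R Q l') (h2 : l < l') =>
    upper g M S.length S l Q l' rfl hL hstart h1 h2
  by_cases hw : p.wall Q l
  · rw [win_cons_flat p hw]
    have hfl := Int.le_ceil (l + p.Zv Q)
    have hfl2 := Int.ceil_lt_add_one (l + p.Zv Q)
    set m := ⌈l + p.Zv Q⌉ with hm
    have habs : |(m : ℝ) - l| = m - l := abs_of_nonneg (by linarith)
    have hfarm := far_of_near g hQ hlen hw (x := m) (by rw [habs]; linarith)
      (by rw [habs]; linarith)
    have hoptm : p.Opt R Q m := opt_int m hfarm
      (by
        intro t ht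
        have h1 := hstart t ht
        have h2 := wall_sep g.hV g.W0pos hQ hlen (wall_of_head g.hV ht) hw h1.ne'
        rw [abs_of_pos (by linarith)] at h2
        linarith)
      (by rw [abs_le]; constructor <;> linarith)
    have hup := hUp m hoptm (by linarith)
    rw [cost_nonflat p (not_wall_of_far g hfarm)] at hup
    have h1 : Real.exp (m : ℝ) ≤ Real.exp (l + p.Zv Q + 1) := Real.exp_le_exp.mpr (by linarith)
    have h2 : y Q.length ≤ Real.exp (l + p.Zv Q + 1) := by
      have h3 : p.Zv Q * y Q.length ≤ ((m : ℝ) - l) * y Q.length :=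
        mul_le_mul_of_nonneg_right (by linarith) hu.le
      have h4 := Real.exp_pos (l + p.Zv Q + 1)
      nlinarith
    have h3 : Real.log (y Q.length) ≤ l + p.Zv Q + 1 := by
      rw [Real.log_le_iff_le_exp hu]
      exact h2
    linarith
  · rw [win_cons_nonflat p hw]
    rcases hl.1 with h | ⟨⟨n, hn⟩, hfar⟩
    · exact absurd h hw
    have hfinal : y Q.length ≤ 2 * Real.exp (l + 1) → Real.log (y Q.length) - l ≤ p.win Q := by
      intro h
      have h1 : y Q.length ≤ Real.exp (l + 2) := by
        have e : Real.exp (l + 2) = Real.exp (l + 1) * Real.exp 1 := by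
          rw [← Real.exp_add]; congr 1; ring
        rw [e]
        have := two_le_exp_one
        have h4 := Real.exp_pos (l + 1)
        nlinarith
      have h2 : Real.log (y Q.length) ≤ l + 2 := by
        rw [Real.log_le_iff_le_exp hu]
        exact h1
      linarith
    apply hfinal
    by_cases hfar1 : ∀ E, p.wall Q E → p.Zv Q ≤ |(l + 1) - E|
    · have hcast : (((n + 1 : ℤ)) : ℝ) = l + 1 := by
        push_cast
        rw [hn]
      have hoptm : p.Opt R Q (l + 1) := by
        rw [← hcast]
        refine opt_int (n + 1) (by rw [hcast]; exact hfar1) ?_ ?_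
        · rw [hcast]
          intro t ht
          have h1 := hstart t ht
          have h2 := hfar t (wall_of_head g.hV ht)
          rw [abs_sub_comm, abs_of_pos (by linarith)] at h2
          linarith
        · rw [hcast, abs_le]
          constructor <;> linarith
      have hup := hUp (l + 1) hoptm (by linarith)
      rw [cost_nonflat p (not_wall_of_far g hfar1)] at hup
      linarith
    · push Not at hfar1
      obtain ⟨E, hE, hlE⟩ := hfar1
      have hlE' := abs_lt.mp hlE
      have h0 := hfar E hE
      have hlE2 : p.Zv Q ≤ E - l := by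
        rcases le_abs.mp h0 with h1 | h1
        · exfalso
          linarith
        · linarith
      have hoptE : p.Opt R Q E := opt_wall hE
        (by
          intro t ht
          have h1 := hstart t ht
          have h2 := hfar t (wall_of_head g.hV ht)
          rw [abs_sub_comm, abs_of_pos (by linarith)] at h2
          by_contra hcon
          push Not at hcon
          have h3 := wall_sep g.hV g.W0pos hQ hlen hE (wall_of_head g.hV ht) hcon.ne'
          rw [abs_of_pos (by linarith)] at h3
          linarith)
        (by rw [abs_le]; constructor <;> linarith)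
      have hup := hUp E hoptE (by linarith)
      rw [cost_flat p hE] at hup
      have h1 : Real.exp (E - p.Zv Q) ≤ Real.exp (l + 1) := Real.exp_le_exp.mpr (by linarith)
      have h3 : p.Zv Q * y Q.length ≤ (E - l) * y Q.length :=
        mul_le_mul_of_nonneg_right hlE2 hu.le
      have h4 : p.Zv Q * y Q.length ≤ p.Zv Q * (2 * Real.exp (l + 1)) := by
        have h5 := mul_le_mul_of_nonneg_left h1 (by linarith : (0 : ℝ) ≤ p.Zv Q)
        linarith
      exact le_of_mul_le_mul_left h4 (by linarith)

/-- The upper side of the window. -/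
theorem win_upper (g : p.Good B) {R' : ℝ} {y : ℕ → ℝ} {L : List ℝ} (M : Mx p R R' y L) :
    ∀ (Q S : List ℝ) (l : ℝ), L = S ++ l :: Q → Real.log (y Q.length) - l ≤ p.win (l :: Q)
  | [], S, l, hL => win_upper_start g M hL (by simp)
  | t :: Q', S, l, hL => by
    obtain ⟨hQ, hl, hlen, hsum⟩ := M.split hL
    have hlt := hl.2.1 t rfl
    rcases lt_or_eq_of_le hlt with h | h
    · refine win_upper_start g M hL ?_
      intro t' ht'
      simp only [List.head?_cons, Option.some.injEq] at ht'
      rw [← ht']
      exact h
    · subst h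
      have h1 := win_upper g M Q' (S ++ [l]) l (by rw [hL, List.append_assoc]; rfl)
      have h2 := M.posv.log_anti (i := Q'.length) (j := (l :: Q').length) (by simp) hlen
      have h3 := p.win_cons_ge g.W0pos l (l :: Q')
      linarith

end Par

end

end Vale.Agent.P072.Gen
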