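import Vale.Agent.P072.MeasStep

/-! Approximation of measurable rates in `L¹` by piecewise constant rates with the same bounds. -/

set_option linter.unusedVariables false
set_option linter.unusedSimpArgs false

namespace Vale.Agent.P072.Meas

open Set Filter Topology MeasureTheory

variable {d : ℕ}

theorem abs_clamp_sub_le {a b v f : ℝ} (hab : a ≤ b) (h1 : a ≤ f) (h2 : f ≤ b) :
    |max a (min b v) - f| ≤ |v - f| := by
  rcases le_total v a with hv | hv
  · have e : max a (min b v) = a := by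
      rw [min_eq_right (hv.trans hab), max_eq_left hv]
    rw [e, abs_of_nonpos (by linarith), abs_of_nonpos (by linarith)]
    linarith
  · rcases le_total v b with hv2 | hv2
    · rw [min_eq_right hv2, max_eq_right hv]
    · have e : max a (min b v) = b := by
        rw [min_eq_left hv2, max_eq_right hab]
      rw [e, abs_of_nonneg (by linarith), abs_of_nonneg (by linarith)]
      linarith

theorem step_measurable (κ : ℕ → Cplx d × Cplx d → ℝ) (h : ℝ) (r : Cplx d × Cplx d) :
    Measurable (fun t : ℝ => κ ⌊t / h⌋₊ r) :=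
  (measurable_from_nat (f := fun j => κ j r)).comp
    (Nat.measurable_floor.comp (measurable_id.div_const h))

/-- `L¹` approximation of measurable rates by piecewise constant ones. -/
theorem rate_approx (N : Network d) {ε : ℝ} (hε : 0 < ε) {k : ℝ → Cplx d × Cplx d → ℝ}
    (hm : ∀ r ∈ N.reactions, Measurable (fun t => k t r))
    (hb : ∀ t, ∀ r ∈ N.reactions, ε ≤ k t r ∧ k t r ≤ ε⁻¹) {M : ℝ} (hM : 0 ≤ M) {η : ℝ}
    (hη : 0 < η) :
    ∃ h : ℝ, 0 < h ∧ ∃ κ : ℕ → Cplx d × Cplx d → ℝ,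
      (∀ j, ∀ r ∈ N.reactions, ε ≤ κ j r ∧ κ j r ≤ ε⁻¹) ∧
      ∫ s in (0 : ℝ)..M, rateDist N (fun t => κ ⌊t / h⌋₊) k s ≤ η := by
  classical
  let ι := {r // r ∈ N.reactions}
  have hE0 : 0 ≤ ε⁻¹ := (inv_pos.mpr hε).le
  have habs : ∀ t, ∀ r ∈ N.reactions, |k t r| ≤ ε⁻¹ := fun t r hr => by
    rw [abs_of_nonneg (hε.le.trans (hb t r hr).1)]
    exact (hb t r hr).2
  set v : ℝ → (ι → ℝ) := fun t r => k t r.1 with hv
  have hvm : Measurable v := measurable_pi_iff.mpr (fun r => hm r.1 r.2)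
  set f : ℝ → (ι → ℝ) := (Icc (0:ℝ) M).indicator v with hf
  have hfI : Integrable f volume := by
    rw [hf, integrable_indicator_iff measurableSet_Icc]
    apply Measure.integrableOn_of_bounded (M := ε⁻¹)
    · simp
    · exact hvm.aestronglyMeasurable
    · refine Eventually.of_forall (fun t => ?_)
      refine (pi_norm_le_iff_of_nonneg hE0).mpr (fun r => ?_)
      rw [Real.norm_eq_abs]
      exact habs t r.1 r.2
  set c : ℝ := (N.reactions.card : ℝ) with hc
  have hc0 : 0 ≤ c := Nat.cast_nonneg _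
  set η₁ : ℝ := η / ((c + 1) * (M + 1)) with hη₁
  have hη₁0 : 0 < η₁ := by positivity
  obtain ⟨G, hGs, hGi, hGc, hGI⟩ := hfI.exists_hasCompactSupport_integral_sub_le hη₁0
  have hGu : UniformContinuous G := hGs.uniformContinuous_of_continuous hGc
  obtain ⟨δ, hδ, hGd⟩ := Metric.uniformContinuous_iff.mp hGu η₁ hη₁0
  set h : ℝ := δ / 2 with hh
  have hh0 : 0 < h := by positivity
  let κ : ℕ → Cplx d × Cplx d → ℝ := fun j r =>
    if hr : r ∈ N.reactions then max ε (min ε⁻¹ (G ((j : ℝ) * h) ⟨r, hr⟩)) else ε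
  have hκb : ∀ j, ∀ r ∈ N.reactions, ε ≤ κ j r ∧ κ j r ≤ ε⁻¹ := by
    intro j r hr
    have hle : ε ≤ ε⁻¹ := (hb 0 r hr).1.trans (hb 0 r hr).2
    simp only [κ, dif_pos hr]
    exact ⟨le_max_left _ _, max_le hle (min_le_left _ _)⟩
  refine ⟨h, hh0, κ, hκb, ?_⟩
  set k' : ℝ → Cplx d × Cplx d → ℝ := fun t => κ ⌊t / h⌋₊ with hk'
  have hk'm : ∀ r ∈ N.reactions, Measurable (fun t => k' t r) :=
    fun r _ => step_measurable κ h r
  have hk'b : ∀ t, ∀ r ∈ N.reactions, |k' t r| ≤ ε⁻¹ := fun t r hr => by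
    have := hκb ⌊t / h⌋₊ r hr
    rw [abs_of_nonneg (hε.le.trans this.1)]
    exact this.2
  have hD := rateDist_intervalIntegrable N hk'm hm hk'b habs 0 M
  set w : ℝ → ℝ := fun s => ‖f s - G s‖ with hw
  have hwI : Integrable w volume := (hfI.sub hGI).norm
  have hw0 : ∀ s, 0 ≤ w s := fun s => norm_nonneg _
  have hpt : ∀ s ∈ Icc (0:ℝ) M, rateDist N k' k s ≤ c * (η₁ + w s) := by
    intro s hs
    unfold rateDist
    have h1 : ∀ r ∈ N.reactions, |k' s r - k s r| ≤ η₁ + w s := by
      intro r hr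
      have hle : ε ≤ ε⁻¹ := (hb 0 r hr).1.trans (hb 0 r hr).2
      obtain ⟨hj1, hj2⟩ := floor_mem hh0 hs.1
      set j := ⌊s / h⌋₊ with hj
      have e1 : k' s r = max ε (min ε⁻¹ (G ((j : ℝ) * h) ⟨r, hr⟩)) := by
        simp only [hk', κ, dif_pos hr]
        rfl
      rw [e1]
      refine (abs_clamp_sub_le hle (hb s r hr).1 (hb s r hr).2).trans ?_
      have hdist : dist ((j : ℝ) * h) s < δ := by
        rw [Real.dist_eq, abs_sub_comm, abs_of_nonneg (by linarith)]
        have : s - (j : ℝ) * h < h := by linarith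
        have h2 : h < δ := by rw [hh]; linarith
        linarith
      have h3 := hGd hdist
      have h4 : |G ((j : ℝ) * h) ⟨r, hr⟩ - G s ⟨r, hr⟩| ≤ η₁ := by
        have h5 := dist_le_pi_dist (G ((j : ℝ) * h)) (G s) ⟨r, hr⟩
        rw [Real.dist_eq] at h5
        exact h5.trans h3.le
      have hfs : f s = v s := by
        rw [hf, indicator_of_mem hs]
      have h6 : |G s ⟨r, hr⟩ - k s r| ≤ w s := by
        have h7 := norm_le_pi_norm (f s - G s) ⟨r, hr⟩
        rw [hfs, Real.norm_eq_abs] at h7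
        have h8 : (v s - G s) ⟨r, hr⟩ = k s r - G s ⟨r, hr⟩ := rfl
        rw [h8, abs_sub_comm] at h7
        have h9 : w s = ‖f s - G s‖ := rfl
        rw [h9, hfs]
        exact h7
      calc |G ((j : ℝ) * h) ⟨r, hr⟩ - k s r|
          = |(G ((j : ℝ) * h) ⟨r, hr⟩ - G s ⟨r, hr⟩) + (G s ⟨r, hr⟩ - k s r)| := by ring_nf
        _ ≤ |G ((j : ℝ) * h) ⟨r, hr⟩ - G s ⟨r, hr⟩| + |G s ⟨r, hr⟩ - k s r| := abs_add_le _ _
        _ ≤ η₁ + w s := add_le_add h4 h6
    have h2 := Finset.sum_le_card_nsmul N.reactions _ _ h1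
    rw [nsmul_eq_mul] at h2
    exact h2
  have hgI : IntervalIntegrable (fun s => c * (η₁ + w s)) volume 0 M :=
    ((intervalIntegrable_const).add (hwI.intervalIntegrable)).const_mul c
  have hmono := intervalIntegral.integral_mono_on hM hD hgI hpt
  refine hmono.trans ?_
  rw [intervalIntegral.integral_const_mul,
    intervalIntegral.integral_add intervalIntegrable_const hwI.intervalIntegrable,
    intervalIntegral.integral_const]
  have hw1 : ∫ s in (0 : ℝ)..M, w s ≤ η₁ := by
    rw [intervalIntegral.integral_of_le hM]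
    refine (setIntegral_le_integral hwI (Eventually.of_forall hw0)).trans hGi
  have htot : c * ((M - 0) • η₁ + ∫ s in (0 : ℝ)..M, w s) ≤ c * (η₁ * (M + 1)) := by
    apply mul_le_mul_of_nonneg_left _ hc0
    rw [smul_eq_mul]
    nlinarith
  refine htot.trans ?_
  have e : c * (η₁ * (M + 1)) = η * (c / (c + 1)) := by
    rw [hη₁]
    field_simp
  rw [e]
  have : c / (c + 1) ≤ 1 := by
    rw [div_le_one (by positivity)]
    linarith
  nlinarith

end Vale.Agent.P072.Meas
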