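import Vale.Agent.P072.Gen2Perm
import Vale.Agent.P072.Gen2Abs
import Vale.Agent.P072.Gen2Bound

/-!
Measurable rates: Caratheodory solutions of mass-action systems with rates that are only
measurable in time, obtained as uniform limits of solutions for piecewise constant rates.
This file: the integral form, the Lipschitz constants on a box and the integral Gronwall lemma.
-/

set_option linter.unusedVariables false
set_option linter.unusedSimpArgs false

namespace Vale.Agent.P072

open Set Filter Topology MeasureTheory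

variable {d : ℕ}

/-- A Caratheodory solution on `[0,T)` for rates `k t`: positive, continuous, and it satisfies the
integral form of the mass-action equation (equivalently, it is locally absolutely continuous with
`x' = f_{k t}(x)` almost everywhere). -/
structure IsCaratheodorySolution (N : Network d) (k : ℝ → Cplx d × Cplx d → ℝ) (T : ℝ)
    (x : ℝ → Fin d → ℝ) : Prop where
  pos : ∀ t ∈ Ico 0 T, ∀ i, 0 < x t i
  cont : ContinuousOn x (Ico 0 T)
  integral : ∀ t ∈ Ico 0 T, ∀ i,
    x t i = x 0 i + ∫ s in (0 : ℝ)..t, massAction N (k s) (x s) i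

namespace Meas

/-- The closed box. -/
def box (d : ℕ) (a b : ℝ) : Set (Fin d → ℝ) := {x | ∀ i, a ≤ x i ∧ x i ≤ b}

theorem box_eq (a b : ℝ) : box d a b = Set.pi univ (fun _ => Set.Icc a b) := by
  ext x
  simp only [box, Set.mem_pi, Set.mem_ofPred_eq, Set.mem_Icc, Set.mem_univ, true_implies]

theorem isCompact_box (a b : ℝ) : IsCompact (box d a b) := by
  rw [box_eq]
  exact isCompact_univ_pi (fun _ => isCompact_Icc)

theorem isClosed_box (a b : ℝ) : IsClosed (box d a b) := (isCompact_box a b).isClosed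

theorem mono_contDiff (y : Cplx d) : ContDiff ℝ 1 (fun x : Fin d → ℝ => mono x y) := by
  unfold mono
  apply contDiff_prod
  intro i _
  exact ((contDiff_apply ℝ ℝ i).pow (y i))

theorem mono_continuous (y : Cplx d) : Continuous (fun x : Fin d → ℝ => mono x y) :=
  (mono_contDiff y).continuous

/-- Uniform Lipschitz and rate constants on a box. -/
theorem exists_constants (N : Network d) (E a b : ℝ) (hE : 0 ≤ E) :
    ∃ L : ℝ, 0 ≤ L ∧ ∃ C : ℝ, 0 ≤ C ∧
      ∀ (κ₁ κ₂ : Cplx d × Cplx d → ℝ), (∀ r ∈ N.reactions, |κ₁ r| ≤ E) →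
      ∀ x ∈ box d a b, ∀ y ∈ box d a b, ∀ i,
        |massAction N κ₁ x i - massAction N κ₂ y i| ≤
          L * ‖x - y‖ + C * ∑ r ∈ N.reactions, |κ₁ r - κ₂ r| := by
  classical
  have hB : IsCompact (box d a b) := isCompact_box a b
  have hLip : ∀ y : Cplx d, ∃ K : NNReal, LipschitzOnWith K (fun x : Fin d → ℝ => mono x y)
      (box d a b) := fun y =>
    LocallyLipschitzOn.exists_lipschitzOnWith_of_compact hB
      ((mono_contDiff y).locallyLipschitz).locallyLipschitzOn
  choose Lm hLm using hLip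
  have hBd : ∀ y : Cplx d, ∃ M : ℝ, 0 ≤ M ∧ ∀ x ∈ box d a b, |mono x y| ≤ M := by
    intro y
    obtain ⟨M, hM⟩ := hB.exists_bound_of_continuousOn (mono_continuous y).continuousOn
    refine ⟨max M 0, le_max_right _ _, fun x hx => ?_⟩
    have := hM x hx
    rw [Real.norm_eq_abs] at this
    exact this.trans (le_max_left _ _)
  choose Mm hMm0 hMm using hBd
  set V : Cplx d × Cplx d → ℝ := fun r => ‖(reactionVec r : Fin d → ℝ)‖ with hV
  have hV0 : ∀ r, 0 ≤ V r := fun r => norm_nonneg _
  have hVi : ∀ r i, |reactionVec r i| ≤ V r := fun r i => by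
    have := norm_le_pi_norm (reactionVec r : Fin d → ℝ) i
    rwa [Real.norm_eq_abs] at this
  set L : ℝ := ∑ r ∈ N.reactions, E * (Lm r.1 : ℝ) * V r with hL
  have hL0 : 0 ≤ L := Finset.sum_nonneg (fun r _ => by
    have := hV0 r
    have h2 : (0:ℝ) ≤ (Lm r.1 : ℝ) := NNReal.coe_nonneg _
    positivity)
  set C : ℝ := ∑ r ∈ N.reactions, Mm r.1 * V r with hC
  have hC0 : 0 ≤ C := Finset.sum_nonneg (fun r _ => mul_nonneg (hMm0 _) (hV0 r))
  refine ⟨L, hL0, C, hC0, ?_⟩
  intro κ₁ κ₂ hκ x hx y hy i
  have hsplit : massAction N κ₁ x i - massAction N κ₂ y i =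
      ∑ r ∈ N.reactions, (κ₁ r * (mono x r.1 - mono y r.1) * reactionVec r i
        + (κ₁ r - κ₂ r) * mono y r.1 * reactionVec r i) := by
    unfold massAction
    rw [← Finset.sum_sub_distrib]
    refine Finset.sum_congr rfl (fun r _ => ?_)
    ring
  rw [hsplit]
  have hterm : ∀ r ∈ N.reactions,
      |κ₁ r * (mono x r.1 - mono y r.1) * reactionVec r i
        + (κ₁ r - κ₂ r) * mono y r.1 * reactionVec r i|
      ≤ (E * (Lm r.1 : ℝ) * V r) * ‖x - y‖ + C * |κ₁ r - κ₂ r| := by
    intro r hr
    have h1 : |mono x r.1 - mono y r.1| ≤ (Lm r.1 : ℝ) * ‖x - y‖ := by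
      have := (hLm r.1).dist_le_mul x hx y hy
      rwa [Real.dist_eq, dist_eq_norm] at this
    have h2 : |κ₁ r| ≤ E := hκ r hr
    have h3 := hVi r i
    have h4 := hMm r.1 y hy
    have h5 : Mm r.1 * V r ≤ C :=
      Finset.single_le_sum (f := fun r : Cplx d × Cplx d => Mm r.1 * V r)
        (fun r _ => mul_nonneg (hMm0 _) (hV0 r)) hr
    have hA : |κ₁ r * (mono x r.1 - mono y r.1) * reactionVec r i| ≤
        (E * (Lm r.1 : ℝ) * V r) * ‖x - y‖ := by
      rw [abs_mul, abs_mul]
      have hn : (0:ℝ) ≤ ‖x - y‖ := norm_nonneg _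
      have hLr : (0:ℝ) ≤ (Lm r.1 : ℝ) := NNReal.coe_nonneg _
      calc |κ₁ r| * |mono x r.1 - mono y r.1| * |reactionVec r i|
          ≤ E * ((Lm r.1 : ℝ) * ‖x - y‖) * V r := by
            apply mul_le_mul (mul_le_mul h2 h1 (abs_nonneg _) hE) h3 (abs_nonneg _)
            positivity
        _ = (E * (Lm r.1 : ℝ) * V r) * ‖x - y‖ := by ring
    have hB' : |(κ₁ r - κ₂ r) * mono y r.1 * reactionVec r i| ≤ C * |κ₁ r - κ₂ r| := by
      rw [abs_mul, abs_mul]
      calc |κ₁ r - κ₂ r| * |mono y r.1| * |reactionVec r i|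
          = |κ₁ r - κ₂ r| * (|mono y r.1| * |reactionVec r i|) := by ring
        _ ≤ |κ₁ r - κ₂ r| * (Mm r.1 * V r) := by
            apply mul_le_mul_of_nonneg_left _ (abs_nonneg _)
            exact mul_le_mul h4 h3 (abs_nonneg _) (hMm0 _)
        _ ≤ |κ₁ r - κ₂ r| * C := mul_le_mul_of_nonneg_left h5 (abs_nonneg _)
        _ = C * |κ₁ r - κ₂ r| := by ring
    exact (abs_add_le _ _).trans (add_le_add hA hB')
  calc |∑ r ∈ N.reactions, (κ₁ r * (mono x r.1 - mono y r.1) * reactionVec r i
        + (κ₁ r - κ₂ r) * mono y r.1 * reactionVec r i)|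
      ≤ ∑ r ∈ N.reactions, |κ₁ r * (mono x r.1 - mono y r.1) * reactionVec r i
        + (κ₁ r - κ₂ r) * mono y r.1 * reactionVec r i| := Finset.abs_sum_le_sum_abs _ _
    _ ≤ ∑ r ∈ N.reactions, ((E * (Lm r.1 : ℝ) * V r) * ‖x - y‖ + C * |κ₁ r - κ₂ r|) :=
        Finset.sum_le_sum hterm
    _ = L * ‖x - y‖ + C * ∑ r ∈ N.reactions, |κ₁ r - κ₂ r| := by
        rw [Finset.sum_add_distrib, ← Finset.sum_mul, Finset.mul_sum]

/-- The integral form of Gronwall's lemma. -/
theorem gronwall_int {u : ℝ → ℝ} {T a L : ℝ} (hT : 0 ≤ T) (hL : 0 ≤ L)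
    (hu : ContinuousOn u (Icc 0 T))
    (h : ∀ t ∈ Icc 0 T, u t ≤ a + L * ∫ s in (0 : ℝ)..t, u s) :
    ∀ t ∈ Icc 0 T, u t ≤ a * Real.exp (L * t) := by
  classical
  have : Fact ((0:ℝ) ≤ T) := ⟨hT⟩
  set w : ℝ → ℝ := Set.IccExtend hT (Set.domRestrict (Icc 0 T) u) with hw
  have hwc : Continuous w := by
    apply Continuous.Icc_extend'
    exact continuousOn_iff_continuous_domRestrict.mp hu
  have hwu : ∀ t ∈ Icc 0 T, w t = u t := fun t ht => by
    rw [hw, Set.IccExtend_of_mem _ _ ht]
    rfl
  have hint : ∀ t ∈ Icc 0 T, ∫ s in (0 : ℝ)..t, u s = ∫ s in (0 : ℝ)..t, w s := by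
    intro t ht
    apply intervalIntegral.integral_congr
    intro s hs
    rw [uIcc_of_le ht.1] at hs
    exact (hwu s ⟨hs.1, hs.2.trans ht.2⟩).symm
  set U : ℝ → ℝ := fun t => ∫ s in (0 : ℝ)..t, w s with hU
  have hUd : ∀ t, HasDerivAt U (w t) t := fun t =>
    intervalIntegral.integral_hasDerivAt_right (hwc.intervalIntegrable _ _)
      (hwc.stronglyMeasurableAtFilter _ _) hwc.continuousAt
  set V : ℝ → ℝ := fun t => Real.exp (-(L * t)) * (a + L * U t) with hV
  have hVd : ∀ t, HasDerivAt V (Real.exp (-(L * t)) * (L * (w t - (a + L * U t)))) t := by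
    intro t
    have h1 : HasDerivAt (fun t : ℝ => Real.exp (-(L * t))) (Real.exp (-(L * t)) * (-L)) t := by
      have h0 : HasDerivAt (fun t : ℝ => -(L * t)) (-L) t := by
        have h00 := (hasDerivAt_id' t).const_mul (-L)
        simp only [mul_one] at h00
        have e : (fun t : ℝ => -(L * t)) = fun y => -L * y := by
          funext y
          ring
        rw [e]
        exact h00
      exact h0.exp
    have h2 : HasDerivAt (fun t => a + L * U t) (L * w t) t :=
      ((hUd t).const_mul L).const_add a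
    have h3 : HasDerivAt V (Real.exp (-(L * t)) * (-L) * (a + L * U t)
        + Real.exp (-(L * t)) * (L * w t)) t := h1.mul h2
    refine h3.congr_deriv ?_
    ring
  have hanti : AntitoneOn V (Icc 0 T) := by
    apply antitoneOn_of_deriv_nonpos (convex_Icc 0 T)
    · exact (fun t ht => (hVd t).continuousAt.continuousWithinAt)
    · exact (fun t ht => (hVd t).differentiableAt.differentiableWithinAt)
    · intro t ht
      rw [interior_Icc] at ht
      rw [(hVd t).deriv]
      have htI : t ∈ Icc 0 T := ⟨ht.1.le, ht.2.le⟩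
      have h1 := h t htI
      rw [hint t htI, ← hwu t htI] at h1
      have h2 : w t - (a + L * U t) ≤ 0 := by
        have : U t = ∫ s in (0 : ℝ)..t, w s := rfl
        rw [this]
        linarith
      have h3 : 0 ≤ Real.exp (-(L * t)) := (Real.exp_pos _).le
      exact mul_nonpos_of_nonneg_of_nonpos h3 (mul_nonpos_of_nonneg_of_nonpos hL h2)
  intro t ht
  have h0I : (0:ℝ) ∈ Icc 0 T := ⟨le_rfl, hT⟩
  have hle := hanti h0I ht ht.1
  have hV0 : V 0 = a := by
    simp [hV, hU]
  rw [hV0] at hle
  have h1 := h t ht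
  rw [hint t ht] at h1
  have hVt : V t = Real.exp (-(L * t)) * (a + L * ∫ s in (0 : ℝ)..t, w s) := rfl
  rw [hVt] at hle
  have hexp : Real.exp (L * t) * Real.exp (-(L * t)) = 1 := by
    rw [← Real.exp_add]
    simp
  have h2 : a + L * ∫ s in (0 : ℝ)..t, w s ≤ a * Real.exp (L * t) := by
    have h3 := mul_le_mul_of_nonneg_left hle (Real.exp_pos (L * t)).le
    rw [← mul_assoc, hexp, one_mul] at h3
    linarith [h3, mul_comm a (Real.exp (L * t))]
  linarith

/-- Integrability of the mass-action integrand for measurable bounded rates along a continuous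
path. -/
theorem integrand_intervalIntegrable (N : Network d) {k : ℝ → Cplx d × Cplx d → ℝ} {E : ℝ}
    (hkm : ∀ r ∈ N.reactions, Measurable (fun t => k t r))
    (hkb : ∀ t, ∀ r ∈ N.reactions, |k t r| ≤ E) {x : ℝ → Fin d → ℝ} {a b : ℝ}
    (hx : ContinuousOn x (uIcc a b)) (i : Fin d) :
    IntervalIntegrable (fun s => massAction N (k s) (x s) i) volume a b := by
  classical
  have h : (fun s => massAction N (k s) (x s) i) =
      fun s => ∑ r ∈ N.reactions, k s r * mono (x s) r.1 * reactionVec r i := by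
    funext s
    rfl
  rw [h]
  have hsum : IntervalIntegrable
      (∑ r ∈ N.reactions, fun s => k s r * mono (x s) r.1 * reactionVec r i) volume a b := by
    apply IntervalIntegrable.sum
    intro r hr
    have h1 : IntervalIntegrable (fun s => k s r) volume a b := by
      rw [intervalIntegrable_iff]
      apply Measure.integrableOn_of_bounded (M := E)
      · simp
      · exact (hkm r hr).aestronglyMeasurable
      · exact Eventually.of_forall (fun s => by
          rw [Real.norm_eq_abs]
          exact hkb s r hr)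
    have h2 : ContinuousOn (fun s => mono (x s) r.1 * reactionVec r i) (uIcc a b) :=
      ((mono_continuous r.1).comp_continuousOn hx).mul continuousOn_const
    have h3 := h1.mul_continuousOn h2
    refine h3.congr ?_
    intro s _
    ring
  convert hsum using 1
  funext s
  simp [Finset.sum_apply]

end Meas

end Vale.Agent.P072
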