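import Vale.Agent.P072.MeasApprox

/-! Permanence with measurable rates: the limit of the piecewise constant approximations. -/

set_option linter.unusedVariables false
set_option linter.unusedSimpArgs false

namespace Vale.Agent.P072.Meas

open Set Filter Topology MeasureTheory

variable {d : ℕ}

/-- The approximating sequence of rates and solutions. -/
theorem approx_seq (N : Network d) (hN : N.WeaklyReversible) {ε : ℝ} (hε : 0 < ε)
    {k : ℝ → Cplx d × Cplx d → ℝ}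
    (hm : ∀ r ∈ N.reactions, Measurable (fun t => k t r))
    (hb : ∀ t, ∀ r ∈ N.reactions, ε ≤ k t r ∧ k t r ≤ ε⁻¹)
    (x₀ : Fin d → ℝ) (hx₀ : ∀ i, 0 < x₀ i) :
    ∃ (K : ℕ → ℝ → Cplx d × Cplx d → ℝ) (X : ℕ → ℝ → Fin d → ℝ),
      (∀ n, ∀ r ∈ N.reactions, Measurable (fun t => K n t r)) ∧
      (∀ n t, ∀ r ∈ N.reactions, ε ≤ K n t r ∧ K n t r ≤ ε⁻¹) ∧
      (∀ n, X n 0 = x₀) ∧ (∀ n t, 0 ≤ t → X n t - x₀ ∈ N.stoich) ∧
      (∀ n T, IsPositiveSolution N (K n) T (X n)) ∧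
      ∀ n : ℕ, ∫ s in (0 : ℝ)..n, rateDist N (K n) k s ≤ 1 / ((n : ℝ) + 1) := by
  have h1 : ∀ n : ℕ, ∃ h : ℝ, 0 < h ∧ ∃ κ : ℕ → Cplx d × Cplx d → ℝ,
      (∀ j, ∀ r ∈ N.reactions, ε ≤ κ j r ∧ κ j r ≤ ε⁻¹) ∧
      ∫ s in (0 : ℝ)..n, rateDist N (fun t => κ ⌊t / h⌋₊) k s ≤ 1 / ((n : ℝ) + 1) := fun n =>
    rate_approx N hε hm hb (Nat.cast_nonneg n) (by positivity)
  choose h hh κ hκ hint using h1
  have h2 : ∀ n : ℕ, ∃ x : ℝ → Fin d → ℝ, x 0 = x₀ ∧ (∀ t, 0 ≤ t → x t - x₀ ∈ N.stoich) ∧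
      ∀ T, IsPositiveSolution N (fun t => κ n ⌊t / h n⌋₊) T x := fun n =>
    step_solution N hN (hh n) (κ n) (fun j r hr => lt_of_lt_of_le hε (hκ n j r hr).1) x₀ hx₀
  choose X hX0 hXS hXP using h2
  exact ⟨fun n t => κ n ⌊t / h n⌋₊, X, fun n r _ => step_measurable (κ n) (h n) r,
    fun n t r hr => hκ n _ r hr, hX0, hXS, hXP, hint⟩

theorem abs_le_of_bounds {ε t : ℝ} (hε : 0 < ε) (h : ε ≤ t ∧ t ≤ ε⁻¹) : |t| ≤ ε⁻¹ := by
  rw [abs_of_nonneg (hε.le.trans h.1)]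
  exact h.2

/-- The Cauchy estimate along the approximating sequence. -/
theorem seq_cauchy (N : Network d) {ε L C a b : ℝ} (hε : 0 < ε) (hL : 0 ≤ L) (hC : 0 ≤ C)
    (hconst : ∀ (κ₁ κ₂ : Cplx d × Cplx d → ℝ), (∀ r ∈ N.reactions, |κ₁ r| ≤ ε⁻¹) →
      ∀ x ∈ box d a b, ∀ y ∈ box d a b, ∀ i,
        |massAction N κ₁ x i - massAction N κ₂ y i| ≤
          L * ‖x - y‖ + C * ∑ r ∈ N.reactions, |κ₁ r - κ₂ r|)
    {k : ℝ → Cplx d × Cplx d → ℝ}
    (hm : ∀ r ∈ N.reactions, Measurable (fun t => k t r))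
    (hb : ∀ t, ∀ r ∈ N.reactions, ε ≤ k t r ∧ k t r ≤ ε⁻¹)
    {K : ℕ → ℝ → Cplx d × Cplx d → ℝ} {X : ℕ → ℝ → Fin d → ℝ} {x₀ : Fin d → ℝ}
    (hKm : ∀ n, ∀ r ∈ N.reactions, Measurable (fun t => K n t r))
    (hKb : ∀ n t, ∀ r ∈ N.reactions, ε ≤ K n t r ∧ K n t r ≤ ε⁻¹)
    (hX0 : ∀ n, X n 0 = x₀)
    (hXP : ∀ n T, IsPositiveSolution N (K n) T (X n))
    (hXb : ∀ n t, 0 ≤ t → X n t ∈ box d a b)
    (hint : ∀ n : ℕ, ∫ s in (0 : ℝ)..n, rateDist N (K n) k s ≤ 1 / ((n : ℝ) + 1))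
    {T : ℝ} (hT : 0 ≤ T) {n m : ℕ} (hn : T ≤ n) (hm' : T ≤ m) {t : ℝ} (ht : t ∈ Icc 0 T) :
    ‖X n t - X m t‖ ≤ C * (1 / ((n : ℝ) + 1) + 1 / ((m : ℝ) + 1)) * Real.exp (L * T) := by
  have habs : ∀ t, ∀ r ∈ N.reactions, |k t r| ≤ ε⁻¹ := fun t r hr => abs_le_of_bounds hε (hb t r hr)
  have hKa : ∀ n t, ∀ r ∈ N.reactions, |K n t r| ≤ ε⁻¹ :=
    fun n t r hr => abs_le_of_bounds hε (hKb n t r hr)
  have hsol : ∀ l : ℕ, ContinuousOn (X l) (Icc 0 T) ∧ ∀ s ∈ Icc 0 T, ∀ i,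
      X l s i = X l 0 i + ∫ u in (0 : ℝ)..s, massAction N (K l u) (X l u) i := by
    intro l
    have hS := hXP l (T + 1)
    have hsub : Icc 0 T ⊆ Ico 0 (T + 1) := fun s hs => ⟨hs.1, by linarith [hs.2]⟩
    exact ⟨hS.cont.mono hsub, fun s hs i =>
      integral_of_positive N (hKm l) (hKa l) hS (hsub hs) i⟩
  have hst := stability N hL hC hconst (hKm n) (hKm m) (hKa n) (hKa m) hT
    (hsol n).1 (hsol m).1 (fun s hs => hXb n s hs.1) (fun s hs => hXb m s hs.1)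
    (hsol n).2 (hsol m).2 (by rw [hX0, hX0]) t ht
  refine hst.trans ?_
  have hD1 := rateDist_intervalIntegrable N (hKm n) (hKm m) (hKa n) (hKa m) 0 T
  have hD2 := rateDist_intervalIntegrable N (hKm n) hm (hKa n) habs
  have hD3 := rateDist_intervalIntegrable N (hKm m) hm (hKa m) habs
  have htri : ∀ s ∈ Icc 0 T, rateDist N (K n) (K m) s ≤
      rateDist N (K n) k s + rateDist N (K m) k s := by
    intro s _
    unfold rateDist
    rw [← Finset.sum_add_distrib]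
    refine Finset.sum_le_sum (fun r _ => ?_)
    have := abs_sub_le (K n s r) (k s r) (K m s r)
    rwa [abs_sub_comm (k s r) (K m s r)] at this
  have hmono := intervalIntegral.integral_mono_on hT hD1 ((hD2 0 T).add (hD3 0 T)) htri
  rw [intervalIntegral.integral_add (hD2 0 T) (hD3 0 T)] at hmono
  have hn1 : ∫ s in (0 : ℝ)..T, rateDist N (K n) k s ≤ 1 / ((n : ℝ) + 1) :=
    (intervalIntegral.integral_mono_interval le_rfl hT hn
      (Eventually.of_forall (fun s => rateDist_nonneg N _ _ s)) (hD2 0 n)).trans (hint n)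
  have hm1 : ∫ s in (0 : ℝ)..T, rateDist N (K m) k s ≤ 1 / ((m : ℝ) + 1) :=
    (intervalIntegral.integral_mono_interval le_rfl hT hm'
      (Eventually.of_forall (fun s => rateDist_nonneg N _ _ s)) (hD3 0 m)).trans (hint m)
  have hexp : Real.exp (L * t) ≤ Real.exp (L * T) :=
    Real.exp_le_exp.mpr (mul_le_mul_of_nonneg_left ht.2 hL)
  have hsumnn : 0 ≤ 1 / ((n : ℝ) + 1) + 1 / ((m : ℝ) + 1) := by positivity
  apply mul_le_mul _ hexp (Real.exp_pos _).le (mul_nonneg hC hsumnn)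
  exact mul_le_mul_of_nonneg_left (by linarith) hC

/-- The limit of a sequence with the Cauchy estimate. -/
theorem limit_exists {C L : ℝ} (hC : 0 ≤ C) {X : ℕ → ℝ → Fin d → ℝ}
    (hcau : ∀ (T : ℝ), 0 ≤ T → ∀ n m : ℕ, T ≤ n → T ≤ m → ∀ t ∈ Icc 0 T,
      ‖X n t - X m t‖ ≤ C * (1 / ((n : ℝ) + 1) + 1 / ((m : ℝ) + 1)) * Real.exp (L * T)) :
    ∃ x : ℝ → Fin d → ℝ, (∀ t, 0 ≤ t → Tendsto (fun n => X n t) atTop (𝓝 (x t))) ∧
      ∀ (T : ℝ), 0 ≤ T → ∀ n : ℕ, T ≤ n → ∀ t ∈ Icc 0 T,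
        ‖X n t - x t‖ ≤ C * (1 / ((n : ℝ) + 1)) * Real.exp (L * T) := by
  have h1div : Tendsto (fun n : ℕ => 1 / ((n : ℝ) + 1)) atTop (𝓝 0) :=
    tendsto_one_div_add_atTop_nhds_zero_nat
  have hcs : ∀ t, 0 ≤ t → CauchySeq (fun n => X n t) := by
    intro t ht
    rw [Metric.cauchySeq_iff']
    intro e he
    set B := C * Real.exp (L * t) with hB
    have hB0 : 0 ≤ B := mul_nonneg hC (Real.exp_pos _).le
    have hlim : Tendsto (fun n : ℕ => 2 * B * (1 / ((n : ℝ) + 1))) atTop (𝓝 (2 * B * 0)) :=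
      h1div.const_mul _
    rw [mul_zero] at hlim
    have hev : ∀ᶠ N : ℕ in atTop, 2 * B * (1 / ((N : ℝ) + 1)) < e ∧ t ≤ N := by
      filter_upwards [hlim.eventually (gt_mem_nhds he), eventually_ge_atTop ⌈t⌉₊] with N hN1 hN2
      exact ⟨hN1, (Nat.le_ceil t).trans (by exact_mod_cast hN2)⟩
    obtain ⟨N, hN1, hN2⟩ := hev.exists
    refine ⟨N, fun n hn => ?_⟩
    have hnN : (N : ℝ) ≤ n := by exact_mod_cast hn
    rw [dist_eq_norm]
    have h3 := hcau t ht n N (hN2.trans hnN) hN2 t ⟨ht, le_rfl⟩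
    have h4 : 1 / ((n : ℝ) + 1) ≤ 1 / ((N : ℝ) + 1) :=
      one_div_le_one_div_of_le (by positivity) (by linarith)
    have h5 : C * (1 / ((n : ℝ) + 1) + 1 / ((N : ℝ) + 1)) * Real.exp (L * t) ≤
        2 * B * (1 / ((N : ℝ) + 1)) := by
      rw [hB]
      have h6 : 0 ≤ C * Real.exp (L * t) := hB0
      have h7 : (1 / ((n : ℝ) + 1) + 1 / ((N : ℝ) + 1)) ≤ 2 * (1 / ((N : ℝ) + 1)) := by linarith
      calc C * (1 / ((n : ℝ) + 1) + 1 / ((N : ℝ) + 1)) * Real.exp (L * t)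
          = (C * Real.exp (L * t)) * (1 / ((n : ℝ) + 1) + 1 / ((N : ℝ) + 1)) := by ring
        _ ≤ (C * Real.exp (L * t)) * (2 * (1 / ((N : ℝ) + 1))) :=
            mul_le_mul_of_nonneg_left h7 h6
        _ = 2 * (C * Real.exp (L * t)) * (1 / ((N : ℝ) + 1)) := by ring
    linarith
  have hl : ∀ t, ∃ l, 0 ≤ t → Tendsto (fun n => X n t) atTop (𝓝 l) := by
    intro t
    by_cases ht : 0 ≤ t
    · obtain ⟨l, hl⟩ := cauchySeq_tendsto_of_complete (hcs t ht)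
      exact ⟨l, fun _ => hl⟩
    · exact ⟨0, fun h => absurd h ht⟩
  choose x hx using hl
  refine ⟨x, hx, ?_⟩
  intro T hT n hn t ht
  have h1 : Tendsto (fun m => ‖X n t - X m t‖) atTop (𝓝 ‖X n t - x t‖) :=
    (tendsto_const_nhds.sub (hx t ht.1)).norm
  have h2 : Tendsto (fun m : ℕ => C * (1 / ((n : ℝ) + 1) + 1 / ((m : ℝ) + 1)) * Real.exp (L * T))
      atTop (𝓝 (C * (1 / ((n : ℝ) + 1) + 0) * Real.exp (L * T))) :=
    ((tendsto_const_nhds.add h1div).const_mul C).mul_const _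
  rw [add_zero] at h2
  refine le_of_tendsto_of_tendsto h1 h2 ?_
  filter_upwards [eventually_ge_atTop ⌈T⌉₊] with m hm
  exact hcau T hT n m hn ((Nat.le_ceil T).trans (by exact_mod_cast hm)) t ht

/-- Continuity of the limit. -/
theorem limit_continuousOn {C L : ℝ} {X : ℕ → ℝ → Fin d → ℝ} {x : ℝ → Fin d → ℝ}
    (hXc : ∀ n T, ContinuousOn (X n) (Icc 0 T))
    (herr : ∀ (T : ℝ), 0 ≤ T → ∀ n : ℕ, T ≤ n → ∀ t ∈ Icc 0 T,
        ‖X n t - x t‖ ≤ C * (1 / ((n : ℝ) + 1)) * Real.exp (L * T))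
    {T : ℝ} (hT : 0 ≤ T) : ContinuousOn x (Icc 0 T) := by
  have h1div : Tendsto (fun n : ℕ => 1 / ((n : ℝ) + 1)) atTop (𝓝 0) :=
    tendsto_one_div_add_atTop_nhds_zero_nat
  have hlim : Tendsto (fun n : ℕ => C * (1 / ((n : ℝ) + 1)) * Real.exp (L * T)) atTop
      (𝓝 (C * 0 * Real.exp (L * T))) := (h1div.const_mul C).mul_const _
  simp only [mul_zero, zero_mul] at hlim
  have hU : TendstoUniformlyOn X x atTop (Icc 0 T) := by
    rw [Metric.tendstoUniformlyOn_iff]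
    intro e he
    filter_upwards [hlim.eventually (gt_mem_nhds he), eventually_ge_atTop ⌈T⌉₊] with n hn1 hn2 t ht
    rw [dist_comm, dist_eq_norm]
    exact lt_of_le_of_lt (herr T hT n ((Nat.le_ceil T).trans (by exact_mod_cast hn2)) t ht) hn1
  exact hU.continuousOn (Frequently.of_forall (fun n => hXc n T))

/-- The limit satisfies the integral equation. -/
theorem limit_integral (N : Network d) {ε L C a b : ℝ} (hε : 0 < ε) (hL : 0 ≤ L) (hC : 0 ≤ C)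
    (hconst : ∀ (κ₁ κ₂ : Cplx d × Cplx d → ℝ), (∀ r ∈ N.reactions, |κ₁ r| ≤ ε⁻¹) →
      ∀ x ∈ box d a b, ∀ y ∈ box d a b, ∀ i,
        |massAction N κ₁ x i - massAction N κ₂ y i| ≤
          L * ‖x - y‖ + C * ∑ r ∈ N.reactions, |κ₁ r - κ₂ r|)
    {k : ℝ → Cplx d × Cplx d → ℝ}
    (hm : ∀ r ∈ N.reactions, Measurable (fun t => k t r))
    (hb : ∀ t, ∀ r ∈ N.reactions, ε ≤ k t r ∧ k t r ≤ ε⁻¹)
    {K : ℕ → ℝ → Cplx d × Cplx d → ℝ} {X : ℕ → ℝ → Fin d → ℝ} {x₀ : Fin d → ℝ}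
    {x : ℝ → Fin d → ℝ}
    (hKm : ∀ n, ∀ r ∈ N.reactions, Measurable (fun t => K n t r))
    (hKb : ∀ n t, ∀ r ∈ N.reactions, ε ≤ K n t r ∧ K n t r ≤ ε⁻¹)
    (hX0 : ∀ n, X n 0 = x₀)
    (hXP : ∀ n T, IsPositiveSolution N (K n) T (X n))
    (hXb : ∀ n t, 0 ≤ t → X n t ∈ box d a b)
    (hint : ∀ n : ℕ, ∫ s in (0 : ℝ)..n, rateDist N (K n) k s ≤ 1 / ((n : ℝ) + 1))
    (hxb : ∀ t, 0 ≤ t → x t ∈ box d a b)
    (hxc : ∀ T, 0 ≤ T → ContinuousOn x (Icc 0 T))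
    (herr : ∀ (T : ℝ), 0 ≤ T → ∀ n : ℕ, T ≤ n → ∀ t ∈ Icc 0 T,
        ‖X n t - x t‖ ≤ C * (1 / ((n : ℝ) + 1)) * Real.exp (L * T))
    {t : ℝ} (ht : 0 ≤ t) (i : Fin d) :
    x t i = x₀ i + ∫ s in (0 : ℝ)..t, massAction N (k s) (x s) i := by
  have habs : ∀ t, ∀ r ∈ N.reactions, |k t r| ≤ ε⁻¹ := fun t r hr => abs_le_of_bounds hε (hb t r hr)
  have hKa : ∀ n t, ∀ r ∈ N.reactions, |K n t r| ≤ ε⁻¹ :=
    fun n t r hr => abs_le_of_bounds hε (hKb n t r hr)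
  set I : ℝ := ∫ s in (0 : ℝ)..t, massAction N (k s) (x s) i with hI
  set Q : ℝ := Real.exp (L * t) with hQ
  have hQ0 : 0 < Q := Real.exp_pos _
  set B : ℝ := C * Q + L * t * (C * Q) + C with hB
  have hB0 : 0 ≤ B := by positivity
  have hkey : ∀ n : ℕ, t ≤ n → |x t i - (x₀ i + I)| ≤ B * (1 / ((n : ℝ) + 1)) := by
    intro n hn
    have hnn : (0:ℝ) ≤ 1 / ((n : ℝ) + 1) := by positivity
    have hS := hXP n (t + 1)
    have htI : t ∈ Ico 0 (t + 1) := ⟨ht, by linarith⟩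
    have hXi := integral_of_positive N (hKm n) (hKa n) hS htI i
    rw [hX0] at hXi
    have hsubt : Icc 0 t ⊆ Ico 0 (t + 1) := fun s hs => ⟨hs.1, by linarith [hs.2]⟩
    have hXc : ContinuousOn (X n) (uIcc 0 t) := by
      rw [uIcc_of_le ht]
      exact hS.cont.mono hsubt
    have hxct : ContinuousOn x (uIcc 0 t) := by
      rw [uIcc_of_le ht]
      exact hxc t ht
    have hI₁ := integrand_intervalIntegrable N (hKm n) (hKa n) hXc i
    have hI₂ := integrand_intervalIntegrable N hm habs hxct i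
    have hdiff : (∫ s in (0 : ℝ)..t, massAction N (K n s) (X n s) i) - I =
        ∫ s in (0 : ℝ)..t, (massAction N (K n s) (X n s) i - massAction N (k s) (x s) i) := by
      rw [intervalIntegral.integral_sub hI₁ hI₂]
    have hD := rateDist_intervalIntegrable N (hKm n) hm (hKa n) habs 0 (n : ℝ)
    have hDt := rateDist_intervalIntegrable N (hKm n) hm (hKa n) habs 0 t
    set e : ℝ := C * (1 / ((n : ℝ) + 1)) * Q with he
    have he0 : 0 ≤ e := by positivity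
    have hg : IntervalIntegrable (fun s => L * e + C * rateDist N (K n) k s) volume 0 t :=
      intervalIntegrable_const.add (hDt.const_mul C)
    have hbound : ∀ᵐ s ∂(volume : Measure ℝ), s ∈ Ioc (0:ℝ) t →
        ‖massAction N (K n s) (X n s) i - massAction N (k s) (x s) i‖ ≤
          L * e + C * rateDist N (K n) k s := by
      refine Eventually.of_forall (fun s hs => ?_)
      rw [Real.norm_eq_abs]
      have h1 := hconst (K n s) (k s) (fun r hr => hKa n s r hr) _ (hXb n s hs.1.le) _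
        (hxb s hs.1.le) i
      have h2 := herr t ht n hn s ⟨hs.1.le, hs.2⟩
      have h3 := mul_le_mul_of_nonneg_left h2 hL
      exact h1.trans (add_le_add h3 le_rfl)
    have h1 := intervalIntegral.norm_integral_le_of_norm_le ht hbound hg
    rw [Real.norm_eq_abs, ← hdiff,
      intervalIntegral.integral_add intervalIntegrable_const (hDt.const_mul C),
      intervalIntegral.integral_const, intervalIntegral.integral_const_mul, smul_eq_mul,
      sub_zero] at h1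
    have h2 : ∫ s in (0 : ℝ)..t, rateDist N (K n) k s ≤ 1 / ((n : ℝ) + 1) :=
      (intervalIntegral.integral_mono_interval le_rfl ht hn
        (Eventually.of_forall (fun s => rateDist_nonneg N _ _ s)) hD).trans (hint n)
    have h3 := mul_le_mul_of_nonneg_left h2 hC
    have h4 := herr t ht n hn t ⟨ht, le_rfl⟩
    have h5 := norm_le_pi_norm (X n t - x t) i
    rw [Real.norm_eq_abs, Pi.sub_apply] at h5
    have h6 : |x t i - (x₀ i + I)| ≤ |X n t i - x t i| +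
        |(∫ s in (0 : ℝ)..t, massAction N (K n s) (X n s) i) - I| := by
      have e1 : x t i - (x₀ i + I) = -(X n t i - x t i)
          + ((∫ s in (0 : ℝ)..t, massAction N (K n s) (X n s) i) - I) := by
        rw [hXi]
        ring
      rw [e1]
      refine (abs_add_le _ _).trans ?_
      rw [abs_neg]
    have h7 : B * (1 / ((n : ℝ) + 1)) = e + (t * (L * e) + C * (1 / ((n : ℝ) + 1))) := by
      rw [hB, he]
      ring
    rw [h7]
    have h8 : |X n t i - x t i| ≤ e := h5.trans h4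
    linarith
  have h1div : Tendsto (fun n : ℕ => 1 / ((n : ℝ) + 1)) atTop (𝓝 0) :=
    tendsto_one_div_add_atTop_nhds_zero_nat
  have hlim : Tendsto (fun n : ℕ => B * (1 / ((n : ℝ) + 1))) atTop (𝓝 (B * 0)) :=
    h1div.const_mul B
  rw [mul_zero] at hlim
  have hle : |x t i - (x₀ i + I)| ≤ 0 := by
    refine ge_of_tendsto hlim ?_
    filter_upwards [eventually_ge_atTop ⌈t⌉₊] with n hn
    exact hkey n ((Nat.le_ceil t).trans (by exact_mod_cast hn))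
  have h0 := abs_nonpos_iff.mp hle
  linarith

/-- Uniqueness of Caratheodory solutions. -/
theorem caratheodory_unique (N : Network d) {ε : ℝ} (hε : 0 < ε)
    {k : ℝ → Cplx d × Cplx d → ℝ}
    (hm : ∀ r ∈ N.reactions, Measurable (fun t => k t r))
    (hb : ∀ t, ∀ r ∈ N.reactions, ε ≤ k t r ∧ k t r ≤ ε⁻¹)
    {T₁ T₂ : ℝ} {x y : ℝ → Fin d → ℝ}
    (hx : IsCaratheodorySolution N k T₁ x) (hy : IsCaratheodorySolution N k T₂ y)
    (h0 : x 0 = y 0) {t : ℝ} (ht : 0 ≤ t) (ht₁ : t < T₁) (ht₂ : t < T₂) : x t = y t := by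
  classical
  have habs : ∀ t, ∀ r ∈ N.reactions, |k t r| ≤ ε⁻¹ := fun t r hr => abs_le_of_bounds hε (hb t r hr)
  have hinbox : ∀ {T : ℝ} {z : ℝ → Fin d → ℝ}, IsCaratheodorySolution N k T z → t < T →
      ∃ a b : ℝ, 0 < a ∧ ∀ s ∈ Icc 0 t, z s ∈ box d a b := by
    intro T z hz htT
    have hsub : Icc 0 t ⊆ Ico 0 T := fun s hs => ⟨hs.1, lt_of_le_of_lt hs.2 htT⟩
    have hzc : ContinuousOn z (Icc 0 t) := hz.cont.mono hsub
    have hne : (Icc (0:ℝ) t).Nonempty := ⟨0, le_rfl, ht⟩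
    have hmin : ∀ i, ∃ m : ℝ, 0 < m ∧ ∀ s ∈ Icc 0 t, m ≤ z s i := by
      intro i
      obtain ⟨s₀, hs₀, hmin⟩ := isCompact_Icc.exists_isMinOn hne
        ((continuous_apply i).comp_continuousOn hzc)
      exact ⟨z s₀ i, hz.pos s₀ (hsub hs₀) i, fun s hs => hmin hs⟩
    choose m hm0 hm using hmin
    obtain ⟨R, hR⟩ := isCompact_Icc.exists_bound_of_continuousOn hzc
    refine ⟨(1 + ∑ i, (m i)⁻¹)⁻¹, R, ?_, ?_⟩
    · have : 0 ≤ ∑ i, (m i)⁻¹ := Finset.sum_nonneg (fun i _ => (inv_pos.mpr (hm0 i)).le)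
      positivity
    · intro s hs i
      constructor
      · refine le_trans ?_ (hm i s hs)
        have h1 : (m i)⁻¹ ≤ 1 + ∑ i, (m i)⁻¹ := by
          have h2 : (m i)⁻¹ ≤ ∑ i, (m i)⁻¹ :=
            Finset.single_le_sum (f := fun i => (m i)⁻¹)
              (fun i _ => (inv_pos.mpr (hm0 i)).le) (Finset.mem_univ i)
          linarith
        have hpos : 0 < 1 + ∑ i, (m i)⁻¹ := by
          have : 0 ≤ ∑ i, (m i)⁻¹ := Finset.sum_nonneg (fun i _ => (inv_pos.mpr (hm0 i)).le)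
          linarith
        exact (inv_le_comm₀ hpos (hm0 i)).mpr h1
      · have h1 := norm_le_pi_norm (z s) i
        have h2 := hR s hs
        rw [Real.norm_eq_abs] at h1
        exact (le_abs_self _).trans (h1.trans h2)
  obtain ⟨a₁, b₁, ha₁, hB₁⟩ := hinbox hx ht₁
  obtain ⟨a₂, b₂, ha₂, hB₂⟩ := hinbox hy ht₂
  set a := min a₁ a₂ with ha
  set b := max b₁ b₂ with hb'
  have hbx : ∀ s ∈ Icc 0 t, x s ∈ box d a b := fun s hs i =>
    ⟨(min_le_left _ _).trans (hB₁ s hs i).1, (hB₁ s hs i).2.trans (le_max_left _ _)⟩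
  have hby : ∀ s ∈ Icc 0 t, y s ∈ box d a b := fun s hs i =>
    ⟨(min_le_right _ _).trans (hB₂ s hs i).1, (hB₂ s hs i).2.trans (le_max_right _ _)⟩
  obtain ⟨L, hL, C, hC, hconst⟩ := exists_constants N ε⁻¹ a b (inv_pos.mpr hε).le
  have hsub₁ : Icc 0 t ⊆ Ico 0 T₁ := fun s hs => ⟨hs.1, lt_of_le_of_lt hs.2 ht₁⟩
  have hsub₂ : Icc 0 t ⊆ Ico 0 T₂ := fun s hs => ⟨hs.1, lt_of_le_of_lt hs.2 ht₂⟩
  have hst := stability N hL hC hconst hm hm habs habs ht (hx.cont.mono hsub₁) (hy.cont.mono hsub₂)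
    hbx hby (fun s hs => hx.integral s (hsub₁ hs)) (fun s hs => hy.integral s (hsub₂ hs)) h0
    t ⟨ht, le_rfl⟩
  have hzero : ∫ s in (0 : ℝ)..t, rateDist N k k s = 0 := by
    have : rateDist N k k = fun _ => 0 := by
      funext s
      simp [rateDist]
    rw [this]
    simp
  rw [hzero, mul_zero, zero_mul] at hst
  exact sub_eq_zero.mp (norm_le_zero_iff.mp hst)

/-- Permanence for measurable rates. -/
theorem measurable_main (N : Network d) (hN : N.WeaklyReversible) (ε : ℝ) (hε : 0 < ε)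
    (c : Fin d → ℝ) (hc : ∀ i, 0 < c i) :
    ∃ K : Set (Fin d → ℝ), IsCompact K ∧ (∀ y ∈ K, (∀ i, 0 < y i) ∧ y - c ∈ N.stoich) ∧
      ∀ x₀ : Fin d → ℝ, (∀ i, 0 < x₀ i) → x₀ - c ∈ N.stoich →
        ∃ T₀ : ℝ, 0 ≤ T₀ ∧ ∀ k : ℝ → Cplx d × Cplx d → ℝ,
          (∀ r ∈ N.reactions, Measurable (fun t => k t r)) →
          (∀ t, ∀ r ∈ N.reactions, ε ≤ k t r ∧ k t r ≤ ε⁻¹) →
          ∃ x : ℝ → Fin d → ℝ, x 0 = x₀ ∧
            (∀ t, 0 ≤ t → (∀ i, 0 < x t i) ∧ x t - c ∈ N.stoich) ∧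
            (∀ T, IsCaratheodorySolution N k T x) ∧
            (∀ (T : ℝ) (x' : ℝ → Fin d → ℝ), IsCaratheodorySolution N k T x' → x' 0 = x₀ →
              ∀ t ∈ Ico 0 T, x' t = x t) ∧
            ∀ t, T₀ ≤ t → x t ∈ K := by
  classical
  obtain ⟨K, hKc, hKP, hKabs⟩ := Gen.absorbing_compact N hN ε hε c hc
  refine ⟨K, hKc, hKP, ?_⟩
  intro x₀ hx₀ hx₀c
  obtain ⟨T₁, hT₁⟩ := hKabs x₀ hx₀ hx₀c
  obtain ⟨δ, hδ, R, hR⟩ := Gen.bounded_persistent N hN ε hε x₀ hx₀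
  refine ⟨max T₁ 0, le_max_right _ _, ?_⟩
  intro k hm hb
  obtain ⟨L, hL, C, hC, hconst⟩ := exists_constants N ε⁻¹ δ R (inv_pos.mpr hε).le
  obtain ⟨Ks, X, hKm, hKb, hX0, hXS, hXP, hint⟩ := approx_seq N hN hε hm hb x₀ hx₀
  have hXb : ∀ n t, 0 ≤ t → X n t ∈ box d δ R := by
    intro n t ht i
    exact hR (Ks n) (fun s r hr => hKb n s r hr) (t + 1) (X n) (hXP n (t + 1)) (hX0 n) t
      ⟨ht, by linarith⟩ i
  have hcau : ∀ (T : ℝ), 0 ≤ T → ∀ n m : ℕ, T ≤ n → T ≤ m → ∀ t ∈ Icc 0 T,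
      ‖X n t - X m t‖ ≤ C * (1 / ((n : ℝ) + 1) + 1 / ((m : ℝ) + 1)) * Real.exp (L * T) :=
    fun T hT n m hn hm' t ht =>
      seq_cauchy N hε hL hC hconst hm hb hKm hKb hX0 hXP hXb hint hT hn hm' ht
  obtain ⟨x, hxlim, herr⟩ := limit_exists hC hcau
  have hXc : ∀ n T, ContinuousOn (X n) (Icc 0 T) := fun n T =>
    (hXP n (T + 1)).cont.mono (fun s hs => ⟨hs.1, by linarith [hs.2]⟩)
  have hxc : ∀ T, 0 ≤ T → ContinuousOn x (Icc 0 T) := fun T hT => limit_continuousOn hXc herr hT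
  have hxb : ∀ t, 0 ≤ t → x t ∈ box d δ R := fun t ht =>
    (isClosed_box δ R).mem_of_tendsto (hxlim t ht)
      (Eventually.of_forall (fun n => hXb n t ht))
  have hS0 : IsClosed (N.stoich : Set (Fin d → ℝ)) := Submodule.closed_of_finiteDimensional _
  have hxS : ∀ t, 0 ≤ t → x t - x₀ ∈ N.stoich := fun t ht =>
    hS0.mem_of_tendsto ((hxlim t ht).sub_const x₀)
      (Eventually.of_forall (fun n => hXS n t ht))
  have hx00 : x 0 = x₀ := by
    have h1 := hxlim 0 le_rfl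
    simp only [hX0] at h1
    exact tendsto_nhds_unique h1 tendsto_const_nhds
  have hxi : ∀ t, 0 ≤ t → ∀ i, x t i = x₀ i + ∫ s in (0 : ℝ)..t, massAction N (k s) (x s) i :=
    fun t ht i => limit_integral N hε hL hC hconst hm hb hKm hKb hX0 hXP hXb hint hxb hxc herr ht i
  have hxpos : ∀ t, 0 ≤ t → ∀ i, 0 < x t i := fun t ht i =>
    lt_of_lt_of_le hδ (hxb t ht i).1
  have hxcont : ContinuousOn x (Ici 0) := by
    intro t ht
    have ht' : (0:ℝ) ≤ t := ht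
    have h1 : ContinuousWithinAt x (Icc 0 (t + 1)) t :=
      hxc (t + 1) (by linarith) t ⟨ht', by linarith⟩
    refine h1.mono_of_mem_nhdsWithin ?_
    rw [← Ici_inter_Iic]
    exact inter_mem_nhdsWithin _ (Iic_mem_nhds (by linarith))
  have hxC : ∀ T, IsCaratheodorySolution N k T x := by
    intro T
    refine ⟨fun t ht => hxpos t ht.1, hxcont.mono (fun s hs => hs.1), fun t ht i => ?_⟩
    rw [hx00]
    exact hxi t ht.1 i
  refine ⟨x, hx00, ?_, hxC, ?_, ?_⟩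
  · intro t ht
    refine ⟨hxpos t ht, ?_⟩
    have := N.stoich.add_mem (hxS t ht) hx₀c
    convert this using 1
    abel
  · intro T x' hx' h0 t ht
    exact caratheodory_unique N hε hm hb hx' (hxC (t + 1)) (by rw [h0, hx00]) ht.1 ht.2
      (by linarith)
  · intro t ht
    have ht0 : 0 ≤ t := (le_max_right _ _).trans ht
    have ht1 : T₁ ≤ t := (le_max_left _ _).trans ht
    refine hKc.isClosed.mem_of_tendsto (hxlim t ht0) (Eventually.of_forall (fun n => ?_))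
    exact hT₁ (Ks n) (fun s r hr => hKb n s r hr) (t + 1) (X n) (hXP n (t + 1)) (hX0 n) t
      ⟨ht0, by linarith⟩ ht1

end Vale.Agent.P072.Meas
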