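import Vale.Agent.P072.MeasBase

/-! Stability of Caratheodory solutions under a change of the rates in `L¹`. -/

set_option linter.unusedVariables false
set_option linter.unusedSimpArgs false

namespace Vale.Agent.P072.Meas

open Set Filter Topology MeasureTheory

variable {d : ℕ}

/-- The `L¹` integrand of the difference of two rate functions. -/
noncomputable def rateDist (N : Network d) (k₁ k₂ : ℝ → Cplx d × Cplx d → ℝ) (s : ℝ) : ℝ :=
  ∑ r ∈ N.reactions, |k₁ s r - k₂ s r|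

theorem rateDist_nonneg (N : Network d) (k₁ k₂ : ℝ → Cplx d × Cplx d → ℝ) (s : ℝ) :
    0 ≤ rateDist N k₁ k₂ s := Finset.sum_nonneg (fun _ _ => abs_nonneg _)

theorem rateDist_intervalIntegrable (N : Network d) {k₁ k₂ : ℝ → Cplx d × Cplx d → ℝ} {E : ℝ}
    (hm₁ : ∀ r ∈ N.reactions, Measurable (fun t => k₁ t r))
    (hm₂ : ∀ r ∈ N.reactions, Measurable (fun t => k₂ t r))
    (hb₁ : ∀ t, ∀ r ∈ N.reactions, |k₁ t r| ≤ E)
    (hb₂ : ∀ t, ∀ r ∈ N.reactions, |k₂ t r| ≤ E) (a b : ℝ) :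
    IntervalIntegrable (rateDist N k₁ k₂) volume a b := by
  have hsum : IntervalIntegrable
      (∑ r ∈ N.reactions, fun s => |k₁ s r - k₂ s r|) volume a b := by
    apply IntervalIntegrable.sum
    intro r hr
    rw [intervalIntegrable_iff]
    apply Measure.integrableOn_of_bounded (M := E + E)
    · simp
    · exact (((hm₁ r hr).sub (hm₂ r hr)).abs).aestronglyMeasurable
    · exact Eventually.of_forall (fun s => by
        rw [Real.norm_eq_abs, abs_abs]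
        exact (abs_sub _ _).trans (add_le_add (hb₁ s r hr) (hb₂ s r hr)))
  convert hsum using 1
  funext s
  simp [rateDist, Finset.sum_apply]

/-- Stability estimate. -/
theorem stability (N : Network d) {E L C a b : ℝ} (hL : 0 ≤ L) (hC : 0 ≤ C)
    (hconst : ∀ (κ₁ κ₂ : Cplx d × Cplx d → ℝ), (∀ r ∈ N.reactions, |κ₁ r| ≤ E) →
      ∀ x ∈ box d a b, ∀ y ∈ box d a b, ∀ i,
        |massAction N κ₁ x i - massAction N κ₂ y i| ≤
          L * ‖x - y‖ + C * ∑ r ∈ N.reactions, |κ₁ r - κ₂ r|)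
    {k₁ k₂ : ℝ → Cplx d × Cplx d → ℝ}
    (hm₁ : ∀ r ∈ N.reactions, Measurable (fun t => k₁ t r))
    (hm₂ : ∀ r ∈ N.reactions, Measurable (fun t => k₂ t r))
    (hb₁ : ∀ t, ∀ r ∈ N.reactions, |k₁ t r| ≤ E)
    (hb₂ : ∀ t, ∀ r ∈ N.reactions, |k₂ t r| ≤ E)
    {x₁ x₂ : ℝ → Fin d → ℝ} {T : ℝ} (hT : 0 ≤ T)
    (hc₁ : ContinuousOn x₁ (Icc 0 T)) (hc₂ : ContinuousOn x₂ (Icc 0 T))
    (hB₁ : ∀ t ∈ Icc 0 T, x₁ t ∈ box d a b) (hB₂ : ∀ t ∈ Icc 0 T, x₂ t ∈ box d a b)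
    (hi₁ : ∀ t ∈ Icc 0 T, ∀ i, x₁ t i = x₁ 0 i + ∫ s in (0 : ℝ)..t, massAction N (k₁ s) (x₁ s) i)
    (hi₂ : ∀ t ∈ Icc 0 T, ∀ i, x₂ t i = x₂ 0 i + ∫ s in (0 : ℝ)..t, massAction N (k₂ s) (x₂ s) i)
    (h0 : x₁ 0 = x₂ 0) :
    ∀ t ∈ Icc 0 T, ‖x₁ t - x₂ t‖ ≤
      (C * ∫ s in (0 : ℝ)..T, rateDist N k₁ k₂ s) * Real.exp (L * t) := by
  set A : ℝ := C * ∫ s in (0 : ℝ)..T, rateDist N k₁ k₂ s with hA
  have hD := rateDist_intervalIntegrable N hm₁ hm₂ hb₁ hb₂
  have hAnn : 0 ≤ A := mul_nonneg hC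
    (intervalIntegral.integral_nonneg hT (fun s _ => rateDist_nonneg N k₁ k₂ s))
  set u : ℝ → ℝ := fun t => ‖x₁ t - x₂ t‖ with hu
  have huc : ContinuousOn u (Icc 0 T) := (hc₁.sub hc₂).norm
  have huI : ∀ t ∈ Icc 0 T, IntervalIntegrable u volume 0 t := by
    intro t ht
    apply ContinuousOn.intervalIntegrable
    rw [uIcc_of_le ht.1]
    exact huc.mono (Icc_subset_Icc_right ht.2)
  apply gronwall_int hT hL huc
  intro t ht
  have hsub : Icc 0 t ⊆ Icc 0 T := Icc_subset_Icc_right ht.2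
  have hc₁t : ContinuousOn x₁ (uIcc 0 t) := by
    rw [uIcc_of_le ht.1]
    exact hc₁.mono hsub
  have hc₂t : ContinuousOn x₂ (uIcc 0 t) := by
    rw [uIcc_of_le ht.1]
    exact hc₂.mono hsub
  have hnn : 0 ≤ ∫ s in (0 : ℝ)..t, u s :=
    intervalIntegral.integral_nonneg ht.1 (fun s _ => norm_nonneg _)
  have hrhs : 0 ≤ A + L * ∫ s in (0 : ℝ)..t, u s := add_nonneg hAnn (mul_nonneg hL hnn)
  refine (pi_norm_le_iff_of_nonneg hrhs).mpr ?_
  intro i
  rw [Real.norm_eq_abs]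
  have hI₁ := integrand_intervalIntegrable N hm₁ hb₁ hc₁t i
  have hI₂ := integrand_intervalIntegrable N hm₂ hb₂ hc₂t i
  have hdiff : (x₁ t - x₂ t) i = ∫ s in (0 : ℝ)..t,
      (massAction N (k₁ s) (x₁ s) i - massAction N (k₂ s) (x₂ s) i) := by
    rw [intervalIntegral.integral_sub hI₁ hI₂, Pi.sub_apply, hi₁ t ht i, hi₂ t ht i, h0]
    ring
  rw [hdiff]
  have hg : IntervalIntegrable (fun s => L * u s + C * rateDist N k₁ k₂ s) volume 0 t :=
    ((huI t ht).const_mul L).add ((hD 0 t).const_mul C)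
  have hbound : ∀ᵐ s ∂(volume : Measure ℝ), s ∈ Ioc (0:ℝ) t →
      ‖massAction N (k₁ s) (x₁ s) i - massAction N (k₂ s) (x₂ s) i‖ ≤
        L * u s + C * rateDist N k₁ k₂ s := by
    refine Eventually.of_forall (fun s hs => ?_)
    have hsI : s ∈ Icc 0 T := ⟨hs.1.le, hs.2.trans ht.2⟩
    rw [Real.norm_eq_abs]
    exact hconst (k₁ s) (k₂ s) (fun r hr => hb₁ s r hr) _ (hB₁ s hsI) _ (hB₂ s hsI) i
  have h1 := intervalIntegral.norm_integral_le_of_norm_le ht.1 hbound hg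
  rw [Real.norm_eq_abs] at h1
  refine h1.trans ?_
  rw [intervalIntegral.integral_add ((huI t ht).const_mul L) ((hD 0 t).const_mul C),
    intervalIntegral.integral_const_mul, intervalIntegral.integral_const_mul]
  have h2 : ∫ s in (0 : ℝ)..t, rateDist N k₁ k₂ s ≤ ∫ s in (0 : ℝ)..T, rateDist N k₁ k₂ s :=
    intervalIntegral.integral_mono_interval le_rfl ht.1 ht.2
      (Eventually.of_forall (fun s => rateDist_nonneg N k₁ k₂ s)) (hD 0 T)
  have h3 := mul_le_mul_of_nonneg_left h2 hC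
  linarith

/-- Integral form of a solution with right derivatives. -/
theorem integral_of_positive (N : Network d) {k : ℝ → Cplx d × Cplx d → ℝ} {E : ℝ}
    (hm : ∀ r ∈ N.reactions, Measurable (fun t => k t r))
    (hb : ∀ t, ∀ r ∈ N.reactions, |k t r| ≤ E) {T : ℝ} {x : ℝ → Fin d → ℝ}
    (hx : IsPositiveSolution N k T x) {t : ℝ} (ht : t ∈ Ico 0 T) (i : Fin d) :
    x t i = x 0 i + ∫ s in (0 : ℝ)..t, massAction N (k s) (x s) i := by
  have hsub : Icc 0 t ⊆ Ico 0 T := fun s hs => ⟨hs.1, lt_of_le_of_lt hs.2 ht.2⟩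
  have hc : ContinuousOn x (uIcc 0 t) := by
    rw [uIcc_of_le ht.1]
    exact hx.cont.mono hsub
  have hci : ContinuousOn (fun s => x s i) (uIcc 0 t) :=
    (continuous_apply i).comp_continuousOn hc
  have hI := integrand_intervalIntegrable N hm hb hc i
  have hderiv : ∀ s ∈ Ioo (min 0 t) (max 0 t),
      HasDerivWithinAt (fun s => x s i) (massAction N (k s) (x s) i) (Ioi s) s := by
    intro s hs
    rw [min_eq_left ht.1, max_eq_right ht.1] at hs
    have h1 := hx.deriv s ⟨hs.1.le, hs.2.trans ht.2⟩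
    have h2 := (hasDerivWithinAt_pi.mp h1) i
    exact h2.mono Ioi_subset_Ici_self
  have := intervalIntegral.integral_eq_sub_of_hasDeriv_right hci hderiv hI
  rw [this]
  ring

end Vale.Agent.P072.Meas
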