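import Vale.Agent.P072.MeasStab

/-! Global solutions for piecewise constant rates, by gluing constant-rate flows. -/

set_option linter.unusedVariables false
set_option linter.unusedSimpArgs false

namespace Vale.Agent.P072.Meas

open Set Filter Topology MeasureTheory

variable {d : ℕ}

theorem flow_exists (N : Network d) (hN : N.WeaklyReversible) (κ : Cplx d × Cplx d → ℝ)
    (hκ : ∀ r ∈ N.reactions, 0 < κ r) (y : Fin d → ℝ) (hy : ∀ i, 0 < y i) :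
    ∃ g : ℝ → Fin d → ℝ, g 0 = y ∧ (∀ t, 0 ≤ t → (∀ i, 0 < g t i) ∧ g t - y ∈ N.stoich) ∧
      (∀ t, 0 ≤ t → HasDerivWithinAt g (massAction N κ (g t)) (Ici t) t) ∧
      (∀ t, 0 < t → ContinuousAt g t) := by
  obtain ⟨K, -, -, hK⟩ := Gen.permanent N hN κ hκ y hy
  obtain ⟨g, hg0, hgp, hgd0, hgd, -, -⟩ := hK y hy (by simp)
  refine ⟨g, hg0, hgp, ?_, fun t ht => (hgd t ht).continuousAt⟩
  intro t ht
  rcases eq_or_lt_of_le ht with rfl | h
  · rw [hg0]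
    exact hgd0
  · exact (hgd t h).hasDerivWithinAt

theorem floor_eq_of_mem {h : ℝ} (hh : 0 < h) {j : ℕ} {s : ℝ} (h1 : (j : ℝ) * h ≤ s)
    (h2 : s < ((j : ℝ) + 1) * h) : ⌊s / h⌋₊ = j := by
  have h0 : 0 ≤ s / h := by
    have : 0 ≤ s := le_trans (by positivity) h1
    positivity
  rw [Nat.floor_eq_iff h0]
  constructor
  · rwa [le_div_iff₀ hh]
  · rwa [div_lt_iff₀ hh]

theorem floor_mem {h : ℝ} (hh : 0 < h) {t : ℝ} (ht : 0 ≤ t) :
    ((⌊t / h⌋₊ : ℕ) : ℝ) * h ≤ t ∧ t < (((⌊t / h⌋₊ : ℕ) : ℝ) + 1) * h := by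
  have h0 : 0 ≤ t / h := by positivity
  constructor
  · have := Nat.floor_le h0
    rwa [le_div_iff₀ hh] at this
  · have := Nat.lt_floor_add_one (t / h)
    rwa [div_lt_iff₀ hh] at this

/-- A global solution for a piecewise constant rate function. -/
theorem step_solution (N : Network d) (hN : N.WeaklyReversible) {h : ℝ} (hh : 0 < h)
    (κ : ℕ → Cplx d × Cplx d → ℝ) (hκ : ∀ j, ∀ r ∈ N.reactions, 0 < κ j r)
    (x₀ : Fin d → ℝ) (hx₀ : ∀ i, 0 < x₀ i) :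
    ∃ x : ℝ → Fin d → ℝ, x 0 = x₀ ∧ (∀ t, 0 ≤ t → x t - x₀ ∈ N.stoich) ∧
      ∀ T, IsPositiveSolution N (fun t => κ ⌊t / h⌋₊) T x := by
  classical
  have hflow : ∀ (j : ℕ) (y : {y : Fin d → ℝ // ∀ i, 0 < y i}),
      ∃ g : ℝ → Fin d → ℝ, g 0 = y.1 ∧ (∀ t, 0 ≤ t → (∀ i, 0 < g t i) ∧ g t - y.1 ∈ N.stoich) ∧
        (∀ t, 0 ≤ t → HasDerivWithinAt g (massAction N (κ j) (g t)) (Ici t) t) ∧
        (∀ t, 0 < t → ContinuousAt g t) :=
    fun j y => flow_exists N hN (κ j) (hκ j) y.1 y.2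
  choose g hg0 hgp hgd hgc using hflow
  let Y : ℕ → {y : Fin d → ℝ // ∀ i, 0 < y i} := fun j =>
    Nat.rec ⟨x₀, hx₀⟩ (fun j y => ⟨g j y h, (hgp j y h hh.le).1⟩) j
  have hY0 : (Y 0).1 = x₀ := rfl
  have hYs : ∀ j, (Y (j + 1)).1 = g j (Y j) h := fun j => rfl
  have hYS : ∀ j, (Y j).1 - x₀ ∈ N.stoich := by
    intro j
    induction j with
    | zero => simp [hY0]
    | succ j ih =>
      rw [hYs]
      have h1 := (hgp j (Y j) h hh.le).2
      have h2 := N.stoich.add_mem h1 ih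
      convert h2 using 1
      abel
  let x : ℝ → Fin d → ℝ := fun t => g ⌊t / h⌋₊ (Y ⌊t / h⌋₊) (t - (⌊t / h⌋₊ : ℝ) * h)
  have hxe : ∀ (j : ℕ) (s : ℝ), (j : ℝ) * h ≤ s → s ≤ ((j : ℝ) + 1) * h →
      x s = g j (Y j) (s - (j : ℝ) * h) := by
    intro j s h1 h2
    rcases eq_or_lt_of_le h2 with rfl | h3
    · have hf : ⌊(((j : ℝ) + 1) * h) / h⌋₊ = j + 1 := by
        apply floor_eq_of_mem hh
        · push_cast
          exact le_rfl
        · push_cast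
          nlinarith
      have e : ((j : ℝ) + 1) * h - (j : ℝ) * h = h := by ring
      show g ⌊(((j : ℝ) + 1) * h) / h⌋₊ (Y ⌊(((j : ℝ) + 1) * h) / h⌋₊)
        (((j : ℝ) + 1) * h - (⌊(((j : ℝ) + 1) * h) / h⌋₊ : ℝ) * h) = _
      rw [hf, e]
      have e2 : ((j : ℝ) + 1) * h - ((j + 1 : ℕ) : ℝ) * h = 0 := by
        push_cast
        ring
      rw [e2, hg0, hYs]
    · have hf := floor_eq_of_mem hh h1 h3
      show g ⌊s / h⌋₊ (Y ⌊s / h⌋₊) (s - (⌊s / h⌋₊ : ℝ) * h) = _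
      rw [hf]
  have hxfl : ∀ t, 0 ≤ t → x t = g ⌊t / h⌋₊ (Y ⌊t / h⌋₊) (t - (⌊t / h⌋₊ : ℝ) * h) := fun t _ => rfl
  have hpos : ∀ t, 0 ≤ t → ∀ i, 0 < x t i := by
    intro t ht i
    obtain ⟨h1, h2⟩ := floor_mem hh ht
    exact (hgp _ _ _ (by linarith)).1 i
  have hS : ∀ t, 0 ≤ t → x t - x₀ ∈ N.stoich := by
    intro t ht
    obtain ⟨h1, h2⟩ := floor_mem hh ht
    have h3 := (hgp ⌊t / h⌋₊ (Y ⌊t / h⌋₊) (t - (⌊t / h⌋₊ : ℝ) * h) (by linarith)).2
    have h4 := N.stoich.add_mem h3 (hYS ⌊t / h⌋₊)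
    have e : x t - x₀ = g ⌊t / h⌋₊ (Y ⌊t / h⌋₊) (t - (⌊t / h⌋₊ : ℝ) * h) - (Y ⌊t / h⌋₊).1
        + ((Y ⌊t / h⌋₊).1 - x₀) := by
      rw [hxfl t ht]
      abel
    rw [e]
    exact h4
  have hder : ∀ t, 0 ≤ t →
      HasDerivWithinAt x (massAction N (κ ⌊t / h⌋₊) (x t)) (Ici t) t := by
    intro t ht
    obtain ⟨h1, h2⟩ := floor_mem hh ht
    set j := ⌊t / h⌋₊ with hj
    set τ := t - (j : ℝ) * h with hτ
    have hτ0 : 0 ≤ τ := by rw [hτ]; linarith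
    have hG := hgd j (Y j) τ hτ0
    have hs : HasDerivWithinAt (fun s : ℝ => s - (j : ℝ) * h) 1 (Ici t) t :=
      ((hasDerivAt_id t).sub_const _).hasDerivWithinAt
    have hmaps : MapsTo (fun s : ℝ => s - (j : ℝ) * h) (Ici t) (Ici τ) := by
      intro s hs
      simp only [mem_Ici] at hs ⊢
      rw [hτ]
      linarith
    have hcomp := HasDerivWithinAt.scomp t hG hs hmaps
    rw [one_smul] at hcomp
    have hxt : x t = g j (Y j) τ := hxe j t h1 h2.le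
    rw [hxt]
    refine hcomp.congr_of_eventuallyEq ?_ hxt
    have hmem : Ico t (((j : ℝ) + 1) * h) ∈ 𝓝[≥] t := Ico_mem_nhdsGE h2
    filter_upwards [hmem] with s hs
    exact hxe j s (h1.trans hs.1) hs.2.le
  have hcont : ∀ t, 0 < t → ContinuousAt x t := by
    intro t ht
    have hright := (hder t ht.le).continuousWithinAt
    have hleft : ContinuousWithinAt x (Iic t) t := by
      obtain ⟨j, hj1, hj2⟩ : ∃ j : ℕ, (j : ℝ) * h < t ∧ t ≤ ((j : ℝ) + 1) * h := by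
        have h0 : 0 < t / h := div_pos ht hh
        have hc : 0 < ⌈t / h⌉₊ := Nat.ceil_pos.mpr h0
        refine ⟨⌈t / h⌉₊ - 1, ?_, ?_⟩
        · have h3 : ((⌈t / h⌉₊ - 1 : ℕ) : ℝ) < t / h := by
            rw [Nat.cast_sub hc]
            have := Nat.ceil_lt_add_one h0.le
            push_cast
            linarith
          rwa [lt_div_iff₀ hh] at h3
        · have h3 : t / h ≤ (((⌈t / h⌉₊ - 1 : ℕ) : ℝ) + 1) := by
            rw [Nat.cast_sub hc]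
            push_cast
            have := Nat.le_ceil (t / h)
            linarith
          rwa [div_le_iff₀ hh] at h3
      have hc0 : ContinuousAt (g j (Y j)) (t - (j : ℝ) * h) := hgc j (Y j) _ (by linarith)
      have hc1 : ContinuousAt (fun s : ℝ => g j (Y j) (s - (j : ℝ) * h)) t :=
        ContinuousAt.comp (f := fun s : ℝ => s - (j : ℝ) * h) hc0
          (continuous_id.sub continuous_const).continuousAt
      refine hc1.continuousWithinAt.congr_of_eventuallyEq ?_ (hxe j t hj1.le hj2)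
      have hmem : Ioc ((j : ℝ) * h) t ∈ 𝓝[≤] t := Ioc_mem_nhdsLE hj1
      filter_upwards [hmem] with s hs
      exact hxe j s hs.1.le (hs.2.trans hj2)
    exact continuousAt_iff_continuous_left_right.mpr ⟨hleft, hright⟩
  refine ⟨x, ?_, hS, ?_⟩
  · have hf : ⌊(0 : ℝ) / h⌋₊ = 0 := by simp
    show g ⌊(0 : ℝ) / h⌋₊ (Y ⌊(0 : ℝ) / h⌋₊) (0 - (⌊(0 : ℝ) / h⌋₊ : ℝ) * h) = x₀
    rw [hf]
    simp [hg0, hY0]
  · intro T
    refine ⟨fun t ht => hpos t ht.1, ?_, fun t ht => hder t ht.1⟩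
    intro t ht
    rcases eq_or_lt_of_le ht.1 with h0 | h0
    · rw [← h0]
      exact ((hder 0 le_rfl).continuousWithinAt).mono (fun s hs => hs.1)
    · exact (hcont t h0).continuousWithinAt

end Vale.Agent.P072.Meas
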