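import Vale.Agent.P072.PersistFamily

/-!
The entropy inequality along solutions, on half-open and closed time intervals.
-/

namespace Vale.Agent.P072.Persist

noncomputable section

open Classical Filter Topology
open Vale.Agent.P072.Gen (Ee)

variable {d : ℕ}

/-- Time shift of a solution. -/
theorem IsPositiveSolution.shift {N : Network d} {k : ℝ → Cplx d × Cplx d → ℝ} {T : ℝ}
    {x : ℝ → Fin d → ℝ} (hsol : IsPositiveSolution N k T x) {t₀ : ℝ} (h0 : 0 ≤ t₀) {T' : ℝ}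
    (hT : t₀ + T' ≤ T) :
    IsPositiveSolution N (fun s => k (t₀ + s)) T' (fun s => x (t₀ + s)) := by
  have hmem : ∀ s ∈ Set.Ico (0 : ℝ) T', t₀ + s ∈ Set.Ico 0 T := by
    intro s hs
    exact ⟨by linarith [hs.1], by linarith [hs.2]⟩
  refine ⟨fun s hs => hsol.pos _ (hmem s hs), ?_, ?_⟩
  · have hc : ContinuousOn (fun s : ℝ => t₀ + s) (Set.Ico 0 T') := by fun_prop
    exact hsol.cont.comp hc hmem
  · intro s hs
    have h1 := hsol.deriv _ (hmem s hs)
    have h2 : HasDerivWithinAt (fun s : ℝ => t₀ + s) 1 (Set.Ici s) s :=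
      ((hasDerivAt_id s).const_add t₀).hasDerivWithinAt
    have h3 := HasDerivWithinAt.scomp (h := fun s : ℝ => t₀ + s) (g₁ := x) s h1 h2 (by
      intro u hu
      show t₀ + u ∈ Set.Ici (t₀ + s)
      have : s ≤ u := hu
      simp only [Set.mem_Ici]
      linarith)
    simp only [one_smul] at h3
    exact h3

/-- The derivative of an affine function along a solution. -/
theorem aff_deriv {x : ℝ → Fin d → ℝ} {F : Fin d → ℝ} {t : ℝ}
    (hd : HasDerivWithinAt x F (Set.Ici t) t) (u : (Fin d → ℝ) × ℝ) :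
    HasDerivWithinAt (fun s => aff u (x s)) (∑ j, u.1 j * F j) (Set.Ici t) t := by
  unfold aff
  apply HasDerivWithinAt.add_const
  apply HasDerivWithinAt.fun_sum
  intro j _
  exact ((hasDerivWithinAt_pi.mp hd) j).const_mul _

theorem aff_cont {x : ℝ → Fin d → ℝ} {A : Set ℝ} (hc : ContinuousOn x A)
    (u : (Fin d → ℝ) × ℝ) : ContinuousOn (fun s => aff u (x s)) A := by
  unfold aff
  apply ContinuousOn.add _ continuousOn_const
  apply continuousOn_finsetSum
  intro j _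
  exact continuousOn_const.mul ((continuous_apply j).comp_continuousOn hc)

/-- Logarithms are bounded on a compact part of a solution. -/
theorem exists_log_bound {N : Network d} {k : ℝ → Cplx d × Cplx d → ℝ} {T : ℝ}
    {x : ℝ → Fin d → ℝ} (hsol : IsPositiveSolution N k T x) {T₂ : ℝ} (hT₂ : T₂ < T) :
    ∃ M₀ : ℝ, ∀ s ∈ Set.Icc 0 T₂, ∀ j, |Real.log (x s j)| ≤ M₀ := by
  have hsub : Set.Icc 0 T₂ ⊆ Set.Ico 0 T := fun s hs => ⟨hs.1, lt_of_le_of_lt hs.2 hT₂⟩
  have hlogc : ContinuousOn (fun s => ∑ j, |Real.log (x s j)|) (Set.Icc 0 T₂) := by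
    apply continuousOn_finsetSum
    intro j _
    apply ContinuousOn.abs
    apply ContinuousOn.log
    · exact (continuous_apply j).comp_continuousOn (hsol.cont.mono hsub)
    · intro s hs
      exact (hsol.pos s (hsub hs) j).ne'
  obtain ⟨M₀, hM₀⟩ := isCompact_Icc.exists_bound_of_continuousOn hlogc
  refine ⟨M₀, ?_⟩
  intro s hs j
  have h1 := hM₀ s hs
  have h2 : |Real.log (x s j)| ≤ ∑ j, |Real.log (x s j)| :=
    Finset.single_le_sum (f := fun j => |Real.log (x s j)|) (fun j _ => abs_nonneg _)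
      (Finset.mem_univ j)
  have h3 := le_abs_self (∑ j, |Real.log (x s j)|)
  rw [Real.norm_eq_abs] at h1
  linarith

/-- The entropy inequality on a half-open interval. -/
theorem entropy_ineq {N : Network d} {κ G Z Wb : ℝ}
    (hF : ∀ R' : ℝ, ∃ W, Family N κ G Z Wb R' W)
    {k : ℝ → Cplx d × Cplx d → ℝ} {T : ℝ} (hk : ∀ t ∈ Set.Ico 0 T, ∀ r ∈ N.reactions,
      κ ≤ k t r ∧ k t r ≤ κ⁻¹)
    {x : ℝ → Fin d → ℝ} (hsol : IsPositiveSolution N k T x) {t : ℝ} (ht : t ∈ Set.Ico 0 T) :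
    ∑ j, (Ee (x t j) - G * x t j) ≤ ∑ j, (Ee (x 0 j) + Z * x 0 j) := by
  set T₂ := (t + T) / 2 with hT₂
  have htT₂ : t < T₂ := by
    have := ht.2
    rw [hT₂]
    linarith
  have hT₂T : T₂ < T := by
    have := ht.2
    rw [hT₂]
    linarith
  have hsub : Set.Icc 0 T₂ ⊆ Set.Ico 0 T := fun s hs => ⟨hs.1, lt_of_le_of_lt hs.2 hT₂T⟩
  obtain ⟨M₀, hM₀⟩ := exists_log_bound hsol hT₂T
  obtain ⟨W, hW⟩ := hF M₀
  have h0mem : (0 : ℝ) ∈ Set.Ico 0 T := ⟨le_rfl, lt_of_le_of_lt ht.1 ht.2⟩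
  have hbound := Vale.Agent.P072.max_le_of_right W (fun u s => aff u (x s)) (T := T₂)
    (C := ∑ j, (Ee (x 0 j) + Z * x 0 j))
    (fun u hu => hW.upper u hu _ (hsol.pos 0 h0mem))
    (fun u _ => aff_cont (hsol.cont.mono
      (fun s hs => ⟨hs.1, lt_trans hs.2 hT₂T⟩)) u)
    (by
      intro s hs u hu _ hact ε' hε'
      have hsI : s ∈ Set.Icc 0 T₂ := ⟨hs.1, hs.2.le⟩
      have hsT : s ∈ Set.Ico 0 T := hsub hsI
      have hineq := hW.flow u hu (x s) (hsol.pos s hsT) (hM₀ s hsI) hact (k s) (hk s hsT)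
      have hder := aff_deriv (hsol.deriv s hsT) u
      have hslope := hder.Ioi_of_Ici.limsup_slope_le' (lt_irrefl s)
        (lt_of_le_of_lt hineq hε')
      have hself : ∀ᶠ s' in 𝓝[>] s, s < s' := self_mem_nhdsWithin
      filter_upwards [hslope, hself] with s' h1 h4
      rw [slope_def_field, div_lt_iff₀ (sub_pos.mpr h4)] at h1
      linarith)
  have htI : t ∈ Set.Icc 0 T₂ := ⟨ht.1, htT₂.le⟩
  obtain ⟨u, hu, hle⟩ := hW.lower (x t) (hsol.pos t (hsub htI)) (hM₀ t htI)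
  exact le_trans hle (hbound t ⟨ht.1, htT₂⟩ u hu)

theorem continuous_Ee : Continuous Ee := by
  unfold Ee
  exact Real.continuous_mul_log.sub continuous_id

/-- The closed-interval version, started at an arbitrary time. -/
theorem entropy_ineq_closed {N : Network d} {κ G Z Wb : ℝ}
    (hG : 0 ≤ G) (hZ : 0 ≤ Z)
    (hF : ∀ R' : ℝ, ∃ W, Family N κ G Z Wb R' W)
    {k : ℝ → Cplx d × Cplx d → ℝ} {t₀ t₁ : ℝ} (h0 : 0 ≤ t₀) (h01 : t₀ ≤ t₁)
    (hk : ∀ t ∈ Set.Icc t₀ t₁, ∀ r ∈ N.reactions, κ ≤ k t r ∧ k t r ≤ κ⁻¹)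
    {x : ℝ → Fin d → ℝ} (hsol : IsPositiveSolution N k t₁ x)
    (hcont : ContinuousOn x (Set.Icc t₀ t₁)) (hpos : ∀ j, 0 < x t₀ j) :
    ∑ j, (Ee (x t₁ j) - G * x t₁ j) ≤ ∑ j, (Ee (x t₀ j) + Z * x t₀ j) := by
  rcases eq_or_lt_of_le h01 with heq | hlt
  · rw [← heq]
    apply Finset.sum_le_sum
    intro j _
    have := hpos j
    nlinarith
  · set C := ∑ j, (Ee (x t₀ j) + Z * x t₀ j) with hC
    have hshift := IsPositiveSolution.shift hsol h0 (T' := t₁ - t₀) (by linarith)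
    have hhalf : ∀ s ∈ Set.Ico t₀ t₁, ∑ j, (Ee (x s j) - G * x s j) ≤ C := by
      intro s hs
      have h1 := entropy_ineq hF (k := fun s => k (t₀ + s)) (T := t₁ - t₀)
        (fun t ht r hr => hk _ ⟨by linarith [ht.1], by linarith [ht.2]⟩ r hr) hshift
        (t := s - t₀) ⟨by linarith [hs.1], by linarith [hs.2]⟩
      have e1 : t₀ + (s - t₀) = s := by ring
      have e2 : t₀ + 0 = t₀ := by ring
      simpa only [e1, e2] using h1
    set g : ℝ → ℝ := fun s => ∑ j, (Ee (x s j) - G * x s j) with hg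
    have hgc : ContinuousOn g (Set.Icc t₀ t₁) := by
      apply continuousOn_finsetSum
      intro j _
      have h1 : ContinuousOn (fun s => x s j) (Set.Icc t₀ t₁) :=
        (continuous_apply j).comp_continuousOn hcont
      exact (continuous_Ee.comp_continuousOn h1).sub (continuousOn_const.mul h1)
    have hclosed : IsClosed (Set.Icc t₀ t₁ ∩ g ⁻¹' Set.Iic C) :=
      hgc.preimage_isClosed_of_isClosed isClosed_Icc isClosed_Iic
    have hsubset : Set.Ico t₀ t₁ ⊆ Set.Icc t₀ t₁ ∩ g ⁻¹' Set.Iic C :=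
      fun s hs => ⟨⟨hs.1, hs.2.le⟩, hhalf s hs⟩
    have hclos : closure (Set.Ico t₀ t₁) ⊆ Set.Icc t₀ t₁ ∩ g ⁻¹' Set.Iic C :=
      closure_minimal hsubset hclosed
    rw [closure_Ico hlt.ne] at hclos
    exact (hclos ⟨h01, le_rfl⟩).2

end

end Vale.Agent.P072.Persist
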