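import Vale.Agent.P072.GenFinal

/-!
The finite family of affine functions behind the entropy bound, packaged abstractly:
a finite set of affine functions of the state whose maximum is comparable to the entropy
`∑ (z log z - z)` and whose active members do not increase along any admissible rates.
-/

namespace Vale.Agent.P072.Persist

noncomputable section

open Classical
open Vale.Agent.P072.Gen (Ee ext pos dotr Par)

variable {d : ℕ}

/-- Evaluating an affine function given by a coefficient vector and a constant. -/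
def aff (u : (Fin d → ℝ) × ℝ) (z : Fin d → ℝ) : ℝ := ∑ j, u.1 j * z j + u.2

/-- The package extracted from the hierarchical construction. -/
structure Family (N : Network d) (κ G Z Wb R' : ℝ) (W : Finset ((Fin d → ℝ) × ℝ)) : Prop where
  upper : ∀ u ∈ W, ∀ z : Fin d → ℝ, (∀ j, 0 < z j) → aff u z ≤ ∑ j, (Ee (z j) + Z * z j)
  lower : ∀ z : Fin d → ℝ, (∀ j, 0 < z j) → (∀ j, |Real.log (z j)| ≤ R') →
    ∃ u ∈ W, ∑ j, (Ee (z j) - G * z j) ≤ aff u z
  flow : ∀ u ∈ W, ∀ x : Fin d → ℝ, (∀ j, 0 < x j) → (∀ j, |Real.log (x j)| ≤ R') →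
    (∀ v ∈ W, aff v x ≤ aff u x) →
    ∀ k : Cplx d × Cplx d → ℝ, (∀ r ∈ N.reactions, κ ≤ k r ∧ k r ≤ κ⁻¹) →
      ∑ j, u.1 j * massAction N k x j ≤ 0
  window : ∀ u ∈ W, ∀ x : Fin d → ℝ, (∀ j, 0 < x j) → (∀ j, |Real.log (x j)| ≤ R') →
    (∀ v ∈ W, aff v x ≤ aff u x) → ∀ j, |Real.log (x j) - u.1 j| ≤ Wb

/-- Splitting a list at a position. -/
theorem split_at : ∀ (L : List ℝ) (i : ℕ), i < L.length →
    ∃ (S : List ℝ) (l : ℝ) (Q : List ℝ), L = S ++ l :: Q ∧ Q.length = i ∧ pos L i = l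
  | [], _, h => by simp at h
  | a :: T, i, h => by
    by_cases hi : i = T.length
    · exact ⟨[], a, T, rfl, hi.symm, if_pos hi⟩
    · have hi2 : i < T.length := by
        simp only [List.length_cons] at h
        omega
      obtain ⟨S, l, Q, h1, h2, h3⟩ := split_at T i hi2
      refine ⟨a :: S, l, Q, by rw [h1]; rfl, h2, ?_⟩
      have : pos (a :: T) i = pos T i := if_neg hi
      rw [this, h3]

/-- The coefficient vector attached to an arrangement and a list. -/
def coef {n : ℕ} (π : Equiv.Perm (Fin n)) (L : List ℝ) : Fin n → ℝ :=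
  fun j => pos L ((π⁻¹ j : Fin n) : ℕ)

theorem sum_coef {n : ℕ} (π : Equiv.Perm (Fin n)) (L : List ℝ) (z : Fin n → ℝ) :
    ∑ j, coef π L j * z j = ∑ i : Fin n, pos L i * z (π i) := by
  have h1 := Equiv.sum_comp π (fun j => coef π L j * z j)
  rw [← h1]
  apply Finset.sum_congr rfl
  intro i _
  unfold coef
  simp

theorem coef_apply {n : ℕ} (π : Equiv.Perm (Fin n)) (L : List ℝ) (i : Fin n) :
    coef π L (π i) = pos L i := by
  unfold coef
  simp

variable {p : Par} {B : ℝ}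

theorem aff_eq (p : Par) (π : Equiv.Perm (Fin p.d)) {L : List ℝ} (hlen : L.length = p.d)
    (z : Fin p.d → ℝ) :
    aff (coef π L, p.Psi (fun _ => 0) L) z = p.Psi (ext (fun j => z (π j))) L := by
  rw [Gen.psi_ext p _ hlen]
  unfold aff
  simp only
  rw [sum_coef]

theorem coef_eq_of_fun (p : Par) {π π' : Equiv.Perm (Fin p.d)} {L : List ℝ}
    (hlen : L.length = p.d)
    (h : ∀ z : Fin p.d → ℝ, p.Psi (ext (fun j => z (π' j))) L = p.Psi (ext (fun j => z (π j))) L) :
    coef π' L = coef π L := by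
  funext j
  have h1 := h (Pi.single j 1)
  rw [← aff_eq p π' hlen, ← aff_eq p π hlen] at h1
  unfold aff at h1
  simp only [add_left_inj] at h1
  simpa [Pi.single_apply] using h1

/-- A sorted arrangement at an active list, with the maximality package. -/
theorem active_mx {x : Fin p.d → ℝ} (hx : ∀ i, 0 < x i) {R R' : ℝ}
    (hR : R' + p.Zbar + 2 ≤ R)
    (hlog : ∀ i, |Real.log (x i)| ≤ R') {π : Equiv.Perm (Fin p.d)} {L : List ℝ}
    (hadm : p.Adm R L) (hlen : L.length = p.d)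
    (hact : ∀ (π' : Equiv.Perm (Fin p.d)) (L' : List ℝ), p.Adm R L' → L'.length = p.d →
      p.Psi (ext (fun j => x (π' j))) L' ≤ p.Psi (ext (fun j => x (π j))) L) :
    ∃ π' : Equiv.Perm (Fin p.d),
      (∀ z : Fin p.d → ℝ, p.Psi (ext (fun j => z (π' j))) L = p.Psi (ext (fun j => z (π j))) L) ∧
      Par.Mx p R R' (ext (fun j => x (π' j))) L := by
  set a : Fin p.d → ℝ := fun i => pos L i with ha
  have hanti : Antitone a := by
    intro i j hij
    exact Par.pos_anti L hadm i j hij (by rw [hlen]; exact j.isLt)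
  obtain ⟨τ, hτ1, hτ2⟩ := Gen.exists_sort a (fun j => x (π j)) hanti (by
    intro σ
    have h1 := hact (π * σ) L hadm hlen
    rw [Gen.psi_ext p _ hlen, Gen.psi_ext p _ hlen] at h1
    simp only [Equiv.Perm.mul_apply] at h1
    simpa [ha] using h1)
  set π' : Equiv.Perm (Fin p.d) := π * τ with hπ'
  have hfun : ∀ z : Fin p.d → ℝ,
      p.Psi (ext (fun j => z (π' j))) L = p.Psi (ext (fun j => z (π j))) L := by
    intro z
    rw [Gen.psi_ext p _ hlen, Gen.psi_ext p _ hlen]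
    congr 1
    have h1 := Equiv.sum_comp τ (fun i => a i * z (π i))
    rw [← h1]
    apply Finset.sum_congr rfl
    intro i _
    show a i * z ((π * τ) i) = a (τ i) * z (π (τ i))
    rw [hτ1 i]
    rfl
  refine ⟨π', hfun, ?_⟩
  set y : ℕ → ℝ := ext (fun j => x (π' j)) with hy
  have hxπ : ∀ (i : ℕ) (hi : i < p.d), y i = x (π' ⟨i, hi⟩) := by
    intro i hi
    rw [hy]
    unfold ext
    rw [dif_pos hi]
  have hposv : Par.PosV p R' y := by
    refine ⟨fun i hi => ?_, fun i j hij hj => ?_, fun i hi => ?_⟩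
    · rw [hxπ i hi]; exact hx _
    · rw [hxπ j hj, hxπ i (lt_of_le_of_lt hij hj)]
      exact hτ2 ⟨i, lt_of_le_of_lt hij hj⟩ ⟨j, hj⟩ hij
    · rw [hxπ i hi]; exact hlog _
  refine ⟨hposv, hadm, hlen, hR, ?_⟩
  intro L' hL' hlen'
  have h1 := hact π' L' hL' hlen'
  rw [← hfun x] at h1
  exact h1

/-- The family for good parameters. -/
theorem family_of_good (g : p.Good B) (N : Network p.d) (hN : N.WeaklyReversible)
    (hV : ∀ y y' : Cplx p.d, Relation.ReflTransGen N.Step y' y → y ≠ y' →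
      ∀ i, |(y i : ℤ) - (y' i : ℤ)| ≤ (p.V : ℤ))
    {κ : ℝ} (hκ : 0 < κ) (hBK : (N.reactions.card : ℝ) * κ⁻¹ ≤ Real.exp B * κ) (R' : ℝ) :
    ∃ W, Family N κ p.Gl p.Zbar p.Wbar R' W := by
  set R := R' + p.Zbar + 2 with hRdef
  have hRle : R' + p.Zbar + 2 ≤ R := le_rfl
  set lists : Finset (List ℝ) := (Par.adm_finite g.hV R p.d).toFinset with hlists
  have hmem : ∀ L, L ∈ lists ↔ (p.Adm R L ∧ L.length = p.d) := by
    intro L
    simp [hlists]
  set F : Equiv.Perm (Fin p.d) × List ℝ → (Fin p.d → ℝ) × ℝ :=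
    fun u => (coef u.1 u.2, p.Psi (fun _ => 0) u.2) with hF
  refine ⟨(Finset.univ ×ˢ lists).image F, ?_, ?_, ?_, ?_⟩
  · intro u hu z hz
    obtain ⟨⟨π, L⟩, hm, rfl⟩ := Finset.mem_image.mp hu
    obtain ⟨hadm, hlen⟩ := (hmem L).mp (Finset.mem_product.mp hm).2
    show aff (coef π L, p.Psi (fun _ => 0) L) z ≤ _
    rw [aff_eq p π hlen]
    exact Gen.psi_init g hz π hadm hlen
  · intro z hz hlog
    obtain ⟨π₀, hπ₀⟩ := Gen.exists_anti z
    set y : ℕ → ℝ := ext (fun j => z (π₀ j)) with hy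
    have hxπ : ∀ (i : ℕ) (hi : i < p.d), y i = z (π₀ ⟨i, hi⟩) := by
      intro i hi
      rw [hy]
      unfold ext
      rw [dif_pos hi]
    have hposv : Par.PosV p R' y := by
      refine ⟨fun i hi => ?_, fun i j hij hj => ?_, fun i hi => ?_⟩
      · rw [hxπ i hi]; exact hz _
      · rw [hxπ j hj, hxπ i (lt_of_le_of_lt hij hj)]
        exact hπ₀ ⟨i, lt_of_le_of_lt hij hj⟩ ⟨j, hj⟩ hij
      · rw [hxπ i hi]; exact hlog _
    obtain ⟨S, hS, hadmS, hsumS⟩ := Par.greedy g hposv hRle p.d [] trivial (by simp) (by simp)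
    rw [List.append_nil] at hadmS hsumS
    refine ⟨F (π₀, S), Finset.mem_image_of_mem F
      (Finset.mem_product.mpr ⟨Finset.mem_univ _, (hmem S).mpr ⟨hadmS, hS⟩⟩), ?_⟩
    show _ ≤ aff (coef π₀ S, p.Psi (fun _ => 0) S) z
    rw [aff_eq p π₀ hS]
    have e0 : p.Psi y [] = 0 := rfl
    rw [e0, sub_zero] at hsumS
    simp only [List.length_nil, zero_add] at hsumS
    rw [Finset.sum_range] at hsumS
    simp only [hy, Gen.ext_coe] at hsumS
    have h2 := Equiv.sum_comp π₀ (fun j => Ee (z j) - p.Gl * z j)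
    rw [h2] at hsumS
    exact hsumS
  · intro u hu x hx hlog hact k hk
    obtain ⟨⟨π, L⟩, hm, rfl⟩ := Finset.mem_image.mp hu
    obtain ⟨hadm, hlen⟩ := (hmem L).mp (Finset.mem_product.mp hm).2
    obtain ⟨π', hfun, hineq⟩ := Gen.active_step g N hN hV hκ hBK hk hx hRle hlog (π := π) hadm hlen
      (by
        intro π' L' hL' hlen'
        have h1 := hact (F (π', L')) (Finset.mem_image_of_mem F
          (Finset.mem_product.mpr ⟨Finset.mem_univ _, (hmem L').mpr ⟨hL', hlen'⟩⟩))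
        have e1 : aff (F (π', L')) x = p.Psi (ext (fun j => x (π' j))) L' := aff_eq p π' hlen' x
        have e2 : aff (F (π, L)) x = p.Psi (ext (fun j => x (π j))) L := aff_eq p π hlen x
        rw [e1, e2] at h1
        exact h1)
    have hc := coef_eq_of_fun p hlen hfun
    show ∑ j, coef π L j * massAction N k x j ≤ 0
    rw [← hc, sum_coef]
    rw [Gen.dotr_ext _ hlen] at hineq
    exact hineq
  · intro u hu x hx hlog hact j
    obtain ⟨⟨π, L⟩, hm, rfl⟩ := Finset.mem_image.mp hu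
    obtain ⟨hadm, hlen⟩ := (hmem L).mp (Finset.mem_product.mp hm).2
    obtain ⟨π', hfun, hM⟩ := active_mx hx hRle hlog (π := π) hadm hlen
      (by
        intro π' L' hL' hlen'
        have h1 := hact (F (π', L')) (Finset.mem_image_of_mem F
          (Finset.mem_product.mpr ⟨Finset.mem_univ _, (hmem L').mpr ⟨hL', hlen'⟩⟩))
        have e1 : aff (F (π', L')) x = p.Psi (ext (fun j => x (π' j))) L' := aff_eq p π' hlen' x
        have e2 : aff (F (π, L)) x = p.Psi (ext (fun j => x (π j))) L := aff_eq p π hlen x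
        rw [e1, e2] at h1
        exact h1)
    have hc := coef_eq_of_fun p hlen hfun
    show |Real.log (x j) - coef π L j| ≤ _
    rw [← hc]
    set i := π'⁻¹ j with hi
    have hj : j = π' i := by rw [hi]; simp
    rw [hj, coef_apply]
    have hilt : (i : ℕ) < L.length := by rw [hlen]; exact i.isLt
    obtain ⟨S, l, Q, h1, h2, h3⟩ := split_at L i hilt
    have hw := Par.window g hM h1
    rw [h2] at hw
    rw [h3]
    have e : ext (fun j => x (π' j)) (i : ℕ) = x (π' i) := Gen.ext_coe _ i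
    rw [e] at hw
    refine le_trans hw (p.win_le_Wbar g.W0pos ?_)
    simp only [List.length_cons]
    rw [h2]
    exact i.isLt

/-- The family, for every weakly reversible network and every rate window. -/
theorem exists_family (N : Network d) (hN : N.WeaklyReversible) {κ : ℝ} (hκ : 0 < κ) :
    ∃ G Z Wb : ℝ, 0 ≤ G ∧ 0 ≤ Z ∧ 0 ≤ Wb ∧ ∀ R' : ℝ, ∃ W, Family N κ G Z Wb R' W := by
  set V : ℕ := 1 + ∑ r ∈ N.reactions, ∑ i, (r.1 i + r.2 i) with hVdef
  have hV1 : 1 ≤ V := by rw [hVdef]; omega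
  set B : ℝ := 1 + (N.reactions.card : ℝ) * (κ⁻¹ * κ⁻¹) with hBdef
  have hinvpos : 0 < κ⁻¹ := inv_pos.mpr hκ
  have hBK : (N.reactions.card : ℝ) * κ⁻¹ ≤ Real.exp B * κ := by
    have h1 : B + 1 ≤ Real.exp B := Real.add_one_le_exp B
    have h2 : (N.reactions.card : ℝ) * (κ⁻¹ * κ⁻¹) ≤ Real.exp B := by
      rw [hBdef] at h1 ⊢
      linarith
    have h3 := mul_le_mul_of_nonneg_right h2 hκ.le
    have e : (N.reactions.card : ℝ) * (κ⁻¹ * κ⁻¹) * κ = (N.reactions.card : ℝ) * κ⁻¹ := by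
      field_simp
    rwa [e] at h3
  obtain ⟨W0, g⟩ := Gen.exists_good d V hV1 B
  have hcomplex : ∀ y : Cplx d, (∃ r ∈ N.reactions, r.1 = y ∨ r.2 = y) → ∀ i, y i + 1 ≤ V := by
    rintro y ⟨r, hr, hy⟩ i
    have h1 : r.1 i + r.2 i ≤ ∑ i, (r.1 i + r.2 i) :=
      Finset.single_le_sum (f := fun i => r.1 i + r.2 i) (fun _ _ => Nat.zero_le _)
        (Finset.mem_univ i)
    have h2 : ∑ i, (r.1 i + r.2 i) ≤ ∑ r ∈ N.reactions, ∑ i, (r.1 i + r.2 i) :=
      Finset.single_le_sum (f := fun r : Cplx d × Cplx d => ∑ i, (r.1 i + r.2 i))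
        (fun _ _ => Nat.zero_le _) hr
    rcases hy with rfl | rfl
    · rw [hVdef]; omega
    · rw [hVdef]; omega
  have hVb : ∀ y y' : Cplx d, Relation.ReflTransGen N.Step y' y → y ≠ y' →
      ∀ i, |(y i : ℤ) - (y' i : ℤ)| ≤ (V : ℤ) := by
    intro y y' hr hne i
    obtain ⟨h1, h2⟩ := mem_complexes_of_reach N hr hne
    have h3 := hcomplex y' h1 i
    have h4 := hcomplex y h2 i
    rw [abs_le]
    constructor <;> omega
  have hW0 : 0 < W0 := g.W0pos
  have hzmax := Par.zmax_ge ⟨d, V, W0⟩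
  have hWbar : 0 ≤ Par.Wbar ⟨d, V, W0⟩ := by
    unfold Par.Wbar
    have : (0 : ℝ) ≤ Par.zmax ⟨d, V, W0⟩ := by linarith
    positivity
  have hZbar : 0 ≤ Par.Zbar ⟨d, V, W0⟩ := by
    unfold Par.Zbar
    have : (0 : ℝ) ≤ Par.zmax ⟨d, V, W0⟩ := by linarith
    positivity
  refine ⟨Par.Gl ⟨d, V, W0⟩, Par.Zbar ⟨d, V, W0⟩, Par.Wbar ⟨d, V, W0⟩, ?_, hZbar, hWbar, ?_⟩
  · unfold Par.Gl
    linarith
  · intro R'
    exact family_of_good (p := ⟨d, V, W0⟩) g N hN hVb hκ hBK R'

end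

end Vale.Agent.P072.Persist
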