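import Vale.Agent.P072.PersistProject

/-!
Lower bounds for solutions: the sorted positions of the state are bounded below, by induction
on the position, using the entropy inequality for projected networks.
-/

namespace Vale.Agent.P072.Persist

noncomputable section

open Classical
open Vale.Agent.P072.Gen (Ee)

variable {m d : ℕ}

theorem mul_log_anti {u v : ℝ} (hu : 0 < u) (huv : u ≤ v) (hv : v ≤ Real.exp (-1)) :
    v * Real.log v ≤ u * Real.log u := by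
  have hv0 : 0 < v := lt_of_lt_of_le hu huv
  have h1 : Real.log v ≤ -1 := by
    rw [Real.log_le_iff_le_exp hv0]
    exact hv
  have h2 : Real.log (v / u) ≤ v / u - 1 := Real.log_le_sub_one_of_pos (div_pos hv0 hu)
  rw [Real.log_div hv0.ne' hu.ne'] at h2
  have h3 : u * (Real.log v - Real.log u) ≤ u * (v / u - 1) :=
    mul_le_mul_of_nonneg_left h2 hu.le
  have h4 : u * (v / u - 1) = v - u := by
    field_simp
  rw [h4] at h3
  nlinarith [mul_nonneg (sub_nonneg.mpr huv) (by linarith : (0:ℝ) ≤ -1 - Real.log v)]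

theorem exp_neg_mono {Z : ℝ} (hZ : 0 ≤ Z) : Real.exp (-2 * Z - 2) ≤ Real.exp (-1) := by
  apply Real.exp_le_exp.mpr
  linarith

/-- Entropy with a positive linear term is negative for small arguments. -/
theorem psi_le {u Z : ℝ} (hu : 0 < u) (h : u ≤ Real.exp (-2 * Z - 2)) :
    Ee u + Z * u ≤ (1 / 2) * (u * Real.log u) := by
  have h1 : Real.log u ≤ -2 * Z - 2 := by
    rw [Real.log_le_iff_le_exp hu]
    exact h
  unfold Ee
  nlinarith [mul_nonneg hu.le (by linarith : (0:ℝ) ≤ -2 * Z - 2 - Real.log u)]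

theorem phi_ge {u η G : ℝ} (hu : 0 < u) (huη : u ≤ η) (hη : η ≤ Real.exp (-1)) (hG : 0 ≤ G) :
    η * Real.log η - (1 + G) * η ≤ Ee u - G * u := by
  have h1 := mul_log_anti hu huη hη
  unfold Ee
  nlinarith

/-- Choice of the lower threshold. -/
theorem exists_eta (c G T₀ cap : ℝ) (hT₀ : 0 < T₀) (hcap : 0 < cap) :
    ∃ η : ℝ, 0 < η ∧ η ≤ cap ∧ c * (-(η * Real.log η) + (1 + G) * η) < T₀ := by
  have hc : Continuous (fun η : ℝ => c * (-(η * Real.log η) + (1 + G) * η)) := by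
    have := Real.continuous_mul_log
    fun_prop
  have h0 : (fun η : ℝ => c * (-(η * Real.log η) + (1 + G) * η)) 0 = 0 := by simp
  have hnhds : (fun η : ℝ => c * (-(η * Real.log η) + (1 + G) * η)) ⁻¹' Set.Iio T₀ ∈ nhds (0 : ℝ) :=
    hc.continuousAt.preimage_mem_nhds (by simpa using Iio_mem_nhds hT₀)
  obtain ⟨ρ, hρ, hball⟩ := Metric.mem_nhds_iff.mp hnhds
  refine ⟨min (ρ / 2) cap, lt_min (by linarith) hcap, min_le_right _ _, ?_⟩
  have hmem : min (ρ / 2) cap ∈ Metric.ball (0 : ℝ) ρ := by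
    rw [Metric.mem_ball, Real.dist_eq, sub_zero, abs_of_pos (lt_min (by linarith) hcap)]
    exact lt_of_le_of_lt (min_le_left _ _) (by linarith)
  exact hball hmem

theorem IsPositiveSolution.restrict {N : Network d} {k : ℝ → Cplx d × Cplx d → ℝ} {T T' : ℝ}
    {x : ℝ → Fin d → ℝ} (hsol : IsPositiveSolution N k T x) (h : T' ≤ T) :
    IsPositiveSolution N k T' x := by
  have hsub : Set.Ico (0 : ℝ) T' ⊆ Set.Ico 0 T := fun s hs => ⟨hs.1, lt_of_lt_of_le hs.2 h⟩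
  exact ⟨fun t ht => hsol.pos t (hsub ht), hsol.cont.mono hsub, fun t ht => hsol.deriv t (hsub ht)⟩

/-- The species in `e` cannot all fall from the level `a₀` below the level `η`. -/
theorem no_fall {N : Network d} {e : Fin m → Fin d} (he : Function.Injective e)
    {ε δ R G Z Wb a₀ η : ℝ} (hε : 0 < ε) (hδ : 0 < δ) (hδ1 : δ ≤ 1) (hR1 : 1 ≤ R)
    (hG : 0 ≤ G) (hZ : 0 ≤ Z)
    (hF : ∀ R' : ℝ, ∃ W, Family (projNet e N) (projWin N ε δ R) G Z Wb R' W)
    (ha₀ : 0 < a₀) (hδa : a₀ < δ) (ha₁ : a₀ ≤ Real.exp (-2 * Z - 2))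
    (hη : 0 < η) (hηa : η ≤ a₀)
    (hsmall : (m : ℝ) * (-(η * Real.log η) + (1 + G) * η) < -(1 / 2 * (a₀ * Real.log a₀)))
    {k : ℝ → Cplx d × Cplx d → ℝ} {T : ℝ}
    (hk : ∀ t ∈ Set.Ico 0 T, ∀ r ∈ N.reactions, ε ≤ k t r ∧ k t r ≤ ε⁻¹)
    {x : ℝ → Fin d → ℝ} (hsol : IsPositiveSolution N k T x)
    {t₁ t₂ : ℝ} (h1 : 0 ≤ t₁) (h12 : t₁ ≤ t₂) (hT : t₂ < T)
    (hup : ∀ t ∈ Set.Icc t₁ t₂, ∀ i, x t i ≤ R)
    (hothers : ∀ t ∈ Set.Icc t₁ t₂, (∀ j, x t (e j) < δ) → ∀ i, i ∉ Set.range e → δ ≤ x t i)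
    (hstart : ∃ j, a₀ ≤ x t₁ (e j)) (hend : ∀ j, x t₂ (e j) < η) : False := by
  obtain ⟨j₁, hj₁⟩ := hstart
  have hne : (Finset.univ : Finset (Fin m)).Nonempty := ⟨j₁, Finset.mem_univ _⟩
  set M : ℝ → ℝ := fun s => Finset.univ.sup' hne (fun j => x s (e j)) with hM
  have hIcc : Set.Icc t₁ t₂ ⊆ Set.Ico 0 T := fun s hs =>
    ⟨le_trans h1 hs.1, lt_of_le_of_lt hs.2 hT⟩
  have hxc : ∀ j, ContinuousOn (fun s => x s (e j)) (Set.Icc t₁ t₂) := fun j =>
    (continuous_apply (e j)).comp_continuousOn (hsol.cont.mono hIcc)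
  have hMc : ContinuousOn M (Set.Icc t₁ t₂) := by
    exact ContinuousOn.finset_sup'_apply hne (f := fun j s => x s (e j)) (fun j _ => hxc j)
  have hle : ∀ s j, x s (e j) ≤ M s := fun s j =>
    Finset.le_sup' (fun j => x s (e j)) (Finset.mem_univ j)
  have hMt₂ : M t₂ < η := by
    rw [hM]
    exact (Finset.sup'_lt_iff hne).mpr (fun j _ => hend j)
  set B := Set.Icc t₁ t₂ ∩ M ⁻¹' Set.Ici a₀ with hB
  have hBc : IsCompact B := by
    apply isCompact_Icc.of_isClosed_subset _ Set.inter_subset_left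
    exact hMc.preimage_isClosed_of_isClosed isClosed_Icc isClosed_Ici
  have hBne : B.Nonempty := ⟨t₁, ⟨le_rfl, h12⟩, le_trans hj₁ (hle t₁ j₁)⟩
  set t₀ := sSup B with ht₀
  have ht₀B : t₀ ∈ B := hBc.sSup_mem hBne
  have ht₀I : t₀ ∈ Set.Icc t₁ t₂ := ht₀B.1
  have hMt₀ : a₀ ≤ M t₀ := ht₀B.2
  have hlt : ∀ s ∈ Set.Icc t₁ t₂, t₀ < s → M s < a₀ := by
    intro s hs hts
    by_contra hcon
    push Not at hcon
    have : s ≤ t₀ := le_csSup hBc.bddAbove ⟨hs, hcon⟩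
    linarith
  have hMt₂a : M t₂ ≤ a₀ := le_of_lt (lt_of_lt_of_le hMt₂ hηa)
  have hsubI : Set.Icc t₀ t₂ ⊆ Set.Icc t₁ t₂ := fun s hs => ⟨le_trans ht₀I.1 hs.1, hs.2⟩
  obtain ⟨s, hs, hsa⟩ := intermediate_value_Icc' ht₀I.2 (hMc.mono hsubI) ⟨hMt₂a, hMt₀⟩
  have hst₀ : s = t₀ := by
    have h3 : s ≤ t₀ := le_csSup hBc.bddAbove ⟨hsubI hs, by
      show a₀ ≤ M s
      rw [hsa]⟩
    exact le_antisymm h3 hs.1
  have hMeq : M t₀ = a₀ := by rw [← hst₀]; exact hsa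
  have hall : ∀ s ∈ Set.Icc t₀ t₂, ∀ j, x s (e j) ≤ a₀ := by
    intro s hs j
    rcases eq_or_lt_of_le hs.1 with h | h
    · rw [← h, ← hMeq]; exact hle _ _
    · exact le_trans (hle s j) (hlt s (hsubI hs) h).le
  have hpos : ∀ s ∈ Set.Icc t₀ t₂, ∀ i, 0 < x s i := fun s hs i =>
    hsol.pos s (hIcc (hsubI hs)) i
  -- rates in the window
  have hwin : ∀ t ∈ Set.Icc t₀ t₂, ∀ rb ∈ (projNet e N).reactions,
      projWin N ε δ R ≤ projRate e N (k t) (x t) rb ∧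
        projRate e N (k t) (x t) rb ≤ (projWin N ε δ R)⁻¹ := by
    intro t ht rb hrb
    have hbelow : ∀ j, x t (e j) < δ := fun j => lt_of_le_of_lt (hall t ht j) hδa
    apply projRate_window hε hδ hδ1 hR1 (hk t (hIcc (hsubI ht))) _ hrb
    intro i hi
    exact ⟨hothers t (hsubI ht) hbelow i hi, hup t (hsubI ht) i⟩
  have hsol' := proj_solution he (IsPositiveSolution.restrict hsol hT.le)
  have hcont' : ContinuousOn (fun t (j : Fin m) => x t (e j)) (Set.Icc t₀ t₂) := by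
    apply continuousOn_pi.mpr
    intro j
    exact (hxc j).mono hsubI
  have hmain := entropy_ineq_closed hG hZ hF (le_trans h1 ht₀I.1) ht₀I.2 hwin hsol' hcont'
    (fun j => hpos t₀ ⟨le_rfl, ht₀I.2⟩ _)
  -- upper estimate of the right side
  obtain ⟨j₀, _, hj₀⟩ := Finset.exists_mem_eq_sup' hne (fun j => x t₀ (e j))
  have hj₀' : x t₀ (e j₀) = a₀ := by
    rw [← hMeq]
    exact hj₀.symm
  have hnonpos : ∀ j, Ee (x t₀ (e j)) + Z * x t₀ (e j) ≤ 0 := by
    intro j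
    have hp := hpos t₀ ⟨le_rfl, ht₀I.2⟩ (e j)
    have hla := hall t₀ ⟨le_rfl, ht₀I.2⟩ j
    have h3 := psi_le hp (le_trans hla ha₁)
    have h4 : Real.log (x t₀ (e j)) ≤ 0 := by
      apply Real.log_nonpos hp.le
      have := le_trans (le_trans hla ha₁) (exp_neg_mono hZ)
      have h5 : Real.exp (-1) ≤ 1 := by
        rw [Real.exp_le_one_iff]
        norm_num
      linarith
    nlinarith [mul_nonneg hp.le (neg_nonneg.mpr h4)]
  have hright : ∑ j, (Ee (x t₀ (e j)) + Z * x t₀ (e j)) ≤ 1 / 2 * (a₀ * Real.log a₀) := by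
    rw [← Finset.add_sum_erase _ _ (Finset.mem_univ j₀)]
    have h3 : ∑ j ∈ Finset.univ.erase j₀, (Ee (x t₀ (e j)) + Z * x t₀ (e j)) ≤ 0 :=
      Finset.sum_nonpos (fun j _ => hnonpos j)
    have h4 := psi_le (u := a₀) (Z := Z) ha₀ ha₁
    rw [hj₀']
    linarith
  -- lower estimate of the left side
  have hηe : η ≤ Real.exp (-1) := le_trans (le_trans hηa ha₁) (exp_neg_mono hZ)
  have hleft : (m : ℝ) * (η * Real.log η - (1 + G) * η)
      ≤ ∑ j, (Ee (x t₂ (e j)) - G * x t₂ (e j)) := by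
    have h3 : ∑ _j : Fin m, (η * Real.log η - (1 + G) * η)
        ≤ ∑ j, (Ee (x t₂ (e j)) - G * x t₂ (e j)) := by
      apply Finset.sum_le_sum
      intro j _
      exact phi_ge (hpos t₂ ⟨ht₀I.2, le_rfl⟩ _) (hend j).le hηe hG
    rw [Finset.sum_const, Finset.card_univ, Fintype.card_fin, nsmul_eq_mul] at h3
    exact h3
  have e1 : (m : ℝ) * (η * Real.log η - (1 + G) * η)
      = - ((m : ℝ) * (-(η * Real.log η) + (1 + G) * η)) := by ring
  have hchain := le_trans hleft (le_trans hmain hright)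
  rw [e1] at hchain
  linarith

/-- Constants for one subset of the species. -/
theorem exists_step (N : Network d) (hN : N.WeaklyReversible) {e : Fin m → Fin d}
    (he : Function.Injective e) {ε δ R cap : ℝ} (hε : 0 < ε) (hδ : 0 < δ) (hδ1 : δ ≤ 1)
    (hR1 : 1 ≤ R) (hcap : 0 < cap) :
    ∃ a₀ η : ℝ, 0 < a₀ ∧ a₀ ≤ cap ∧ a₀ < δ ∧ 0 < η ∧ η ≤ a₀ ∧
      ∀ (k : ℝ → Cplx d × Cplx d → ℝ) (T : ℝ) (x : ℝ → Fin d → ℝ),
        (∀ t ∈ Set.Ico 0 T, ∀ r ∈ N.reactions, ε ≤ k t r ∧ k t r ≤ ε⁻¹) →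
        IsPositiveSolution N k T x →
        ∀ t₁ t₂ : ℝ, 0 ≤ t₁ → t₁ ≤ t₂ → t₂ < T →
        (∀ t ∈ Set.Icc t₁ t₂, ∀ i, x t i ≤ R) →
        (∀ t ∈ Set.Icc t₁ t₂, (∀ j, x t (e j) < δ) → ∀ i, i ∉ Set.range e → δ ≤ x t i) →
        (∃ j, a₀ ≤ x t₁ (e j)) → (∀ j, x t₂ (e j) < η) → False := by
  have hwin := projWin_pos N hε hδ hR1
  obtain ⟨G, Z, Wb, hG, hZ, _, hF⟩ := exists_family (projNet e N) (projNet_wr hN) hwin
  set a₀ := min (min cap (δ / 2)) (Real.exp (-2 * Z - 2)) with ha₀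
  have ha₀pos : 0 < a₀ := lt_min (lt_min hcap (by linarith)) (Real.exp_pos _)
  have ha₀cap : a₀ ≤ cap := le_trans (min_le_left _ _) (min_le_left _ _)
  have ha₀δ : a₀ < δ := lt_of_le_of_lt (le_trans (min_le_left _ _) (min_le_right _ _)) (by linarith)
  have ha₁ : a₀ ≤ Real.exp (-2 * Z - 2) := min_le_right _ _
  have hlog : Real.log a₀ < 0 := by
    apply Real.log_neg ha₀pos
    have h1 := le_trans ha₁ (exp_neg_mono hZ)
    have h2 : Real.exp (-1) < 1 := by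
      rw [Real.exp_lt_one_iff]
      norm_num
    linarith
  have hT₀ : 0 < -(1 / 2 * (a₀ * Real.log a₀)) := by nlinarith
  obtain ⟨η, hη, hηa, hsmall⟩ := exists_eta (m : ℝ) G _ a₀ hT₀ ha₀pos
  refine ⟨a₀, η, ha₀pos, ha₀cap, ha₀δ, hη, hηa, ?_⟩
  intro k T x hk hsol t₁ t₂ h1 h12 hT hup hothers hstart hend
  exact no_fall he hε hδ hδ1 hR1 hG hZ hF ha₀pos ha₀δ ha₁ hη hηa hsmall hk hsol h1 h12 hT hup
    hothers hstart hend

/-- A uniform positive parameter over a finite family of monotone properties. -/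
theorem exists_uniform {α : Type*} (A : Finset α) (P : α → ℝ → Prop)
    (hmono : ∀ a c c', 0 < c → c ≤ c' → P a c' → P a c)
    (hex : ∀ a ∈ A, ∃ c, 0 < c ∧ c ≤ 1 ∧ P a c) : ∃ c, 0 < c ∧ c ≤ 1 ∧ ∀ a ∈ A, P a c := by
  induction A using Finset.induction_on with
  | empty => exact ⟨1, one_pos, le_rfl, by simp⟩
  | insert a s _ ih =>
    obtain ⟨c1, h0, h1, h2⟩ := ih (fun b hb => hex b (Finset.mem_insert_of_mem hb))
    obtain ⟨c2, h3, h4, h5⟩ := hex a (Finset.mem_insert_self _ _)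
    refine ⟨min c1 c2, lt_min h0 h3, le_trans (min_le_left _ _) h1, ?_⟩
    intro b hb
    rcases Finset.mem_insert.mp hb with rfl | hb
    · exact hmono _ _ _ (lt_min h0 h3) (min_le_right _ _) h5
    · exact hmono _ _ _ (lt_min h0 h3) (min_le_left _ _) (h2 b hb)

/-- The counting form of the lower bound at a given level. -/
def CountBound (N : Network d) (ε R m₀ : ℝ) (n : ℕ) (δ : ℝ) : Prop :=
  ∀ (k : ℝ → Cplx d × Cplx d → ℝ) (T : ℝ) (x : ℝ → Fin d → ℝ),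
    (∀ t ∈ Set.Ico 0 T, ∀ r ∈ N.reactions, ε ≤ k t r ∧ k t r ≤ ε⁻¹) →
    IsPositiveSolution N k T x →
    (∀ t ∈ Set.Ico 0 T, ∀ i, x t i ≤ R) → (∀ i, m₀ ≤ x 0 i) →
    ∀ t ∈ Set.Ico 0 T, (Finset.univ.filter (fun i => x t i < δ)).card ≤ n

theorem countBound_step (N : Network d) (hN : N.WeaklyReversible) {ε R m₀ : ℝ} (hε : 0 < ε)
    (hR1 : 1 ≤ R) (hm₀ : 0 < m₀) {n : ℕ} {δ : ℝ} (hδ : 0 < δ) (hδ1 : δ ≤ 1)
    (h : CountBound N ε R m₀ (n + 1) δ) :
    ∃ δ', 0 < δ' ∧ δ' ≤ 1 ∧ CountBound N ε R m₀ n δ' := by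
  -- the property for one subset
  let P : Finset (Fin d) → ℝ → Prop := fun s η =>
    ∀ (k : ℝ → Cplx d × Cplx d → ℝ) (T : ℝ) (x : ℝ → Fin d → ℝ),
      (∀ t ∈ Set.Ico 0 T, ∀ r ∈ N.reactions, ε ≤ k t r ∧ k t r ≤ ε⁻¹) →
      IsPositiveSolution N k T x →
      (∀ t ∈ Set.Ico 0 T, ∀ i, x t i ≤ R) → (∀ i, m₀ ≤ x 0 i) →
      ∀ t ∈ Set.Ico 0 T, ¬ ∀ i ∈ s, x t i < η
  have hmono : ∀ s c c', 0 < c → c ≤ c' → P s c' → P s c := by
    intro s c c' _ hcc hP k T x hk hsol hup hm t ht hall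
    exact hP k T x hk hsol hup hm t ht (fun i hi => lt_of_lt_of_le (hall i hi) hcc)
  have hex : ∀ s ∈ Finset.powersetCard (n + 1) (Finset.univ : Finset (Fin d)),
      ∃ c, 0 < c ∧ c ≤ 1 ∧ P s c := by
    intro s hs
    have hcard : s.card = n + 1 := (Finset.mem_powersetCard.mp hs).2
    set e := s.orderEmbOfFin hcard with he
    have hinj : Function.Injective e := e.injective
    have hrange : Set.range e = s := Finset.range_orderEmbOfFin s hcard
    obtain ⟨a₀, η, ha₀, hacap, haδ, hη, hηa, hmain⟩ :=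
      exists_step N hN hinj hε hδ hδ1 hR1 hm₀
    refine ⟨min η 1, lt_min hη one_pos, min_le_right _ _, ?_⟩
    intro k T x hk hsol hup hm t ht hall
    refine hmain k T x hk hsol 0 t le_rfl ht.1 ht.2
      (fun t' ht' => hup t' ⟨ht'.1, lt_of_le_of_lt ht'.2 ht.2⟩) ?_ ?_ ?_
    · intro t' ht' hbelow i hi
      by_contra hcon
      push Not at hcon
      have ht'' : t' ∈ Set.Ico 0 T := ⟨ht'.1, lt_of_le_of_lt ht'.2 ht.2⟩
      have hc := h k T x hk hsol hup hm t' ht''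
      have hsub : insert i s ⊆ Finset.univ.filter (fun i => x t' i < δ) := by
        intro i' hi'
        rcases Finset.mem_insert.mp hi' with rfl | hi'
        · exact Finset.mem_filter.mpr ⟨Finset.mem_univ _, hcon⟩
        · refine Finset.mem_filter.mpr ⟨Finset.mem_univ _, ?_⟩
          have : i' ∈ Set.range e := by
            rw [hrange]
            exact hi'
          obtain ⟨j, rfl⟩ := this
          exact hbelow j
      have his : i ∉ s := by
        intro h3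
        apply hi
        rw [hrange]
        exact h3
      have hc2 := Finset.card_le_card hsub
      rw [Finset.card_insert_of_notMem his, hcard] at hc2
      omega
    · refine ⟨⟨0, by omega⟩, ?_⟩
      exact le_trans hacap (hm _)
    · intro j
      have : e j ∈ s := Finset.orderEmbOfFin_mem s hcard j
      exact lt_of_lt_of_le (hall _ this) (min_le_left _ _)
  obtain ⟨c, hc0, hc1, hcP⟩ := exists_uniform _ P hmono hex
  refine ⟨min c δ, lt_min hc0 hδ, le_trans (min_le_left _ _) hc1, ?_⟩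
  intro k T x hk hsol hup hm t ht
  by_contra hcon
  push Not at hcon
  obtain ⟨s, hsub, hcard⟩ := Finset.exists_subset_card_eq (s := Finset.univ.filter
    (fun i => x t i < min c δ)) (n := n + 1) (by omega)
  have hs : s ∈ Finset.powersetCard (n + 1) (Finset.univ : Finset (Fin d)) :=
    Finset.mem_powersetCard.mpr ⟨Finset.subset_univ _, hcard⟩
  refine hcP s hs k T x hk hsol hup hm t ht ?_
  intro i hi
  exact lt_of_lt_of_le (Finset.mem_filter.mp (hsub hi)).2 (min_le_left _ _)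

theorem countBound_all (N : Network d) (hN : N.WeaklyReversible) {ε R m₀ : ℝ} (hε : 0 < ε)
    (hR1 : 1 ≤ R) (hm₀ : 0 < m₀) :
    ∀ j : ℕ, j ≤ d → ∃ δ, 0 < δ ∧ δ ≤ 1 ∧ CountBound N ε R m₀ (d - j) δ := by
  intro j
  induction j with
  | zero =>
    intro _
    refine ⟨1, one_pos, le_rfl, ?_⟩
    intro k T x _ _ _ _ t _
    refine le_trans (Finset.card_filter_le _ _) ?_
    simp
  | succ j ih =>
    intro hj
    obtain ⟨δ, hδ, hδ1, hb⟩ := ih (by omega)
    have e : d - j = (d - (j + 1)) + 1 := by omega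
    rw [e] at hb
    exact countBound_step N hN hε hR1 hm₀ hδ hδ1 hb

/-- The uniform lower bound. -/
theorem lower_bound (N : Network d) (hN : N.WeaklyReversible) {ε : ℝ} (hε : 0 < ε) (R m₀ : ℝ)
    (hm₀ : 0 < m₀) :
    ∃ δ, 0 < δ ∧ ∀ (k : ℝ → Cplx d × Cplx d → ℝ) (T : ℝ) (x : ℝ → Fin d → ℝ),
      (∀ t ∈ Set.Ico 0 T, ∀ r ∈ N.reactions, ε ≤ k t r ∧ k t r ≤ ε⁻¹) →
      IsPositiveSolution N k T x →
      (∀ t ∈ Set.Ico 0 T, ∀ i, x t i ≤ R) → (∀ i, m₀ ≤ x 0 i) →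
      ∀ t ∈ Set.Ico 0 T, ∀ i, δ ≤ x t i := by
  obtain ⟨δ, hδ, _, hb⟩ := countBound_all (ε := ε) (R := max R 1) (m₀ := m₀) N hN hε
    (le_max_right _ _) hm₀ d le_rfl
  refine ⟨δ, hδ, ?_⟩
  intro k T x hk hsol hup hm t ht i
  have h1 := hb k T x hk hsol (fun t ht i => le_trans (hup t ht i) (le_max_left _ _)) hm t ht
  simp only [Nat.sub_self, Nat.le_zero, Finset.card_eq_zero] at h1
  by_contra hcon
  push Not at hcon
  have : i ∈ Finset.univ.filter (fun i => x t i < δ) :=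
    Finset.mem_filter.mpr ⟨Finset.mem_univ _, hcon⟩
  rw [h1] at this
  simp at this

end

end Vale.Agent.P072.Persist
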