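import Vale.Agent.P072.PersistEntropy

/-!
Projection of a network on a subset of the species; the other species act as time-dependent
factors of the rates.
-/

namespace Vale.Agent.P072.Persist

noncomputable section

open Classical

variable {m d : ℕ}

/-- The projection of a complex. -/
def proj (e : Fin m → Fin d) (y : Cplx d) : Cplx m := fun j => y (e j)

/-- The projected reaction. -/
def projR (e : Fin m → Fin d) (r : Cplx d × Cplx d) : Cplx m × Cplx m := (proj e r.1, proj e r.2)

/-- The projected network: reactions that become trivial are dropped. -/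
def projNet (e : Fin m → Fin d) (N : Network d) : Network m where
  reactions := (N.reactions.image (projR e)).filter (fun r => r.1 ≠ r.2)
  ne := fun _ hr => (Finset.mem_filter.mp hr).2

theorem projNet_mem {e : Fin m → Fin d} {N : Network d} {r : Cplx d × Cplx d}
    (hr : r ∈ N.reactions) (hne : proj e r.1 ≠ proj e r.2) :
    projR e r ∈ (projNet e N).reactions :=
  Finset.mem_filter.mpr ⟨Finset.mem_image_of_mem _ hr, hne⟩

theorem projNet_reach {e : Fin m → Fin d} {N : Network d} {y y' : Cplx d}
    (h : Relation.ReflTransGen N.Step y y') :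
    Relation.ReflTransGen (projNet e N).Step (proj e y) (proj e y') := by
  induction h with
  | refl => exact Relation.ReflTransGen.refl
  | @tail b c _ hbc ih =>
    by_cases hne : proj e b = proj e c
    · rw [← hne]; exact ih
    · exact ih.tail (projNet_mem (r := (b, c)) hbc hne)

/-- Projections of weakly reversible networks are weakly reversible. -/
theorem projNet_wr {e : Fin m → Fin d} {N : Network d} (hN : N.WeaklyReversible) :
    (projNet e N).WeaklyReversible := by
  intro r hr
  obtain ⟨h1, _⟩ := Finset.mem_filter.mp hr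
  obtain ⟨r₀, hr₀, rfl⟩ := Finset.mem_image.mp h1
  exact projNet_reach (hN r₀ hr₀)

/-- The part of a monomial in the species outside the range of `e`. -/
def restMono (e : Fin m → Fin d) (x : Fin d → ℝ) (y : Cplx d) : ℝ :=
  ∏ i ∈ Finset.univ.filter (fun i => i ∉ Set.range e), x i ^ y i

theorem mono_split {e : Fin m → Fin d} (he : Function.Injective e) (x : Fin d → ℝ) (y : Cplx d) :
    mono x y = mono (fun j => x (e j)) (proj e y) * restMono e x y := by
  unfold mono restMono proj
  have h1 : ∏ j, x (e j) ^ y (e j) = ∏ i ∈ Finset.univ.image e, x i ^ y i := by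
    rw [Finset.prod_image (fun a _ b _ h => he h)]
  rw [h1]
  have h2 : Finset.univ.filter (fun i => i ∉ Set.range e) = Finset.univ \ Finset.univ.image e := by
    ext i
    simp
  rw [h2]
  rw [mul_comm, Finset.prod_sdiff (Finset.subset_univ _)]

/-- The rates of the projected network at a state. -/
def projRate (e : Fin m → Fin d) (N : Network d) (k : Cplx d × Cplx d → ℝ) (x : Fin d → ℝ) :
    Cplx m × Cplx m → ℝ :=
  fun rb => ∑ r ∈ N.reactions.filter (fun r => projR e r = rb), k r * restMono e x r.1

theorem reactionVec_proj (e : Fin m → Fin d) (r : Cplx d × Cplx d) (j : Fin m) :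
    reactionVec (projR e r) j = reactionVec r (e j) := rfl

/-- The projected mass-action field. -/
theorem massAction_proj {e : Fin m → Fin d} (he : Function.Injective e) (N : Network d)
    (k : Cplx d × Cplx d → ℝ) (x : Fin d → ℝ) (j : Fin m) :
    massAction (projNet e N) (projRate e N k x) (fun j => x (e j)) j = massAction N k x (e j) := by
  unfold massAction
  set z : Fin m → ℝ := fun j => x (e j) with hz
  have h1 : ∑ r ∈ N.reactions, k r * mono x r.1 * reactionVec r (e j)
      = ∑ rb ∈ N.reactions.image (projR e),
          ∑ r ∈ N.reactions.filter (fun r => projR e r = rb),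
            k r * mono x r.1 * reactionVec r (e j) :=
    (Finset.sum_fiberwise_of_maps_to (fun r hr => Finset.mem_image_of_mem _ hr) _).symm
  rw [h1]
  have h2 : ∀ rb ∈ N.reactions.image (projR e),
      ∑ r ∈ N.reactions.filter (fun r => projR e r = rb), k r * mono x r.1 * reactionVec r (e j)
        = projRate e N k x rb * mono z rb.1 * reactionVec rb j := by
    intro rb _
    unfold projRate
    rw [Finset.sum_mul, Finset.sum_mul]
    apply Finset.sum_congr rfl
    intro r hr
    have h3 : projR e r = rb := (Finset.mem_filter.mp hr).2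
    rw [mono_split he x r.1, ← h3, reactionVec_proj]
    show _ = k r * restMono e x r.1 * mono z (proj e r.1) * _
    ring
  rw [Finset.sum_congr rfl h2]
  show _ = ∑ rb ∈ N.reactions.image (projR e), _
  unfold projNet
  rw [Finset.sum_filter]
  apply Finset.sum_congr rfl
  intro rb _
  by_cases hrb : rb.1 ≠ rb.2
  · rw [if_pos hrb]
  · rw [if_neg hrb]
    push Not at hrb
    have : reactionVec rb j = 0 := by
      unfold reactionVec
      rw [hrb]
      ring
    rw [this]
    ring

/-- The restriction of a solution to the species in the range of `e` solves the projected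
system with the induced time-dependent rates. -/
theorem proj_solution {e : Fin m → Fin d} (he : Function.Injective e) {N : Network d}
    {k : ℝ → Cplx d × Cplx d → ℝ} {T : ℝ} {x : ℝ → Fin d → ℝ}
    (hsol : IsPositiveSolution N k T x) :
    IsPositiveSolution (projNet e N) (fun t => projRate e N (k t) (x t)) T
      (fun t j => x t (e j)) := by
  refine ⟨fun t ht j => hsol.pos t ht _, ?_, ?_⟩
  · apply continuousOn_pi.mpr
    intro j
    exact (continuous_apply (e j)).comp_continuousOn hsol.cont
  · intro t ht
    apply hasDerivWithinAt_pi.mpr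
    intro j
    rw [massAction_proj he]
    exact (hasDerivWithinAt_pi.mp (hsol.deriv t ht)) (e j)

/-- A bound for the total degree of all reactant complexes. -/
def degB (N : Network d) : ℕ := ∑ r ∈ N.reactions, ∑ i, r.1 i

theorem restMono_bounds {e : Fin m → Fin d} {N : Network d} {x : Fin d → ℝ} {δ R : ℝ}
    (hδ : 0 < δ) (hδ1 : δ ≤ 1) (hR1 : 1 ≤ R)
    (hx : ∀ i, i ∉ Set.range e → δ ≤ x i ∧ x i ≤ R) {r : Cplx d × Cplx d}
    (hr : r ∈ N.reactions) :
    δ ^ degB N ≤ restMono e x r.1 ∧ restMono e x r.1 ≤ R ^ degB N := by
  have hdeg : ∑ i ∈ Finset.univ.filter (fun i => i ∉ Set.range e), r.1 i ≤ degB N := by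
    refine le_trans (Finset.sum_le_sum_of_subset (Finset.filter_subset _ _)) ?_
    exact Finset.single_le_sum (f := fun r : Cplx d × Cplx d => ∑ i, r.1 i)
      (fun _ _ => Nat.zero_le _) hr
  constructor
  · calc δ ^ degB N ≤ δ ^ (∑ i ∈ Finset.univ.filter (fun i => i ∉ Set.range e), r.1 i) :=
          pow_le_pow_of_le_one hδ.le hδ1 hdeg
      _ = ∏ i ∈ Finset.univ.filter (fun i => i ∉ Set.range e), δ ^ r.1 i :=
          (Finset.prod_pow_eq_pow_sum _ _ _).symm
      _ ≤ restMono e x r.1 := by
          unfold restMono
          apply Finset.prod_le_prod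
          · intro i _
            positivity
          · intro i hi
            exact pow_le_pow_left₀ hδ.le (hx i (Finset.mem_filter.mp hi).2).1 _
  · calc restMono e x r.1
        ≤ ∏ i ∈ Finset.univ.filter (fun i => i ∉ Set.range e), R ^ r.1 i := by
          unfold restMono
          apply Finset.prod_le_prod
          · intro i hi
            have := (hx i (Finset.mem_filter.mp hi).2).1
            have h0 : 0 ≤ x i := by linarith
            positivity
          · intro i hi
            have h := hx i (Finset.mem_filter.mp hi).2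
            exact pow_le_pow_left₀ (by linarith [h.1]) h.2 _
      _ = R ^ (∑ i ∈ Finset.univ.filter (fun i => i ∉ Set.range e), r.1 i) :=
          Finset.prod_pow_eq_pow_sum _ _ _
      _ ≤ R ^ degB N := pow_le_pow_right₀ hR1 hdeg

/-- The rate window for the projected system. -/
def projWin (N : Network d) (ε δ R : ℝ) : ℝ :=
  min (ε * δ ^ degB N) (((N.reactions.card : ℝ) * (ε⁻¹ * R ^ degB N) + 1)⁻¹)

theorem projWin_pos (N : Network d) {ε δ R : ℝ} (hε : 0 < ε) (hδ : 0 < δ) (hR : 1 ≤ R) :
    0 < projWin N ε δ R := by
  unfold projWin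
  apply lt_min
  · positivity
  · have : 0 < R := by linarith
    positivity

/-- The projected rates stay in the window as long as the other species are between `δ` and
`R`. -/
theorem projRate_window {e : Fin m → Fin d} {N : Network d} {k : Cplx d × Cplx d → ℝ}
    {x : Fin d → ℝ} {ε δ R : ℝ} (hε : 0 < ε) (hδ : 0 < δ) (hδ1 : δ ≤ 1) (hR1 : 1 ≤ R)
    (hk : ∀ r ∈ N.reactions, ε ≤ k r ∧ k r ≤ ε⁻¹)
    (hx : ∀ i, i ∉ Set.range e → δ ≤ x i ∧ x i ≤ R) {rb : Cplx m × Cplx m}
    (hrb : rb ∈ (projNet e N).reactions) :
    projWin N ε δ R ≤ projRate e N k x rb ∧ projRate e N k x rb ≤ (projWin N ε δ R)⁻¹ := by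
  have hRpos : 0 < R := by linarith
  have hterm0 : ∀ r ∈ N.reactions, 0 ≤ k r * restMono e x r.1 := by
    intro r hr
    have h1 := restMono_bounds hδ hδ1 hR1 hx hr
    have h2 : 0 ≤ restMono e x r.1 := le_trans (by positivity) h1.1
    have h3 := (hk r hr).1
    exact mul_nonneg (by linarith) h2
  constructor
  · obtain ⟨h1, _⟩ := Finset.mem_filter.mp hrb
    obtain ⟨r₀, hr₀, rfl⟩ := Finset.mem_image.mp h1
    have h2 : k r₀ * restMono e x r₀.1 ≤ projRate e N k x (projR e r₀) := by
      unfold projRate
      exact Finset.single_le_sum (f := fun r => k r * restMono e x r.1)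
        (fun r hr => hterm0 r (Finset.mem_of_mem_filter r hr))
        (Finset.mem_filter.mpr ⟨hr₀, rfl⟩)
    have h3 := restMono_bounds hδ hδ1 hR1 hx hr₀
    have h4 : ε * δ ^ degB N ≤ k r₀ * restMono e x r₀.1 :=
      mul_le_mul (hk r₀ hr₀).1 h3.1 (by positivity) (by linarith [(hk r₀ hr₀).1])
    have h5 : projWin N ε δ R ≤ ε * δ ^ degB N := min_le_left _ _
    linarith
  · have hpos : 0 < (N.reactions.card : ℝ) * (ε⁻¹ * R ^ degB N) + 1 := by positivity
    have h5 : projWin N ε δ R ≤ ((N.reactions.card : ℝ) * (ε⁻¹ * R ^ degB N) + 1)⁻¹ :=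
      min_le_right _ _
    have hwp := projWin_pos N hε hδ hR1
    have h6 : (N.reactions.card : ℝ) * (ε⁻¹ * R ^ degB N) + 1 ≤ (projWin N ε δ R)⁻¹ := by
      have := inv_anti₀ hwp h5
      rwa [inv_inv] at this
    have h7 : projRate e N k x rb ≤ (N.reactions.card : ℝ) * (ε⁻¹ * R ^ degB N) := by
      unfold projRate
      calc ∑ r ∈ N.reactions.filter (fun r => projR e r = rb), k r * restMono e x r.1
          ≤ ∑ r ∈ N.reactions, k r * restMono e x r.1 :=
            Finset.sum_le_sum_of_subset_of_nonneg (Finset.filter_subset _ _)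
              (fun r hr _ => hterm0 r hr)
        _ ≤ ∑ _r ∈ N.reactions, (ε⁻¹ * R ^ degB N) := by
            apply Finset.sum_le_sum
            intro r hr
            have h3 := restMono_bounds hδ hδ1 hR1 hx hr
            exact mul_le_mul (hk r hr).2 h3.2 (le_trans (by positivity) h3.1) (by positivity)
        _ = (N.reactions.card : ℝ) * (ε⁻¹ * R ^ degB N) := by
            rw [Finset.sum_const, nsmul_eq_mul]
    linarith

end

end Vale.Agent.P072.Persist
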